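import Vale.Agent.Lib.P227H.Defs

/-! # JOB S1: coordinates on `V (a + b)`; Fubini -/

open MeasureTheory Set Filter Topology Matrix
open scoped Pointwise ENNReal Nat

namespace Vale.Agent.Lib.P227Z

variable {a b : ℕ}

/-- The first `a` coordinates. -/
def pa (z : V (a + b)) : V a := fun i => z (Fin.castAdd b i)

/-- The last `b` coordinates. -/
def pb (z : V (a + b)) : V b := fun i => z (Fin.natAdd a i)

/-- Concatenation. -/
def ap (x : V a) (y : V b) : V (a + b) := Fin.append x y

/-- The section of `S ⊂ V (a + b)` over `x ∈ V a`. -/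
def sectA (S : Set (V (a + b))) (x : V a) : Set (V b) := {y | ap x y ∈ S}

/-- The free sum `K₁ ⊕ K₂ = conv (K₁ × 0 ∪ 0 × K₂)`. -/
def freeSum (K₁ : Set (V a)) (K₂ : Set (V b)) : Set (V (a + b)) :=
  {z | gauge K₁ (pa z) + gauge K₂ (pb z) ≤ 1}

/-- The product `K₁ × K₂`. -/
def prodBody (K₁ : Set (V a)) (K₂ : Set (V b)) : Set (V (a + b)) :=
  {z | pa z ∈ K₁ ∧ pb z ∈ K₂}

@[simp] theorem pa_ap (x : V a) (y : V b) : pa (ap x y) = x := by
  funext i
  simp [pa, ap]

@[simp] theorem pb_ap (x : V a) (y : V b) : pb (ap x y) = y := by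
  funext i
  simp [pb, ap]

@[simp] theorem ap_pa_pb (z : V (a + b)) : ap (pa z) (pb z) = z := by
  funext i
  refine Fin.addCases (fun j => ?_) (fun j => ?_) i
  · simp [ap, pa]
  · simp [ap, pb]

theorem dot_ap (x u : V a) (y v : V b) : ap x y ⬝ᵥ ap u v = x ⬝ᵥ u + y ⬝ᵥ v := by
  simp [dotProduct, Fin.sum_univ_add, ap]

theorem continuous_ap : Continuous fun q : V a × V b => ap q.1 q.2 := by
  refine continuous_pi (fun i => ?_)
  refine Fin.addCases (fun j => ?_) (fun j => ?_) i
  · simp only [ap, Fin.append_left]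
    fun_prop
  · simp only [ap, Fin.append_right]
    fun_prop

theorem continuous_pa : Continuous (pa : V (a + b) → V a) := by
  unfold pa
  fun_prop

theorem continuous_pb : Continuous (pb : V (a + b) → V b) := by
  unfold pb
  fun_prop

/-- `ap` as a measurable equivalence. -/
private noncomputable def apEquiv (a b : ℕ) : (V a × V b) ≃ᵐ V (a + b) :=
  (MeasurableEquiv.sumPiEquivProdPi (fun _ : Fin a ⊕ Fin b => ℝ)).symm.trans
    (MeasurableEquiv.piCongrLeft (fun _ : Fin (a + b) => ℝ) finSumFinEquiv)

private theorem apEquiv_apply (q : V a × V b) : apEquiv a b q = ap q.1 q.2 := by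
  funext i
  refine Fin.addCases (fun j => ?_) (fun j => ?_) i
  · have h := Equiv.piCongrLeft_sumInl (fun _ : Fin (a + b) => ℝ) finSumFinEquiv q.1 q.2 j
    simp only [finSumFinEquiv_apply_left] at h
    simp only [apEquiv, MeasurableEquiv.trans_apply, ap, Fin.append_left]
    exact h
  · have h := Equiv.piCongrLeft_sumInr (fun _ : Fin (a + b) => ℝ) finSumFinEquiv q.1 q.2 j
    simp only [finSumFinEquiv_apply_right] at h
    simp only [apEquiv, MeasurableEquiv.trans_apply, ap, Fin.append_right]
    exact h

/-- `(x, y) ↦ ap x y` preserves volume. -/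
theorem measurePreserving_ap :
    MeasurePreserving (fun q : V a × V b => ap q.1 q.2) (volume.prod volume) volume := by
  have h1 := volume_measurePreserving_sumPiEquivProdPi_symm (fun _ : Fin a ⊕ Fin b => ℝ)
  have h2 := volume_measurePreserving_piCongrLeft (fun _ : Fin (a + b) => ℝ)
    (finSumFinEquiv (m := a) (n := b))
  have h3 := h2.comp h1
  have h4 : (fun q : V a × V b => ap q.1 q.2) = _ := funext (fun q => (apEquiv_apply q).symm)
  rw [h4]
  exact h3

private theorem measurableEmbedding_ap :
    MeasurableEmbedding (fun q : V a × V b => ap q.1 q.2) := by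
  have h4 : (fun q : V a × V b => ap q.1 q.2) = apEquiv a b := funext (fun q => (apEquiv_apply q).symm)
  rw [h4]
  exact (apEquiv a b).measurableEmbedding

/-- Fubini for sets. -/
theorem volume_eq_lintegral_sectA {S : Set (V (a + b))} (hS : MeasurableSet S) :
    volume S = ∫⁻ x : V a, volume (sectA S x) := by
  have h := (measurePreserving_ap (a := a) (b := b)).measure_preimage hS.nullMeasurableSet
  rw [← h, Measure.prod_apply (measurePreserving_ap.measurable hS)]
  rfl

/-- Fubini for integrals over `freeSum`-like sets, as iterated integrals in either order: -/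
theorem setIntegral_ap {S : Set (V (a + b))} (hS : MeasurableSet S) {f : V (a + b) → ℝ}
    (hf : IntegrableOn f S) :
    ∫ z in S, f z = ∫ x : V a, ∫ y in sectA S x, f (ap x y) := by
  have hmp := measurePreserving_ap (a := a) (b := b)
  have hme := measurableEmbedding_ap (a := a) (b := b)
  have hP : MeasurableSet ((fun q : V a × V b => ap q.1 q.2) ⁻¹' S) := hmp.measurable hS
  rw [← hmp.setIntegral_preimage_emb hme f S, ← integral_indicator hP]
  have hint : Integrable (((fun q : V a × V b => ap q.1 q.2) ⁻¹' S).indicator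
      (fun q => f (ap q.1 q.2))) (volume.prod volume) := by
    rw [integrable_indicator_iff hP]
    exact (hmp.integrableOn_comp_preimage hme).2 hf
  rw [integral_prod _ hint]
  refine integral_congr_ae (ae_of_all _ fun x => ?_)
  have hsec : MeasurableSet (sectA S x) := by
    have : sectA S x = Prod.mk x ⁻¹' ((fun q : V a × V b => ap q.1 q.2) ⁻¹' S) := rfl
    rw [this]
    exact measurable_prodMk_left hP
  show ∫ y, ((fun q : V a × V b => ap q.1 q.2) ⁻¹' S).indicator (fun q => f (ap q.1 q.2)) (x, y) =
    ∫ y in sectA S x, f (ap x y)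
  rw [← integral_indicator hsec]
  rfl

end Vale.Agent.Lib.P227Z
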