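import Vale.Agent.Lib.P227H.FibMain

/-! # JOB H14: from polygonal profiles to general ones

`LogMinkAt` passes to sandwich limits (`Approx.tendsto_volume`, `Approx.tendsto_integral`, as in `log_minkowski_zonoid`).

Polygon approximation: let `ρ` be a profile on `[-T, T]`; it is nonincreasing on `[0, T]`, positive on `[0, T)`. For `ε > 0` take
`ρ_ε(s) = ρ s + ε (1 - (s/T)²)`, strictly concave, and `T̂ ∈ [(1-c)T, T)`, and interpolate `ρ_ε` at equally spaced knots of `[0, T̂]`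
(uniform continuity): the interpolant is `min_j line j` on `[0, T̂]`, slopes strictly increasing, positive. If `|ρ̂ - ρ| ≤ η` on `[0, T̂]`, with `η ≤ c ρ 0` then:
`K₀[ρ̂] ⊂ (1 + c) K₀[ρ]`: `ρ(s/(1+c)) ≥ (1/(1+c)) ρ s + (c/(1+c)) ρ 0` (concavity), so `r ≤ ρ̂ s ≤ ρ s + c ρ 0` gives `r/(1+c) ≤ ρ(s/(1+c))`.
`(1 - c) K₀[ρ] ⊂ K₀[ρ̂]`: `ρ̂((1-c)s) ≥ ρ((1-c)s) - η ≥ (1-c) ρ s + c ρ 0 - η ≥ (1-c) r`.
-/

open MeasureTheory Set Filter Topology Matrix
open scoped Pointwise ENNReal Nat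

namespace Vale.Agent.Lib.P227Z

variable {a : ℕ} {K₀ : Set (V a)}

theorem LogMinkAt.of_approx {n : ℕ} {K : Set (V n)} {Z : ℕ → Set (V n)} {c : ℕ → ℝ}
    (hA : Approx K Z c) (hZ : ∀ j, LogMinkAt (Z j)) (hn : 1 ≤ n) : LogMinkAt K := by
  refine ⟨hA.body, fun L hL => ?_⟩
  have hvol := hA.tendsto_volume
  have hint := hA.tendsto_integral hL
  have hKfin : volume K ≠ ∞ := hA.body.compact.measure_lt_top.ne
  have hKr : 0 < (volume K).toReal := ENNReal.toReal_pos hA.body.volume_pos.ne' hKfin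
  have hleft : Tendsto (fun j => (volume (Z j)).toReal / (n : ℝ) *
      Real.log ((volume L).toReal / (volume (Z j)).toReal)) atTop
      (𝓝 ((volume K).toReal / (n : ℝ) * Real.log ((volume L).toReal / (volume K).toReal))) := by
    refine (hvol.div_const _).mul ?_
    have hLr : 0 < (volume L).toReal :=
      ENNReal.toReal_pos hL.2.2.ne' hL.1.measure_lt_top.ne
    have h2 : Tendsto (fun j => (volume L).toReal / (volume (Z j)).toReal) atTop
        (𝓝 ((volume L).toReal / (volume K).toReal)) :=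
      tendsto_const_nhds.div hvol hKr.ne'
    exact h2.log (div_pos hLr hKr).ne'
  exact le_of_tendsto_of_tendsto' hleft hint fun j => (hZ j).2 L hL

/-! ### Profiles -/

section profile

variable {ρ : ℝ → ℝ} {T : ℝ}

private lemma af_zero_mem (hρ : IsProfile ρ T) : (0 : ℝ) ∈ Icc (-T) T :=
  ⟨by linarith [hρ.T_pos], hρ.T_pos.le⟩

private lemma af_conc (hρ : IsProfile ρ T) {s : ℝ} (hs : s ∈ Icc (-T) T) {w : ℝ} (h0 : 0 ≤ w)
    (h1 : w ≤ 1) : w * ρ s + (1 - w) * ρ 0 ≤ ρ (w * s) := by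
  have := hρ.concave.2 hs (af_zero_mem hρ) h0 (by linarith : (0 : ℝ) ≤ 1 - w) (by ring)
  simpa [smul_eq_mul] using this

private lemma af_le_zero (hρ : IsProfile ρ T) {s : ℝ} (hs : s ∈ Icc (-T) T) : ρ s ≤ ρ 0 := by
  have hs' : -s ∈ Icc (-T) T := ⟨by linarith [hs.2], by linarith [hs.1]⟩
  have := hρ.concave.2 hs hs' (by norm_num : (0 : ℝ) ≤ 1 / 2) (by norm_num : (0 : ℝ) ≤ 1 / 2) (by norm_num)
  simp only [smul_eq_mul, hρ.even] at this
  have e : (1 / 2 : ℝ) * s + (1 / 2) * (-s) = 0 := by ring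
  rw [e] at this
  linarith

private lemma af_abs (hρ : IsProfile ρ T) (s : ℝ) : ρ |s| = ρ s := by
  rcases abs_cases s with ⟨h, _⟩ | ⟨h, _⟩ <;> rw [h]
  exact hρ.even s

end profile

/-! ### The body -/

private lemma tl_smul {n : ℕ} (c : ℝ) (z : V (n + 1)) : tl (c • z) = c • tl z := by
  funext i; rfl

private lemma tl_add {n : ℕ} (x y : V (n + 1)) : tl (x + y) = tl x + tl y := by
  funext i; rfl

private lemma tl_neg {n : ℕ} (x : V (n + 1)) : tl (-x) = - tl x := by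
  funext i; rfl

private lemma tl_continuous {n : ℕ} : Continuous (tl : V (n + 1) → V n) :=
  continuous_pi fun _ => continuous_apply _

private lemma af_norm_le (hK₀ : Body K₀) {R : ℝ} (hR : K₀ ⊆ Metric.closedBall 0 R) {g : ℝ} (hg : 0 < g)
    {y : V a} (hy : gauge K₀ y ≤ g) : ‖y‖ ≤ g * R := by
  have h1 : gauge K₀ (g⁻¹ • y) ≤ 1 := by
    rw [gauge_smul_of_nonneg (inv_nonneg.2 hg.le), smul_eq_mul]
    exact (inv_mul_le_one₀ hg).2 hy
  have h2 : g⁻¹ • y ∈ K₀ := hK₀.mem_iff.2 h1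
  have h3 := hR h2
  rw [mem_closedBall_zero_iff, norm_smul, Real.norm_of_nonneg (inv_nonneg.2 hg.le),
    inv_mul_le_iff₀ hg] at h3
  exact h3

theorem body_fib (hK₀ : Body K₀) {ρ : ℝ → ℝ} {T : ℝ} (hρ : IsProfile ρ T) : Body (fib K₀ ρ T) := by
  have hT := hρ.T_pos
  have hρ0 := hρ.pos
  have hgc : Continuous (gauge K₀) := continuous_gauge hK₀.convex hK₀.nhds
  have habs : Absorbent ℝ K₀ := absorbent_nhds_zero hK₀.nhds
  have hcl : IsClosed (fib K₀ ρ T) := by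
    have hS : IsClosed {z : V (a + 1) | z 0 ∈ Icc (-T) T} :=
      isClosed_Icc.preimage (continuous_apply 0)
    have hf : ContinuousOn (fun z : V (a + 1) => gauge K₀ (tl z) - ρ (z 0))
        {z : V (a + 1) | z 0 ∈ Icc (-T) T} := by
      refine ((hgc.comp tl_continuous).continuousOn).sub ?_
      exact hρ.cont.comp (continuous_apply 0).continuousOn fun z hz => hz
    have := hf.preimage_isClosed_of_isClosed hS (isClosed_Iic (a := (0 : ℝ)))
    convert this using 1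
    ext z
    simp only [fib, mem_ofPred_eq, mem_inter_iff, mem_preimage, mem_Iic, mem_Icc, abs_le, sub_nonpos]
  obtain ⟨R, hR⟩ := hK₀.compact.isBounded.subset_closedBall (0 : V a)
  have hR0 : 0 ≤ R := by
    have h0 : (0 : V a) ∈ K₀ := mem_of_mem_nhds hK₀.nhds
    simpa using hR h0
  have hbd : Bornology.IsBounded (fib K₀ ρ T) := by
    refine (Metric.isBounded_closedBall (x := (0 : V (a + 1))) (r := max T (ρ 0 * R))).subset ?_
    intro z hz
    obtain ⟨h1, h2⟩ := hz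
    have hz0 : z 0 ∈ Icc (-T) T := abs_le.1 h1
    have h3 : gauge K₀ (tl z) ≤ ρ 0 := h2.trans (af_le_zero hρ hz0)
    have h4 := af_norm_le hK₀ hR hρ0 h3
    rw [mem_closedBall_zero_iff, pi_norm_le_iff_of_nonneg (le_max_of_le_left hT.le)]
    intro i
    refine Fin.cases ?_ (fun j => ?_) i
    · rw [Real.norm_eq_abs]
      exact h1.trans (le_max_left _ _)
    · have : ‖z j.succ‖ ≤ ‖tl z‖ := norm_le_pi_norm (tl z) j
      exact (this.trans h4).trans (le_max_right _ _)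
  refine ⟨Metric.isCompact_of_isClosed_isBounded hcl hbd, ?_, ?_, ?_⟩
  · intro x hx y hy p q hp hq hpq
    obtain ⟨hx1, hx2⟩ := hx
    obtain ⟨hy1, hy2⟩ := hy
    have hx0 : x 0 ∈ Icc (-T) T := abs_le.1 hx1
    have hy0 : y 0 ∈ Icc (-T) T := abs_le.1 hy1
    have hmem := (convex_Icc (-T) T) hx0 hy0 hp hq hpq
    refine ⟨abs_le.2 ?_, ?_⟩
    · exact hmem
    · have h1 : tl (p • x + q • y) = p • tl x + q • tl y := by
        rw [tl_add, tl_smul, tl_smul]
      rw [h1]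
      have h2 := gauge_add_le hK₀.convex habs (p • tl x) (q • tl y)
      rw [gauge_smul_of_nonneg hp, gauge_smul_of_nonneg hq] at h2
      simp only [smul_eq_mul] at h2
      have h3 := hρ.concave.2 hx0 hy0 hp hq hpq
      simp only [smul_eq_mul] at h3
      have h4 : (p • x + q • y) 0 = p * x 0 + q * y 0 := rfl
      rw [h4]
      nlinarith [mul_le_mul_of_nonneg_left hx2 hp, mul_le_mul_of_nonneg_left hy2 hq]
  · intro z hz
    obtain ⟨h1, h2⟩ := hz
    refine ⟨?_, ?_⟩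
    · have : (-z) 0 = - z 0 := rfl
      rw [this, abs_neg]
      exact h1
    · have : (-z) 0 = - z 0 := rfl
      rw [this, tl_neg, gauge_neg hK₀.symm, hρ.even]
      exact h2
  · have h1 : ContinuousAt ρ 0 := hρ.cont.continuousAt (Icc_mem_nhds (by linarith) hT)
    have h2 : ∀ᶠ z : V (a + 1) in 𝓝 0, |z 0| < T := by
      have hc : Continuous fun z : V (a + 1) => |z 0| := (continuous_apply 0).abs
      have := hc.tendsto 0
      simp only [Pi.zero_apply, abs_zero] at this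
      exact this.eventually_lt_const hT
    have h3 : ∀ᶠ z : V (a + 1) in 𝓝 0, gauge K₀ (tl z) < ρ (z 0) := by
      have hc1 : ContinuousAt (fun z : V (a + 1) => gauge K₀ (tl z)) 0 :=
        (hgc.comp tl_continuous).continuousAt
      have hc2 : ContinuousAt (fun z : V (a + 1) => ρ (z 0)) 0 := by
        have h5 : ContinuousAt (fun z : V (a + 1) => z 0) 0 := (continuous_apply 0).continuousAt
        exact ContinuousAt.comp (f := fun z : V (a + 1) => z 0) (g := ρ) h1 h5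
      refine hc1.eventually_lt hc2 ?_
      have h6 : tl (0 : V (a + 1)) = 0 := rfl
      simp only [h6, gauge_zero, Pi.zero_apply]
      exact hρ0
    filter_upwards [h2, h3] with z hz1 hz2
    exact ⟨hz1.le, hz2.le⟩

/-! ### The polygon through equally spaced points of a function -/

section polygon

variable (h : ℝ) (fp : ℝ → ℝ)

private def kn (i : ℕ) : ℝ := (i : ℝ) * h

private noncomputable def ta (i : ℕ) : ℝ := (fp (kn h i) - fp (kn h (i + 1))) / h

private noncomputable def al (i : ℕ) : ℝ := fp (kn h i) + ta h fp i * kn h i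

variable {h fp}

private lemma kn_succ (i : ℕ) : kn h (i + 1) = kn h i + h := by
  simp only [kn]; push_cast; ring

private lemma kn_mono (hh : 0 < h) {i j : ℕ} (hij : i ≤ j) : kn h i ≤ kn h j :=
  mul_le_mul_of_nonneg_right (by exact_mod_cast hij) hh.le

private lemma line_left (i : ℕ) : al h fp i - ta h fp i * kn h i = fp (kn h i) := by
  simp only [al]; ring

private lemma line_right (hh : 0 < h) (i : ℕ) :
    al h fp i - ta h fp i * kn h (i + 1) = fp (kn h (i + 1)) := by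
  simp only [al, ta, kn_succ]
  field_simp
  ring

private lemma line_adj (hh : 0 < h) (i : ℕ) (t : ℝ) :
    (al h fp (i + 1) - ta h fp (i + 1) * t) - (al h fp i - ta h fp i * t) =
      (ta h fp (i + 1) - ta h fp i) * (kn h (i + 1) - t) := by
  have h1 := line_left (h := h) (fp := fp) (i + 1)
  have h2 := line_right (fp := fp) hh i
  linear_combination h1 - h2

private lemma line_up (hh : 0 < h) {m : ℕ} (hm : ∀ i, i + 1 ≤ m → ta h fp i < ta h fp (i + 1))
    (k i : ℕ) (hik : i + k ≤ m) {t : ℝ} (ht : t ≤ kn h (i + 1)) :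
    al h fp i - ta h fp i * t ≤ al h fp (i + k) - ta h fp (i + k) * t := by
  induction k with
  | zero => simp
  | succ k ih =>
    have h1 := ih (by omega)
    have h2 := line_adj (fp := fp) hh (i + k) t
    have h3 : t ≤ kn h (i + k + 1) := ht.trans (kn_mono hh (by omega))
    have h4 := hm (i + k) (by omega)
    have h5 : 0 ≤ (ta h fp (i + k + 1) - ta h fp (i + k)) * (kn h (i + k + 1) - t) :=
      mul_nonneg (by linarith) (by linarith)
    have e : i + (k + 1) = i + k + 1 := rfl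
    rw [e]
    linarith

private lemma line_down (hh : 0 < h) {m : ℕ} (hm : ∀ i, i + 1 ≤ m → ta h fp i < ta h fp (i + 1))
    (k i : ℕ) (hik : i + k ≤ m) {t : ℝ} (ht : kn h (i + k) ≤ t) :
    al h fp (i + k) - ta h fp (i + k) * t ≤ al h fp i - ta h fp i * t := by
  induction k with
  | zero => simp
  | succ k ih =>
    have e : i + (k + 1) = i + k + 1 := rfl
    rw [e] at ht hik ⊢
    have h1 := ih (by omega) ((kn_mono hh (by omega)).trans ht)
    have h2 := line_adj (fp := fp) hh (i + k) t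
    have h4 := hm (i + k) (by omega)
    have h5 : (ta h fp (i + k + 1) - ta h fp (i + k)) * (kn h (i + k + 1) - t) ≤ 0 :=
      mul_nonpos_of_nonneg_of_nonpos (by linarith) (by linarith)
    linarith

private lemma line_env (hh : 0 < h) {m : ℕ} (hm : ∀ i, i + 1 ≤ m → ta h fp i < ta h fp (i + 1))
    {j l : ℕ} (hj : j ≤ m) (hl : l ≤ m) {t : ℝ} (h1 : kn h j ≤ t) (h2 : t ≤ kn h (j + 1)) :
    al h fp j - ta h fp j * t ≤ al h fp l - ta h fp l * t := by
  rcases le_total j l with hjl | hjl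
  · obtain ⟨k, rfl⟩ := Nat.exists_eq_add_of_le hjl
    exact line_up hh hm k j hl h2
  · obtain ⟨k, rfl⟩ := Nat.exists_eq_add_of_le hjl
    exact line_down hh hm k l hj h1

private lemma ta_pos {m : ℕ} (hm : ∀ i, i + 1 ≤ m → ta h fp i < ta h fp (i + 1)) (h0 : 0 < ta h fp 0) {i : ℕ}
    (hi : i ≤ m) : 0 < ta h fp i := by
  induction i with
  | zero => exact h0
  | succ i ih => exact (ih (by omega)).trans (hm i hi)

/-- The polygon. -/
private noncomputable def mkPoly (m : ℕ) (hh : 0 < h) (h0 : 0 < ta h fp 0)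
    (hm : ∀ i, i + 1 ≤ m → ta h fp i < ta h fp (i + 1)) (hp : 0 < fp (kn h (m + 1))) : Poly m where
  τ j := ta h fp j
  α j := al h fp j
  tk i := kn h i
  τ_pos j := ta_pos hm h0 (Nat.lt_succ_iff.1 j.2)
  τ_mono := Fin.strictMono_iff_lt_succ.2 fun i => by
    have h2 := hm i (by have := i.2; omega)
    simpa using h2
  tk_zero := by simp [kn]
  tk_mono := fun i j hij => by
    have h1 : ((i : ℕ) : ℝ) < ((j : ℕ) : ℝ) := by exact_mod_cast hij
    exact mul_lt_mul_of_pos_right h1 hh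
  env j l t ht := by
    have hj : (j : ℕ) ≤ m := Nat.lt_succ_iff.1 j.2
    have hl : (l : ℕ) ≤ m := Nat.lt_succ_iff.1 l.2
    have h1 : kn h j ≤ t := by simpa using ht.1
    have h2 : t ≤ kn h ((j : ℕ) + 1) := by simpa using ht.2
    exact line_env hh hm hj hl h1 h2
  last_pos j := by
    have hj : (j : ℕ) ≤ m := Nat.lt_succ_iff.1 j.2
    have h1 := line_env (fp := fp) hh hm (le_refl m) hj
      (t := kn h (m + 1)) (kn_mono hh (by omega)) (le_refl _)
    have h2 := line_right (fp := fp) hh m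
    have e : ((Fin.last (m + 1) : Fin (m + 2)) : ℕ) = m + 1 := rfl
    show 0 < al h fp j - ta h fp j * kn h ((Fin.last (m + 1) : Fin (m + 2)) : ℕ)
    rw [e]
    linarith

private lemma exists_edge (hh : 0 < h) (m : ℕ) {s : ℝ} (h0 : 0 ≤ s) (hs : s ≤ kn h (m + 1)) :
    ∃ i, i ≤ m ∧ kn h i ≤ s ∧ s ≤ kn h (i + 1) := by
  induction m with
  | zero => exact ⟨0, le_refl _, by simpa [kn] using h0, hs⟩
  | succ m ih =>
    by_cases h1 : s ≤ kn h (m + 1)
    · obtain ⟨i, hi, h2, h3⟩ := ih h1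
      exact ⟨i, by omega, h2, h3⟩
    · exact ⟨m + 1, le_refl _, (not_le.1 h1).le, hs⟩

end polygon

/-- The perturbed profile. -/
private noncomputable def fpe (ρ : ℝ → ℝ) (ε T s : ℝ) : ℝ := ρ s + ε * (1 - (s / T) ^ 2)

private lemma fpe_sub (ρ : ℝ → ℝ) (ε T x y : ℝ) :
    fpe ρ ε T x - fpe ρ ε T y = ρ x - ρ y + ε * ((y ^ 2 - x ^ 2) / T ^ 2) := by
  simp only [fpe, div_pow]
  ring

private lemma af_first {ρ : ℝ → ℝ} {T ε h : ℝ} (hρ : IsProfile ρ T) (hε : 0 < ε) (hh0 : 0 < h)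
    (hm : h ∈ Icc (-T) T) : 0 < ta h (fpe ρ ε T) 0 := by
  have hT := hρ.T_pos
  refine div_pos ?_ hh0
  rw [fpe_sub]
  have e0 : kn h 0 = 0 := by simp [kn]
  have e1 : kn h (0 + 1) = h := by simp [kn]
  rw [e0, e1]
  have h2 := af_le_zero hρ hm
  have h3 : 0 < ε * ((h ^ 2 - 0 ^ 2) / T ^ 2) := by
    have : h ^ 2 - 0 ^ 2 = h ^ 2 := by ring
    rw [this]
    positivity
  linarith

private lemma af_step {ρ : ℝ → ℝ} {T ε h : ℝ} (hρ : IsProfile ρ T) (hε : 0 < ε) (hh0 : 0 < h) (i : ℕ)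
    (h1 : kn h i ∈ Icc (-T) T) (h2 : kn h (i + 2) ∈ Icc (-T) T) :
    ta h (fpe ρ ε T) i < ta h (fpe ρ ε T) (i + 1) := by
  have hT := hρ.T_pos
  refine div_lt_div_of_pos_right ?_ hh0
  rw [fpe_sub, fpe_sub]
  have hmid : kn h (i + 1) = (1 / 2 : ℝ) * kn h i + (1 / 2) * kn h (i + 2) := by
    simp only [kn]; push_cast; ring
  have h3 := hρ.concave.2 h1 h2 (by norm_num : (0 : ℝ) ≤ 1 / 2) (by norm_num : (0 : ℝ) ≤ 1 / 2)
    (by norm_num)
  simp only [smul_eq_mul] at h3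
  rw [← hmid] at h3
  have e1 : kn h (i + 1) = kn h i + h := kn_succ i
  have e2 : kn h (i + 1 + 1) = kn h i + h + h := by rw [kn_succ, e1]
  have e3 : kn h (i + 2) = kn h (i + 1 + 1) := rfl
  have e4 : (kn h (i + 1 + 1) ^ 2 - kn h (i + 1) ^ 2) / T ^ 2 -
      (kn h (i + 1) ^ 2 - kn h i ^ 2) / T ^ 2 = 2 * h ^ 2 / T ^ 2 := by
    rw [e2, e1]
    field_simp
    ring
  have h5 : 0 < ε * (2 * h ^ 2 / T ^ 2) := by positivity
  rw [e3] at h3
  have h6 : ε * ((kn h (i + 1 + 1) ^ 2 - kn h (i + 1) ^ 2) / T ^ 2) -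
      ε * ((kn h (i + 1) ^ 2 - kn h i ^ 2) / T ^ 2) = ε * (2 * h ^ 2 / T ^ 2) := by
    rw [← mul_sub, e4]
  linarith

/-- The chord through two consecutive knots is below the perturbed profile. -/
private lemma af_chord {ρ : ℝ → ℝ} {T ε h : ℝ} (hρ : IsProfile ρ T) (hε : 0 < ε) (hh0 : 0 < h) (i : ℕ)
    (hA : kn h i ∈ Icc (-T) T) (hB : kn h (i + 1) ∈ Icc (-T) T) {s : ℝ} (h1 : kn h i ≤ s)
    (h2 : s ≤ kn h (i + 1)) :
    al h (fpe ρ ε T) i - ta h (fpe ρ ε T) i * s ≤ ρ s + ε := by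
  have hB' : kn h (i + 1) = kn h i + h := kn_succ i
  rw [hB'] at hB h2
  set A := kn h i with hAd
  set w := (A + h - s) / h with hw
  have hw0 : 0 ≤ w := div_nonneg (by linarith) hh0.le
  have hw1 : w ≤ 1 := by
    rw [hw, div_le_one hh0]
    linarith
  have hse : s = w * A + (1 - w) * (A + h) := by
    rw [hw]; field_simp; ring
  have h3 := hρ.concave.2 hA hB hw0 (by linarith : 0 ≤ 1 - w) (by ring)
  simp only [smul_eq_mul] at h3
  rw [← hse] at h3
  have h4 : al h (fpe ρ ε T) i - ta h (fpe ρ ε T) i * s =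
      w * fpe ρ ε T A + (1 - w) * fpe ρ ε T (A + h) := by
    have h5 : ta h (fpe ρ ε T) i = (fpe ρ ε T A - fpe ρ ε T (A + h)) / h := by
      simp only [ta, hB']
      rfl
    have h6 : al h (fpe ρ ε T) i = fpe ρ ε T A + ta h (fpe ρ ε T) i * A := rfl
    rw [h6, h5, hw]
    field_simp
    ring
  rw [h4]
  simp only [fpe]
  have h7 : w * (ε * (1 - (A / T) ^ 2)) ≤ w * ε :=
    mul_le_mul_of_nonneg_left (by nlinarith [sq_nonneg (A / T)]) hw0
  have h8 : (1 - w) * (ε * (1 - ((A + h) / T) ^ 2)) ≤ (1 - w) * ε :=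
    mul_le_mul_of_nonneg_left (by nlinarith [sq_nonneg ((A + h) / T)]) (by linarith)
  nlinarith

/-- The upper inclusion, from the pointwise bound. -/
private lemma af_upper (hK₀ : Body K₀) {ρ : ℝ → ℝ} {T c : ℝ} (hρ : IsProfile ρ T) (hc : 0 < c)
    {z : V (a + 1)} (hz1 : |z 0| ≤ T) (hr : gauge K₀ (tl z) ≤ ρ (z 0) + c * ρ 0) :
    z ∈ (1 + c) • fib K₀ ρ T := by
  have hzm : z 0 ∈ Icc (-T) T := abs_le.1 hz1
  have hc1 : (0 : ℝ) < 1 + c := by linarith
  rw [mem_smul_set_iff_inv_smul_mem₀ hc1.ne']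
  set w := (1 + c)⁻¹ with hw
  have hw0 : 0 < w := inv_pos.2 hc1
  have hw1 : w ≤ 1 := inv_le_one_of_one_le₀ (by linarith)
  have hwc : 1 - w = c * w := by
    rw [hw]; field_simp; ring
  refine ⟨?_, ?_⟩
  · have e : (w • z) 0 = w * z 0 := rfl
    rw [e, abs_mul, abs_of_pos hw0]
    calc w * |z 0| ≤ 1 * |z 0| := mul_le_mul_of_nonneg_right hw1 (abs_nonneg _)
      _ ≤ T := by rw [one_mul]; exact hz1
  · have e : (w • z) 0 = w * z 0 := rfl
    rw [e, tl_smul, gauge_smul_of_nonneg hw0.le, smul_eq_mul]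
    have h1 := af_conc hρ hzm hw0.le hw1
    rw [hwc] at h1
    have h2 := mul_le_mul_of_nonneg_left hr hw0.le
    nlinarith

/-- The lower bound on the lines. -/
private lemma af_lower {ρ : ℝ → ℝ} {T c h δ R : ℝ} {m : ℕ} (hρ : IsProfile ρ T) (hc : 0 < c)
    (hc' : c ≤ 1 / 2) (hh0 : 0 < h) (hhδ : h < δ) (hkR : kn h (m + 1) = R) (hRT : R < T)
    (hmono : ∀ i, i + 1 ≤ m → ta h (fpe ρ (c * ρ 0) T) i < ta h (fpe ρ (c * ρ 0) T) (i + 1))
    (h0 : 0 < ta h (fpe ρ (c * ρ 0) T) 0)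
    (huc : ∀ x ∈ Icc (-T) T, ∀ y ∈ Icc (-T) T, dist x y < δ → dist (ρ x) (ρ y) < c * ρ 0)
    {u : ℝ} (hu0 : 0 ≤ u) (huR : u ≤ R) {j : ℕ} (hj : j ≤ m) :
    ρ u - c * ρ 0 ≤ al h (fpe ρ (c * ρ 0) T) j - ta h (fpe ρ (c * ρ 0) T) j * u := by
  have hT := hρ.T_pos
  have hρ0 := hρ.pos
  have hε : 0 < c * ρ 0 := mul_pos hc hρ0
  obtain ⟨i, hi, hi1, hi2⟩ := exists_edge hh0 m hu0 (by rw [hkR]; exact huR)
  have h1 := line_env (fp := fpe ρ (c * ρ 0) T) hh0 hmono hi hj hi1 hi2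
  have h2 := line_right (fp := fpe ρ (c * ρ 0) T) hh0 i
  have h3 : al h (fpe ρ (c * ρ 0) T) i - ta h (fpe ρ (c * ρ 0) T) i * kn h (i + 1) ≤
      al h (fpe ρ (c * ρ 0) T) i - ta h (fpe ρ (c * ρ 0) T) i * u := by
    have := ta_pos hmono h0 hi
    nlinarith
  have hkn0 : 0 ≤ kn h (i + 1) := by simp only [kn]; positivity
  have hkn1 : kn h (i + 1) ≤ R := by rw [← hkR]; exact kn_mono hh0 (by omega)
  have hB : kn h (i + 1) ∈ Icc (-T) T := ⟨by linarith, by linarith⟩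
  have hum : u ∈ Icc (-T) T := ⟨by linarith, by linarith⟩
  have h4 : ρ (kn h (i + 1)) ≤ fpe ρ (c * ρ 0) T (kn h (i + 1)) := by
    simp only [fpe]
    have hT2 : 0 < T ^ 2 := by positivity
    have h5 : (kn h (i + 1) / T) ^ 2 ≤ 1 := by
      rw [div_pow, div_le_one hT2]
      exact pow_le_pow_left₀ hkn0 hB.2 2
    have h6 : 0 ≤ (c * ρ 0) * (1 - (kn h (i + 1) / T) ^ 2) := mul_nonneg hε.le (by linarith)
    linarith
  have h5 : dist (ρ (kn h (i + 1))) (ρ u) < c * ρ 0 := by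
    refine huc _ hB _ hum ?_
    rw [Real.dist_eq, abs_lt]
    have e1 := kn_succ (h := h) i
    constructor <;> linarith
  rw [Real.dist_eq, abs_lt] at h5
  linarith [h5.1]

/-- The polygonal approximation. -/
theorem exists_poly_approx (hK₀ : Body K₀) {ρ : ℝ → ℝ} {T : ℝ} (hρ : IsProfile ρ T) {c : ℝ}
    (hc : 0 < c) (hc' : c ≤ 1 / 2) :
    ∃ (m : ℕ) (D : Poly m), fibPoly K₀ D ⊆ (1 + c) • fib K₀ ρ T ∧
      (1 - c) • fib K₀ ρ T ⊆ fibPoly K₀ D := by
  have hT := hρ.T_pos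
  have hρ0 := hρ.pos
  have hη : 0 < c * ρ 0 := mul_pos hc hρ0
  -- uniform continuity
  have huc := isCompact_Icc.uniformContinuousOn_of_continuous hρ.cont
  rw [Metric.uniformContinuousOn_iff] at huc
  obtain ⟨δ, hδ, huc⟩ := huc (c * ρ 0) hη
  obtain ⟨R, hRd⟩ : ∃ R, R = (1 - c) * T := ⟨_, rfl⟩
  have hR0 : 0 < R := by rw [hRd]; exact mul_pos (by linarith) hT
  have hRT : R < T := by rw [hRd]; nlinarith
  obtain ⟨m, hm⟩ := exists_nat_gt (R / δ)
  have hm1 : (0 : ℝ) < (m : ℝ) + 1 := by positivity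
  obtain ⟨h, hh⟩ : ∃ h, h = R / ((m : ℝ) + 1) := ⟨_, rfl⟩
  have hh0 : 0 < h := by rw [hh]; exact div_pos hR0 hm1
  have hhδ : h < δ := by
    rw [hh, div_lt_iff₀ hm1]
    rw [div_lt_iff₀ hδ] at hm
    nlinarith
  have hkR : kn h (m + 1) = R := by
    simp only [kn, hh]
    push_cast
    field_simp
  have hkn0 : ∀ i, 0 ≤ kn h i := fun i => by simp only [kn]; positivity
  have hknle : ∀ i, i ≤ m + 1 → kn h i ≤ R := fun i hi => by
    rw [← hkR]; exact kn_mono hh0 hi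
  have hmemk : ∀ i, i ≤ m + 1 → kn h i ∈ Icc (-T) T := fun i hi =>
    ⟨by linarith [hkn0 i], (hknle i hi).trans hRT.le⟩
  have hT2 : 0 < T ^ 2 := by positivity
  have hfirst : 0 < ta h (fpe ρ (c * ρ 0) T) 0 := by
    refine af_first hρ hη hh0 ?_
    have := hmemk 1 (by omega)
    simpa [kn] using this
  have hmono : ∀ i, i + 1 ≤ m → ta h (fpe ρ (c * ρ 0) T) i < ta h (fpe ρ (c * ρ 0) T) (i + 1) :=
    fun i hi => af_step hρ hη hh0 i (hmemk i (by omega)) (hmemk (i + 2) (by omega))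
  have hp : 0 < fpe ρ (c * ρ 0) T (kn h (m + 1)) := by
    rw [hkR]
    have h1 : R ∈ Icc (-T) T := ⟨by linarith, hRT.le⟩
    have h2 := hρ.nonneg R h1
    have h3 : (R / T) ^ 2 < 1 := by
      rw [div_pow, div_lt_one hT2]
      exact pow_lt_pow_left₀ hRT hR0.le (by norm_num)
    have h4 : 0 < (c * ρ 0) * (1 - (R / T) ^ 2) := mul_pos hη (by linarith)
    simp only [fpe]
    linarith
  refine ⟨m, mkPoly m hh0 hfirst hmono hp, ?_, ?_⟩
  · -- upper inclusion
    intro z hz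
    obtain ⟨hz1, hz2⟩ := hz
    have hz1' : |z 0| ≤ kn h (m + 1) := hz1
    obtain ⟨i, hi, hi1, hi2⟩ := exists_edge hh0 m (abs_nonneg (z 0)) hz1'
    have hb : gauge K₀ (tl z) + ta h (fpe ρ (c * ρ 0) T) i * |z 0| ≤ al h (fpe ρ (c * ρ 0) T) i :=
      hz2 ⟨i, Nat.lt_succ_iff.2 hi⟩
    have hzR : |z 0| ≤ R := by rw [← hkR]; exact hz1'
    have hchord := af_chord hρ hη hh0 i (hmemk i (by omega)) (hmemk (i + 1) (by omega)) hi1 hi2
    have hr : gauge K₀ (tl z) ≤ ρ (z 0) + c * ρ 0 := by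
      rw [af_abs hρ] at hchord
      linarith
    exact af_upper hK₀ hρ hc (hzR.trans hRT.le) hr
  · -- lower inclusion
    rintro z ⟨y, ⟨hy1, hy2⟩, rfl⟩
    have hcm : 0 < 1 - c := by linarith
    have e0 : ((1 - c) • y) 0 = (1 - c) * y 0 := rfl
    have hu : |((1 - c) • y) 0| = (1 - c) * |y 0| := by
      rw [e0, abs_mul, abs_of_pos hcm]
    have huR : (1 - c) * |y 0| ≤ R := by
      rw [hRd]; exact mul_le_mul_of_nonneg_left hy1 hcm.le
    refine ⟨?_, ?_⟩
    · show |((1 - c) • y) 0| ≤ kn h (m + 1)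
      rw [hu, hkR]
      exact huR
    · intro j
      show gauge K₀ (tl ((1 - c) • y)) + ta h (fpe ρ (c * ρ 0) T) j * |((1 - c) • y) 0| ≤
        al h (fpe ρ (c * ρ 0) T) j
      rw [hu, tl_smul, gauge_smul_of_nonneg hcm.le, smul_eq_mul]
      have hj : (j : ℕ) ≤ m := Nat.lt_succ_iff.1 j.2
      have hl := af_lower hρ hc hc' hh0 hhδ hkR hRT hmono hfirst
        (fun x hx y hy hxy => huc x hx y hy hxy) (u := (1 - c) * |y 0|) (by positivity) huR hj
      have h6 : (1 - c) * ρ |y 0| + (1 - (1 - c)) * ρ 0 ≤ ρ ((1 - c) * |y 0|) :=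
        af_conc hρ ⟨by linarith [abs_nonneg (y 0)], hy1⟩ hcm.le (by linarith)
      rw [af_abs hρ] at h6
      have h7 : (1 - c) * gauge K₀ (tl y) ≤ (1 - c) * ρ (y 0) :=
        mul_le_mul_of_nonneg_left hy2 hcm.le
      have h8 : ((1 - (1 - c)) * ρ 0) = c * ρ 0 := by ring
      rw [h8] at h6
      linarith

/-- Closure of the class under homothetic fibrations. -/
theorem logMinkAt_fib (ha : 1 ≤ a) (hK₀ : LogMinkAt K₀) {ρ : ℝ → ℝ} {T : ℝ} (hρ : IsProfile ρ T) :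
    LogMinkAt (fib K₀ ρ T) := by
  have hcj : ∀ j : ℕ, 0 < ((1 : ℝ) / 2) ^ (j + 1) := fun j => by positivity
  have hcj' : ∀ j : ℕ, ((1 : ℝ) / 2) ^ (j + 1) ≤ 1 / 2 := fun j => by
    rw [pow_succ]
    have : ((1 : ℝ) / 2) ^ j ≤ 1 := pow_le_one₀ (by norm_num) (by norm_num)
    nlinarith
  choose m D hD1 hD2 using fun j : ℕ => exists_poly_approx hK₀.1 hρ (hcj j) (hcj' j)
  have hA : Approx (fib K₀ ρ T) (fun j => fibPoly K₀ (D j)) (fun j => ((1 : ℝ) / 2) ^ (j + 1)) := by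
    refine ⟨body_fib hK₀.1 hρ, fun j => body_fibPoly hK₀.1 (D j), fun j => (hcj j).le, hcj', ?_,
      hD1, hD2⟩
    have h := tendsto_pow_atTop_nhds_zero_of_lt_one (r := (1 : ℝ) / 2) (by norm_num) (by norm_num)
    exact h.comp (tendsto_add_atTop_nat 1)
  exact LogMinkAt.of_approx hA (fun j => logMinkAt_fibPoly ha hK₀ (D j)) (by omega)

end Vale.Agent.Lib.P227Z
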