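import Vale.Agent.Lib.P227H.UPoly

/-! # JOB H9: `fibPoly K₀ D` is a body; its gauge; its volume

`G z := max (|z 0| / T) (sup_j (gauge K₀ (tl z) + τ j |z 0|) / α j)` is a norm-like function (convex, even, homogeneous,
positive off `0`, continuous), and `fibPoly K₀ D = {G ≤ 1}`.
The section of `fibPoly` at `s`, `|s| ≤ T`, is `{y | gauge K₀ y ≤ ρ̂ s} = ρ̂ s • K₀`, with `ρ̂ s = min_j line j |s|`, equal to `line j |s|` on edge `j`
(by `D.env`); Fubini via `MeasurableEquiv.piFinSuccAbove`, as in `P227Z/A_Fiber.lean`, `volume_eq_lintegral_fibre`.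
-/

open MeasureTheory Set Filter Topology Matrix
open scoped Pointwise ENNReal Nat

namespace Vale.Agent.Lib.P227Z

variable {a m : ℕ} {K₀ : Set (V a)}

/-! ### Elementary facts on the coordinates -/

theorem fib_tl_smul (c : ℝ) (z : V (a + 1)) : tl (c • z) = c • tl z := by
  funext i
  simp [tl]

theorem fib_tl_add (z z' : V (a + 1)) : tl (z + z') = tl z + tl z' := by
  funext i
  simp [tl]

theorem fib_tl_neg (z : V (a + 1)) : tl (-z) = -tl z := by
  funext i
  simp [tl]

theorem fib_continuous_tl : Continuous (tl : V (a + 1) → V a) := by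
  unfold tl
  fun_prop

theorem fib_absorbent (hK₀ : Body K₀) : Absorbent ℝ K₀ := absorbent_nhds_zero hK₀.nhds

theorem fib_continuous_gauge (hK₀ : Body K₀) : Continuous (gauge K₀) :=
  continuous_gauge hK₀.convex hK₀.nhds

theorem fib_gauge_nonneg (y : V a) : 0 ≤ gauge K₀ y := gauge_nonneg y

theorem fib_mem_smul (hK₀ : Body K₀) {r : ℝ} (hr : 0 < r) (y : V a) :
    y ∈ r • K₀ ↔ gauge K₀ y ≤ r := by
  rw [mem_smul_set_iff_inv_smul_mem₀ hr.ne', hK₀.mem_iff,
    gauge_smul_of_nonneg (inv_nonneg.mpr hr.le), smul_eq_mul]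
  constructor
  · intro h
    have := mul_le_mul_of_nonneg_left h hr.le
    rwa [← mul_assoc, mul_inv_cancel₀ hr.ne', one_mul, mul_one] at this
  · intro h
    have := mul_le_mul_of_nonneg_left h (inv_nonneg.mpr hr.le)
    rwa [inv_mul_cancel₀ hr.ne'] at this

theorem fib_mem_iff (D : Poly m) (z : V (a + 1)) :
    z ∈ fibPoly K₀ D ↔ |z 0| ≤ D.T ∧ ∀ j, gauge K₀ (tl z) + D.τ j * |z 0| ≤ D.α j := Iff.rfl

theorem fib_isClosed (hK₀ : Body K₀) (D : Poly m) : IsClosed (fibPoly K₀ D) := by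
  have hg := fib_continuous_gauge hK₀
  have h0 : Continuous fun z : V (a + 1) => |z 0| := (continuous_apply 0).abs
  have h1 : IsClosed {z : V (a + 1) | |z 0| ≤ D.T} := isClosed_le h0 continuous_const
  have h2 : IsClosed {z : V (a + 1) | ∀ j, gauge K₀ (tl z) + D.τ j * |z 0| ≤ D.α j} := by
    simp only [setOf_forall]
    refine isClosed_iInter fun j => isClosed_le ?_ continuous_const
    exact (hg.comp fib_continuous_tl).add (continuous_const.mul h0)
  exact h1.inter h2

theorem fib_isCompact (hK₀ : Body K₀) (D : Poly m) : IsCompact (fibPoly K₀ D) := by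
  have hα := D.α_pos 0
  have hC : IsCompact ((fun p : ℝ × V a => (Fin.cons p.1 p.2 : V (a + 1))) ''
      (Icc (-D.T) D.T ×ˢ (D.α 0 • K₀))) := by
    refine ((isCompact_Icc).prod (hK₀.compact.smul (D.α 0))).image ?_
    refine continuous_pi fun i => ?_
    refine Fin.cases ?_ (fun j => ?_) i
    · simpa using continuous_fst
    · have h : Continuous fun p : ℝ × V a => p.2 j := (continuous_apply j).comp continuous_snd
      simpa using h
  refine hC.of_isClosed_subset (fib_isClosed hK₀ D) ?_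
  rintro z ⟨h1, h2⟩
  refine ⟨(z 0, tl z), ⟨abs_le.mp h1, ?_⟩, cons_tl z⟩
  rw [fib_mem_smul hK₀ hα]
  have := h2 0
  have h3 : 0 ≤ D.τ 0 * |z 0| := mul_nonneg (D.τ_pos 0).le (abs_nonneg _)
  linarith

theorem fib_convex (hK₀ : Body K₀) (D : Poly m) : Convex ℝ (fibPoly K₀ D) := by
  rintro z ⟨h1, h2⟩ z' ⟨h1', h2'⟩ p q hp hq hpq
  have habs : |(p • z + q • z') 0| ≤ p * |z 0| + q * |z' 0| := by
    simp only [Pi.add_apply, Pi.smul_apply, smul_eq_mul]
    refine (abs_add_le _ _).trans (le_of_eq ?_)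
    rw [abs_mul, abs_mul, abs_of_nonneg hp, abs_of_nonneg hq]
  have hgauge : gauge K₀ (tl (p • z + q • z')) ≤ p * gauge K₀ (tl z) + q * gauge K₀ (tl z') := by
    rw [fib_tl_add, fib_tl_smul, fib_tl_smul]
    refine (gauge_add_le hK₀.convex (fib_absorbent hK₀) _ _).trans (le_of_eq ?_)
    rw [gauge_smul_of_nonneg hp, gauge_smul_of_nonneg hq, smul_eq_mul, smul_eq_mul]
  refine ⟨habs.trans ?_, fun j => ?_⟩
  · calc p * |z 0| + q * |z' 0| ≤ p * D.T + q * D.T :=
        add_le_add (mul_le_mul_of_nonneg_left h1 hp) (mul_le_mul_of_nonneg_left h1' hq)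
      _ = D.T := by rw [← add_mul, hpq, one_mul]
  · have hτ := (D.τ_pos j).le
    calc gauge K₀ (tl (p • z + q • z')) + D.τ j * |(p • z + q • z') 0|
        ≤ (p * gauge K₀ (tl z) + q * gauge K₀ (tl z')) +
            D.τ j * (p * |z 0| + q * |z' 0|) :=
          add_le_add hgauge (mul_le_mul_of_nonneg_left habs hτ)
      _ = p * (gauge K₀ (tl z) + D.τ j * |z 0|) + q * (gauge K₀ (tl z') + D.τ j * |z' 0|) := by ring
      _ ≤ p * D.α j + q * D.α j :=
          add_le_add (mul_le_mul_of_nonneg_left (h2 j) hp) (mul_le_mul_of_nonneg_left (h2' j) hq)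
      _ = D.α j := by rw [← add_mul, hpq, one_mul]

theorem body_fibPoly (hK₀ : Body K₀) (D : Poly m) : Body (fibPoly K₀ D) := by
  refine ⟨fib_isCompact hK₀ D, fib_convex hK₀ D, ?_, ?_⟩
  · rintro z ⟨h1, h2⟩
    refine ⟨by simpa using h1, fun j => ?_⟩
    have := h2 j
    rw [fib_tl_neg, gauge_neg hK₀.symm]
    simpa using this
  · -- a neighbourhood of the origin
    have hg := fib_continuous_gauge hK₀
    have h0 : Continuous fun z : V (a + 1) => |z 0| := (continuous_apply 0).abs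
    have hT : ∀ᶠ z in 𝓝 (0 : V (a + 1)), |z 0| < D.T := by
      refine h0.continuousAt.eventually_lt continuousAt_const ?_
      simpa using D.T_pos
    have hj : ∀ j, ∀ᶠ z in 𝓝 (0 : V (a + 1)), gauge K₀ (tl z) + D.τ j * |z 0| < D.α j := by
      intro j
      have hc : Continuous fun z : V (a + 1) => gauge K₀ (tl z) + D.τ j * |z 0| :=
        (hg.comp fib_continuous_tl).add (continuous_const.mul h0)
      refine hc.continuousAt.eventually_lt continuousAt_const ?_
      have e : tl (0 : V (a + 1)) = 0 := by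
        funext i
        simp [tl]
      simpa [e] using D.α_pos j
    filter_upwards [hT, eventually_all.mpr hj] with z h1 h2
    exact ⟨h1.le, fun j => (h2 j).le⟩

/-- Scaled membership. -/
theorem fib_mem_scaled (hK₀ : Body K₀) (D : Poly m) {r : ℝ} (hr : 0 < r) (z : V (a + 1)) :
    r⁻¹ • z ∈ fibPoly K₀ D ↔
      |z 0| ≤ r * D.T ∧ ∀ j, gauge K₀ (tl z) + D.τ j * |z 0| ≤ r * D.α j := by
  have hri : 0 ≤ r⁻¹ := inv_nonneg.mpr hr.le
  have e0 : |(r⁻¹ • z) 0| = r⁻¹ * |z 0| := by
    simp only [Pi.smul_apply, smul_eq_mul]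
    rw [abs_mul, abs_of_nonneg hri]
  have e1 : gauge K₀ (tl (r⁻¹ • z)) = r⁻¹ * gauge K₀ (tl z) := by
    rw [fib_tl_smul, gauge_smul_of_nonneg hri, smul_eq_mul]
  rw [fib_mem_iff, e0, e1]
  constructor
  · rintro ⟨h1, h2⟩
    refine ⟨?_, fun j => ?_⟩
    · rwa [inv_mul_le_iff₀ hr] at h1
    · have := h2 j
      have e : r⁻¹ * gauge K₀ (tl z) + D.τ j * (r⁻¹ * |z 0|) =
          r⁻¹ * (gauge K₀ (tl z) + D.τ j * |z 0|) := by ring
      rwa [e, inv_mul_le_iff₀ hr] at this
  · rintro ⟨h1, h2⟩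
    refine ⟨?_, fun j => ?_⟩
    · rwa [inv_mul_le_iff₀ hr]
    · have e : r⁻¹ * gauge K₀ (tl z) + D.τ j * (r⁻¹ * |z 0|) =
          r⁻¹ * (gauge K₀ (tl z) + D.τ j * |z 0|) := by ring
      rw [e, inv_mul_le_iff₀ hr]
      exact h2 j

/-- The function `G`. -/
noncomputable def fibG (K₀ : Set (V a)) (D : Poly m) (z : V (a + 1)) : ℝ :=
  max (|z 0| / D.T)
    (Finset.univ.sup' Finset.univ_nonempty fun j =>
      (gauge K₀ (tl z) + D.τ j * |z 0|) / D.α j)

theorem fib_G_le_iff (D : Poly m) (z : V (a + 1)) (r : ℝ) :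
    fibG K₀ D z ≤ r ↔
      |z 0| ≤ r * D.T ∧ ∀ j, gauge K₀ (tl z) + D.τ j * |z 0| ≤ r * D.α j := by
  unfold fibG
  rw [max_le_iff, div_le_iff₀ D.T_pos, Finset.sup'_le_iff]
  refine and_congr_right fun _ => ?_
  refine forall_congr' fun j => ?_
  simp only [Finset.mem_univ, true_imp_iff]
  rw [div_le_iff₀ (D.α_pos j)]

theorem fib_gauge_le_iff (hK₀ : Body K₀) (D : Poly m) {r : ℝ} (hr : 0 < r) (z : V (a + 1)) :
    gauge (fibPoly K₀ D) z ≤ r ↔ fibG K₀ D z ≤ r := by
  have hB := body_fibPoly hK₀ D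
  rw [fib_G_le_iff, ← fib_mem_scaled hK₀ D hr, hB.mem_iff,
    gauge_smul_of_nonneg (inv_nonneg.mpr hr.le), smul_eq_mul]
  constructor
  · intro h
    have := mul_le_mul_of_nonneg_left h (inv_nonneg.mpr hr.le)
    rwa [inv_mul_cancel₀ hr.ne'] at this
  · intro h
    have := mul_le_mul_of_nonneg_left h hr.le
    rwa [← mul_assoc, mul_inv_cancel₀ hr.ne', one_mul, mul_one] at this

theorem gauge_fibPoly (hK₀ : Body K₀) (D : Poly m) (z : V (a + 1)) :
    gauge (fibPoly K₀ D) z = max (|z 0| / D.T)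
      (Finset.univ.sup' Finset.univ_nonempty fun j =>
        (gauge K₀ (tl z) + D.τ j * |z 0|) / D.α j) := by
  change gauge (fibPoly K₀ D) z = fibG K₀ D z
  refine le_antisymm ?_ ?_
  · refine le_of_forall_pos_le_add fun ε hε => ?_
    have hG0 : 0 ≤ fibG K₀ D z := by
      refine le_max_of_le_left (div_nonneg (abs_nonneg _) D.T_pos.le)
    have hr : 0 < fibG K₀ D z + ε := by linarith
    exact (fib_gauge_le_iff hK₀ D hr z).mpr (by linarith)
  · refine le_of_forall_pos_le_add fun ε hε => ?_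
    have hG0 : 0 ≤ gauge (fibPoly K₀ D) z := gauge_nonneg z
    have hr : 0 < gauge (fibPoly K₀ D) z + ε := by linarith
    exact (fib_gauge_le_iff hK₀ D hr z).mp (by linarith)

/-! ### The volume -/

/-- Fubini by sections in the first coordinate. -/
theorem fib_volume_eq_lintegral_sect {d : ℕ} {S : Set (V (d + 1))} (hS : MeasurableSet S) :
    volume S = ∫⁻ s : ℝ, volume (sect S s) := by
  have hmp := volume_preserving_piFinSuccAbove (fun _ : Fin (d + 1) => ℝ) 0
  have hsymm := hmp.symm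
  have h1 := hsymm.measure_preimage hS.nullMeasurableSet
  rw [← h1]
  have hmeas : MeasurableSet
      ((MeasurableEquiv.piFinSuccAbove (fun _ : Fin (d + 1) => ℝ) 0).symm ⁻¹' S) :=
    (MeasurableEquiv.piFinSuccAbove (fun _ : Fin (d + 1) => ℝ) 0).symm.measurable hS
  rw [Measure.volume_eq_prod, Measure.prod_apply hmeas]
  apply lintegral_congr
  intro s
  congr 1
  ext y
  simp only [mem_preimage, sect, mem_setOf_eq]
  have e : (MeasurableEquiv.piFinSuccAbove (fun _ : Fin (d + 1) => ℝ) 0).symm (s, y) =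
      (Fin.cons s y : V (d + 1)) := by
    apply (MeasurableEquiv.piFinSuccAbove (fun _ : Fin (d + 1) => ℝ) 0).injective
    rw [MeasurableEquiv.apply_symm_apply]
    ext i
    · simp [MeasurableEquiv.piFinSuccAbove]
    · simp [MeasurableEquiv.piFinSuccAbove]
  rw [e]

/-- The lower envelope of the lines. -/
noncomputable def fibEnv (D : Poly m) (t : ℝ) : ℝ :=
  Finset.univ.inf' Finset.univ_nonempty fun j => D.line j t

theorem fib_continuous_env (D : Poly m) : Continuous (fibEnv D) := by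
  unfold fibEnv
  refine Continuous.finset_inf'_apply _ fun j _ => ?_
  unfold Poly.line
  fun_prop

theorem fib_env_pos (D : Poly m) {t : ℝ} (ht : t ≤ D.T) : 0 < fibEnv D t := by
  unfold fibEnv
  rw [Finset.lt_inf'_iff]
  exact fun j _ => D.line_pos j ht

theorem fib_env_eq (D : Poly m) (j : Fin (m + 1)) {t : ℝ}
    (ht : t ∈ Icc (D.tk j.castSucc) (D.tk j.succ)) : fibEnv D t = D.line j t := by
  unfold fibEnv
  refine le_antisymm (Finset.inf'_le _ (Finset.mem_univ j)) ?_
  rw [Finset.le_inf'_iff]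
  exact fun l _ => D.env j l t ht

theorem fib_sect_eq (hK₀ : Body K₀) (D : Poly m) {s : ℝ} (hs : |s| ≤ D.T) :
    sect (fibPoly K₀ D) s = fibEnv D |s| • K₀ := by
  have hr := fib_env_pos D hs
  ext y
  rw [fib_mem_smul hK₀ hr]
  simp only [sect, mem_setOf_eq, fib_mem_iff, Fin.cons_zero, tl_cons, fibEnv, Finset.le_inf'_iff,
    Finset.mem_univ, true_imp_iff, Poly.line]
  constructor
  · rintro ⟨-, h⟩ j
    have := h j
    linarith
  · intro h
    refine ⟨hs, fun j => ?_⟩
    have := h j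
    linarith

theorem fib_sect_empty (D : Poly m) {s : ℝ} (hs : D.T < |s|) :
    sect (fibPoly K₀ D) s = ∅ := by
  ext y
  simp only [sect, mem_setOf_eq, fib_mem_iff, Fin.cons_zero, mem_empty_iff_false, iff_false, not_and]
  intro h
  exact absurd h (not_le.mpr hs)

theorem fib_volume_sect (hK₀ : Body K₀) (D : Poly m) {s : ℝ} (hs : |s| ≤ D.T) :
    volume (sect (fibPoly K₀ D) s) = ENNReal.ofReal (fibEnv D |s| ^ a) * volume K₀ := by
  rw [fib_sect_eq hK₀ D hs, Measure.addHaar_smul, Module.finrank_fintype_fun_eq_card, Fintype.card_fin,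
    abs_of_pos (pow_pos (fib_env_pos D hs) a)]

/-- Adjacent intervals along a finite chain of knots. -/
theorem fib_sum_adjacent {n : ℕ} (g : Fin (n + 1) → ℝ) {f : ℝ → ℝ} (hf : Continuous f) :
    ∑ j : Fin n, ∫ t in g j.castSucc..g j.succ, f t = ∫ t in g 0..g (Fin.last n), f t := by
  induction n with
  | zero => simp
  | succ n ih =>
    rw [Fin.sum_univ_castSucc]
    have h := ih (fun i => g i.castSucc)
    simp only [Fin.succ_castSucc] at h ⊢
    have h0 : (Fin.castSucc (0 : Fin (n + 1))) = (0 : Fin (n + 1 + 1)) := rfl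
    rw [h0] at h
    have hl : (Fin.castSucc (Fin.last n)) = (Fin.last n).castSucc := rfl
    rw [h, Fin.succ_last]
    exact intervalIntegral.integral_add_adjacent_intervals (hf.intervalIntegrable _ _)
      (hf.intervalIntegrable _ _)

theorem fib_integral_env (D : Poly m) (a : ℕ) :
    ∫ t in (0 : ℝ)..D.T, fibEnv D t ^ a = ∑ j, ∫ t in D.tk j.castSucc..D.tk j.succ, (D.line j t) ^ a := by
  have hc : Continuous fun t => fibEnv D t ^ a := (fib_continuous_env D).pow a
  have h := fib_sum_adjacent D.tk hc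
  rw [D.tk_zero] at h
  rw [Poly.T, ← h]
  refine Finset.sum_congr rfl fun j _ => ?_
  refine intervalIntegral.integral_congr fun t ht => ?_
  have hle : D.tk j.castSucc ≤ D.tk j.succ := D.tk_mono.monotone (Fin.castSucc_lt_succ).le
  rw [uIcc_of_le hle] at ht
  rw [fib_env_eq D j ht]

theorem fib_vol2_eq (D : Poly m) (a : ℕ) :
    D.vol2 a = ∫ s in (-D.T)..D.T, fibEnv D |s| ^ a := by
  have hc : Continuous fun s : ℝ => fibEnv D |s| ^ a :=
    ((fib_continuous_env D).comp continuous_abs).pow a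
  have hT := D.T_pos
  rw [← intervalIntegral.integral_add_adjacent_intervals (hc.intervalIntegrable (-D.T) 0)
    (hc.intervalIntegrable 0 D.T)]
  have h1 : ∫ s in (0 : ℝ)..D.T, fibEnv D |s| ^ a = ∫ t in (0 : ℝ)..D.T, fibEnv D t ^ a := by
    refine intervalIntegral.integral_congr fun t ht => ?_
    rw [uIcc_of_le hT.le] at ht
    rw [abs_of_nonneg ht.1]
  have h2 : ∫ s in (-D.T)..0, fibEnv D |s| ^ a = ∫ t in (0 : ℝ)..D.T, fibEnv D t ^ a := by
    have e : ∫ s in (-D.T)..0, fibEnv D |s| ^ a = ∫ s in (-D.T)..0, fibEnv D |(-s)| ^ a := by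
      simp only [abs_neg]
    rw [e, intervalIntegral.integral_comp_neg (fun s => fibEnv D |s| ^ a), neg_zero, neg_neg, h1]
  rw [h1, h2, fib_integral_env, Poly.vol2]
  ring

theorem volume_fibPoly (hK₀ : Body K₀) (D : Poly m) :
    (volume (fibPoly K₀ D)).toReal = (volume K₀).toReal * D.vol2 a := by
  have hB := body_fibPoly hK₀ D
  have hT := D.T_pos
  have hc : Continuous fun s : ℝ => fibEnv D |s| ^ a :=
    ((fib_continuous_env D).comp continuous_abs).pow a
  rw [fib_volume_eq_lintegral_sect hB.compact.isClosed.measurableSet]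
  -- restrict to `[-T, T]`
  have h1 : ∫⁻ s : ℝ, volume (sect (fibPoly K₀ D) s) =
      ∫⁻ s : ℝ, (Icc (-D.T) D.T).indicator
        (fun s => ENNReal.ofReal (fibEnv D |s| ^ a) * volume K₀) s := by
    refine lintegral_congr fun s => ?_
    by_cases hs : |s| ≤ D.T
    · have hs'' : s ∈ Icc (-D.T) D.T := abs_le.mp hs
      rw [indicator_of_mem hs'', fib_volume_sect hK₀ D hs]
    · have hs' : s ∉ Icc (-D.T) D.T := fun h => hs (abs_le.mpr h)
      rw [indicator_of_notMem hs', fib_sect_empty D (not_le.mp hs)]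
      simp
  rw [h1, lintegral_indicator measurableSet_Icc, lintegral_mul_const _ hc.measurable.ennreal_ofReal]
  rw [ENNReal.toReal_mul, mul_comm]
  congr 1
  have hint : IntegrableOn (fun s : ℝ => fibEnv D |s| ^ a) (Icc (-D.T) D.T) :=
    hc.continuousOn.integrableOn_compact isCompact_Icc
  have hnn : 0 ≤ᵐ[volume.restrict (Icc (-D.T) D.T)] fun s : ℝ => fibEnv D |s| ^ a := by
    refine (ae_restrict_iff' measurableSet_Icc).mpr (Eventually.of_forall fun s hs => ?_)
    exact (pow_pos (fib_env_pos D (abs_le.mpr hs)) a).le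
  rw [← ofReal_integral_eq_lintegral_ofReal hint hnn,
    ENNReal.toReal_ofReal (integral_nonneg_of_ae hnn), fib_vol2_eq,
    intervalIntegral.integral_of_le (by linarith), integral_Icc_eq_integral_Ioc]

end Vale.Agent.Lib.P227Z
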