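import Vale.Agent.Lib.P227H.Defs

/-! # JOB H4: the edge sum inequality

Let `M = hm s₁ s₂`. `Z` maps `[-T', T']` increasingly and oddly onto `[-M, M]`. Let `q⁺_l = Z⁻¹(M - tail s₁ l)`,
`q⁻_l = Z⁻¹(-M + tail s₂ l)`, `q⁺_{m+1} = T'`, `q⁻_{m+1} = -T'`; then `q⁺_0 = q⁻_0` because `tail s₁ 0 + tail s₂ 0 = 2 M`.
On `[q⁺_j, q⁺_{j+1}]`, `∫ z' = s₁ j`, so `s₁ j u₁ j ≥ ∫_{q⁺_j}^{q⁺_{j+1}} (r t + τ j t) z' t dt`. Similarly
`s₂ j u₂ j ≥ ∫_{q⁻_{j+1}}^{q⁻_j} (r t - τ j t) z' t dt`. Sum: the `r` part is `∫_{-T'}^{T'} r z' = 2 ∫_0^{T'} ω z'`, by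
evenness of `z'`. For the `τ` part write `τ j = ∑_{l ≤ j} d l` and exchange (Abel summation): with
`Ψ q = ∫_q^{T'} t z' t dt`, which is even, the `τ` part is `∑_l d l (Ψ (q⁺_l) + Ψ (q⁻_l))`; and
`Ψ q = ∫_0^{T'} min (M - Z t) (M - |Z q|) dt` (integrate by parts:
`Ψ q = T' M - |q| Z |q| - ∫_{|q|}^{T'} Z`). Finally `M - |M - X| = mu M X`, so the `τ` part equals
`2 ∫_0^{T'} (Fs d s₁ s₂ c (M - Z t) - c) dt`.
-/

open MeasureTheory Set

namespace Vale.Agent.Lib.P227Z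

/-! ### discrete part -/

/-- next element along `Fin (m+1)`, `b` at the end -/
def es_nxt {m : ℕ} (H : Fin (m + 1) → ℝ) (b : ℝ) (j : Fin (m + 1)) : ℝ :=
  if h : (j : ℕ) + 1 < m + 1 then H ⟨j + 1, h⟩ else b

lemma es_Ici_succ {m : ℕ} (j : Fin (m + 1)) (h : (j : ℕ) + 1 < m + 1) :
    Finset.Ici j = insert j (Finset.Ici (⟨j + 1, h⟩ : Fin (m + 1))) := by
  ext x
  simp only [Finset.mem_Ici, Finset.mem_insert, Fin.le_def, Fin.ext_iff]
  omega

lemma es_Ici_last {m : ℕ} (j : Fin (m + 1)) (h : ¬ (j : ℕ) + 1 < m + 1) :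
    Finset.Ici j = {j} := by
  ext x
  simp only [Finset.mem_Ici, Finset.mem_singleton, Fin.le_def, Fin.ext_iff]
  have := x.2
  omega

lemma es_tele {m : ℕ} (H : Fin (m + 1) → ℝ) (b : ℝ) :
    ∀ (k : ℕ) (l : Fin (m + 1)), m - (l : ℕ) = k →
      ∑ j ∈ Finset.Ici l, (H j - es_nxt H b j) = H l - b := by
  intro k
  induction k with
  | zero =>
    intro l hl
    have h : ¬ (l : ℕ) + 1 < m + 1 := by omega
    rw [es_Ici_last l h, Finset.sum_singleton, es_nxt, dif_neg h]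
  | succ k ih =>
    intro l hl
    have h : (l : ℕ) + 1 < m + 1 := by omega
    rw [es_Ici_succ l h, Finset.sum_insert, ih ⟨l + 1, h⟩ (by simp only; omega), es_nxt, dif_pos h]
    · ring
    · simp [Fin.le_def]

lemma es_tail_nxt {m : ℕ} (s : Fin (m + 1) → ℝ) (j : Fin (m + 1)) :
    es_nxt (tail s) 0 j = tail s j - s j := by
  by_cases h : (j : ℕ) + 1 < m + 1
  · rw [es_nxt, dif_pos h, tail, tail, es_Ici_succ j h, Finset.sum_insert]
    · ring
    · simp [Fin.le_def]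
  · rw [es_nxt, dif_neg h, tail, es_Ici_last j h, Finset.sum_singleton]
    ring

lemma es_comp_nxt {m : ℕ} (f : ℝ → ℝ) (H : Fin (m + 1) → ℝ) (b : ℝ) (j : Fin (m + 1)) :
    f (es_nxt H b j) = es_nxt (fun i => f (H i)) (f b) j := by
  unfold es_nxt
  split_ifs <;> rfl

lemma es_abel {m : ℕ} (d τ H : Fin (m + 1) → ℝ)
    (hτ : ∀ j, τ j = ∑ l ∈ Finset.Iic j, d l) :
    ∑ j, τ j * (H j - es_nxt H 0 j) = ∑ l, d l * H l := by
  have h1 : ∀ j, τ j * (H j - es_nxt H 0 j) = ∑ l ∈ Finset.Iic j, d l * (H j - es_nxt H 0 j) := by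
    intro j
    rw [hτ j, Finset.sum_mul]
  simp_rw [h1]
  rw [Finset.sum_comm' (s' := fun l => Finset.Ici l) (t' := Finset.univ)
    (by intro x y; simp only [Finset.mem_univ, true_and, and_true, Finset.mem_Iic, Finset.mem_Ici])]
  apply Finset.sum_congr rfl
  intro l _
  rw [← Finset.mul_sum, es_tele H 0 _ l rfl, sub_zero]

lemma es_tail_pos {m : ℕ} (s : Fin (m + 1) → ℝ) (hs : ∀ i, 0 < s i) (l : Fin (m + 1)) :
    0 < tail s l := by
  apply Finset.sum_pos (fun i _ => hs i)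
  exact ⟨l, by simp⟩

lemma es_tail_le {m : ℕ} (s : Fin (m + 1) → ℝ) (hs : ∀ i, 0 < s i) (l : Fin (m + 1)) :
    tail s l ≤ ∑ i, s i := by
  apply Finset.sum_le_sum_of_subset_of_nonneg (Finset.subset_univ _)
  intro i _ _
  exact (hs i).le

lemma es_tail_zero {m : ℕ} (s : Fin (m + 1) → ℝ) : tail s 0 = ∑ i, s i := by
  unfold tail
  congr 1
  ext x
  simp

/-! ### analysis: integrability and congruence -/

lemma es_ii {T' : ℝ} {f : ℝ → ℝ} (hc : ContinuousOn f (Ioo (-T') T'))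
    (hb : ∃ C, ∀ t ∈ Ioo (-T') T', |f t| ≤ C) {a b : ℝ}
    (ha : a ∈ Icc (-T') T') (hb' : b ∈ Icc (-T') T') : IntervalIntegrable f volume a b := by
  obtain ⟨C, hC⟩ := hb
  have h1 : IntegrableOn f (Ioo (-T') T') volume := by
    have : IsFiniteMeasure (volume.restrict (Ioo (-T') T')) := ⟨by simp⟩
    apply Integrable.of_bound (hc.aestronglyMeasurable measurableSet_Ioo) C
    filter_upwards [ae_restrict_mem measurableSet_Ioo] with t ht
    simpa using hC t ht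
  have h2 : IntegrableOn f (Icc (-T') T') volume := by
    rw [integrableOn_Icc_iff_integrableOn_Ioo]
    exact h1
  rw [intervalIntegrable_iff]
  apply h2.mono_set
  intro x hx
  rcases uIoc_subset_uIcc hx with hx'
  have := uIcc_subset_Icc ha hb' hx'
  exact this

lemma es_congr {f g : ℝ → ℝ} {a b : ℝ} (hab : a ≤ b) (h : ∀ x ∈ Ioo a b, f x = g x) :
    ∫ x in a..b, f x = ∫ x in a..b, g x := by
  rw [intervalIntegral.integral_of_le hab, intervalIntegral.integral_of_le hab,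
    integral_Ioc_eq_integral_Ioo, integral_Ioc_eq_integral_Ioo]
  exact setIntegral_congr_fun measurableSet_Ioo h

section analysis

variable {T' M : ℝ} {Z z' r : ℝ → ℝ}

lemma es_ftc (hZc : ContinuousOn Z (Icc (-T') T'))
    (hZd : ∀ t ∈ Ioo (-T') T', HasDerivAt Z (z' t) t)
    (hz'c : ContinuousOn z' (Ioo (-T') T')) (hz'b : ∃ C, ∀ t ∈ Ioo (-T') T', |z' t| ≤ C)
    {a b : ℝ} (ha : a ∈ Icc (-T') T') (hb : b ∈ Icc (-T') T') (hab : a ≤ b) :
    ∫ t in a..b, z' t = Z b - Z a := by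
  apply intervalIntegral.integral_eq_sub_of_hasDerivAt_of_le hab
  · exact hZc.mono (Icc_subset_Icc ha.1 hb.2)
  · intro x hx
    exact hZd x ⟨lt_of_le_of_lt ha.1 hx.1, lt_of_lt_of_le hx.2 hb.2⟩
  · exact es_ii hz'c hz'b ha hb

/-- the product integrand is interval integrable -/
lemma es_ii_mul (hrc : ContinuousOn r (Ioo (-T') T')) (hrb : ∃ C, ∀ t ∈ Ioo (-T') T', |r t| ≤ C)
    (hz'c : ContinuousOn z' (Ioo (-T') T')) (hz'b : ∃ C, ∀ t ∈ Ioo (-T') T', |z' t| ≤ C)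
    {a b : ℝ} (ha : a ∈ Icc (-T') T') (hb : b ∈ Icc (-T') T') :
    IntervalIntegrable (fun t => r t * z' t) volume a b := by
  apply es_ii (hrc.mul hz'c) _ ha hb
  obtain ⟨C, hC⟩ := hrb
  obtain ⟨D, hD⟩ := hz'b
  refine ⟨C * D, fun t ht => ?_⟩
  show |r t * z' t| ≤ C * D
  rw [abs_mul]
  exact mul_le_mul (hC t ht) (hD t ht) (abs_nonneg _) ((abs_nonneg _).trans (hC t ht))

lemma es_id_cont : ContinuousOn (fun t : ℝ => t) (Ioo (-T') T') := continuousOn_id

lemma es_id_bd : ∃ C, ∀ t ∈ Ioo (-T') T', |(fun t : ℝ => t) t| ≤ C := by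
  refine ⟨|T'|, fun t ht => ?_⟩
  simp only
  have h0 : 0 < T' := by linarith [ht.1, ht.2]
  rw [abs_of_pos h0, abs_le]
  exact ⟨ht.1.le, ht.2.le⟩

/-- the formula `∫_q^{T'} t z' = T' Z T' - q Z q - ∫_q^{T'} Z`. -/
lemma es_ibp (hZc : ContinuousOn Z (Icc (-T') T'))
    (hZd : ∀ t ∈ Ioo (-T') T', HasDerivAt Z (z' t) t)
    (hz'c : ContinuousOn z' (Ioo (-T') T')) (hz'b : ∃ C, ∀ t ∈ Ioo (-T') T', |z' t| ≤ C)
    {q : ℝ} (hq : q ∈ Icc (-T') T') (hT' : 0 < T') :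
    ∫ t in q..T', t * z' t = T' * Z T' - q * Z q - ∫ t in q..T', Z t := by
  have hT : T' ∈ Icc (-T') T' := ⟨by linarith, le_rfl⟩
  have hZi : IntervalIntegrable Z volume q T' := by
    apply ContinuousOn.intervalIntegrable
    rw [uIcc_of_le hq.2]
    exact hZc.mono (Icc_subset_Icc hq.1 le_rfl)
  have hi : IntervalIntegrable (fun t => t * z' t) volume q T' :=
    es_ii_mul es_id_cont es_id_bd hz'c hz'b hq hT
  have h : ∫ t in q..T', (Z t + t * z' t) = T' * Z T' - q * Z q := by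
    apply intervalIntegral.integral_eq_sub_of_hasDerivAt_of_le hq.2
      (f := fun t => t * Z t)
    · exact continuousOn_id.mul (hZc.mono (Icc_subset_Icc hq.1 le_rfl))
    · intro x hx
      have h' := (hasDerivAt_id' x).fun_mul (hZd x ⟨lt_of_le_of_lt hq.1 hx.1, hx.2⟩)
      rw [one_mul] at h'
      exact h'
    · exact hZi.add hi
  rw [intervalIntegral.integral_add hZi hi] at h
  linarith

/-- nonnegative `q` -/
lemma es_psi_nonneg (hZc : ContinuousOn Z (Icc (-T') T'))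
    (hZm : StrictMonoOn Z (Icc (-T') T'))
    {q : ℝ} (hq0 : 0 ≤ q) (hq : q ≤ T') (hT' : 0 < T') :
    T' * M - q * Z q - ∫ t in q..T', Z t = ∫ t in (0 : ℝ)..T', min (M - Z t) (M - Z q) := by
  have hsub : ∀ {a b : ℝ}, 0 ≤ a → b ≤ T' → Icc a b ⊆ Icc (-T') T' := by
    intro a b ha hb
    exact Icc_subset_Icc (by linarith) hb
  have hc : ContinuousOn (fun t => min (M - Z t) (M - Z q)) (Icc 0 T') :=
    ContinuousOn.inf (continuousOn_const.sub (hZc.mono (hsub le_rfl le_rfl))) continuousOn_const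
  have hi1 : IntervalIntegrable (fun t => min (M - Z t) (M - Z q)) volume 0 q := by
    apply ContinuousOn.intervalIntegrable
    rw [uIcc_of_le hq0]
    exact hc.mono (Icc_subset_Icc le_rfl hq)
  have hi2 : IntervalIntegrable (fun t => min (M - Z t) (M - Z q)) volume q T' := by
    apply ContinuousOn.intervalIntegrable
    rw [uIcc_of_le hq]
    exact hc.mono (Icc_subset_Icc hq0 le_rfl)
  rw [← intervalIntegral.integral_add_adjacent_intervals hi1 hi2]
  have hqm : q ∈ Icc (-T') T' := ⟨by linarith, hq⟩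
  have h1 : ∫ t in (0 : ℝ)..q, min (M - Z t) (M - Z q) = q * (M - Z q) := by
    have : ∫ t in (0 : ℝ)..q, min (M - Z t) (M - Z q) = ∫ t in (0 : ℝ)..q, (M - Z q) := by
      apply es_congr hq0
      intro t ht
      apply min_eq_right
      have : Z t ≤ Z q := hZm.monotoneOn ⟨by linarith [ht.1], by linarith [ht.2]⟩ hqm ht.2.le
      linarith
    rw [this]
    simp
    ring
  have hZi : IntervalIntegrable Z volume q T' := by
    apply ContinuousOn.intervalIntegrable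
    rw [uIcc_of_le hq]
    exact hZc.mono (Icc_subset_Icc hqm.1 le_rfl)
  have h2 : ∫ t in q..T', min (M - Z t) (M - Z q) = (T' - q) * M - ∫ t in q..T', Z t := by
    have : ∫ t in q..T', min (M - Z t) (M - Z q) = ∫ t in q..T', (M - Z t) := by
      apply es_congr hq
      intro t ht
      apply min_eq_left
      have : Z q ≤ Z t := hZm.monotoneOn hqm ⟨by linarith [ht.1], by linarith [ht.2]⟩ ht.1.le
      linarith
    rw [this, intervalIntegral.integral_sub intervalIntegrable_const hZi]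
    simp
  rw [h1, h2]
  ring

/-- all `q` -/
lemma es_psi (hZc : ContinuousOn Z (Icc (-T') T'))
    (hZo : ∀ t ∈ Icc (-T') T', Z (-t) = - Z t) (hZT : Z T' = M)
    (hZm : StrictMonoOn Z (Icc (-T') T'))
    (hZd : ∀ t ∈ Ioo (-T') T', HasDerivAt Z (z' t) t)
    (hz'c : ContinuousOn z' (Ioo (-T') T')) (hz'b : ∃ C, ∀ t ∈ Ioo (-T') T', |z' t| ≤ C)
    {q : ℝ} (hq : q ∈ Icc (-T') T') (hT' : 0 < T') {X : ℝ} (hX : Z q = M - X) :
    ∫ t in q..T', t * z' t = ∫ t in (0 : ℝ)..T', min (M - Z t) (mu M X) := by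
  have hmu : mu M X = M - |Z q| := by
    rw [hX]
    unfold mu
    rcases le_total X M with h | h
    · rw [abs_of_nonneg (by linarith), min_eq_left (by linarith)]
      ring
    · rw [abs_of_nonpos (by linarith), min_eq_right (by linarith)]
      ring
  rw [es_ibp hZc hZd hz'c hz'b hq hT', hZT, hmu]
  have h00 : (0 : ℝ) ∈ Icc (-T') T' := ⟨by linarith, hT'.le⟩
  have hZ0 : Z 0 = 0 := by
    have := hZo 0 h00
    simp at this
    linarith
  rcases le_total 0 q with h0 | h0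
  · have hZq : 0 ≤ Z q := by
      rw [← hZ0]
      exact hZm.monotoneOn h00 hq h0
    rw [abs_of_nonneg hZq]
    exact es_psi_nonneg hZc hZm h0 hq.2 hT'
  · have hZq : Z q ≤ 0 := by
      rw [← hZ0]
      exact hZm.monotoneOn hq h00 h0
    have hq' : -q ∈ Icc (-T') T' := ⟨by linarith [hq.2], by linarith [hq.1]⟩
    have hZq' := hZo q hq
    have key := es_psi_nonneg (M := M) hZc hZm (q := -q) (by linarith) hq'.2 hT'
    rw [abs_of_nonpos hZq, show M - -Z q = M - Z (-q) by rw [hZq'], ← key, hZq']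
    have hZi1 : IntervalIntegrable Z volume q (-q) := by
      apply ContinuousOn.intervalIntegrable
      rw [uIcc_of_le (by linarith)]
      exact hZc.mono (Icc_subset_Icc hq.1 hq'.2)
    have hZi2 : IntervalIntegrable Z volume (-q) T' := by
      apply ContinuousOn.intervalIntegrable
      rw [uIcc_of_le hq'.2]
      exact hZc.mono (Icc_subset_Icc hq'.1 le_rfl)
    rw [← intervalIntegral.integral_add_adjacent_intervals hZi1 hZi2]
    have h0' : ∫ t in q..(-q), Z t = 0 := by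
      have e1 : ∫ t in q..(-q), Z (-t) = ∫ t in q..(-q), Z t := by
        rw [intervalIntegral.integral_comp_neg (fun t => Z t)]
        simp
      have e2 : ∫ t in q..(-q), Z (-t) = - ∫ t in q..(-q), Z t := by
        rw [← intervalIntegral.integral_neg]
        apply intervalIntegral.integral_congr
        intro t ht
        rw [uIcc_of_le (by linarith)] at ht
        exact hZo t ⟨by linarith [ht.1, hq.1], by linarith [ht.2, hq'.2]⟩
      linarith
    rw [h0']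
    ring

/-- the basic inequality on a segment -/
lemma es_seg (hZc : ContinuousOn Z (Icc (-T') T'))
    (hZd : ∀ t ∈ Ioo (-T') T', HasDerivAt Z (z' t) t)
    (hz'c : ContinuousOn z' (Ioo (-T') T')) (hz'pos : ∀ t ∈ Ioo (-T') T', 0 ≤ z' t)
    (hz'b : ∃ C, ∀ t ∈ Ioo (-T') T', |z' t| ≤ C)
    (f : ℝ → ℝ) (hfc : ContinuousOn f (Ioo (-T') T')) (hfb : ∃ C, ∀ t ∈ Ioo (-T') T', |f t| ≤ C)
    (u : ℝ) (hu : ∀ t ∈ Ioo (-T') T', f t ≤ u)
    {a b : ℝ} (ha : a ∈ Icc (-T') T') (hb : b ∈ Icc (-T') T') (hab : a ≤ b) :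
    ∫ t in a..b, f t * z' t ≤ u * (Z b - Z a) := by
  rw [← es_ftc hZc hZd hz'c hz'b ha hb hab, ← intervalIntegral.integral_const_mul]
  apply intervalIntegral.integral_mono_on_of_le_Ioo hab
  · exact es_ii_mul hfc hfb hz'c hz'b ha hb
  · exact (es_ii hz'c hz'b ha hb).const_mul u
  · intro t ht
    have ht' : t ∈ Ioo (-T') T' := ⟨lt_of_le_of_lt ha.1 ht.1, lt_of_lt_of_le ht.2 hb.2⟩
    exact mul_le_mul_of_nonneg_right (hu t ht') (hz'pos t ht')

end analysis

lemma es_cont_min {T' M : ℝ} {Z : ℝ → ℝ} (hZc : ContinuousOn Z (Icc (-T') T')) (hT' : 0 < T') (b : ℝ) :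
    IntervalIntegrable (fun t => min (M - Z t) b) volume 0 T' := by
  apply ContinuousOn.intervalIntegrable
  rw [uIcc_of_le hT'.le]
  exact ContinuousOn.inf (continuousOn_const.sub (hZc.mono (Icc_subset_Icc (by linarith) le_rfl)))
    continuousOn_const

/-- one family of edges -/
lemma es_family {m : ℕ} (d s : Fin (m + 1) → ℝ) (hs : ∀ i, 0 < s i)
    (τ : Fin (m + 1) → ℝ) (hτ : ∀ j, τ j = ∑ l ∈ Finset.Iic j, d l)
    {T' M : ℝ} (hT' : 0 < T') (r : ℝ → ℝ) (hrc : ContinuousOn r (Ioo (-T') T'))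
    (hrb : ∃ C, ∀ t ∈ Ioo (-T') T', |r t| ≤ C)
    (u : Fin (m + 1) → ℝ)
    (hu : ∀ j, ∀ t ∈ Ioo (-T') T', r t + τ j * t ≤ u j)
    (hM2 : ∑ i, s i ≤ 2 * M)
    (Z z' : ℝ → ℝ) (hZc : ContinuousOn Z (Icc (-T') T')) (hZo : ∀ t ∈ Icc (-T') T', Z (-t) = - Z t)
    (hZT : Z T' = M) (hZm : StrictMonoOn Z (Icc (-T') T'))
    (hZd : ∀ t ∈ Ioo (-T') T', HasDerivAt Z (z' t) t)
    (hz'c : ContinuousOn z' (Ioo (-T') T')) (hz'pos : ∀ t ∈ Ioo (-T') T', 0 ≤ z' t)
    (hz'b : ∃ C, ∀ t ∈ Ioo (-T') T', |z' t| ≤ C)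
    {q₀ : ℝ} (hq₀ : q₀ ∈ Icc (-T') T') (hZq₀ : Z q₀ = M - tail s 0) :
    (∫ t in q₀..T', r t * z' t) +
        ∑ l, d l * ∫ t in (0 : ℝ)..T', min (M - Z t) (mu M (tail s l)) ≤ ∑ j, s j * u j := by
  have hTm : T' ∈ Icc (-T') T' := ⟨by linarith, le_rfl⟩
  have hmT : -T' ∈ Icc (-T') T' := ⟨le_rfl, by linarith⟩
  have hZmT : Z (-T') = -M := by rw [hZo T' hTm, hZT]
  have hex : ∀ l, ∃ q ∈ Icc (-T') T', Z q = M - tail s l := by
    intro l
    have hmem : M - tail s l ∈ Icc (Z (-T')) (Z T') := by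
      rw [hZmT, hZT]
      constructor
      · linarith [es_tail_le s hs l]
      · linarith [es_tail_pos s hs l]
    obtain ⟨q, hq, hZq⟩ := intermediate_value_Icc (by linarith) hZc hmem
    exact ⟨q, hq, hZq⟩
  choose Q hQ hZQ using hex
  have hQ0 : Q 0 = q₀ := hZm.injOn (hQ 0) hq₀ (by rw [hZQ, hZq₀])
  -- the next point
  have hQ' : ∀ j, es_nxt Q T' j ∈ Icc (-T') T' := by
    intro j
    unfold es_nxt
    split_ifs
    · exact hQ _
    · exact hTm
  have hZQ' : ∀ j, Z (es_nxt Q T' j) = M - tail s j + s j := by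
    intro j
    have h1 := es_tail_nxt s j
    by_cases h : (j : ℕ) + 1 < m + 1
    · rw [es_nxt, dif_pos h] at h1 ⊢
      rw [hZQ, h1]
      ring
    · rw [es_nxt, dif_neg h] at h1 ⊢
      rw [hZT]
      linarith
  have hle : ∀ j, Q j ≤ es_nxt Q T' j := by
    intro j
    have : Z (Q j) < Z (es_nxt Q T' j) := by
      rw [hZQ, hZQ']
      linarith [hs j]
    exact ((hZm.lt_iff_lt (hQ j) (hQ' j)).1 this).le
  -- segment inequality
  have hseg : ∀ j, ∫ t in (Q j)..(es_nxt Q T' j), (r t + τ j * t) * z' t ≤ u j * s j := by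
    intro j
    have hfc : ContinuousOn (fun t => r t + τ j * t) (Ioo (-T') T') :=
      hrc.add (continuousOn_const.mul continuousOn_id)
    have hfb : ∃ C, ∀ t ∈ Ioo (-T') T', |(fun t => r t + τ j * t) t| ≤ C := by
      obtain ⟨C, hC⟩ := hrb
      refine ⟨C + |τ j| * T', fun t ht => ?_⟩
      simp only
      refine (abs_add_le _ _).trans (add_le_add (hC t ht) ?_)
      rw [abs_mul]
      apply mul_le_mul_of_nonneg_left _ (abs_nonneg _)
      rw [abs_le]
      exact ⟨ht.1.le, ht.2.le⟩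
    have := es_seg hZc hZd hz'c hz'pos hz'b (fun t => r t + τ j * t) hfc hfb (u j) (hu j)
      (hQ j) (hQ' j) (hle j)
    rw [hZQ, hZQ'] at this
    calc _ ≤ _ := this
      _ = u j * s j := by ring
  set R : ℝ → ℝ := fun q => ∫ t in q..T', r t * z' t with hR
  set Ψ : ℝ → ℝ := fun q => ∫ t in q..T', t * z' t with hΨ
  have hsplit : ∀ j, ∫ t in (Q j)..(es_nxt Q T' j), (r t + τ j * t) * z' t =
      (R (Q j) - R (es_nxt Q T' j)) + τ j * (Ψ (Q j) - Ψ (es_nxt Q T' j)) := by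
    intro j
    have hi1 : ∀ {a b : ℝ}, a ∈ Icc (-T') T' → b ∈ Icc (-T') T' →
        IntervalIntegrable (fun t => r t * z' t) volume a b :=
      fun ha hb => es_ii_mul hrc hrb hz'c hz'b ha hb
    have hi2 : ∀ {a b : ℝ}, a ∈ Icc (-T') T' → b ∈ Icc (-T') T' →
        IntervalIntegrable (fun t => t * z' t) volume a b :=
      fun ha hb => es_ii_mul es_id_cont es_id_bd hz'c hz'b ha hb
    have e1 : ∫ t in (Q j)..(es_nxt Q T' j), (r t + τ j * t) * z' t =
        (∫ t in (Q j)..(es_nxt Q T' j), r t * z' t) +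
          τ j * ∫ t in (Q j)..(es_nxt Q T' j), t * z' t := by
      rw [← intervalIntegral.integral_const_mul, ← intervalIntegral.integral_add
        (hi1 (hQ j) (hQ' j)) ((hi2 (hQ j) (hQ' j)).const_mul _)]
      congr 1
      ext t
      ring
    have e2 : R (Q j) = (∫ t in (Q j)..(es_nxt Q T' j), r t * z' t) + R (es_nxt Q T' j) :=
      (intervalIntegral.integral_add_adjacent_intervals (hi1 (hQ j) (hQ' j)) (hi1 (hQ' j) hTm)).symm
    have e3 : Ψ (Q j) = (∫ t in (Q j)..(es_nxt Q T' j), t * z' t) + Ψ (es_nxt Q T' j) :=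
      (intervalIntegral.integral_add_adjacent_intervals (hi2 (hQ j) (hQ' j)) (hi2 (hQ' j) hTm)).symm
    rw [e1, e2, e3]
    ring
  have hRT : R T' = 0 := intervalIntegral.integral_same
  have hΨT : Ψ T' = 0 := intervalIntegral.integral_same
  have hsum1 : ∑ j, (R (Q j) - R (es_nxt Q T' j)) = R (Q 0) := by
    have hk := es_tele (fun i => R (Q i)) 0 _ 0 rfl
    have hu0 : Finset.Ici (0 : Fin (m + 1)) = Finset.univ := by
      ext x
      simp
    rw [hu0, sub_zero] at hk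
    rw [← hk]
    apply Finset.sum_congr rfl
    intro j _
    rw [es_comp_nxt R Q T' j, hRT]
  have hsum2 : ∑ j, τ j * (Ψ (Q j) - Ψ (es_nxt Q T' j)) = ∑ l, d l * Ψ (Q l) := by
    rw [← es_abel d τ (fun i => Ψ (Q i)) hτ]
    apply Finset.sum_congr rfl
    intro j _
    rw [es_comp_nxt Ψ Q T' j, hΨT]
  have hpsi : ∀ l, Ψ (Q l) = ∫ t in (0 : ℝ)..T', min (M - Z t) (mu M (tail s l)) := fun l =>
    es_psi hZc hZo hZT hZm hZd hz'c hz'b (hQ l) hT' (hZQ l)
  have hfin : R (Q 0) + ∑ l, d l * Ψ (Q l) ≤ ∑ j, s j * u j := by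
    rw [← hsum1, ← hsum2, ← Finset.sum_add_distrib]
    apply Finset.sum_le_sum
    intro j _
    rw [← hsplit j, mul_comm (s j)]
    exact hseg j
  rw [hQ0] at hfin
  simp_rw [hpsi] at hfin
  exact hfin

theorem edge_sum {m : ℕ} (d s₁ s₂ : Fin (m + 1) → ℝ) (hd : ∀ l, 0 ≤ d l)
    (h₁ : ∀ i, 0 < s₁ i) (h₂ : ∀ i, 0 < s₂ i) (c : ℝ)
    (τ : Fin (m + 1) → ℝ) (hτ : ∀ j, τ j = ∑ l ∈ Finset.Iic j, d l)
    {T' : ℝ} (hT' : 0 < T') (r : ℝ → ℝ) (hrc : ContinuousOn r (Ioo (-T') T'))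
    (hrb : ∃ C, ∀ t ∈ Ioo (-T') T', |r t| ≤ C)
    (u₁ u₂ : Fin (m + 1) → ℝ)
    (hu₁ : ∀ j, ∀ t ∈ Ioo (-T') T', r t + τ j * t ≤ u₁ j)
    (hu₂ : ∀ j, ∀ t ∈ Ioo (-T') T', r t - τ j * t ≤ u₂ j)
    (Z z' : ℝ → ℝ) (hZc : ContinuousOn Z (Icc (-T') T')) (hZo : ∀ t ∈ Icc (-T') T', Z (-t) = - Z t)
    (hZT : Z T' = hm s₁ s₂) (hZm : StrictMonoOn Z (Icc (-T') T'))
    (hZd : ∀ t ∈ Ioo (-T') T', HasDerivAt Z (z' t) t)
    (hz'c : ContinuousOn z' (Ioo (-T') T')) (hz'pos : ∀ t ∈ Ioo (-T') T', 0 ≤ z' t)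
    (hz'e : ∀ t ∈ Ioo (-T') T', z' (-t) = z' t) (hz'b : ∃ C, ∀ t ∈ Ioo (-T') T', |z' t| ≤ C) :
    2 * ∫ t in (0 : ℝ)..T', ((r t + r (-t)) / 2 * z' t + (Fs d s₁ s₂ c (hm s₁ s₂ - Z t) - c)) ≤
      ∑ j, (s₁ j * u₁ j + s₂ j * u₂ j) := by
  set M := hm s₁ s₂ with hM
  have hTm : T' ∈ Icc (-T') T' := ⟨by linarith, le_rfl⟩
  have hmT : -T' ∈ Icc (-T') T' := ⟨le_rfl, by linarith⟩
  have h0m : (0 : ℝ) ∈ Icc (-T') T' := ⟨by linarith, hT'.le⟩
  have hZmT : Z (-T') = -M := by rw [hZo T' hTm, hZT]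
  have hM2 : (∑ i, s₁ i) + ∑ i, s₂ i = 2 * M := by
    rw [hM, hm, Finset.sum_add_distrib]
    ring
  have hS₁ : 0 < ∑ i, s₁ i := Finset.sum_pos (fun i _ => h₁ i) ⟨0, by simp⟩
  have hS₂ : 0 < ∑ i, s₂ i := Finset.sum_pos (fun i _ => h₂ i) ⟨0, by simp⟩
  -- the common starting point
  obtain ⟨q₀, hq₀, hZq₀⟩ : ∃ q ∈ Icc (-T') T', Z q = M - tail s₁ 0 := by
    have hmem : M - tail s₁ 0 ∈ Icc (Z (-T')) (Z T') := by
      rw [hZmT, hZT, es_tail_zero]
      constructor <;> linarith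
    obtain ⟨q, hq, hZq⟩ := intermediate_value_Icc (by linarith) hZc hmem
    exact ⟨q, hq, hZq⟩
  have hq₀' : -q₀ ∈ Icc (-T') T' := ⟨by linarith [hq₀.2], by linarith [hq₀.1]⟩
  have hZq₀' : Z (-q₀) = M - tail s₂ 0 := by
    rw [hZo q₀ hq₀, hZq₀, es_tail_zero, es_tail_zero]
    linarith
  -- the reflected function
  have hr'c : ContinuousOn (fun t => r (-t)) (Ioo (-T') T') := by
    apply hrc.comp continuousOn_neg
    intro t ht
    exact ⟨by linarith [ht.2], by linarith [ht.1]⟩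
  have hr'b : ∃ C, ∀ t ∈ Ioo (-T') T', |(fun t => r (-t)) t| ≤ C := by
    obtain ⟨C, hC⟩ := hrb
    exact ⟨C, fun t ht => hC (-t) ⟨by linarith [ht.2], by linarith [ht.1]⟩⟩
  have hF1 := es_family d s₁ h₁ τ hτ hT' r hrc hrb u₁ hu₁ (by linarith) Z z' hZc hZo hZT hZm hZd
    hz'c hz'pos hz'b hq₀ hZq₀
  have hF2 := es_family d s₂ h₂ τ hτ hT' (fun t => r (-t)) hr'c hr'b u₂
    (by
      intro j t ht
      have := hu₂ j (-t) ⟨by linarith [ht.2], by linarith [ht.1]⟩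
      linarith)
    (by linarith) Z z' hZc hZo hZT hZm hZd hz'c hz'pos hz'b hq₀' hZq₀'
  -- integrals of `r z'`
  set g : ℝ → ℝ := fun t => r t * z' t with hg
  have hgi : ∀ {a b : ℝ}, a ∈ Icc (-T') T' → b ∈ Icc (-T') T' → IntervalIntegrable g volume a b :=
    fun ha hb => es_ii_mul hrc hrb hz'c hz'b ha hb
  have hneg : ∀ {a b : ℝ}, a ∈ Icc (-T') T' → b ∈ Icc (-T') T' → a ≤ b →
      ∫ t in a..b, r (-t) * z' t = ∫ t in (-b)..(-a), g t := by
    intro a b ha hb hab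
    rw [← intervalIntegral.integral_comp_neg (fun t => g t)]
    apply es_congr hab
    intro t ht
    have ht' : t ∈ Ioo (-T') T' := ⟨lt_of_le_of_lt ha.1 ht.1, lt_of_lt_of_le ht.2 hb.2⟩
    simp only [hg]
    rw [hz'e t ht']
  have hr1 : ∫ t in (-q₀)..T', r (-t) * z' t = ∫ t in (-T')..q₀, g t := by
    rw [hneg hq₀' hTm hq₀'.2, neg_neg]
  have hr2 : ∫ t in (0 : ℝ)..T', r (-t) * z' t = ∫ t in (-T')..0, g t := by
    rw [hneg h0m hTm hT'.le, neg_zero]
  have hr3 : ∫ t in (0 : ℝ)..T', (r t + r (-t)) * z' t =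
      (∫ t in q₀..T', g t) + ∫ t in (-q₀)..T', r (-t) * z' t := by
    have h1 : ∫ t in (0 : ℝ)..T', (r t + r (-t)) * z' t =
        (∫ t in (0 : ℝ)..T', g t) + ∫ t in (0 : ℝ)..T', r (-t) * z' t := by
      rw [← intervalIntegral.integral_add (hgi h0m hTm)
        (es_ii_mul hr'c hr'b hz'c hz'b h0m hTm)]
      congr 1
      ext t
      simp only [hg]
      ring
    rw [h1, hr1, hr2]
    have h2 := intervalIntegral.integral_add_adjacent_intervals (hgi hmT h0m) (hgi h0m hTm)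
    have h3 := intervalIntegral.integral_add_adjacent_intervals (hgi hmT hq₀) (hgi hq₀ hTm)
    linarith
  -- integrals of the `Fs` part
  have hFs : ∀ t, Fs d s₁ s₂ c (M - Z t) - c =
      (1 / 2) * ∑ l, d l * (min (M - Z t) (mu M (tail s₁ l)) + min (M - Z t) (mu M (tail s₂ l))) := by
    intro t
    simp only [Fs, ← hM]
    ring
  have hIi : ∀ l, IntervalIntegrable
      (fun t => d l * (min (M - Z t) (mu M (tail s₁ l)) + min (M - Z t) (mu M (tail s₂ l))))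
      volume 0 T' := fun l =>
    ((es_cont_min hZc hT' _).add (es_cont_min hZc hT' _)).const_mul _
  have hB : ∫ t in (0 : ℝ)..T', (Fs d s₁ s₂ c (M - Z t) - c) =
      (1 / 2) * ((∑ l, d l * ∫ t in (0 : ℝ)..T', min (M - Z t) (mu M (tail s₁ l))) +
        ∑ l, d l * ∫ t in (0 : ℝ)..T', min (M - Z t) (mu M (tail s₂ l))) := by
    simp_rw [hFs]
    rw [intervalIntegral.integral_const_mul, intervalIntegral.integral_finsetSum
      (fun l _ => hIi l), ← Finset.sum_add_distrib]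
    congr 1
    apply Finset.sum_congr rfl
    intro l _
    rw [intervalIntegral.integral_const_mul, intervalIntegral.integral_add
      (es_cont_min hZc hT' _) (es_cont_min hZc hT' _)]
    ring
  have hAi : IntervalIntegrable (fun t => (r t + r (-t)) / 2 * z' t) volume 0 T' :=
    es_ii_mul (r := fun t => (r t + r (-t)) / 2) ((hrc.add hr'c).div_const 2)
      (by
        obtain ⟨C, hC⟩ := hrb
        refine ⟨(C + C) / 2, fun t ht => ?_⟩
        have h1 := hC t ht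
        have h2 := hC (-t) ⟨by linarith [ht.2], by linarith [ht.1]⟩
        rw [abs_div, abs_of_pos (by norm_num : (0 : ℝ) < 2)]
        have h3 := abs_add_le (r t) (r (-t))
        linarith)
      hz'c hz'b h0m hTm
  have hBi : IntervalIntegrable (fun t => Fs d s₁ s₂ c (M - Z t) - c) volume 0 T' := by
    simp_rw [hFs]
    apply IntervalIntegrable.const_mul
    have hsum := IntervalIntegrable.sum Finset.univ (fun l _ => hIi l)
    have e : (fun t => ∑ l, d l * (min (M - Z t) (mu M (tail s₁ l)) +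
        min (M - Z t) (mu M (tail s₂ l)))) = ∑ l, fun t => d l * (min (M - Z t) (mu M (tail s₁ l)) +
        min (M - Z t) (mu M (tail s₂ l))) := by
      funext t
      rw [Finset.sum_apply]
    rw [e]
    exact hsum
  rw [intervalIntegral.integral_add hAi hBi, hB, Finset.sum_add_distrib]
  have hA : ∫ t in (0 : ℝ)..T', (r t + r (-t)) / 2 * z' t =
      (1 / 2) * ∫ t in (0 : ℝ)..T', (r t + r (-t)) * z' t := by
    rw [← intervalIntegral.integral_const_mul]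
    congr 1
    ext t
    ring
  rw [hA, hr3]
  simp only [hg] at *
  have e1 : ∑ j, s₁ j * u₁ j = ∑ j, s₁ j * u₁ j := rfl
  linarith

end Vale.Agent.Lib.P227Z
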