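import Vale.Agent.Lib.P227H.Transport
import Vale.Agent.Lib.P227H.EdgeSum

/-! # JOB H5: Minkowski's first inequality against the body with prescribed masses

Apply `exists_transport` with `w t = ω t ^ a`, `ω t = (r t + r (-t)) / 2`, `g z = (Fs d s₁ s₂ c (max (M - |z|) 0)) ^ (1/a)`
(`g ≥ c ^ (1/a)`, continuous, even). `∫_0^M g = Js a d s₁ s₂ c` (substitute `m = M - z`).
Apply `edge_sum` with `z' t = w t * J / (G * g (Z t))`. For `t ∈ (0, T')`, put `y = g (Z t)`, so `y ^ a = Fs .. (M - Z t)`,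
and `κ = G / J`. Then `ω z' + y ^ a = ω^(a+1) / (κ y) + y ^ a ≥ (a + 1) (a κ)^(-a/(a+1)) ω ^ a` by AM-GM with `a` copies of
`ω^(a+1) / (a κ y)` and one `y ^ a`. Integrating over `(0, T')`, `∫_0^{T'} [ω z' + y ^ a] ≥ (a+1) a^(-a/(a+1)) G^(1/(a+1)) J^(a/(a+1))`,
and `∫_{-T'}^{T'} ω ^ a = 2 G`. With `S = ∑ ... + 2 c T'` we get `S ≥ 2 (a+1) a^(-a/(a+1)) G^(1/(a+1)) J^(a/(a+1))`,
i.e. `2 G (2 J / a) ^ a ≤ (S / (a + 1)) ^ (a + 1)`. The term `-c` in `edge_sum` integrates to `- c T'` which cancels `2 c T'`.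
-/

open MeasureTheory Set

namespace Vale.Agent.Lib.P227Z

/-- Bernoulli form of AM-GM. -/
private theorem mj_amgm_x (a : ℕ) {x : ℝ} (hx : 0 < x) :
    (a : ℝ) + 1 ≤ (a : ℝ) / x + x ^ a := by
  have h := one_add_mul_le_pow (a := x - 1) (by linarith : (-2 : ℝ) ≤ x - 1) (a + 1)
  have h2 : (1 : ℝ) + (x - 1) = x := by ring
  rw [h2] at h
  have h3 : ((a : ℝ) + 1) * x ≤ (a : ℝ) + x ^ (a + 1) := by
    push_cast at h
    nlinarith
  have h4 : ((a : ℝ) / x + x ^ a) * x = (a : ℝ) + x ^ (a + 1) := by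
    field_simp
    ring
  have : ((a : ℝ) + 1) * x ≤ ((a : ℝ) / x + x ^ a) * x := by rw [h4]; exact h3
  exact le_of_mul_le_mul_right this hx

private theorem mj_pointwise (a : ℕ) {ω v y κ : ℝ} (hω : 0 < ω) (hv : 0 < v) (hy : 0 < y)
    (hκ : κ = (a : ℝ) * v ^ (a + 1)) :
    ((a : ℝ) + 1) * v ^ a * ω ^ a ≤ ω * (ω ^ a * κ / y) + y ^ a := by
  set x := y / (ω * v) with hx
  have hxpos : 0 < x := by positivity
  have hyx : y = x * (ω * v) := by rw [hx]; field_simp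
  have h1 := mj_amgm_x a hxpos
  have h2 : ω * (ω ^ a * κ / y) + y ^ a = ((a : ℝ) / x + x ^ a) * (ω * v) ^ a := by
    rw [hκ, hyx]
    field_simp
    ring
  rw [h2]
  have h3 : ((a : ℝ) + 1) * v ^ a * ω ^ a = ((a : ℝ) + 1) * (ω * v) ^ a := by
    rw [mul_pow]; ring
  rw [h3]
  exact mul_le_mul_of_nonneg_right h1 (by positivity)

private theorem mj_ii {f : ℝ → ℝ} {u v : ℝ} (huv : u ≤ v) (hc : ContinuousOn f (Ioo u v))
    (hb : ∃ C, ∀ t ∈ Ioo u v, |f t| ≤ C) : IntervalIntegrable f volume u v := by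
  rw [intervalIntegrable_iff_integrableOn_Ioo_of_le huv]
  obtain ⟨C, hC⟩ := hb
  refine Integrable.mono' (integrable_const C) (hc.aestronglyMeasurable measurableSet_Ioo) ?_
  rw [ae_restrict_iff' measurableSet_Ioo]
  exact Filter.Eventually.of_forall fun t ht => by simpa using hC t ht

private theorem mj_tail_nonneg {n : ℕ} {s : Fin n → ℝ} (hs : ∀ i, 0 < s i) (l : Fin n) :
    0 ≤ tail s l := Finset.sum_nonneg fun i _ => (hs i).le

private theorem mj_tail_le_sum {n : ℕ} {s : Fin n → ℝ} (hs : ∀ i, 0 < s i) (l : Fin n) :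
    tail s l ≤ ∑ i, s i :=
  Finset.sum_le_sum_of_subset_of_nonneg (Finset.subset_univ _) fun i _ _ => (hs i).le

private theorem mj_sum_pos {m : ℕ} {s : Fin (m + 1) → ℝ} (hs : ∀ i, 0 < s i) : 0 < ∑ i, s i :=
  Finset.sum_pos (fun i _ => hs i) Finset.univ_nonempty

private theorem mj_hm_pos {m : ℕ} {s₁ s₂ : Fin (m + 1) → ℝ} (h₁ : ∀ i, 0 < s₁ i) (h₂ : ∀ i, 0 < s₂ i) :
    0 < hm s₁ s₂ := by
  unfold hm
  rw [Finset.sum_add_distrib]
  have := mj_sum_pos h₁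
  have := mj_sum_pos h₂
  positivity

private theorem mj_hm_eq {m : ℕ} (s₁ s₂ : Fin (m + 1) → ℝ) :
    2 * hm s₁ s₂ = ∑ i, s₁ i + ∑ i, s₂ i := by
  unfold hm
  rw [Finset.sum_add_distrib]
  ring

private theorem mj_mu_nonneg₁ {m : ℕ} {s₁ s₂ : Fin (m + 1) → ℝ} (h₁ : ∀ i, 0 < s₁ i) (h₂ : ∀ i, 0 < s₂ i)
    (l : Fin (m + 1)) : 0 ≤ mu (hm s₁ s₂) (tail s₁ l) := by
  unfold mu
  apply le_min (mj_tail_nonneg h₁ l)
  have := mj_tail_le_sum h₁ l
  have := mj_hm_eq s₁ s₂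
  have := mj_sum_pos h₂
  linarith

private theorem mj_mu_nonneg₂ {m : ℕ} {s₁ s₂ : Fin (m + 1) → ℝ} (h₁ : ∀ i, 0 < s₁ i) (h₂ : ∀ i, 0 < s₂ i)
    (l : Fin (m + 1)) : 0 ≤ mu (hm s₁ s₂) (tail s₂ l) := by
  unfold mu
  apply le_min (mj_tail_nonneg h₂ l)
  have := mj_tail_le_sum h₂ l
  have := mj_hm_eq s₁ s₂
  have := mj_sum_pos h₁
  linarith

private theorem mj_Fs_ge {m : ℕ} {d s₁ s₂ : Fin (m + 1) → ℝ} (hd : ∀ l, 0 ≤ d l)
    (h₁ : ∀ i, 0 < s₁ i) (h₂ : ∀ i, 0 < s₂ i) (c : ℝ) {x : ℝ} (hx : 0 ≤ x) :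
    c ≤ Fs d s₁ s₂ c x := by
  unfold Fs
  have : 0 ≤ ∑ l, d l * (min x (mu (hm s₁ s₂) (tail s₁ l)) + min x (mu (hm s₁ s₂) (tail s₂ l))) := by
    refine Finset.sum_nonneg fun l _ => mul_nonneg (hd l) ?_
    have := le_min hx (mj_mu_nonneg₁ h₁ h₂ l)
    have := le_min hx (mj_mu_nonneg₂ h₁ h₂ l)
    linarith
  linarith

private theorem mj_Fs_cont {n : ℕ} (d s₁ s₂ : Fin n → ℝ) (c : ℝ) : Continuous (Fs d s₁ s₂ c) := by
  unfold Fs
  fun_prop

/-- Positivity of the functional (used by the planar claim). -/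
theorem mj_Js_pos {m : ℕ} (a : ℕ) (d s₁ s₂ : Fin (m + 1) → ℝ) (hd : ∀ l, 0 ≤ d l)
    (h₁ : ∀ i, 0 < s₁ i) (h₂ : ∀ i, 0 < s₂ i) {c : ℝ} (hc : 0 < c) : 0 < Js a d s₁ s₂ c := by
  unfold Js
  apply intervalIntegral.intervalIntegral_pos_of_pos_on
  · apply ContinuousOn.intervalIntegrable
    apply ContinuousOn.rpow_const (mj_Fs_cont d s₁ s₂ c).continuousOn
    intro x hx
    rw [uIcc_of_le (mj_hm_pos h₁ h₂).le] at hx
    left
    exact ne_of_gt (lt_of_lt_of_le hc (mj_Fs_ge hd h₁ h₂ c hx.1))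
  · intro x hx
    exact Real.rpow_pos_of_pos (lt_of_lt_of_le hc (mj_Fs_ge hd h₁ h₂ c hx.1.le)) _
  · exact mj_hm_pos h₁ h₂

theorem minkowski_Js {m : ℕ} (a : ℕ) (ha : 1 ≤ a) (d s₁ s₂ : Fin (m + 1) → ℝ) (hd : ∀ l, 0 ≤ d l)
    (h₁ : ∀ i, 0 < s₁ i) (h₂ : ∀ i, 0 < s₂ i) {c : ℝ} (hc : 0 < c)
    (τ : Fin (m + 1) → ℝ) (hτ : ∀ j, τ j = ∑ l ∈ Finset.Iic j, d l)
    {T' : ℝ} (hT' : 0 < T') (r : ℝ → ℝ) (hrc : ContinuousOn r (Ioo (-T') T'))
    (hrb : ∃ C, ∀ t ∈ Ioo (-T') T', |r t| ≤ C)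
    (hω : ∀ t ∈ Ioo (-T') T', 0 < (r t + r (-t)) / 2)
    (u₁ u₂ : Fin (m + 1) → ℝ)
    (hu₁ : ∀ j, ∀ t ∈ Ioo (-T') T', r t + τ j * t ≤ u₁ j)
    (hu₂ : ∀ j, ∀ t ∈ Ioo (-T') T', r t - τ j * t ≤ u₂ j) :
    (∫ t in (-T')..T', ((r t + r (-t)) / 2) ^ a) * ((2 / (a : ℝ)) * Js a d s₁ s₂ c) ^ a ≤
      ((∑ j, (s₁ j * u₁ j + s₂ j * u₂ j) + 2 * c * T') / ((a : ℝ) + 1)) ^ (a + 1) := by
  have ha0 : a ≠ 0 := by omega
  have haR : (0 : ℝ) < a := by exact_mod_cast ha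
  set M := hm s₁ s₂ with hM
  have hMpos : 0 < M := mj_hm_pos h₁ h₂
  -- the even density
  set ω : ℝ → ℝ := fun t => (r t + r (-t)) / 2 with hωdef
  have hneg : ∀ t ∈ Ioo (-T') T', -t ∈ Ioo (-T') T' := fun t ht => ⟨by linarith [ht.2], by linarith [ht.1]⟩
  have hωeven : ∀ t, ω (-t) = ω t := fun t => by simp [hωdef, add_comm]
  have hωc : ContinuousOn ω (Ioo (-T') T') := by
    have h2 : ContinuousOn (fun t => r (-t)) (Ioo (-T') T') :=
      hrc.comp continuous_neg.continuousOn hneg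
    exact (hrc.add h2).div_const 2
  obtain ⟨C₀, hC₀⟩ := hrb
  have hωb : ∀ t ∈ Ioo (-T') T', |ω t| ≤ C₀ := by
    intro t ht
    have h1 := hC₀ t ht
    have h2 := hC₀ (-t) (hneg t ht)
    simp only [hωdef]
    rw [abs_le] at *
    constructor <;> linarith [h1.1, h1.2, h2.1, h2.2]
  set w : ℝ → ℝ := fun t => ω t ^ a with hw
  have hweven : ∀ t, w (-t) = w t := fun t => by simp only [hw, hωeven]
  have hwc : ContinuousOn w (Ioo (-T') T') := hωc.pow a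
  have hwpos : ∀ t ∈ Ioo (-T') T', 0 < w t := fun t ht => pow_pos (hω t ht) a
  have hwb : ∀ t ∈ Ioo (-T') T', |w t| ≤ C₀ ^ a := by
    intro t ht
    simp only [hw, abs_pow]
    exact pow_le_pow_left₀ (abs_nonneg _) (hωb t ht) a
  -- the function g
  set g : ℝ → ℝ := fun z => (Fs d s₁ s₂ c (max (M - |z|) 0)) ^ ((1 : ℝ) / (a : ℝ)) with hg
  have hFsge : ∀ z : ℝ, c ≤ Fs d s₁ s₂ c (max (M - |z|) 0) := fun z =>
    mj_Fs_ge hd h₁ h₂ c (le_max_right _ _)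
  have hgcont : Continuous g := by
    refine Continuous.rpow_const ?_ ?_
    · exact (mj_Fs_cont d s₁ s₂ c).comp (by fun_prop)
    · intro z
      left
      exact ne_of_gt (lt_of_lt_of_le hc (hFsge z))
  have hgeven : ∀ z, g (-z) = g z := fun z => by simp only [hg, abs_neg]
  set g₀ : ℝ := c ^ ((1 : ℝ) / (a : ℝ)) with hg₀
  have hg₀pos : 0 < g₀ := Real.rpow_pos_of_pos hc _
  have hgge : ∀ z, g₀ ≤ g z := fun z =>
    Real.rpow_le_rpow hc.le (hFsge z) (by positivity)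
  -- the transport map
  obtain ⟨Z, hZc, hZo, hZT, hZm, hZd⟩ := exists_transport hT' hMpos w g hweven hwc hwpos
    ⟨C₀ ^ a, hwb⟩ hgcont hgeven hg₀pos hgge
  -- J
  set J := Js a d s₁ s₂ c with hJ
  have hJeq : (∫ z in (0 : ℝ)..M, g z) = J := by
    have h1 : (∫ z in (0 : ℝ)..M, g z) = ∫ z in (0 : ℝ)..M, (Fs d s₁ s₂ c (M - z)) ^ ((1 : ℝ) / (a : ℝ)) := by
      apply intervalIntegral.integral_congr
      intro z hz
      rw [uIcc_of_le hMpos.le] at hz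
      simp only [hg]
      rw [abs_of_nonneg hz.1, max_eq_left (by linarith [hz.2])]
    rw [h1]
    have h2 := intervalIntegral.integral_comp_sub_left
      (a := (0 : ℝ)) (b := M) (fun x => (Fs d s₁ s₂ c x) ^ ((1 : ℝ) / (a : ℝ))) M
    rw [h2]
    simp [hJ, Js, hM]
  have hFsM : ∀ x, 0 ≤ x → 0 < Fs d s₁ s₂ c x := fun x hx => lt_of_lt_of_le hc (mj_Fs_ge hd h₁ h₂ c hx)
  have hJpos : 0 < J := by
    rw [← hJeq]
    apply intervalIntegral.intervalIntegral_pos_of_pos_on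
    · exact hgcont.intervalIntegrable _ _
    · intro x _
      exact lt_of_lt_of_le hg₀pos (hgge x)
    · exact hMpos
  -- G
  have hwii : ∀ u v, -T' ≤ u → u ≤ v → v ≤ T' → IntervalIntegrable w volume u v := by
    intro u v hu huv hv
    apply mj_ii huv
    · exact hwc.mono (Ioo_subset_Ioo hu hv)
    · exact ⟨C₀ ^ a, fun t ht => hwb t ⟨by linarith [ht.1], by linarith [ht.2]⟩⟩
  set G := ∫ s in (0 : ℝ)..T', w s with hG
  have hGpos : 0 < G := by
    apply intervalIntegral.intervalIntegral_pos_of_pos_on (hwii 0 T' (by linarith) hT'.le le_rfl)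
    · intro x hx
      exact hwpos x ⟨by linarith [hx.1], hx.2⟩
    · exact hT'
  have hwhole : (∫ t in (-T')..T', w t) = 2 * G := by
    have h1 : (∫ t in (-T')..(0 : ℝ), w t) = G := by
      have h2 := intervalIntegral.integral_comp_neg (a := -T') (b := (0 : ℝ)) w
      simp only [neg_zero, neg_neg] at h2
      have h3 : (∫ t in (-T')..(0 : ℝ), w t) = ∫ t in (-T')..(0 : ℝ), w (-t) := by
        apply intervalIntegral.integral_congr
        intro t _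
        exact (hweven t).symm
      rw [h3, h2]
    rw [← intervalIntegral.integral_add_adjacent_intervals
      (hwii (-T') 0 le_rfl (by linarith) hT'.le) (hwii 0 T' (by linarith) hT'.le le_rfl), h1]
    ring
  -- the derivative of Z
  set z' : ℝ → ℝ := fun t => w t * (∫ z in (0 : ℝ)..M, g z) / ((∫ s in (0 : ℝ)..T', w s) * g (Z t)) with hz'
  have hz'J : ∀ t, z' t = w t * J / (G * g (Z t)) := fun t => by simp only [hz', hJeq]; rfl
  have hgpos : ∀ z, 0 < g z := fun z => lt_of_lt_of_le hg₀pos (hgge z)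
  have hioo : Ioo (-T') T' ⊆ Icc (-T') T' := Ioo_subset_Icc_self
  have hz'c : ContinuousOn z' (Ioo (-T') T') := by
    have h1 : ContinuousOn (fun t => g (Z t)) (Ioo (-T') T') :=
      hgcont.comp_continuousOn (hZc.mono hioo)
    have : z' = fun t => w t * J / (G * g (Z t)) := funext hz'J
    rw [this]
    refine (hwc.mul continuousOn_const).div (continuousOn_const.mul h1) ?_
    intro t _
    exact (mul_pos hGpos (hgpos _)).ne'
  have hz'pos : ∀ t ∈ Ioo (-T') T', 0 ≤ z' t := by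
    intro t ht
    rw [hz'J]
    have := hwpos t ht
    have := hgpos (Z t)
    positivity
  have hz'e : ∀ t ∈ Ioo (-T') T', z' (-t) = z' t := by
    intro t ht
    rw [hz'J, hz'J, hweven, hZo t (hioo ht), hgeven]
  have hz'b : ∃ C, ∀ t ∈ Ioo (-T') T', |z' t| ≤ C := by
    refine ⟨C₀ ^ a * J / (G * g₀), fun t ht => ?_⟩
    rw [hz'J, abs_div, abs_mul, abs_of_pos hJpos, abs_of_pos (mul_pos hGpos (hgpos _))]
    apply div_le_div₀
    · have := abs_nonneg (w t)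
      have : 0 ≤ C₀ ^ a := le_trans this (hwb t ht)
      positivity
    · exact mul_le_mul_of_nonneg_right (hwb t ht) hJpos.le
    · positivity
    · exact mul_le_mul_of_nonneg_left (hgge _) hGpos.le
  have hedge := edge_sum d s₁ s₂ hd h₁ h₂ c τ hτ hT' r hrc ⟨C₀, hC₀⟩ u₁ u₂ hu₁ hu₂ Z z' hZc hZo
    hZT hZm hZd hz'c hz'pos hz'e hz'b
  -- the number v
  set v : ℝ := (J / ((a : ℝ) * G)) ^ (((a + 1 : ℕ) : ℝ)⁻¹) with hv
  have hquot : 0 < J / ((a : ℝ) * G) := by positivity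
  have hvpos : 0 < v := Real.rpow_pos_of_pos hquot _
  have hvpow : v ^ (a + 1) = J / ((a : ℝ) * G) :=
    Real.rpow_inv_natCast_pow hquot.le (by omega)
  have hκ : J / G = (a : ℝ) * v ^ (a + 1) := by
    rw [hvpow]
    field_simp
  -- the facts on Z at positive times
  have hZ0 : Z 0 = 0 := by
    have := hZo 0 ⟨by linarith, hT'.le⟩
    simp only [neg_zero] at this
    linarith
  have hZrange : ∀ t ∈ Ioo (0 : ℝ) T', 0 < Z t ∧ Z t < M := by
    intro t ht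
    have h0 : (0 : ℝ) ∈ Icc (-T') T' := ⟨by linarith, hT'.le⟩
    have ht' : t ∈ Icc (-T') T' := ⟨by linarith [ht.1], ht.2.le⟩
    have hT'' : T' ∈ Icc (-T') T' := ⟨by linarith, le_rfl⟩
    have h1 := hZm h0 ht' ht.1
    have h2 := hZm ht' hT'' ht.2
    rw [hZ0] at h1
    rw [hZT] at h2
    exact ⟨h1, h2⟩
  have hsub0 : Ioo (0 : ℝ) T' ⊆ Ioo (-T') T' := fun t ht => ⟨by linarith [ht.1], ht.2⟩
  -- the pointwise inequality
  have hpt : ∀ t ∈ Ioo (0 : ℝ) T',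
      ((a : ℝ) + 1) * v ^ a * w t - c ≤ ω t * z' t + (Fs d s₁ s₂ c (hm s₁ s₂ - Z t) - c) := by
    intro t ht
    obtain ⟨hZ1, hZ2⟩ := hZrange t ht
    have hy : g (Z t) ^ a = Fs d s₁ s₂ c (hm s₁ s₂ - Z t) := by
      simp only [hg]
      rw [abs_of_pos hZ1, max_eq_left (by linarith), one_div]
      exact Real.rpow_inv_natCast_pow (hFsM _ (by linarith)).le ha0
    have hz : z' t = ω t ^ a * (J / G) / g (Z t) := by
      rw [hz'J]
      simp only [hw]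
      have := hgpos (Z t)
      field_simp
    have hmain : ((a : ℝ) + 1) * v ^ a * ω t ^ a ≤ ω t * (ω t ^ a * (J / G) / g (Z t)) + g (Z t) ^ a :=
      mj_pointwise a (hω t (hsub0 ht)) hvpos (hgpos (Z t)) hκ
    rw [hz, ← hy]
    simp only [hw]
    linarith
  -- the integral inequality
  have hFsZc : ContinuousOn (fun t => Fs d s₁ s₂ c (hm s₁ s₂ - Z t)) (Icc (-T') T') :=
    (mj_Fs_cont d s₁ s₂ c).comp_continuousOn (continuousOn_const.sub hZc)
  have hleft : IntervalIntegrable (fun t => ((a : ℝ) + 1) * v ^ a * w t - c) volume 0 T' :=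
    ((hwii 0 T' (by linarith) hT'.le le_rfl).const_mul _).sub intervalIntegrable_const
  have hright : IntervalIntegrable (fun t => ω t * z' t + (Fs d s₁ s₂ c (hm s₁ s₂ - Z t) - c))
      volume 0 T' := by
    apply mj_ii hT'.le
    · refine ContinuousOn.add (ContinuousOn.mul (hωc.mono hsub0) (hz'c.mono hsub0)) ?_
      exact (hFsZc.mono (fun t ht => hioo (hsub0 ht))).sub continuousOn_const
    · obtain ⟨Cz, hCz⟩ := hz'b
      obtain ⟨CF, hCF⟩ := (isCompact_Icc (a := -T') (b := T')).exists_bound_of_continuousOn hFsZc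
      refine ⟨C₀ * Cz + (CF + |c|), fun t ht => ?_⟩
      have h1 := hωb t (hsub0 ht)
      have h2 := hCz t (hsub0 ht)
      have h3 := hCF t (hioo (hsub0 ht))
      rw [Real.norm_eq_abs] at h3
      calc |ω t * z' t + (Fs d s₁ s₂ c (hm s₁ s₂ - Z t) - c)|
          ≤ |ω t * z' t| + |Fs d s₁ s₂ c (hm s₁ s₂ - Z t) - c| := abs_add_le _ _
        _ ≤ |ω t| * |z' t| + (|Fs d s₁ s₂ c (hm s₁ s₂ - Z t)| + |c|) := by
            rw [abs_mul]
            have := abs_sub (Fs d s₁ s₂ c (hm s₁ s₂ - Z t)) c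
            linarith
        _ ≤ C₀ * Cz + (CF + |c|) := by
            have := mul_le_mul h1 h2 (abs_nonneg _) (le_trans (abs_nonneg _) h1)
            linarith
  have hint : ∫ t in (0 : ℝ)..T', (((a : ℝ) + 1) * v ^ a * w t - c) ≤
      ∫ t in (0 : ℝ)..T', (ω t * z' t + (Fs d s₁ s₂ c (hm s₁ s₂ - Z t) - c)) := by
    apply intervalIntegral.integral_mono_on_of_le_Ioo hT'.le hleft hright hpt
  have hlefteq : ∫ t in (0 : ℝ)..T', (((a : ℝ) + 1) * v ^ a * w t - c) =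
      ((a : ℝ) + 1) * v ^ a * G - c * T' := by
    rw [intervalIntegral.integral_sub ((hwii 0 T' (by linarith) hT'.le le_rfl).const_mul _)
      intervalIntegrable_const, intervalIntegral.integral_const_mul]
    simp only [intervalIntegral.integral_const, sub_zero, smul_eq_mul]
    ring
  -- final algebra
  set S := ∑ j, (s₁ j * u₁ j + s₂ j * u₂ j) + 2 * c * T' with hS
  have hSge : 2 * (((a : ℝ) + 1) * v ^ a * G) ≤ S := by
    have hedge' : 2 * ∫ t in (0 : ℝ)..T', (ω t * z' t + (Fs d s₁ s₂ c (hm s₁ s₂ - Z t) - c)) ≤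
        ∑ j, (s₁ j * u₁ j + s₂ j * u₂ j) := hedge
    rw [hlefteq] at hint
    simp only [hS]
    linarith
  have hSge2 : 2 * v ^ a * G ≤ S / ((a : ℝ) + 1) := by
    rw [le_div_iff₀ (by positivity)]
    linarith
  have hfin := pow_le_pow_left₀ (by positivity) hSge2 (a + 1)
  have heq : (2 * G) * ((2 / (a : ℝ)) * J) ^ a = (2 * v ^ a * G) ^ (a + 1) := by
    have h1 : (2 * v ^ a * G) ^ (a + 1) = 2 ^ (a + 1) * (v ^ (a + 1)) ^ a * G ^ (a + 1) := by
      rw [mul_pow, mul_pow, ← pow_mul, ← pow_mul, mul_comm a (a + 1)]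
    rw [h1, hvpow, div_pow, mul_pow, mul_pow, div_pow, pow_succ (2 : ℝ), pow_succ G]
    field_simp
  calc (∫ t in (-T')..T', ((r t + r (-t)) / 2) ^ a) * ((2 / (a : ℝ)) * Js a d s₁ s₂ c) ^ a
      = (2 * G) * ((2 / (a : ℝ)) * J) ^ a := by rw [← hwhole]
    _ = (2 * v ^ a * G) ^ (a + 1) := heq
    _ ≤ (S / ((a : ℝ) + 1)) ^ (a + 1) := hfin

end Vale.Agent.Lib.P227Z
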