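import Vale.Agent.Lib.P227H.UAbs

/-! # JOB H7: the tangent inequality for `Js` at a polygonal profile; basic facts on `Poly`

Piecewise functions on `[0, T]`: on edge `j` (`t ∈ [tk j.castSucc, tk j.succ)`): `ρ t = line j t`, `τ̂ t = τ j`, `lam̂ t = lam j`.
`ρ t ^ a = ρT ^ a + ∫_t^T τ̂ a ρ^(a-1)` by FTC on each edge. `ρ t + t τ̂ t = α j` on edge `j`.
`U_abs` gives the inequality in `t`-form. To pass to `Js`: with `Y t = ∫_t^T lam̂ a ρ^(a-1)`, one has `Y (tk l.castSucc) = tail s̄ l`,
where `s̄ = lam * s0`, `Y 0 = hm s̄ s̄`, and `c̄ + ∫_t^T τ̂ lam̂ a ρ^(a-1) = Fs d s̄ s̄ c̄ (Y t)` (write `τ j = ∑_{l ≤ j} d l`, Abel; note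
`Fs d s̄ s̄ c̄ m = c̄ + ∑ l, d l * min m (tail s̄ l)`). So `Js a d s̄ s̄ c̄ = ∫_0^{Y 0} F̄ ^(1/a) dm = ∫_0^T F̄(Y t)^(1/a) lam̂ t a ρ^(a-1) dt`
(substitution on each edge).
-/

open MeasureTheory Set

namespace Vale.Agent.Lib.P227Z

namespace Poly

variable {m : ℕ} (D : Poly m)

theorem T_pos : 0 < D.T := by
  unfold T
  have h := D.tk_mono (Fin.last_pos : (0 : Fin (m + 2)) < Fin.last (m + 1))
  rw [D.tk_zero] at h
  exact h

theorem α_pos (j : Fin (m + 1)) : 0 < D.α j := by
  have h1 := D.last_pos j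
  have h2 := D.τ_pos j
  have h3 := D.T_pos
  unfold T at h3
  have h4 := mul_pos h2 h3
  linarith

theorem ρT_pos : 0 < D.ρT := by
  unfold ρT line T
  exact D.last_pos _

/-- Every line is positive on `[0, T]`. -/
theorem line_pos (j : Fin (m + 1)) {t : ℝ} (ht : t ≤ D.T) : 0 < D.line j t := by
  unfold line
  have h1 := D.last_pos j
  have h2 := mul_le_mul_of_nonneg_left ht (D.τ_pos j).le
  unfold T at h2
  linarith

theorem d_nonneg (l : Fin (m + 1)) : 0 ≤ D.d l := by
  unfold d
  split_ifs with h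
  · exact (D.τ_pos 0).le
  · have h1 : l - 1 < l := Fin.sub_one_lt_iff.mpr (Fin.pos_of_ne_zero h)
    have h2 := D.τ_mono h1
    linarith

theorem τ_eq_sum_d (j : Fin (m + 1)) : D.τ j = ∑ l ∈ Finset.Iic j, D.d l := by
  obtain ⟨k, hk⟩ := j
  induction k with
  | zero =>
    have e : Finset.Iic (⟨0, hk⟩ : Fin (m + 1)) = {0} := by
      ext x
      simp only [Finset.mem_Iic, Finset.mem_singleton, Fin.le_def, Fin.ext_iff]
      simp
    rw [e, Finset.sum_singleton]
    simp [d]
  | succ k ih =>
    have hk' : k < m + 1 := by omega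
    have e : Finset.Iic (⟨k + 1, hk⟩ : Fin (m + 1)) =
        insert (⟨k + 1, hk⟩ : Fin (m + 1)) (Finset.Iic (⟨k, hk'⟩ : Fin (m + 1))) := by
      ext x
      simp only [Finset.mem_Iic, Finset.mem_insert, Fin.le_def, Fin.ext_iff]
      omega
    have hn : (⟨k + 1, hk⟩ : Fin (m + 1)) ∉ Finset.Iic (⟨k, hk'⟩ : Fin (m + 1)) := by
      simp only [Finset.mem_Iic, Fin.le_def]
      omega
    rw [e, Finset.sum_insert hn, ← ih hk']
    have hne : (⟨k + 1, hk⟩ : Fin (m + 1)) ≠ 0 := by
      intro h
      have := congrArg Fin.val h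
      simp at this
    have hsub : (⟨k + 1, hk⟩ : Fin (m + 1)) - 1 = ⟨k, hk'⟩ := by
      apply Fin.ext
      rw [Fin.val_sub_one_of_ne_zero hne]
      simp
    unfold d
    rw [if_neg hne, hsub]
    ring

theorem tk_le_T (i : Fin (m + 2)) : D.tk i ≤ D.T := D.tk_mono.monotone (Fin.le_last i)

theorem tk_nonneg (i : Fin (m + 2)) : 0 ≤ D.tk i := by
  rw [← D.tk_zero]
  exact D.tk_mono.monotone (Fin.zero_le i)

theorem tk_lt (j : Fin (m + 1)) : D.tk j.castSucc < D.tk j.succ :=
  D.tk_mono Fin.castSucc_lt_succ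

theorem continuous_line (j : Fin (m + 1)) : Continuous (D.line j) := by
  unfold line
  fun_prop

theorem s0_pos (a : ℕ) (ha : 1 ≤ a) (j : Fin (m + 1)) : 0 < D.s0 a j := by
  unfold s0
  have ha' : (0 : ℝ) < a := by exact_mod_cast ha
  refine mul_pos ha' ?_
  have hc := D.continuous_line j
  refine intervalIntegral.intervalIntegral_pos_of_pos_on
    (Continuous.intervalIntegrable (by fun_prop) _ _) ?_ (D.tk_lt j)
  intro x hx
  exact pow_pos (D.line_pos j (hx.2.le.trans (D.tk_le_T _))) _

theorem vol2_pos (a : ℕ) : 0 < D.vol2 a := by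
  unfold vol2
  refine mul_pos (by norm_num) ?_
  refine Finset.sum_pos (fun j _ => ?_) Finset.univ_nonempty
  have hc := D.continuous_line j
  refine intervalIntegral.intervalIntegral_pos_of_pos_on
    (Continuous.intervalIntegrable (by fun_prop) _ _) ?_ (D.tk_lt j)
  intro x hx
  exact pow_pos (D.line_pos j (hx.2.le.trans (D.tk_le_T _))) _

/-! ### Piecewise data -/

/-- The lower envelope of the lines. -/
noncomputable def rh (t : ℝ) : ℝ := Finset.univ.inf' Finset.univ_nonempty fun j => D.line j t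

theorem continuous_rh : Continuous D.rh := by
  unfold rh
  exact Continuous.finset_inf'_apply Finset.univ_nonempty fun j _ => D.continuous_line j

theorem rh_eq (j : Fin (m + 1)) {t : ℝ} (ht : t ∈ Icc (D.tk j.castSucc) (D.tk j.succ)) :
    D.rh t = D.line j t := by
  apply le_antisymm
  · exact Finset.inf'_le _ (Finset.mem_univ j)
  · exact Finset.le_inf' _ _ fun l _ => D.env j l t ht

theorem rh_T : D.rh D.T = D.ρT := by
  have h := D.rh_eq (Fin.last m) (t := D.T) ⟨D.tk_le_T _, le_of_eq rfl⟩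
  rw [h]
  rfl

theorem exists_edge {t : ℝ} (h0 : 0 < t) (hT : t ≤ D.T) :
    ∃ j : Fin (m + 1), t ∈ Ioc (D.tk j.castSucc) (D.tk j.succ) := by
  -- the smallest knot that is at least `t`
  have hex : ∃ i : Fin (m + 2), t ≤ D.tk i := ⟨Fin.last _, hT⟩
  classical
  let S := Finset.univ.filter fun i : Fin (m + 2) => t ≤ D.tk i
  have hS : S.Nonempty := by
    obtain ⟨i, hi⟩ := hex
    exact ⟨i, by simp [S, hi]⟩
  let i := S.min' hS
  have hi : t ≤ D.tk i := by
    have := S.min'_mem hS
    simpa [S] using this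
  have hi0 : i ≠ 0 := by
    intro h
    rw [h, D.tk_zero] at hi
    linarith
  obtain ⟨j, hj⟩ := Fin.exists_succ_eq.mpr hi0
  refine ⟨j, ?_, ?_⟩
  · by_contra hcon
    have hle : t ≤ D.tk j.castSucc := not_lt.mp hcon
    have hmem : j.castSucc ∈ S := by simp [S, hle]
    have := S.min'_le _ hmem
    have h2 : i ≤ j.castSucc := this
    rw [← hj] at h2
    exact absurd (Fin.castSucc_lt_succ (i := j)) (not_lt.mpr h2)
  · rw [hj]
    exact hi

/-- The edge containing `t`. -/
noncomputable def edge (t : ℝ) : Fin (m + 1) := by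
  classical
  exact if h : ∃ j : Fin (m + 1), t ∈ Ioc (D.tk j.castSucc) (D.tk j.succ) then h.choose else 0

theorem edge_unique {t : ℝ} {j l : Fin (m + 1)} (hj : t ∈ Ioc (D.tk j.castSucc) (D.tk j.succ))
    (hl : t ∈ Ioc (D.tk l.castSucc) (D.tk l.succ)) : j = l := by
  by_contra hne
  rcases lt_or_gt_of_ne hne with h | h
  · have h1 : j.succ ≤ l.castSucc := Fin.succ_le_castSucc_iff.mpr h
    have h2 := D.tk_mono.monotone h1
    linarith [hj.2, hl.1]
  · have h1 : l.succ ≤ j.castSucc := Fin.succ_le_castSucc_iff.mpr h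
    have h2 := D.tk_mono.monotone h1
    linarith [hj.1, hl.2]

theorem edge_eq {t : ℝ} {j : Fin (m + 1)} (hj : t ∈ Ioc (D.tk j.castSucc) (D.tk j.succ)) :
    D.edge t = j := by
  unfold edge
  have h : ∃ j : Fin (m + 1), t ∈ Ioc (D.tk j.castSucc) (D.tk j.succ) := ⟨j, hj⟩
  rw [dif_pos h]
  exact D.edge_unique h.choose_spec hj

theorem edge_mem {t : ℝ} (h0 : 0 < t) (hT : t ≤ D.T) :
    t ∈ Ioc (D.tk (D.edge t).castSucc) (D.tk (D.edge t).succ) := by
  obtain ⟨j, hj⟩ := D.exists_edge h0 hT
  rw [D.edge_eq hj]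
  exact hj

theorem measurable_edge : Measurable D.edge := by
  refine measurable_to_countable' fun j => ?_
  by_cases hj : j = 0
  · have e : D.edge ⁻¹' {j} = (⋃ l : Fin (m + 1), ⋃ _ : l ≠ 0, Ioc (D.tk l.castSucc) (D.tk l.succ))ᶜ := by
      ext t
      simp only [mem_preimage, mem_singleton_iff, mem_compl_iff, mem_iUnion, not_exists]
      constructor
      · intro h l hl ht
        rw [D.edge_eq ht] at h
        exact hl (h.trans hj)
      · intro h
        by_cases hex : ∃ l : Fin (m + 1), t ∈ Ioc (D.tk l.castSucc) (D.tk l.succ)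
        · obtain ⟨l, hl⟩ := hex
          rw [D.edge_eq hl, hj]
          by_contra hne
          exact h l hne hl
        · unfold edge
          rw [dif_neg hex, hj]
    rw [e]
    refine MeasurableSet.compl ?_
    exact MeasurableSet.iUnion fun l => MeasurableSet.iUnion fun _ => measurableSet_Ioc
  · have e : D.edge ⁻¹' {j} = Ioc (D.tk j.castSucc) (D.tk j.succ) := by
      ext t
      simp only [mem_preimage, mem_singleton_iff]
      constructor
      · intro h
        by_cases hex : ∃ l : Fin (m + 1), t ∈ Ioc (D.tk l.castSucc) (D.tk l.succ)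
        · obtain ⟨l, hl⟩ := hex
          rw [D.edge_eq hl] at h
          rw [← h]
          exact hl
        · unfold edge at h
          rw [dif_neg hex] at h
          exact absurd h.symm hj
      · exact D.edge_eq
    rw [e]
    exact measurableSet_Ioc

theorem measurable_pc (c : Fin (m + 1) → ℝ) : Measurable fun t => c (D.edge t) :=
  (measurable_from_top (f := c)).comp D.measurable_edge

theorem intervalIntegrable_pc_mul (c : Fin (m + 1) → ℝ) {f : ℝ → ℝ} (hf : Continuous f) (u v : ℝ) :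
    IntervalIntegrable (fun t => c (D.edge t) * f t) volume u v := by
  have hb : ∃ C, ∀ t, |c (D.edge t)| ≤ C :=
    ⟨∑ j, |c j|, fun t => Finset.single_le_sum (f := fun j => |c j|)
      (fun j _ => abs_nonneg _) (Finset.mem_univ _)⟩
  obtain ⟨C, hC⟩ := hb
  have h1 : IntervalIntegrable (fun t => c (D.edge t)) volume u v := by
    rw [intervalIntegrable_iff]
    refine Measure.integrableOn_of_bounded (M := C) (by simp) ?_ ?_
    · exact (D.measurable_pc c).aestronglyMeasurable
    · exact Filter.Eventually.of_forall fun t => by simpa [Real.norm_eq_abs] using hC t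
  exact h1.mul_continuousOn hf.continuousOn

/-- Congruence on an edge. -/
theorem integral_edge_congr (j : Fin (m + 1)) {f g : ℝ → ℝ}
    (h : ∀ t ∈ Ioc (D.tk j.castSucc) (D.tk j.succ), f t = g t) :
    ∫ t in D.tk j.castSucc..D.tk j.succ, f t = ∫ t in D.tk j.castSucc..D.tk j.succ, g t := by
  rw [intervalIntegral.integral_of_le (D.tk_lt j).le, intervalIntegral.integral_of_le (D.tk_lt j).le]
  exact setIntegral_congr_fun measurableSet_Ioc h

/-- Adding up the integrals over the edges above `l`. -/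
theorem integral_tail {f : ℝ → ℝ} (hf : ∀ u v, IntervalIntegrable f volume u v) (l : Fin (m + 1)) :
    ∫ t in D.tk l.castSucc..D.T, f t =
      ∑ i ∈ Finset.Ici l, ∫ t in D.tk i.castSucc..D.tk i.succ, f t := by
  induction l using Fin.reverseInduction with
  | last =>
    have e : Finset.Ici (Fin.last m) = {Fin.last m} := by
      ext x
      simp [Fin.last_le_iff]
    rw [e, Finset.sum_singleton]
    rfl
  | cast i ih =>
    have e : Finset.Ici i.castSucc = insert i.castSucc (Finset.Ici i.succ) := by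
      ext x
      simp only [Finset.mem_Ici, Finset.mem_insert, Fin.le_def, Fin.ext_iff, Fin.val_castSucc,
        Fin.val_succ]
      omega
    have hn : i.castSucc ∉ Finset.Ici i.succ := by
      simp only [Finset.mem_Ici, Fin.le_def, Fin.val_castSucc, Fin.val_succ]
      omega
    rw [e, Finset.sum_insert hn, ← ih]
    have e2 : (i.castSucc).succ = (i.succ).castSucc := rfl
    rw [e2, intervalIntegral.integral_add_adjacent_intervals (hf _ _) (hf _ _)]

theorem integral_all {f : ℝ → ℝ} (hf : ∀ u v, IntervalIntegrable f volume u v) :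
    ∫ t in (0 : ℝ)..D.T, f t = ∑ i : Fin (m + 1), ∫ t in D.tk i.castSucc..D.tk i.succ, f t := by
  have h := D.integral_tail hf 0
  have e : Finset.Ici (0 : Fin (m + 1)) = Finset.univ := by
    ext x
    simp
  rw [e] at h
  have e2 : (0 : Fin (m + 1)).castSucc = 0 := rfl
  rw [e2, D.tk_zero] at h
  exact h

/-! ### Fundamental theorem off the knots -/

theorem countable_knots : (Set.range D.tk).Countable := (Set.finite_range _).countable

theorem mem_Ioo_edge {x : ℝ} (h0 : 0 < x) (hT : x ≤ D.T) (hk : x ∉ Set.range D.tk) :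
    x ∈ Ioo (D.tk (D.edge x).castSucc) (D.tk (D.edge x).succ) := by
  have h := D.edge_mem h0 hT
  refine ⟨h.1, lt_of_le_of_ne h.2 ?_⟩
  intro he
  exact hk ⟨_, he.symm⟩

theorem rh_eventuallyEq (j : Fin (m + 1)) {x : ℝ} (hx : x ∈ Ioo (D.tk j.castSucc) (D.tk j.succ)) :
    D.rh =ᶠ[nhds x] D.line j := by
  filter_upwards [Ioo_mem_nhds hx.1 hx.2] with y hy using D.rh_eq j ⟨hy.1.le, hy.2.le⟩

theorem hasDerivAt_line (j : Fin (m + 1)) (x : ℝ) : HasDerivAt (D.line j) (-D.τ j) x := by
  unfold line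
  have h := ((hasDerivAt_id x).const_mul (D.τ j)).const_sub (D.α j)
  simpa using h

/-- The derivative of the envelope off the knots. -/
theorem hasDerivAt_rh {x : ℝ} (h0 : 0 < x) (hT : x ≤ D.T) (hk : x ∉ Set.range D.tk) :
    HasDerivAt D.rh (-D.τ (D.edge x)) x :=
  (D.hasDerivAt_line (D.edge x) x).congr_of_eventuallyEq
    (D.rh_eventuallyEq (D.edge x) (D.mem_Ioo_edge h0 hT hk))

theorem rh_pos {t : ℝ} (ht : t ≤ D.T) : 0 < D.rh t := by
  unfold rh
  rw [Finset.lt_inf'_iff]
  exact fun j _ => D.line_pos j ht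

/-- The fundamental theorem for `ρ ^ a`. -/
theorem rh_pow_eq (a : ℕ) {t : ℝ} (ht : t ∈ Icc 0 D.T) :
    D.rh t ^ a = D.ρT ^ a + ∫ s in t..D.T, D.τ (D.edge s) * ((a : ℝ) * D.rh s ^ (a - 1)) := by
  have hc := D.continuous_rh
  have h := MeasureTheory.integral_eq_of_hasDerivAt_off_countable_of_le
    (fun s => D.rh s ^ a) (fun s => -(D.τ (D.edge s) * ((a : ℝ) * D.rh s ^ (a - 1)))) ht.2
    D.countable_knots (hc.pow a).continuousOn
    (fun x hx => by
      have h0 : 0 < x := ht.1.trans_lt hx.1.1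
      have h1 := (D.hasDerivAt_rh h0 hx.1.2.le hx.2).pow a
      have e : -(D.τ (D.edge x) * ((a : ℝ) * D.rh x ^ (a - 1))) =
          (a : ℝ) * D.rh x ^ (a - 1) * -D.τ (D.edge x) := by ring
      simp only [e]
      exact h1)
    (by
      refine IntervalIntegrable.neg ?_
      exact D.intervalIntegrable_pc_mul D.τ (by fun_prop) _ _)
  rw [intervalIntegral.integral_neg, D.rh_T] at h
  linarith

/-- Edgewise computation of the cone integral. -/
theorem integral_cone (a : ℕ) (ha : 1 ≤ a) (c : Fin (m + 1) → ℝ) :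
    ∫ t in (0 : ℝ)..D.T, c (D.edge t) * ((D.rh t + t * D.τ (D.edge t)) * ((a : ℝ) * D.rh t ^ (a - 1))) =
      ∑ j, c j * (D.α j * D.s0 a j) := by
  have hc := D.continuous_rh
  have hi : ∀ u v, IntervalIntegrable
      (fun t => c (D.edge t) * ((D.rh t + t * D.τ (D.edge t)) * ((a : ℝ) * D.rh t ^ (a - 1))))
      volume u v := by
    intro u v
    have h1 := D.intervalIntegrable_pc_mul c (f := fun t => D.rh t * ((a : ℝ) * D.rh t ^ (a - 1)))
      (by fun_prop) u v
    have h2 := D.intervalIntegrable_pc_mul (fun j => c j * D.τ j)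
      (f := fun t => t * ((a : ℝ) * D.rh t ^ (a - 1))) (by fun_prop) u v
    refine (h1.add h2).congr fun t _ => ?_
    ring
  rw [D.integral_all hi]
  refine Finset.sum_congr rfl fun j _ => ?_
  have hcg : ∀ t ∈ Ioc (D.tk j.castSucc) (D.tk j.succ),
      c (D.edge t) * ((D.rh t + t * D.τ (D.edge t)) * ((a : ℝ) * D.rh t ^ (a - 1))) =
        c j * D.α j * (a : ℝ) * D.line j t ^ (a - 1) := by
    intro t ht
    rw [D.edge_eq ht, D.rh_eq j ⟨ht.1.le, ht.2⟩]
    unfold line
    ring
  rw [D.integral_edge_congr j hcg, intervalIntegral.integral_const_mul]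
  unfold s0
  ring

/-- The volume integral. -/
theorem integral_vol (a : ℕ) : ∫ t in (0 : ℝ)..D.T, (a : ℝ) * D.rh t ^ a = (a : ℝ) * D.vol2 a / 2 := by
  have hc := D.continuous_rh
  have hi : ∀ u v, IntervalIntegrable (fun t => (a : ℝ) * D.rh t ^ a) volume u v :=
    fun u v => Continuous.intervalIntegrable (by fun_prop) _ _
  rw [D.integral_all hi]
  unfold vol2
  have e : ∀ j : Fin (m + 1), ∫ t in D.tk j.castSucc..D.tk j.succ, (a : ℝ) * D.rh t ^ a =
      (a : ℝ) * ∫ t in D.tk j.castSucc..D.tk j.succ, D.line j t ^ a := by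
    intro j
    rw [D.integral_edge_congr j (g := fun t => (a : ℝ) * D.line j t ^ a)
      (fun t ht => by rw [D.rh_eq j ⟨ht.1.le, ht.2⟩]), intervalIntegral.integral_const_mul]
  simp_rw [e]
  rw [← Finset.mul_sum]
  ring

/-- The identity `∑_j α_j s0_j + T ρT^a = (a + 1) V / 2`. -/
theorem sum_cone (a : ℕ) (ha : 1 ≤ a) :
    (∑ j, D.α j * D.s0 a j) + D.T * D.ρT ^ a = ((a : ℝ) + 1) * D.vol2 a / 2 := by
  have hc := D.continuous_rh
  have h1 := D.integral_cone a ha (fun _ => 1)
  simp only [one_mul] at h1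
  have hT := D.T_pos
  have h2 := MeasureTheory.integral_eq_of_hasDerivAt_off_countable_of_le
    (fun s => s * D.rh s ^ a)
    (fun s => D.rh s ^ a + s * (-(D.τ (D.edge s) * ((a : ℝ) * D.rh s ^ (a - 1))))) hT.le
    D.countable_knots (by fun_prop)
    (fun x hx => by
      have h0 : 0 < x := hx.1.1
      have h3 := (D.hasDerivAt_rh h0 hx.1.2.le hx.2).pow a
      have h4 := (hasDerivAt_id' x).mul h3
      have e : D.rh x ^ a + x * -(D.τ (D.edge x) * ((a : ℝ) * D.rh x ^ (a - 1))) =
          1 * D.rh x ^ a + x * ((a : ℝ) * D.rh x ^ (a - 1) * -D.τ (D.edge x)) := by ring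
      simp only [e]
      exact h4)
    (by
      refine IntervalIntegrable.add (Continuous.intervalIntegrable (by fun_prop) _ _) ?_
      refine (D.intervalIntegrable_pc_mul (fun j => -D.τ j)
        (f := fun t => t * ((a : ℝ) * D.rh t ^ (a - 1))) (by fun_prop) _ _).congr fun t _ => ?_
      ring)
  -- split the cone integral
  have hvol := D.integral_vol a
  have hsplit : ∫ t in (0 : ℝ)..D.T,
      (D.rh t + t * D.τ (D.edge t)) * ((a : ℝ) * D.rh t ^ (a - 1)) =
        ∫ t in (0 : ℝ)..D.T, ((a : ℝ) + 1) * D.rh t ^ a -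
          (D.rh t ^ a + t * (-(D.τ (D.edge t) * ((a : ℝ) * D.rh t ^ (a - 1))))) := by
    refine intervalIntegral.integral_congr fun t _ => ?_
    have e : D.rh t ^ a = D.rh t * D.rh t ^ (a - 1) := by
      rw [← pow_succ', Nat.sub_add_cancel ha]
    rw [e]
    ring
  have hi1 : IntervalIntegrable (fun t => ((a : ℝ) + 1) * D.rh t ^ a) volume 0 D.T :=
    Continuous.intervalIntegrable (by fun_prop) _ _
  have hi2 : IntervalIntegrable
      (fun t => D.rh t ^ a + t * (-(D.τ (D.edge t) * ((a : ℝ) * D.rh t ^ (a - 1))))) volume 0 D.T := by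
    refine IntervalIntegrable.add (Continuous.intervalIntegrable (by fun_prop) _ _) ?_
    refine (D.intervalIntegrable_pc_mul (fun j => -D.τ j)
      (f := fun t => t * ((a : ℝ) * D.rh t ^ (a - 1))) (by fun_prop) _ _).congr fun t _ => ?_
    ring
  rw [hsplit, intervalIntegral.integral_sub hi1 hi2, h2, intervalIntegral.integral_const_mul] at h1
  have hvol2 : ∫ t in (0 : ℝ)..D.T, D.rh t ^ a = D.vol2 a / 2 := by
    unfold vol2
    have hi : ∀ u v, IntervalIntegrable (fun t => D.rh t ^ a) volume u v :=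
      fun u v => Continuous.intervalIntegrable (by fun_prop) _ _
    rw [D.integral_all hi]
    have e : ∀ j : Fin (m + 1), ∫ t in D.tk j.castSucc..D.tk j.succ, D.rh t ^ a =
        ∫ t in D.tk j.castSucc..D.tk j.succ, D.line j t ^ a := fun j =>
      D.integral_edge_congr j (fun t ht => by rw [D.rh_eq j ⟨ht.1.le, ht.2⟩])
    simp_rw [e]
    ring
  rw [hvol2, D.rh_T] at h1
  simp only [zero_mul, sub_zero] at h1
  have : ((a : ℝ) + 1) * (D.vol2 a / 2) - D.T * D.ρT ^ a = ∑ j, D.α j * D.s0 a j := h1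
  linarith

/-! ### The substitution -/

section subst

variable (a : ℕ) (lam : Fin (m + 1) → ℝ)

/-- The density of the mass. -/
noncomputable def wh (t : ℝ) : ℝ := lam (D.edge t) * ((a : ℝ) * D.rh t ^ (a - 1))

theorem wh_integrable (u v : ℝ) : IntervalIntegrable (D.wh a lam) volume u v := by
  have hc := D.continuous_rh
  exact D.intervalIntegrable_pc_mul lam (by fun_prop) u v

theorem measurable_wh : Measurable (D.wh a lam) := by
  have hc := D.continuous_rh
  exact (D.measurable_pc lam).mul (Continuous.measurable (by fun_prop))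

/-- The mass above `t`. -/
noncomputable def Yh (t : ℝ) : ℝ := ∫ s in t..D.T, D.wh a lam s

theorem continuous_Yh : Continuous (D.Yh a lam) := by
  have h := intervalIntegral.continuous_primitive (μ := volume) (D.wh_integrable a lam) D.T
  have e : D.Yh a lam = fun t => -∫ s in D.T..t, D.wh a lam s := by
    funext t
    unfold Yh
    rw [intervalIntegral.integral_symm]
  rw [e]
  exact h.neg

theorem integral_wh_edge (j : Fin (m + 1)) :
    ∫ t in D.tk j.castSucc..D.tk j.succ, D.wh a lam t = lam j * D.s0 a j := by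
  rw [D.integral_edge_congr j (g := fun t => lam j * ((a : ℝ) * D.line j t ^ (a - 1)))
    (fun t ht => by unfold wh; rw [D.edge_eq ht, D.rh_eq j ⟨ht.1.le, ht.2⟩]),
    intervalIntegral.integral_const_mul, intervalIntegral.integral_const_mul]
  rfl

theorem Yh_tk (l : Fin (m + 1)) :
    D.Yh a lam (D.tk l.castSucc) = tail (fun j => lam j * D.s0 a j) l := by
  unfold Yh tail
  rw [D.integral_tail (D.wh_integrable a lam)]
  exact Finset.sum_congr rfl fun i _ => D.integral_wh_edge a lam i

theorem Yh_zero :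
    D.Yh a lam 0 = hm (fun j => lam j * D.s0 a j) (fun j => lam j * D.s0 a j) := by
  unfold Yh hm
  rw [D.integral_all (D.wh_integrable a lam)]
  simp_rw [D.integral_wh_edge a lam]
  simp only [Finset.sum_add_distrib]
  ring

theorem wh_nonneg (hlam : ∀ j, 0 < lam j) {t : ℝ} (ht : t ≤ D.T) : 0 ≤ D.wh a lam t := by
  unfold wh
  have h1 := hlam (D.edge t)
  have h2 := D.rh_pos ht
  positivity

theorem Yh_anti (hlam : ∀ j, 0 < lam j) {t t' : ℝ} (htt : t ≤ t') (ht' : t' ≤ D.T) :
    D.Yh a lam t' ≤ D.Yh a lam t := by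
  unfold Yh
  have h := intervalIntegral.integral_add_adjacent_intervals
    (D.wh_integrable a lam t t') (D.wh_integrable a lam t' D.T)
  have h0 : 0 ≤ ∫ s in t..t', D.wh a lam s :=
    intervalIntegral.integral_nonneg htt fun u hu => D.wh_nonneg a lam hlam (hu.2.trans ht')
  linarith

/-- The truncated mass as an integral. -/
theorem min_Yh (hlam : ∀ j, 0 < lam j) {t : ℝ} (ht : t ≤ D.T) (l : Fin (m + 1)) :
    min (D.Yh a lam t) (D.Yh a lam (D.tk l.castSucc)) =
      ∫ s in t..D.T, (if D.tk l.castSucc < s then (1 : ℝ) else 0) * D.wh a lam s := by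
  have hind : ∀ u v, IntervalIntegrable
      (fun s => (if D.tk l.castSucc < s then (1 : ℝ) else 0) * D.wh a lam s) volume u v := by
    intro u v
    refine (D.wh_integrable a lam u v).mono_fun ?_ ?_
    · refine Measurable.aestronglyMeasurable (Measurable.mul ?_ (D.measurable_wh a lam))
      exact Measurable.ite measurableSet_Ioi measurable_const measurable_const
    · refine Filter.Eventually.of_forall fun s => ?_
      by_cases h : D.tk l.castSucc < s <;> simp [h]
  rcases le_total t (D.tk l.castSucc) with h | h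
  · rw [min_eq_right (D.Yh_anti a lam hlam h (D.tk_le_T _)),
      ← intervalIntegral.integral_add_adjacent_intervals (hind t _) (hind _ D.T)]
    have h1 : ∫ s in t..D.tk l.castSucc, (if D.tk l.castSucc < s then (1 : ℝ) else 0) * D.wh a lam s = 0 := by
      rw [intervalIntegral.integral_of_le h]
      have : ∀ s ∈ Ioc t (D.tk l.castSucc),
          (if D.tk l.castSucc < s then (1 : ℝ) else 0) * D.wh a lam s = 0 := by
        intro s hs
        rw [if_neg (not_lt.mpr hs.2), zero_mul]
      rw [setIntegral_congr_fun measurableSet_Ioc this]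
      simp
    have h2 : ∫ s in D.tk l.castSucc..D.T, (if D.tk l.castSucc < s then (1 : ℝ) else 0) * D.wh a lam s =
        D.Yh a lam (D.tk l.castSucc) := by
      unfold Yh
      rw [intervalIntegral.integral_of_le (D.tk_le_T _), intervalIntegral.integral_of_le (D.tk_le_T _)]
      refine setIntegral_congr_fun measurableSet_Ioc fun s hs => ?_
      rw [if_pos hs.1, one_mul]
    rw [h1, h2, zero_add]
  · rw [min_eq_left (D.Yh_anti a lam hlam h ht)]
    unfold Yh
    rw [intervalIntegral.integral_of_le ht, intervalIntegral.integral_of_le ht]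
    refine setIntegral_congr_fun measurableSet_Ioc fun s hs => ?_
    rw [if_pos (h.trans_lt hs.1), one_mul]

/-- Abel summation for the slopes. -/
theorem sum_d_ite {s : ℝ} (h0 : 0 < s) (hT : s ≤ D.T) :
    ∑ l, D.d l * (if D.tk (Fin.castSucc l) < s then (1 : ℝ) else 0) = D.τ (D.edge s) := by
  rw [D.τ_eq_sum_d]
  have hj := D.edge_mem h0 hT
  have e : ∀ l : Fin (m + 1), D.d l * (if D.tk (Fin.castSucc l) < s then (1 : ℝ) else 0) =
      if l ∈ Finset.Iic (D.edge s) then D.d l else 0 := by
    intro l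
    by_cases hl : l ≤ D.edge s
    · have h1 : D.tk l.castSucc < s :=
        (D.tk_mono.monotone (Fin.castSucc_le_castSucc_iff.mpr hl)).trans_lt hj.1
      rw [if_pos h1, if_pos (Finset.mem_Iic.mpr hl), mul_one]
    · have h2 : D.edge s < l := not_le.mp hl
      have h1 : ¬ D.tk l.castSucc < s := by
        have h3 : (D.edge s).succ ≤ l.castSucc := Fin.succ_le_castSucc_iff.mpr h2
        have h4 := D.tk_mono.monotone h3
        exact not_lt.mpr (hj.2.trans h4)
      rw [if_neg h1, if_neg (fun h => hl (Finset.mem_Iic.mp h)), mul_zero]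
  simp_rw [e]
  rw [Finset.sum_ite_mem]
  simp

/-- Abel summation for the function `F`. -/
theorem sum_d_min (hlam : ∀ j, 0 < lam j) {t : ℝ} (ht0 : 0 ≤ t) (ht : t ≤ D.T) :
    ∑ l, D.d l * min (D.Yh a lam t) (D.Yh a lam (D.tk (Fin.castSucc l))) =
      ∫ s in t..D.T, D.τ (D.edge s) * D.wh a lam s := by
  have hind : ∀ l : Fin (m + 1), IntervalIntegrable
      (fun s => D.d l * ((if D.tk l.castSucc < s then (1 : ℝ) else 0) * D.wh a lam s)) volume t D.T := by
    intro l
    refine IntervalIntegrable.const_mul ?_ _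
    refine (D.wh_integrable a lam t D.T).mono_fun ?_ ?_
    · refine Measurable.aestronglyMeasurable (Measurable.mul ?_ (D.measurable_wh a lam))
      exact Measurable.ite measurableSet_Ioi measurable_const measurable_const
    · refine Filter.Eventually.of_forall fun s => ?_
      by_cases h : D.tk l.castSucc < s <;> simp [h]
  simp_rw [D.min_Yh a lam hlam ht, ← intervalIntegral.integral_const_mul]
  rw [← intervalIntegral.integral_finsetSum fun l _ => hind l]
  rw [intervalIntegral.integral_of_le ht, intervalIntegral.integral_of_le ht]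
  refine setIntegral_congr_fun measurableSet_Ioc fun s hs => ?_
  have hs0 : 0 < s := ht0.trans_lt hs.1
  rw [← D.sum_d_ite hs0 hs.2, Finset.sum_mul]
  refine Finset.sum_congr rfl fun l _ => ?_
  ring

theorem tail_le_hm (hlam : ∀ j, 0 < lam j) (ha : 1 ≤ a) (l : Fin (m + 1)) :
    tail (fun j => lam j * D.s0 a j) l ≤
      hm (fun j => lam j * D.s0 a j) (fun j => lam j * D.s0 a j) := by
  have e : hm (fun j => lam j * D.s0 a j) (fun j => lam j * D.s0 a j) = ∑ j, lam j * D.s0 a j := by
    unfold hm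
    simp only [Finset.sum_add_distrib]
    ring
  rw [e]
  unfold tail
  exact Finset.sum_le_sum_of_subset_of_nonneg (Finset.subset_univ _)
    fun j _ _ => (mul_pos (hlam j) (D.s0_pos a ha j)).le

/-- The function `F` for symmetric masses. -/
theorem Fs_eq (hlam : ∀ j, 0 < lam j) (ha : 1 ≤ a) (c x : ℝ) :
    Fs D.d (fun j => lam j * D.s0 a j) (fun j => lam j * D.s0 a j) c x =
      c + ∑ l, D.d l * min x (tail (fun j => lam j * D.s0 a j) l) := by
  unfold Fs
  congr 1
  rw [Finset.mul_sum]
  refine Finset.sum_congr rfl fun l _ => ?_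
  have h := D.tail_le_hm a lam hlam ha l
  have hmu : mu (hm (fun j => lam j * D.s0 a j) (fun j => lam j * D.s0 a j))
      (tail (fun j => lam j * D.s0 a j) l) = tail (fun j => lam j * D.s0 a j) l := by
    unfold mu
    exact min_eq_left (by linarith)
  rw [hmu]
  ring

/-- The value of `F` along the mass. -/
theorem Fs_Yh (hlam : ∀ j, 0 < lam j) (ha : 1 ≤ a) (c : ℝ) {t : ℝ} (ht0 : 0 ≤ t) (ht : t ≤ D.T) :
    Fs D.d (fun j => lam j * D.s0 a j) (fun j => lam j * D.s0 a j) c (D.Yh a lam t) =
      c + ∫ s in t..D.T, D.τ (D.edge s) * D.wh a lam s := by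
  rw [D.Fs_eq a lam hlam ha, ← D.sum_d_min a lam hlam ht0 ht]
  congr 1
  refine Finset.sum_congr rfl fun l _ => ?_
  rw [D.Yh_tk]

theorem continuous_Fs (s : Fin (m + 1) → ℝ) (c : ℝ) : Continuous (Fs D.d s s c) := by
  unfold Fs
  refine continuous_const.add (continuous_const.mul (continuous_finsetSum _ fun l _ => ?_))
  exact continuous_const.mul ((continuous_id.min continuous_const).add
    (continuous_id.min continuous_const))

theorem wh_eventuallyEq (j : Fin (m + 1)) {x : ℝ} (hx : x ∈ Ioo (D.tk j.castSucc) (D.tk j.succ)) :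
    D.wh a lam =ᶠ[nhds x] fun t => lam j * ((a : ℝ) * D.line j t ^ (a - 1)) := by
  filter_upwards [Ioo_mem_nhds hx.1 hx.2] with y hy
  unfold wh
  rw [D.edge_eq ⟨hy.1, hy.2.le⟩, D.rh_eq j ⟨hy.1.le, hy.2.le⟩]

theorem hasDerivAt_Yh {x : ℝ} (h0 : 0 < x) (hT : x ≤ D.T) (hk : x ∉ Set.range D.tk) :
    HasDerivAt (D.Yh a lam) (-D.wh a lam x) x := by
  have hx := D.mem_Ioo_edge h0 hT hk
  have hcl := D.continuous_line (D.edge x)
  have hc : ContinuousAt (D.wh a lam) x := by
    have h1 : ContinuousAt (fun t => lam (D.edge x) * ((a : ℝ) * D.line (D.edge x) t ^ (a - 1))) x :=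
      Continuous.continuousAt (by fun_prop)
    exact h1.congr (D.wh_eventuallyEq a lam _ hx).symm
  exact intervalIntegral.integral_hasDerivAt_left (D.wh_integrable a lam x D.T)
    ((D.measurable_wh a lam).stronglyMeasurable.stronglyMeasurableAtFilter) hc

/-- The change of variables. -/
theorem integral_comp_Yh {g : ℝ → ℝ} (hg : Continuous g) :
    ∫ x in (0 : ℝ)..D.Yh a lam 0, g x = ∫ t in (0 : ℝ)..D.T, g (D.Yh a lam t) * D.wh a lam t := by
  have hT := D.T_pos
  have hYc := D.continuous_Yh a lam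
  have hrc := D.continuous_rh
  have hP : Continuous fun u => ∫ x in (0 : ℝ)..u, g x :=
    intervalIntegral.continuous_primitive (μ := volume) (fun u v => hg.intervalIntegrable u v) 0
  have h := MeasureTheory.integral_eq_of_hasDerivAt_off_countable_of_le
    (fun t => ∫ x in (0 : ℝ)..D.Yh a lam t, g x)
    (fun t => -(g (D.Yh a lam t) * D.wh a lam t)) hT.le
    D.countable_knots (hP.comp hYc).continuousOn
    (fun x hx => by
      have h1 := (hg.integral_hasStrictDerivAt 0 (D.Yh a lam x)).hasDerivAt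
      have h2 := D.hasDerivAt_Yh a lam hx.1.1 hx.1.2.le hx.2
      have h3 := h1.comp x h2
      have e : -(g (D.Yh a lam x) * D.wh a lam x) = g (D.Yh a lam x) * -D.wh a lam x := by ring
      simp only [e]
      exact h3)
    (by
      refine IntervalIntegrable.neg ?_
      refine (D.intervalIntegrable_pc_mul lam
        (f := fun t => g (D.Yh a lam t) * ((a : ℝ) * D.rh t ^ (a - 1))) (by fun_prop) _ _).congr
        fun t _ => ?_
      unfold wh
      ring)
  rw [intervalIntegral.integral_neg] at h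
  have hYT : D.Yh a lam D.T = 0 := by
    unfold Yh
    exact intervalIntegral.integral_same
  simp only [hYT, intervalIntegral.integral_same] at h
  linarith

/-- The substitution formula for `Js`. -/
theorem Js_subst (ha : 1 ≤ a) (hlam : ∀ j, 0 < lam j) (c : ℝ) :
    Js a D.d (fun j => lam j * D.s0 a j) (fun j => lam j * D.s0 a j) c =
      ∫ t in (0 : ℝ)..D.T, lam (D.edge t) *
        (c + ∫ s in t..D.T, D.τ (D.edge s) * lam (D.edge s) * ((a : ℝ) * D.rh s ^ (a - 1))) ^
          ((1 : ℝ) / (a : ℝ)) * ((a : ℝ) * D.rh t ^ (a - 1)) := by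
  have hcF := D.continuous_Fs (fun j => lam j * D.s0 a j) c
  have hg : Continuous fun x =>
      (Fs D.d (fun j => lam j * D.s0 a j) (fun j => lam j * D.s0 a j) c x) ^ ((1 : ℝ) / (a : ℝ)) :=
    hcF.rpow_const fun x => Or.inr (by positivity)
  unfold Js
  rw [← D.Yh_zero a lam, D.integral_comp_Yh a lam hg]
  have hT := D.T_pos
  refine intervalIntegral.integral_congr fun t ht => ?_
  rw [uIcc_of_le hT.le] at ht
  rw [D.Fs_Yh a lam hlam ha c ht.1 ht.2]
  have e : ∫ s in t..D.T, D.τ (D.edge s) * D.wh a lam s =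
      ∫ s in t..D.T, D.τ (D.edge s) * lam (D.edge s) * ((a : ℝ) * D.rh s ^ (a - 1)) := by
    refine intervalIntegral.integral_congr fun s _ => ?_
    unfold wh
    ring
  rw [e]
  unfold wh
  ring

end subst

/-- `J⁰ = a V / 2`. -/
theorem Js_s0 (a : ℕ) (ha : 1 ≤ a) :
    Js a D.d (D.s0 a) (D.s0 a) (D.ρT ^ a) = (a : ℝ) * D.vol2 a / 2 := by
  have h := D.Js_subst a (fun _ => 1) ha (fun _ => one_pos) (D.ρT ^ a)
  have e : (fun j => (1 : ℝ) * D.s0 a j) = D.s0 a := by
    funext j
    rw [one_mul]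
  rw [e] at h
  rw [h, ← D.integral_vol a]
  have hT := D.T_pos
  refine intervalIntegral.integral_congr fun t ht => ?_
  rw [uIcc_of_le hT.le] at ht
  simp only [one_mul, mul_one]
  rw [← D.rh_pow_eq a ht]
  have hpos := D.rh_pos ht.2
  have ha0 : a ≠ 0 := by omega
  have e2 : (D.rh t ^ a) ^ ((1 : ℝ) / (a : ℝ)) = D.rh t := by
    rw [one_div]
    exact Real.pow_rpow_inv_natCast hpos.le ha0
  rw [e2]
  have e3 : D.rh t ^ a = D.rh t * D.rh t ^ (a - 1) := by
    rw [← pow_succ', Nat.sub_add_cancel ha]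
  rw [e3]
  ring

/-- The tangent inequality at `s0` among the symmetric families. -/
theorem U (a : ℕ) (ha : 1 ≤ a) (lam : Fin (m + 1) → ℝ) (hlam : ∀ j, 0 < lam j) {lc : ℝ} (hlc : 0 < lc) :
    (∑ j, D.α j * D.s0 a j * Real.log (lam j)) + D.T * D.ρT ^ a * Real.log lc ≤
      ((a : ℝ) * D.vol2 a / 2) *
        Real.log (Js a D.d (fun j => lam j * D.s0 a j) (fun j => lam j * D.s0 a j) (lc * D.ρT ^ a) /
          ((a : ℝ) * D.vol2 a / 2)) := by
  have hT := D.T_pos
  have hl₀ : 0 < Finset.univ.inf' Finset.univ_nonempty lam := by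
    rw [Finset.lt_inf'_iff]
    exact fun j _ => hlam j
  have hU := U_abs hT a ha D.rh (fun t => D.τ (D.edge t)) (fun t => lam (D.edge t))
    D.continuous_rh.continuousOn (fun t ht => D.rh_pos ht.2)
    (D.measurable_pc D.τ) (fun t => (D.τ_pos _).le)
    (Cτ := D.τ (Fin.last m)) (fun t => D.τ_mono.monotone (Fin.le_last _))
    (D.measurable_pc lam) hl₀ (l₁ := Finset.univ.sup' Finset.univ_nonempty lam)
    (fun t => ⟨Finset.inf'_le _ (Finset.mem_univ _), Finset.le_sup' _ (Finset.mem_univ _)⟩)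
    (c0 := D.ρT ^ a) (lc := lc) (pow_pos D.ρT_pos a) hlc
    (fun t ht => D.rh_pow_eq a ht)
  have hA : ∫ t in (0 : ℝ)..D.T, Real.log (lam (D.edge t)) * (D.rh t + t * D.τ (D.edge t)) *
      ((a : ℝ) * D.rh t ^ (a - 1)) = ∑ j, D.α j * D.s0 a j * Real.log (lam j) := by
    have h := D.integral_cone a ha (fun j => Real.log (lam j))
    have e : ∑ j, D.α j * D.s0 a j * Real.log (lam j) =
        ∑ j, Real.log (lam j) * (D.α j * D.s0 a j) :=
      Finset.sum_congr rfl fun j _ => by ring
    rw [e, ← h]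
    refine intervalIntegral.integral_congr fun t _ => ?_
    ring
  rw [hA, D.integral_vol a, ← D.Js_subst a lam ha hlam (lc * D.ρT ^ a)] at hU
  exact hU

end Poly

end Vale.Agent.Lib.P227Z
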