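import Vale.Agent.Lib.P227H.JIneq
import Vale.Agent.Lib.P227H.MinkJ
import Vale.Agent.Lib.P227H.UPoly

/-! # JOB H8: the planar claim

Let `lam₁ j = α j / u₁ j`, `lam₂ j = α j / u₂ j`, `lc = T / T'`, `s₁ j = lam₁ j * s0 j`, `s₂ j = lam₂ j * s0 j`, `c = lc * ρT ^ a`,
`lam j = √(lam₁ j lam₂ j)`, so `√(s₁ j s₂ j) = lam j * s0 j`. `u₁ j, u₂ j ≥ r 0 > 0`.
`minkowski_Js`: `∑_j (s₁ j u₁ j + s₂ j u₂ j) + 2 c T' = 2 ∑_j α_j s0_j + 2 T ρT^a = (a+1) V` by `sum_cone`. So
`∫ ω^a * ((2/a) Js(s₁, s₂)) ^ a ≤ V ^ (a+1)`. `Js_sym_le`: `Js(s₁, s₂) ≥ Js(lam s0, lam s0)`.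
`Poly.U`: `(a V / 2) log (Js(lam s0, lam s0) / (a V / 2)) ≥ ∑_j α_j s0_j log lam j + T ρT^a log lc`.
With `w j = α_j s0_j / (a+1)`, `wc = T ρT^a / (a+1)` one gets
`log ∫ω^a ≤ log V - a log((2/a) Js(lam s0, lam s0) / V) ≤ log V - (2/V) (∑_j α_j s0_j log lam j + T ρT^a log lc)`
`= log V + ((a+1)/V) (∑_j w j (log (u₁ j/α j) + log (u₂ j/α j)) + 2 wc log (T'/T))`.
-/

open MeasureTheory Set

namespace Vale.Agent.Lib.P227Z

theorem claim_planar {m : ℕ} (D : Poly m) (a : ℕ) (ha : 1 ≤ a) {T' : ℝ} (hT' : 0 < T') (r : ℝ → ℝ)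
    (hrc : ContinuousOn r (Ioo (-T') T')) (hrb : ∃ C, ∀ t ∈ Ioo (-T') T', |r t| ≤ C)
    (hω : ∀ t ∈ Ioo (-T') T', 0 < (r t + r (-t)) / 2)
    (u₁ u₂ : Fin (m + 1) → ℝ)
    (hu₁ : ∀ j, ∀ t ∈ Ioo (-T') T', r t + D.τ j * t ≤ u₁ j)
    (hu₂ : ∀ j, ∀ t ∈ Ioo (-T') T', r t - D.τ j * t ≤ u₂ j) :
    (∫ t in (-T')..T', ((r t + r (-t)) / 2) ^ a) ≤
      D.vol2 a * Real.exp (((a : ℝ) + 1) / D.vol2 a *
        ((∑ j, D.w a j * (Real.log (u₁ j / D.α j) + Real.log (u₂ j / D.α j))) +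
          2 * D.wc a * Real.log (T' / D.T))) := by
  have haR : (0 : ℝ) < a := by exact_mod_cast ha
  have h0mem : (0 : ℝ) ∈ Ioo (-T') T' := ⟨by linarith, hT'⟩
  have hr0 : 0 < r 0 := by
    have h := hω 0 h0mem
    simp only [neg_zero] at h
    linarith
  have hu₁pos : ∀ j, 0 < u₁ j := fun j => by
    have := hu₁ j 0 h0mem
    simp only [mul_zero, add_zero] at this
    linarith
  have hu₂pos : ∀ j, 0 < u₂ j := fun j => by
    have := hu₂ j 0 h0mem
    simp only [mul_zero, sub_zero] at this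
    linarith
  have hs0 := D.s0_pos a ha
  have hα := D.α_pos
  have hT := D.T_pos
  have hρT := D.ρT_pos
  have hV := D.vol2_pos a
  have hρa : 0 < D.ρT ^ a := pow_pos hρT a
  -- the masses
  set lam₁ : Fin (m + 1) → ℝ := fun j => D.α j / u₁ j with hlam₁def
  set lam₂ : Fin (m + 1) → ℝ := fun j => D.α j / u₂ j with hlam₂def
  have hlam₁ : ∀ j, 0 < lam₁ j := fun j => div_pos (hα j) (hu₁pos j)
  have hlam₂ : ∀ j, 0 < lam₂ j := fun j => div_pos (hα j) (hu₂pos j)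
  set lc : ℝ := D.T / T' with hlcdef
  have hlc : 0 < lc := div_pos hT hT'
  set s₁ : Fin (m + 1) → ℝ := fun j => lam₁ j * D.s0 a j with hs₁def
  set s₂ : Fin (m + 1) → ℝ := fun j => lam₂ j * D.s0 a j with hs₂def
  have hs₁ : ∀ j, 0 < s₁ j := fun j => mul_pos (hlam₁ j) (hs0 j)
  have hs₂ : ∀ j, 0 < s₂ j := fun j => mul_pos (hlam₂ j) (hs0 j)
  set c : ℝ := lc * D.ρT ^ a with hcdef
  have hc : 0 < c := mul_pos hlc hρa
  have hmink := minkowski_Js a ha D.d s₁ s₂ D.d_nonneg hs₁ hs₂ hc D.τ D.τ_eq_sum_d hT' r hrc hrb hω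
    u₁ u₂ hu₁ hu₂
  -- the symmetric family
  set lam : Fin (m + 1) → ℝ := fun j => Real.sqrt (lam₁ j * lam₂ j) with hlamdef
  have hlam : ∀ j, 0 < lam j := fun j => Real.sqrt_pos.mpr (mul_pos (hlam₁ j) (hlam₂ j))
  have hsq : (fun i => Real.sqrt (s₁ i * s₂ i)) = fun j => lam j * D.s0 a j := by
    funext i
    have h1 : s₁ i * s₂ i = (lam₁ i * lam₂ i) * (D.s0 a i) ^ 2 := by
      simp only [hs₁def, hs₂def]
      ring
    rw [h1, Real.sqrt_mul (mul_pos (hlam₁ i) (hlam₂ i)).le, Real.sqrt_sq (hs0 i).le]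
  have hsym := Js_sym_le a ha D.d s₁ s₂ D.d_nonneg hs₁ hs₂ hc
  rw [hsq] at hsym
  have hU := D.U a ha lam hlam hlc
  set JJ := Js a D.d (fun j => lam j * D.s0 a j) (fun j => lam j * D.s0 a j) c with hJJ
  have hJJpos : 0 < JJ :=
    mj_Js_pos a D.d _ _ D.d_nonneg (fun j => mul_pos (hlam j) (hs0 j))
      (fun j => mul_pos (hlam j) (hs0 j)) hc
  -- the sum
  have hsum : ∑ j, (s₁ j * u₁ j + s₂ j * u₂ j) + 2 * c * T' = ((a : ℝ) + 1) * D.vol2 a := by
    have h1 : ∀ j, s₁ j * u₁ j + s₂ j * u₂ j = 2 * (D.α j * D.s0 a j) := by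
      intro j
      have := (hu₁pos j).ne'
      have := (hu₂pos j).ne'
      simp only [hs₁def, hs₂def, hlam₁def, hlam₂def]
      field_simp
      ring
    have h2 : 2 * c * T' = 2 * (D.T * D.ρT ^ a) := by
      simp only [hcdef, hlcdef]
      field_simp
    have h3 := D.sum_cone a ha
    rw [Finset.sum_congr rfl (fun j _ => h1 j), ← Finset.mul_sum, h2]
    linarith
  rw [hsum] at hmink
  have hrhs : (((a : ℝ) + 1) * D.vol2 a / ((a : ℝ) + 1)) ^ (a + 1) = D.vol2 a ^ (a + 1) := by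
    congr 1
    field_simp
  rw [hrhs] at hmink
  -- the exponent
  set L : ℝ := (∑ j, D.w a j * (Real.log (u₁ j / D.α j) + Real.log (u₂ j / D.α j))) +
          2 * D.wc a * Real.log (T' / D.T) with hL
  have hlogsum : (∑ j, D.α j * D.s0 a j * Real.log (lam j)) + D.T * D.ρT ^ a * Real.log lc =
      -(((a : ℝ) + 1) / 2 * L) := by
    have hloglam : ∀ j, Real.log (lam j) =
        -(1 / 2) * (Real.log (u₁ j / D.α j) + Real.log (u₂ j / D.α j)) := by
      intro j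
      have h1 : Real.log (lam₁ j) = - Real.log (u₁ j / D.α j) := by
        simp only [hlam₁def]
        rw [← Real.log_inv, inv_div]
      have h2 : Real.log (lam₂ j) = - Real.log (u₂ j / D.α j) := by
        simp only [hlam₂def]
        rw [← Real.log_inv, inv_div]
      simp only [hlamdef]
      rw [Real.log_sqrt (mul_pos (hlam₁ j) (hlam₂ j)).le,
        Real.log_mul (hlam₁ j).ne' (hlam₂ j).ne', h1, h2]
      ring
    have hloglc : Real.log lc = - Real.log (T' / D.T) := by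
      simp only [hlcdef]
      rw [← Real.log_inv, inv_div]
    have ha1 : ((a : ℝ) + 1) ≠ 0 := by positivity
    have hw : ∀ j, D.w a j = D.α j * D.s0 a j / ((a : ℝ) + 1) := fun j => rfl
    have hwc : D.wc a = D.T * D.ρT ^ a / ((a : ℝ) + 1) := rfl
    have h3 : ((a : ℝ) + 1) / 2 * L =
        (∑ j, D.α j * D.s0 a j * ((1 / 2) * (Real.log (u₁ j / D.α j) + Real.log (u₂ j / D.α j)))) +
          D.T * D.ρT ^ a * Real.log (T' / D.T) := by
      simp only [hL]
      rw [mul_add, Finset.mul_sum]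
      congr 1
      · apply Finset.sum_congr rfl
        intro j _
        rw [hw]
        field_simp
      · rw [hwc]
        field_simp
    rw [h3, hloglc, neg_add, ← Finset.sum_neg_distrib, mul_neg]
    congr 1
    apply Finset.sum_congr rfl
    intro j _
    rw [hloglam]
    ring
  rw [hlogsum] at hU
  -- conclude
  set A := ∫ t in (-T')..T', ((r t + r (-t)) / 2) ^ a with hA
  set X := ((a : ℝ) + 1) / D.vol2 a * L with hX
  by_cases hApos : A ≤ 0
  · exact le_trans hApos (by positivity)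
  push Not at hApos
  set B := (2 / (a : ℝ)) * JJ with hB
  have hBpos : 0 < B := by positivity
  have hmink2 : A * B ^ a ≤ D.vol2 a ^ (a + 1) := by
    refine le_trans (mul_le_mul_of_nonneg_left ?_ hApos.le) hmink
    exact pow_le_pow_left₀ hBpos.le (mul_le_mul_of_nonneg_left hsym (by positivity)) a
  have hquot : JJ / ((a : ℝ) * D.vol2 a / 2) = B / D.vol2 a := by
    simp only [hB]
    field_simp
  rw [hquot] at hU
  have hXU : -X ≤ (a : ℝ) * Real.log (B / D.vol2 a) := by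
    have h1 : -(((a : ℝ) + 1) / 2 * L) = -(D.vol2 a / 2 * X) := by
      simp only [hX]
      field_simp
    rw [h1] at hU
    have h2 : (D.vol2 a / 2) * (-X) ≤ (D.vol2 a / 2) * ((a : ℝ) * Real.log (B / D.vol2 a)) := by
      nlinarith
    exact le_of_mul_le_mul_left h2 (by positivity)
  have hexp : Real.exp (-X) ≤ (B / D.vol2 a) ^ a := by
    have hq : 0 < B / D.vol2 a := by positivity
    have h1 : Real.exp (-X) ≤ Real.exp ((a : ℝ) * Real.log (B / D.vol2 a)) := Real.exp_le_exp.mpr hXU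
    rw [← Real.log_pow, Real.exp_log (by positivity)] at h1
    exact h1
  have hmain : A * (B / D.vol2 a) ^ a ≤ D.vol2 a := by
    have h1 : A * (B / D.vol2 a) ^ a * D.vol2 a ^ a = A * B ^ a := by
      rw [div_pow]
      field_simp
    have h2 : A * (B / D.vol2 a) ^ a * D.vol2 a ^ a ≤ D.vol2 a * D.vol2 a ^ a := by
      rw [h1]
      calc A * B ^ a ≤ D.vol2 a ^ (a + 1) := hmink2
        _ = D.vol2 a * D.vol2 a ^ a := by rw [pow_succ]; ring
    exact le_of_mul_le_mul_right h2 (by positivity)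
  have hfin : A * Real.exp (-X) ≤ D.vol2 a :=
    le_trans (mul_le_mul_of_nonneg_left hexp hApos.le) hmain
  have hone : Real.exp (-X) * Real.exp X = 1 := by
    rw [← Real.exp_add]
    simp
  calc A = A * Real.exp (-X) * Real.exp X := by rw [mul_assoc, hone, mul_one]
    _ ≤ D.vol2 a * Real.exp X := mul_le_mul_of_nonneg_right hfin (Real.exp_pos X).le

end Vale.Agent.Lib.P227Z
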