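import Vale.Agent.Lib.P227H.ConeC

/-! # JOB H10: the cone formula for `fibPoly`

Let `g₀ = gauge K₀`, `p = gaugeGrad K₀`, `K = fibPoly K₀ D`. Vertices of the profile: `t_i = tk i`, `ρ_i` = common value of the lines at `t_i`.
Rays `r_i(s) = s ρ_i / t_i` for `s > 0`, `i ≥ 1`, decreasing in `i`, `r_0 = ∞`.
Fix `s ∈ (0, T)`. For a.e. `y` with `g₀ y ≤ ρ̂ s` (`ρ̂ s = min_j line j s`):
 * if `r_{j+1}(s) < g₀ y < r_j(s)`, then `gauge K = (g₀ ∘ tl + τ j |z 0|) / α j` in a neighbourhood of `cons s y` (strict maximum in `gauge_fibPoly`;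
   lines have distinct slopes), so `gaugeGrad K (cons s y) = (1/α j) • cons (τ j) (p y)`, if `g₀` is differentiable at `y`;
 * if `g₀ y < r_{last}(s)`, `gauge K = |z 0| / T` near `cons s y`, `gaugeGrad K (cons s y) = (1/T) • cons 1 0`.
Mirror for `s < 0` with `cons (-τ j)`, `cons (-1) 0`.
Level sets `{y | g₀ y = c}` are null (frontier of a dilate of `K₀`, `Body.frontier_null`), and the non-differentiability set of `g₀` is null (`Body.ae_diff`).
Dilation: for `0 ≤ r₁ ≤ r₂` and `φ` a function of `p y`: `∫_{r₁ < g₀ y ≤ r₂} φ(p y) dy = (r₂^a - r₁^a) ∫_{K₀} φ(p y) dy`, since `p (c y) = p y` for `c > 0` (gauge homogeneous).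
So the section integral at `s` is `∑_j (m_j(s)^a - m_{j+1}(s)^a) ∫_{K₀} Φ_j + m_{last+1}(s)^a |K₀| Φ_c` with `m_j = min(r_j, ρ̂)`. Since `min(r_j(s), ρ̂ s)` is `s ρ_j / t_j` for `s ≤ t_j` and `ρ̂ s` for `s ≥ t_j`,
`∫_0^T m_j^a ds = t_j ρ_j^a/(a+1) + ∫_{t_j}^T ρ̂^a =: E_j`, and `E_j - E_{j+1} = ∫_{edge j} ρ̂^a + (t_j ρ_j^a - t_{j+1} ρ_{j+1}^a)/(a+1) = w a j`
(by parts: `α_j s0_j = (a+1) ∫_edge ρ^a - [t ρ^a]`), `E_{last+1} = wc a`.
-/

open MeasureTheory Set Filter Topology Matrix
open scoped Pointwise ENNReal Nat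

namespace Vale.Agent.Lib.P227Z

variable {a m : ℕ} {K₀ : Set (V a)}

private lemma abs_of_sign' {ε x : ℝ} (hε : ε = 1 ∨ ε = -1) (h : 0 < ε * x) : |x| = ε * x := by
  rcases hε with rfl | rfl
  · rw [one_mul] at h ⊢
    exact abs_of_pos h
  · rw [neg_one_mul] at h ⊢
    exact abs_of_neg (by linarith)

/-- The integrands. -/
noncomputable def Psi (L : Set (V (a + 1))) (K₀ : Set (V a)) (c A : ℝ) (y : V a) : ℝ :=
  Real.log (supp L (Fin.cons c (A • gaugeGrad K₀ y)))

private lemma continuous_cons (c A : ℝ) :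
    Continuous fun w : V a => (Fin.cons c (A • w) : V (a + 1)) := by
  refine continuous_pi fun i => ?_
  refine Fin.cases ?_ (fun k => ?_) i
  · simpa using continuous_const
  · simp only [Fin.cons_succ, Pi.smul_apply, smul_eq_mul]
    exact continuous_const.mul (continuous_apply k)

private lemma cons_ne_zero {c A : ℝ} (hc : c ≠ 0) (w : V a) : (Fin.cons c (A • w) : V (a + 1)) ≠ 0 := by
  intro h
  have := congrFun h 0
  simp only [Fin.cons_zero, Pi.zero_apply] at this
  exact hc this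

theorem Psi_measurable {L : Set (V (a + 1))} (hL : SymB L) (K₀ : Set (V a)) (c A : ℝ) :
    Measurable (Psi L K₀ c A) :=
  Real.measurable_log.comp ((supp_continuous' hL.1).measurable.comp
    ((continuous_cons c A).measurable.comp (measurable_gaugeGrad K₀)))

theorem Psi_bounded (hK₀ : Body K₀) {L : Set (V (a + 1))} (hL : SymB L) {c : ℝ} (hc : c ≠ 0) (A : ℝ) :
    ∃ M, ∀ y, |Psi L K₀ c A y| ≤ M := by
  obtain ⟨C, hC0, hC⟩ := gaugeGrad_norm_le hK₀
  have hcont : ContinuousOn (fun w : V a => Real.log (supp L (Fin.cons c (A • w))))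
      (Metric.closedBall (0 : V a) C) := by
    refine ContinuousOn.log ?_ fun w _ => (supp_pos' hL (cons_ne_zero hc w)).ne'
    exact ((supp_continuous' hL.1).comp (continuous_cons c A)).continuousOn
  obtain ⟨M, hM⟩ := (isCompact_closedBall (0 : V a) C).exists_bound_of_continuousOn hcont
  refine ⟨M, fun y => ?_⟩
  have := hM (gaugeGrad K₀ y) (by simpa using hC y)
  simpa [Psi] using this

theorem Psi_hom (L : Set (V (a + 1))) (K₀ : Set (V a)) (c A : ℝ) (r : ℝ) (hr : 0 < r) (y : V a) :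
    Psi L K₀ c A (r • y) = Psi L K₀ c A y := by
  simp only [Psi, gaugeGrad_smul K₀ hr]

private lemma supp_neg'' {n : ℕ} {L : Set (V n)} (hs : ∀ x ∈ L, -x ∈ L) (v : V n) :
    supp L (-v) = supp L v := by
  unfold supp
  congr 1
  ext y
  constructor
  · rintro ⟨x, hx, rfl⟩
    exact ⟨-x, hs x hx, by simp⟩
  · rintro ⟨x, hx, rfl⟩
    exact ⟨-x, hs x hx, by simp⟩

private lemma Psi_some {L : Set (V (a + 1))} (D : Poly m) (ε : ℝ) (j : Fin (m + 1)) (y : V a) :
    Psi L K₀ (ε * D.vB (some j)) (D.vA (some j)) y =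
      Real.log (supp L (Fin.cons (ε * D.τ j) (gaugeGrad K₀ y)) / D.α j) := by
  have hα := D.α_pos j
  have e : (Fin.cons (ε * D.vB (some j)) (D.vA (some j) • gaugeGrad K₀ y) : V (a + 1)) =
      (1 / D.α j) • (Fin.cons (ε * D.τ j) (gaugeGrad K₀ y) : V (a + 1)) := by
    funext k
    refine Fin.cases ?_ (fun k => ?_) k
    · simp only [Fin.cons_zero, Pi.smul_apply, smul_eq_mul, Poly.vB]
      ring
    · simp [Poly.vA]
  rw [Psi, e, supp_smul' _ (by positivity)]
  congr 1
  ring

private lemma Psi_none {L : Set (V (a + 1))} (hL : SymB L) (D : Poly m) {ε : ℝ} (hε : ε = 1 ∨ ε = -1)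
    (y : V a) :
    Psi L K₀ (ε * D.vB none) (D.vA none) y = Real.log (supp L (Fin.cons 1 0) / D.T) := by
  have hT := D.T_pos
  have e : (Fin.cons (ε * D.vB none) (D.vA none • gaugeGrad K₀ y) : V (a + 1)) =
      (1 / D.T) • (Fin.cons ε 0 : V (a + 1)) := by
    funext k
    refine Fin.cases ?_ (fun k => ?_) k
    · simp only [Fin.cons_zero, Pi.smul_apply, smul_eq_mul, Poly.vB]
      ring
    · simp [Poly.vA]
  have e2 : supp L (Fin.cons ε 0 : V (a + 1)) = supp L (Fin.cons 1 0) := by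
    rcases hε with rfl | rfl
    · rfl
    · rw [← supp_neg'' hL.2.1 (Fin.cons 1 0 : V (a + 1))]
      congr 1
      funext k
      refine Fin.cases ?_ (fun k => ?_) k <;> simp
  rw [Psi, e, supp_smul' _ (by positivity), e2]
  congr 1
  ring

/-- The sign attached to `b`. -/
private def sg (b : Bool) : ℝ := if b then 1 else -1

private lemma sg_cases (b : Bool) : sg b = 1 ∨ sg b = -1 := by
  cases b <;> simp [sg]

private lemma Psi_integrable (hK₀ : Body K₀) {L : Set (V (a + 1))} (hL : SymB L) {c : ℝ} (hc : c ≠ 0)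
    (A : ℝ) : IntegrableOn (Psi L K₀ c A) K₀ := by
  obtain ⟨M, hM⟩ := Psi_bounded hK₀ hL hc A
  exact Measure.integrableOn_of_bounded (M := M) hK₀.compact.measure_lt_top.ne
    (Psi_measurable hL K₀ c A).aestronglyMeasurable
    (Eventually.of_forall fun y => by simpa using hM y)

/-- The pieces cover `fibPoly` up to a null set. -/
private lemma ae_cover (hK₀ : Body K₀) (ha : 1 ≤ a) (D : Poly m) :
    (⋃ p ∈ (Finset.univ : Finset (Bool × Option (Fin (m + 1)))), Pc D K₀ (sg p.1) p.2 : Set (V (a + 1)))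
      =ᵐ[volume] fibPoly K₀ D := by
  classical
  refine Filter.eventuallyEq_set.2 ?_
  have h0 : ∀ᵐ z : V (a + 1), (0 : ℝ) * gauge K₀ (tl z) ≠ 1 * z 0 :=
    ae_tie hK₀ ha (Or.inr one_ne_zero)
  have htie : ∀ᵐ z : V (a + 1), ∀ (b : Bool) (i i' : Option (Fin (m + 1))), i' ≠ i →
      D.vl i' (sg b * z 0) (gauge K₀ (tl z)) ≠ D.vl i (sg b * z 0) (gauge K₀ (tl z)) := by
    rw [ae_all_iff]
    intro b
    rw [ae_all_iff]
    intro i
    rw [ae_all_iff]
    intro i'
    by_cases hi : i' = i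
    · exact Eventually.of_forall fun z h => absurd hi h
    · have hs : sg b ≠ 0 := by
        rcases sg_cases b with h | h <;> rw [h] <;> norm_num
      have hcoef : D.vA i' - D.vA i ≠ 0 ∨ (D.vB i - D.vB i') * sg b ≠ 0 := by
        rcases D.coeff_ne hi with h | h
        · exact Or.inl h
        · refine Or.inr (mul_ne_zero ?_ hs)
          intro h2
          exact h (by linarith)
      filter_upwards [ae_tie hK₀ ha hcoef] with z hz _ h
      apply hz
      simp only [Poly.vl] at h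
      linarith
  filter_upwards [h0, htie] with z hz0 hz
  constructor
  · intro h
    simp only [mem_iUnion, Finset.mem_univ, exists_prop, true_and] at h
    obtain ⟨p, hp⟩ := h
    exact Pc_subset D K₀ (sg_cases p.1) p.2 hp
  · intro hK
    have hz00 : z 0 ≠ 0 := by
      intro h
      apply hz0
      rw [h]
      ring
    -- the sign
    obtain ⟨b, hb⟩ : ∃ b : Bool, 0 < sg b * z 0 := by
      rcases lt_or_gt_of_ne hz00 with h | h
      · exact ⟨false, by simp [sg]; linarith⟩
      · exact ⟨true, by simp [sg]; linarith⟩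
    -- the maximum
    obtain ⟨i, hi⟩ := Finite.exists_max fun i => D.vl i (sg b * z 0) (gauge K₀ (tl z))
    simp only [mem_iUnion, Finset.mem_univ, exists_prop, true_and]
    refine ⟨(b, i), hb, ?_, ?_⟩
    · intro i' hi'
      exact lt_of_le_of_ne (hi i') (hz b i i' hi')
    · have habs := abs_of_sign' (sg_cases b) hb
      obtain ⟨h1, h2⟩ := hK
      rw [habs] at h1 h2
      cases i with
      | none =>
        show D.vl none (sg b * z 0) (gauge K₀ (tl z)) ≤ 1
        rw [D.vl_none, div_le_one D.T_pos]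
        exact h1
      | some j =>
        show D.vl (some j) (sg b * z 0) (gauge K₀ (tl z)) ≤ 1
        rw [D.vl_some, div_le_one (D.α_pos j)]
        exact h2 j

private lemma pc_disjoint (D : Poly m) (K₀ : Set (V a)) :
    Set.PairwiseDisjoint (↑(Finset.univ : Finset (Bool × Option (Fin (m + 1)))))
      (fun p : Bool × Option (Fin (m + 1)) => Pc D K₀ (sg p.1) p.2) := by
  rintro ⟨b, i⟩ - ⟨b', i'⟩ - hne
  refine Set.disjoint_left.2 ?_
  rintro z ⟨h1, h2, -⟩ ⟨h1', h2', -⟩
  by_cases hb : b = b'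
  · subst hb
    have hi : i ≠ i' := fun h => hne (by rw [h])
    have h3 := h2 i' hi.symm
    have h4 := h2' i hi
    exact lt_asymm h3 h4
  · have : sg b = - sg b' := by
      cases b <;> cases b' <;> simp_all [sg]
    simp only at h1 h1'
    rw [this] at h1
    linarith

theorem cone_formula (hK₀ : Body K₀) (ha : 1 ≤ a) (D : Poly m) {L : Set (V (a + 1))} (hL : SymB L) :
    ∫ z in fibPoly K₀ D, Real.log (supp L (gaugeGrad (fibPoly K₀ D) z)) =
      (∑ j, D.w a j * ∫ y in K₀,
        (Real.log (supp L (Fin.cons (D.τ j) (gaugeGrad K₀ y)) / D.α j) +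
          Real.log (supp L (Fin.cons (-D.τ j) (gaugeGrad K₀ y)) / D.α j))) +
      2 * D.wc a * (volume K₀).toReal * Real.log (supp L (Fin.cons 1 0) / D.T) := by
  classical
  have hK : Body (fibPoly K₀ D) := body_fibPoly hK₀ D
  have hFi := hK.integrableOn_log hL
  -- the value on one piece
  have hpiece : ∀ (b : Bool) (i : Option (Fin (m + 1))),
      ∫ z in Pc D K₀ (sg b) i, Real.log (supp L (gaugeGrad (fibPoly K₀ D) z)) =
        ∫ z in Pc D K₀ (sg b) i, Psi L K₀ (sg b * D.vB i) (D.vA i) (tl z) := by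
    intro b i
    refine setIntegral_congr_ae (measurableSet_Pc hK₀ D _ _) ?_
    filter_upwards [ae_tl hK₀.ae_diff] with z hd hz
    rw [D.gaugeGrad_of_max hK₀ (sg_cases b) hz.1 hz.2.1 hd]
    rfl
  have hne : ∀ (b : Bool) (i : Option (Fin (m + 1))), sg b * D.vB i ≠ 0 := by
    intro b i
    refine mul_ne_zero ?_ (D.vB_pos i).ne'
    rcases sg_cases b with h | h <;> rw [h] <;> norm_num
  have hsome : ∀ (b : Bool) (j : Fin (m + 1)),
      ∫ z in Pc D K₀ (sg b) (some j), Real.log (supp L (gaugeGrad (fibPoly K₀ D) z)) =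
        D.w a j * ∫ y in K₀, Real.log (supp L (Fin.cons (sg b * D.τ j) (gaugeGrad K₀ y)) / D.α j) := by
    intro b j
    obtain ⟨M, hM⟩ := Psi_bounded hK₀ hL (hne b (some j)) (D.vA (some j))
    rw [hpiece, integral_Pc_some hK₀ ha D (Psi_measurable hL K₀ _ _) hM
      (fun c hc y => Psi_hom L K₀ _ _ c hc y) (sg_cases b) j]
    simp only [Psi_some]
  have hnone : ∀ b : Bool,
      ∫ z in Pc D K₀ (sg b) none, Real.log (supp L (gaugeGrad (fibPoly K₀ D) z)) =
        D.wc a * ((volume K₀).toReal * Real.log (supp L (Fin.cons 1 0) / D.T)) := by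
    intro b
    obtain ⟨M, hM⟩ := Psi_bounded hK₀ hL (hne b none) (D.vA none)
    rw [hpiece, integral_Pc_none hK₀ ha D (Psi_measurable hL K₀ _ _) hM
      (fun c hc y => Psi_hom L K₀ _ _ c hc y) (sg_cases b)]
    simp only [Psi_none hL D (sg_cases b)]
    rw [setIntegral_const, smul_eq_mul, Measure.real]
  rw [← setIntegral_congr_set (ae_cover hK₀ ha D)]
  rw [integral_biUnion_finset _ (fun p _ => measurableSet_Pc hK₀ D _ _) (pc_disjoint D K₀)
    (fun p _ => hFi.mono_set (Pc_subset D K₀ (sg_cases p.1) p.2))]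
  rw [Fintype.sum_prod_type, Fintype.sum_bool]
  simp only [Fintype.sum_option, hsome, hnone]
  have hadd : ∀ j : Fin (m + 1), D.w a j * ∫ y in K₀,
        (Real.log (supp L (Fin.cons (D.τ j) (gaugeGrad K₀ y)) / D.α j) +
          Real.log (supp L (Fin.cons (-D.τ j) (gaugeGrad K₀ y)) / D.α j)) =
      D.w a j * (∫ y in K₀, Real.log (supp L (Fin.cons (sg true * D.τ j) (gaugeGrad K₀ y)) / D.α j)) +
      D.w a j * ∫ y in K₀, Real.log (supp L (Fin.cons (sg false * D.τ j) (gaugeGrad K₀ y)) / D.α j) := by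
    intro j
    have e1 : sg true * D.τ j = D.τ j := by simp [sg]
    have e2 : sg false * D.τ j = - D.τ j := by simp [sg]
    rw [e1, e2, ← mul_add]
    congr 1
    have i1 : IntegrableOn (fun y => Real.log (supp L (Fin.cons (D.τ j) (gaugeGrad K₀ y)) / D.α j)) K₀ := by
      have := Psi_integrable hK₀ hL (hne true (some j)) (D.vA (some j))
      refine this.congr_fun (fun y _ => ?_) hK₀.compact.measurableSet
      rw [Psi_some, e1]
    have i2 : IntegrableOn (fun y => Real.log (supp L (Fin.cons (-D.τ j) (gaugeGrad K₀ y)) / D.α j)) K₀ := by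
      have := Psi_integrable hK₀ hL (hne false (some j)) (D.vA (some j))
      refine this.congr_fun (fun y _ => ?_) hK₀.compact.measurableSet
      rw [Psi_some, e2]
    exact integral_add i1 i2
  simp only [hadd, Finset.sum_add_distrib]
  ring

end Vale.Agent.Lib.P227Z
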