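import Vale.Agent.Lib.P227H.BodyFib

/-! # Cone formula, part A: dilation, Fubini over the height, regions between two graphs -/

open MeasureTheory Set Filter Topology Matrix
open scoped Pointwise ENNReal Nat

namespace Vale.Agent.Lib.P227Z

variable {n a m : ℕ} {K₀ : Set (V a)}

private lemma hasFDerivAt_gauge_smul {K : Set (V n)} {f' : V n →L[ℝ] ℝ} {x : V n} {c : ℝ} (hc : 0 < c)
    (h : HasFDerivAt (gauge K) f' x) : HasFDerivAt (gauge K) f' (c • x) := by
  have h1 : HasFDerivAt (fun u : V n => c⁻¹ • u) (c⁻¹ • (ContinuousLinearMap.id ℝ (V n))) (c • x) :=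
    ((ContinuousLinearMap.id ℝ (V n)).hasFDerivAt).const_smul c⁻¹
  have h2 : HasFDerivAt (gauge K) f' (c⁻¹ • c • x) := by
    rwa [smul_smul, inv_mul_cancel₀ hc.ne', one_smul]
  have h3 := (h2.comp (c • x) h1).const_mul c
  have e : (fun u => c * (gauge K ∘ fun u : V n => c⁻¹ • u) u) = gauge K := by
    funext u
    simp only [Function.comp]
    rw [gauge_smul_of_nonneg (inv_nonneg.2 hc.le), smul_eq_mul, ← mul_assoc, mul_inv_cancel₀ hc.ne',
      one_mul]
  rw [e] at h3
  have e2 : (c • f'.comp (c⁻¹ • ContinuousLinearMap.id ℝ (V n)) : V n →L[ℝ] ℝ) = f' :=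
    ContinuousLinearMap.ext fun v => by
      simp [smul_smul, mul_inv_cancel₀ hc.ne']
  rwa [e2] at h3

/-- The gradient of a gauge is invariant under dilations. -/
theorem gaugeGrad_smul (K : Set (V n)) {c : ℝ} (hc : 0 < c) (x : V n) :
    gaugeGrad K (c • x) = gaugeGrad K x := by
  have key : fderiv ℝ (gauge K) (c • x) = fderiv ℝ (gauge K) x := by
    by_cases hd : DifferentiableAt ℝ (gauge K) x
    · exact (hasFDerivAt_gauge_smul hc hd.hasFDerivAt).fderiv
    · have hd' : ¬ DifferentiableAt ℝ (gauge K) (c • x) := by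
        intro h
        apply hd
        have := hasFDerivAt_gauge_smul (inv_pos.2 hc) h.hasFDerivAt
        rw [smul_smul, inv_mul_cancel₀ hc.ne', one_smul] at this
        exact this.differentiableAt
      rw [fderiv_zero_of_not_differentiableAt hd, fderiv_zero_of_not_differentiableAt hd']
  funext i
  simp [gaugeGrad, key]

theorem gaugeGrad_norm_le (hK₀ : Body K₀) : ∃ C : ℝ, 0 ≤ C ∧ ∀ y, ‖gaugeGrad K₀ y‖ ≤ C := by
  obtain ⟨C, hC⟩ := hK₀.convex.lipschitz_gauge hK₀.nhds
  refine ⟨C, C.2, fun y => ?_⟩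
  refine (pi_norm_le_iff_of_nonneg C.2).2 fun i => ?_
  have h1 : ‖fderiv ℝ (gauge K₀) y‖ ≤ C := norm_fderiv_le_of_lipschitz ℝ hC
  have h2 := (fderiv ℝ (gauge K₀) y).le_opNorm (Pi.single i 1)
  have h3 : ‖(Pi.single i 1 : V a)‖ ≤ 1 := by
    refine (pi_norm_le_iff_of_nonneg zero_le_one).2 fun k => ?_
    by_cases hk : k = i
    · subst hk; simp
    · simp [Pi.single_apply, hk]
  calc ‖gaugeGrad K₀ y i‖ = ‖fderiv ℝ (gauge K₀) y (Pi.single i 1)‖ := rfl
    _ ≤ ‖fderiv ℝ (gauge K₀) y‖ * ‖(Pi.single i 1 : V a)‖ := h2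
    _ ≤ C * 1 := mul_le_mul h1 h3 (norm_nonneg _) C.2
    _ = C := mul_one _

theorem gauge_le_eq_smul (hK₀ : Body K₀) {v : ℝ} (hv : 0 < v) :
    {y | gauge K₀ y ≤ v} = v • K₀ := by
  ext y
  rw [mem_smul_set_iff_inv_smul_mem₀ hv.ne', hK₀.mem_iff, gauge_smul_of_nonneg (inv_nonneg.2 hv.le),
    smul_eq_mul, inv_mul_le_iff₀ hv, mul_one, mem_ofPred_eq]

theorem gauge_le_zero (hK₀ : Body K₀) : {y : V a | gauge K₀ y ≤ 0} = {0} := by
  ext y
  simp only [mem_ofPred_eq, mem_singleton_iff]
  constructor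
  · intro h
    by_contra hy
    exact absurd (hK₀.gauge_pos hy) (not_lt.2 h)
  · rintro rfl
    simp [gauge_zero]

theorem volume_zero_of_one_le (ha : 1 ≤ a) : volume ({0} : Set (V a)) = 0 := by
  obtain ⟨b, rfl⟩ : ∃ b, a = b + 1 := ⟨a - 1, by omega⟩
  exact measure_singleton _

/-- Dilation. -/
theorem setIntegral_gauge_le (hK₀ : Body K₀) (ha : 1 ≤ a) {Ψ : V a → ℝ}
    (hom : ∀ c : ℝ, 0 < c → ∀ y, Ψ (c • y) = Ψ y) {v : ℝ} (hv : 0 ≤ v) :
    ∫ y in {y | gauge K₀ y ≤ v}, Ψ y = v ^ a * ∫ y in K₀, Ψ y := by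
  rcases hv.eq_or_lt with rfl | hv
  · rw [gauge_le_zero hK₀, setIntegral_measure_zero _ (volume_zero_of_one_le ha)]
    rw [zero_pow (by omega), zero_mul]
  · rw [gauge_le_eq_smul hK₀ hv]
    have h := Measure.setIntegral_comp_smul_of_pos (μ := (volume : Measure (V a))) Ψ K₀ hv
    simp only [hom v hv, Module.finrank_fin_fun, smul_eq_mul] at h
    rw [h, ← mul_assoc, mul_inv_cancel₀ (by positivity), one_mul]

theorem measurableSet_gauge_le (hK₀ : Body K₀) (v : ℝ) : MeasurableSet {y | gauge K₀ y ≤ v} :=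
  measurableSet_le (continuous_gauge hK₀.convex hK₀.nhds).measurable measurable_const

theorem volume_gauge_le_ne_top (hK₀ : Body K₀) (v : ℝ) : volume {y | gauge K₀ y ≤ v} ≠ ∞ := by
  have hsub : {y | gauge K₀ y ≤ v} ⊆ {y | gauge K₀ y ≤ |v| + 1} := fun y hy =>
    le_trans (show gauge K₀ y ≤ v from hy) (by
      have := le_abs_self v
      linarith)
  refine ne_top_of_le_ne_top ?_ (measure_mono hsub)
  rw [gauge_le_eq_smul hK₀ (by positivity), Measure.addHaar_smul]
  exact ENNReal.mul_ne_top ENNReal.ofReal_ne_top hK₀.compact.measure_lt_top.ne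

private lemma symm_apply (s : ℝ) (y : V a) :
    (MeasurableEquiv.piFinSuccAbove (fun _ : Fin (a + 1) => ℝ) 0).symm (s, y) =
      (Fin.cons s y : V (a + 1)) := by
  apply (MeasurableEquiv.piFinSuccAbove (fun _ : Fin (a + 1) => ℝ) 0).injective
  rw [MeasurableEquiv.apply_symm_apply]
  ext i
  · simp [MeasurableEquiv.piFinSuccAbove]
  · simp [MeasurableEquiv.piFinSuccAbove]

/-- Fubini over the height. -/
theorem integral_fubini {f : V (a + 1) → ℝ} (hf : Integrable f) :
    ∫ z, f z = ∫ s : ℝ, ∫ y : V a, f (Fin.cons s y) := by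
  have hmp := volume_preserving_piFinSuccAbove (fun _ : Fin (a + 1) => ℝ) 0
  have hsymm := hmp.symm
  have h1 : ∫ z, f z = ∫ p : ℝ × V a,
      f ((MeasurableEquiv.piFinSuccAbove (fun _ : Fin (a + 1) => ℝ) 0).symm p) := by
    rw [Measure.volume_eq_prod]
    exact (hsymm.integral_comp' (g := f)).symm
  have h2 : Integrable (fun p : ℝ × V a =>
      f ((MeasurableEquiv.piFinSuccAbove (fun _ : Fin (a + 1) => ℝ) 0).symm p))
      ((volume : Measure ℝ).prod (volume : Measure (V a))) := by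
    rw [← Measure.volume_eq_prod]
    exact (hsymm.integrable_comp_emb (MeasurableEquiv.measurableEmbedding _)).2 hf
  rw [h1, Measure.volume_eq_prod, integral_prod _ h2]
  simp only [symm_apply]

/-- The region between two graphs over the height. -/
def regionE (K₀ : Set (V a)) (ε : ℝ) (u v : ℝ → ℝ) (b : ℝ) : Set (V (a + 1)) :=
  {z | ε * z 0 ∈ Ioc 0 b ∧ u (ε * z 0) < gauge K₀ (tl z) ∧ gauge K₀ (tl z) ≤ v (ε * z 0)}

theorem measurableSet_regionE (hK₀ : Body K₀) (ε : ℝ) {u v : ℝ → ℝ} (hu : Continuous u)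
    (hv : Continuous v) (b : ℝ) : MeasurableSet (regionE K₀ ε u v b) := by
  have hgc : Continuous (gauge K₀) := continuous_gauge hK₀.convex hK₀.nhds
  have hz0 : Continuous fun z : V (a + 1) => ε * z 0 := continuous_const.mul (continuous_apply 0)
  exact (measurableSet_Ioc.preimage hz0.measurable).inter
    ((measurableSet_lt (hu.comp hz0).measurable (hgc.comp continuous_tl).measurable).inter
      (measurableSet_le (hgc.comp continuous_tl).measurable (hv.comp hz0).measurable))

private lemma volume_regionE_ne_top (hK₀ : Body K₀) {ε : ℝ} (hε : ε = 1 ∨ ε = -1) {v : ℝ → ℝ}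
    (hv : Continuous v) (u : ℝ → ℝ) {b : ℝ} :
    volume (regionE K₀ ε u v b) ≠ ∞ := by
  obtain ⟨R, hR⟩ : ∃ R, ∀ s ∈ Icc (0 : ℝ) b, v s ≤ R := by
    obtain ⟨R, hR⟩ := (isCompact_Icc.bddAbove_image hv.continuousOn : BddAbove (v '' Icc 0 b))
    exact ⟨R, fun s hs => hR ⟨s, hs, rfl⟩⟩
  have hmp := volume_preserving_piFinSuccAbove (fun _ : Fin (a + 1) => ℝ) 0
  set S : Set (ℝ × V a) := Icc (-b) b ×ˢ {y | gauge K₀ y ≤ R} with hS
  have hSm : MeasurableSet S := measurableSet_Icc.prod (measurableSet_gauge_le hK₀ R)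
  have hsub : regionE K₀ ε u v b ⊆
      (MeasurableEquiv.piFinSuccAbove (fun _ : Fin (a + 1) => ℝ) 0) ⁻¹' S := by
    rintro z ⟨⟨h1, h2⟩, -, h4⟩
    have hz : ((MeasurableEquiv.piFinSuccAbove (fun _ : Fin (a + 1) => ℝ) 0) z).1 = z 0 := by
      simp [MeasurableEquiv.piFinSuccAbove]
    have hz2 : ((MeasurableEquiv.piFinSuccAbove (fun _ : Fin (a + 1) => ℝ) 0) z).2 = tl z := by
      funext i
      simp [MeasurableEquiv.piFinSuccAbove, tl]
      rfl
    refine ⟨?_, ?_⟩
    · rw [hz]
      rcases hε with rfl | rfl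
      · constructor <;> linarith
      · constructor <;> linarith
    · rw [hz2]
      exact h4.trans (hR _ ⟨h1.le, h2⟩)
  refine ne_top_of_le_ne_top ?_ (measure_mono hsub)
  rw [hmp.measure_preimage hSm.nullMeasurableSet, Measure.volume_eq_prod, Measure.prod_prod]
  exact ENNReal.mul_ne_top (by simp) (volume_gauge_le_ne_top hK₀ R)

/-- The integral over a region between two graphs. -/
theorem integral_region (hK₀ : Body K₀) (ha : 1 ≤ a) {Ψ : V a → ℝ} (hm : Measurable Ψ) {M : ℝ}
    (hbd : ∀ y, |Ψ y| ≤ M) (hom : ∀ c : ℝ, 0 < c → ∀ y, Ψ (c • y) = Ψ y) {ε : ℝ}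
    (hε : ε = 1 ∨ ε = -1) {u v : ℝ → ℝ} (hu : Continuous u) (hv : Continuous v) {b : ℝ} (hb : 0 ≤ b)
    (hu0 : ∀ s ∈ Ioc 0 b, 0 ≤ u s) (huv : ∀ s ∈ Ioc 0 b, u s ≤ v s) :
    IntegrableOn (fun z : V (a + 1) => Ψ (tl z)) (regionE K₀ ε u v b) ∧
    ∫ z in regionE K₀ ε u v b, Ψ (tl z) =
      (∫ s in (0 : ℝ)..b, (v s ^ a - u s ^ a)) * ∫ y in K₀, Ψ y := by
  have hE := measurableSet_regionE hK₀ ε hu hv b
  have hfin := volume_regionE_ne_top hK₀ hε hv u (b := b)
  have hmeas : Measurable fun z : V (a + 1) => Ψ (tl z) := hm.comp continuous_tl.measurable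
  have hI : IntegrableOn (fun z : V (a + 1) => Ψ (tl z)) (regionE K₀ ε u v b) := by
    refine Measure.integrableOn_of_bounded (M := M) hfin hmeas.aestronglyMeasurable ?_
    exact Eventually.of_forall fun z => by simpa using hbd (tl z)
  refine ⟨hI, ?_⟩
  have hεε : ε * ε = 1 := by rcases hε with rfl | rfl <;> norm_num
  set f : V (a + 1) → ℝ := (regionE K₀ ε u v b).indicator fun z => Ψ (tl z) with hf
  have hfi : Integrable f := (integrable_indicator_iff hE).2 hI
  rw [← integral_indicator hE, integral_fubini hfi]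
  -- reflect
  have hrefl : ∫ s : ℝ, ∫ y : V a, f (Fin.cons s y) = ∫ s : ℝ, ∫ y : V a, f (Fin.cons (ε * s) y) := by
    rcases hε with rfl | rfl
    · simp
    · have := integral_neg_eq_self (fun s : ℝ => ∫ y : V a, f (Fin.cons s y)) (volume : Measure ℝ)
      simp only [neg_mul, one_mul]
      exact this.symm
  rw [hrefl]
  -- the inner integral
  have hinner : ∀ s : ℝ, ∫ y : V a, f (Fin.cons (ε * s) y) =
      (Ioc 0 b).indicator (fun s => (v s ^ a - u s ^ a) * ∫ y in K₀, Ψ y) s := by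
    intro s
    have hmem : ∀ y : V a, (Fin.cons (ε * s) y : V (a + 1)) ∈ regionE K₀ ε u v b ↔
        s ∈ Ioc 0 b ∧ u s < gauge K₀ y ∧ gauge K₀ y ≤ v s := by
      intro y
      simp only [regionE, mem_ofPred_eq, Fin.cons_zero, tl_cons, ← mul_assoc, hεε, one_mul]
    by_cases hs : s ∈ Ioc 0 b
    · rw [indicator_of_mem hs]
      have huv' := huv s hs
      have hu0' := hu0 s hs
      have hset : {y : V a | gauge K₀ y ≤ v s} \ {y | gauge K₀ y ≤ u s} =
          {y | u s < gauge K₀ y ∧ gauge K₀ y ≤ v s} := by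
        ext y
        simp only [mem_diff, mem_ofPred_eq, not_le]
        tauto
      have hfy : ∀ y : V a, f (Fin.cons (ε * s) y) =
          ({y : V a | gauge K₀ y ≤ v s} \ {y | gauge K₀ y ≤ u s}).indicator Ψ y := by
        intro y
        rw [hset]
        by_cases hy : u s < gauge K₀ y ∧ gauge K₀ y ≤ v s
        · rw [indicator_of_mem (show y ∈ {y | u s < gauge K₀ y ∧ gauge K₀ y ≤ v s} from hy), hf,
            indicator_of_mem ((hmem y).2 ⟨hs, hy⟩), tl_cons]
        · rw [indicator_of_notMem (show y ∉ {y | u s < gauge K₀ y ∧ gauge K₀ y ≤ v s} from hy), hf,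
            indicator_of_notMem (fun h => hy ((hmem y).1 h).2)]
      simp only [hfy]
      have hmd : MeasurableSet ({y : V a | gauge K₀ y ≤ v s} \ {y | gauge K₀ y ≤ u s}) :=
        (measurableSet_gauge_le hK₀ _).diff (measurableSet_gauge_le hK₀ _)
      rw [integral_indicator hmd, setIntegral_diff (measurableSet_gauge_le hK₀ _) ?_ ?_]
      · rw [setIntegral_gauge_le hK₀ ha hom (hu0'.trans huv'), setIntegral_gauge_le hK₀ ha hom hu0']
        ring
      · exact Measure.integrableOn_of_bounded (M := M) (volume_gauge_le_ne_top hK₀ _)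
          hm.aestronglyMeasurable (Eventually.of_forall fun y => by simpa using hbd y)
      · exact fun y hy => le_trans hy huv'
    · rw [indicator_of_notMem hs]
      have : ∀ y : V a, f (Fin.cons (ε * s) y) = 0 := by
        intro y
        rw [hf, indicator_of_notMem (fun h => hs ((hmem y).1 h).1)]
      simp [this]
  simp only [hinner]
  rw [integral_indicator measurableSet_Ioc, ← intervalIntegral.integral_of_le hb,
    intervalIntegral.integral_mul_const]

/-- The cone over the line `r = α - τ s`, `0 ≤ s ≤ t`. -/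
def Tr (K₀ : Set (V a)) (ε α τ t : ℝ) : Set (V (a + 1)) :=
  {z | 0 < ε * z 0 ∧ α * (ε * z 0) < t * (gauge K₀ (tl z) + τ * (ε * z 0)) ∧
    gauge K₀ (tl z) + τ * (ε * z 0) ≤ α}

theorem measurableSet_Tr (hK₀ : Body K₀) (ε α τ t : ℝ) : MeasurableSet (Tr K₀ ε α τ t) := by
  have hgc : Continuous (gauge K₀) := continuous_gauge hK₀.convex hK₀.nhds
  have hg : Continuous fun z : V (a + 1) => gauge K₀ (tl z) := hgc.comp continuous_tl
  have hz0 : Continuous fun z : V (a + 1) => ε * z 0 := continuous_const.mul (continuous_apply 0)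
  have h1 : MeasurableSet {z : V (a + 1) | 0 < ε * z 0} :=
    measurableSet_lt measurable_const hz0.measurable
  have h2 : MeasurableSet {z : V (a + 1) | α * (ε * z 0) < t * (gauge K₀ (tl z) + τ * (ε * z 0))} :=
    measurableSet_lt (continuous_const.mul hz0).measurable
      (continuous_const.mul (hg.add (continuous_const.mul hz0))).measurable
  have h3 : MeasurableSet {z : V (a + 1) | gauge K₀ (tl z) + τ * (ε * z 0) ≤ α} :=
    measurableSet_le (hg.add (continuous_const.mul hz0)).measurable measurable_const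
  exact h1.inter (h2.inter h3)

private lemma integral_line (hα : True) (b : ℕ) (α τ t : ℝ) :
    t * (α - τ * t) ^ (b + 1) =
      ((b : ℝ) + 2) * (∫ s in (0 : ℝ)..t, (α - τ * s) ^ (b + 1)) -
        ((b : ℝ) + 1) * α * ∫ s in (0 : ℝ)..t, (α - τ * s) ^ b := by
  have hder : ∀ x ∈ uIcc (0 : ℝ) t, HasDerivAt (fun x : ℝ => x * (α - τ * x) ^ (b + 1))
      (((b : ℝ) + 2) * (α - τ * x) ^ (b + 1) - ((b : ℝ) + 1) * α * (α - τ * x) ^ b) x := by
    intro x _
    have h1 : HasDerivAt (fun x : ℝ => α - τ * x) (-τ) x := by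
      simpa using ((hasDerivAt_id x).const_mul τ).const_sub α
    have h2 := (hasDerivAt_id' x).fun_mul (h1.fun_pow (b + 1))
    refine h2.congr_deriv ?_
    simp only [Nat.add_sub_cancel]
    push_cast
    ring
  have hc : Continuous fun x : ℝ => ((b : ℝ) + 2) * (α - τ * x) ^ (b + 1) -
      ((b : ℝ) + 1) * α * (α - τ * x) ^ b := by fun_prop
  have h := intervalIntegral.integral_eq_sub_of_hasDerivAt hder (hc.intervalIntegrable _ _)
  rw [intervalIntegral.integral_sub (by apply Continuous.intervalIntegrable; fun_prop)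
    (by apply Continuous.intervalIntegrable; fun_prop),
    intervalIntegral.integral_const_mul, intervalIntegral.integral_const_mul] at h
  simp only [zero_mul, sub_zero] at h
  linarith

/-- The integral over the cone over a piece of a line. -/
theorem integral_Tr (hK₀ : Body K₀) (ha : 1 ≤ a) {Ψ : V a → ℝ} (hm : Measurable Ψ) {M : ℝ}
    (hbd : ∀ y, |Ψ y| ≤ M) (hom : ∀ c : ℝ, 0 < c → ∀ y, Ψ (c • y) = Ψ y) {ε : ℝ}
    (hε : ε = 1 ∨ ε = -1) {α τ t : ℝ} (ht : 0 ≤ t) (hτ : 0 < τ) (hpos : 0 < α - τ * t) :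
    IntegrableOn (fun z : V (a + 1) => Ψ (tl z)) (Tr K₀ ε α τ t) ∧
    ∫ z in Tr K₀ ε α τ t, Ψ (tl z) =
      (α * ((a : ℝ) * ∫ s in (0 : ℝ)..t, (α - τ * s) ^ (a - 1)) / ((a : ℝ) + 1)) * ∫ y in K₀, Ψ y := by
  have hα : 0 < α := by nlinarith
  rcases ht.eq_or_lt with rfl | ht
  · have hempty : Tr K₀ ε α τ 0 = ∅ := by
      ext z
      simp only [Tr, mem_ofPred_eq, mem_empty_iff_false, iff_false]
      rintro ⟨h, h2, _⟩
      rw [zero_mul] at h2
      exact absurd h2 (not_lt.2 (mul_nonneg hα.le h.le))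
    rw [hempty]
    simp
  · have hset : Tr K₀ ε α τ t = regionE K₀ ε (fun s => (α - τ * t) / t * s) (fun s => α - τ * s) t := by
      ext z
      simp only [Tr, regionE, mem_ofPred_eq, mem_Ioc]
      set s := ε * z 0
      set g := gauge K₀ (tl z)
      constructor
      · rintro ⟨h1, h2, h3⟩
        refine ⟨⟨h1, ?_⟩, ?_, by linarith⟩
        · have : α * s < α * t := by
            calc α * s < t * (g + τ * s) := h2
              _ ≤ t * α := mul_le_mul_of_nonneg_left h3 ht.le
              _ = α * t := mul_comm _ _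
          exact (lt_of_mul_lt_mul_left this hα.le).le
        · rw [div_mul_eq_mul_div, div_lt_iff₀ ht]
          nlinarith
      · rintro ⟨⟨h1, _⟩, h2, h3⟩
        refine ⟨h1, ?_, by linarith⟩
        rw [div_mul_eq_mul_div, div_lt_iff₀ ht] at h2
        nlinarith
    rw [hset]
    have hu : Continuous fun s : ℝ => (α - τ * t) / t * s := by fun_prop
    have hv : Continuous fun s : ℝ => α - τ * s := by fun_prop
    obtain ⟨hI, hval⟩ := integral_region hK₀ ha hm hbd hom hε hu hv ht.le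
      (fun s hs => mul_nonneg (div_pos hpos ht).le hs.1.le)
      (fun s hs => by
        have h1 := hs.1
        have h2 := hs.2
        rw [div_mul_eq_mul_div, div_le_iff₀ ht]
        nlinarith)
    refine ⟨hI, ?_⟩
    rw [hval]
    congr 1
    obtain ⟨b, rfl⟩ : ∃ b, a = b + 1 := ⟨a - 1, by omega⟩
    have hline := integral_line trivial b α τ t
    have hI₂ : ∫ s in (0 : ℝ)..t, ((α - τ * s) ^ (b + 1) - ((α - τ * t) / t * s) ^ (b + 1)) =
        (∫ s in (0 : ℝ)..t, (α - τ * s) ^ (b + 1)) - t * (α - τ * t) ^ (b + 1) / ((b : ℝ) + 2) := by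
      rw [intervalIntegral.integral_sub (by apply Continuous.intervalIntegrable; fun_prop)
        (by apply Continuous.intervalIntegrable; fun_prop)]
      congr 1
      simp only [mul_pow]
      rw [intervalIntegral.integral_const_mul, integral_pow, div_pow]
      have : ((b + 1 : ℕ) : ℝ) + 1 = (b : ℝ) + 2 := by push_cast; ring
      rw [this]
      have ht' : t ≠ 0 := ht.ne'
      field_simp
      ring
    rw [hI₂]
    simp only [Nat.add_sub_cancel]
    have hne : ((b : ℝ) + 2) ≠ 0 := by positivity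
    have e : (((b + 1 : ℕ) : ℝ)) + 1 = (b : ℝ) + 2 := by push_cast; ring
    rw [e]
    field_simp
    push_cast
    linarith

end Vale.Agent.Lib.P227Z
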