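import Vale.Agent.Lib.P227H.ConeA

/-! # Cone formula, part B: ties are null; linear forms attached to a polygonal profile -/

open MeasureTheory Set Filter Topology Matrix
open scoped Pointwise ENNReal Nat

namespace Vale.Agent.Lib.P227Z

variable {n a m : ℕ} {K₀ : Set (V a)}

/-- Ties are null. -/
theorem ae_tie (hK₀ : Body K₀) (ha : 1 ≤ a) {A B : ℝ} (h : A ≠ 0 ∨ B ≠ 0) :
    ∀ᵐ z : V (a + 1), A * gauge K₀ (tl z) ≠ B * z 0 := by
  have hgc : Continuous (gauge K₀) := continuous_gauge hK₀.convex hK₀.nhds
  set S : Set (V (a + 1)) := {z | A * gauge K₀ (tl z) = B * z 0} with hS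
  have hSm : MeasurableSet S :=
    measurableSet_eq_fun (continuous_const.mul (hgc.comp continuous_tl)).measurable
      (continuous_const.mul (continuous_apply 0)).measurable
  rw [ae_iff]
  have hset : {z : V (a + 1) | ¬ (A * gauge K₀ (tl z) ≠ B * z 0)} = S := by
    ext z
    simp [hS]
  rw [hset, volume_eq_lintegral_fibre hSm, lintegral_eq_zero_iff']
  · have hy0 : ∀ᵐ y : V a, y ≠ 0 := by
      rw [ae_iff]
      simpa using volume_zero_of_one_le ha
    filter_upwards [hy0] with y hy
    show volume (fibre S y) = 0
    by_cases hB : B = 0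
    · have hA : A ≠ 0 := by
        rcases h with h | h
        · exact h
        · exact absurd hB h
      have : fibre S y = ∅ := by
        ext s
        simp only [fibre, hS, mem_ofPred_eq, mem_empty_iff_false, iff_false, Fin.cons_zero, tl_cons, hB,
          zero_mul]
        exact mul_ne_zero hA (hK₀.gauge_pos hy).ne'
      rw [this, measure_empty]
    · have : fibre S y ⊆ {A * gauge K₀ y / B} := by
        intro s hs
        simp only [fibre, hS, mem_ofPred_eq, Fin.cons_zero, tl_cons] at hs
        rw [mem_singleton_iff, hs]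
        field_simp
      exact measure_mono_null this (measure_singleton _)
  · -- measurability of the fibre volume
    have hmp := volume_preserving_piFinSuccAbove (fun _ : Fin (a + 1) => ℝ) 0
    have hmeas : MeasurableSet
        ((MeasurableEquiv.piFinSuccAbove (fun _ : Fin (a + 1) => ℝ) 0).symm ⁻¹' S) :=
      (MeasurableEquiv.piFinSuccAbove (fun _ : Fin (a + 1) => ℝ) 0).symm.measurable hSm
    have h1 := measurable_measure_prodMk_right (μ := (volume : Measure ℝ)) hmeas
    have : (fun y : V a => volume (fibre S y)) = fun y : V a =>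
        (volume : Measure ℝ) ((fun x : ℝ => (x, y)) ⁻¹'
          ((MeasurableEquiv.piFinSuccAbove (fun _ : Fin (a + 1) => ℝ) 0).symm ⁻¹' S)) := by
      funext y
      congr 1
    rw [this]
    exact h1.aemeasurable

/-- A.e. the projection avoids a null set. -/
theorem ae_tl {P : V a → Prop} (h : ∀ᵐ y : V a, P y) : ∀ᵐ z : V (a + 1), P (tl z) := by
  have hmp := volume_preserving_piFinSuccAbove (fun _ : Fin (a + 1) => ℝ) 0
  have h2 : ∀ᵐ p : ℝ × V a, P p.2 := by
    rw [Measure.volume_eq_prod]
    exact Measure.quasiMeasurePreserving_snd.ae h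
  have h3 := hmp.quasiMeasurePreserving.ae h2
  filter_upwards [h3] with z hz
  have hz2 : ((MeasurableEquiv.piFinSuccAbove (fun _ : Fin (a + 1) => ℝ) 0) z).2 = tl z := by
    funext i
    simp [MeasurableEquiv.piFinSuccAbove, tl]
    rfl
  rwa [hz2] at hz

namespace Poly

variable (D : Poly m)

/-- Coefficient of the gauge of `K₀`. -/
noncomputable def vA : Option (Fin (m + 1)) → ℝ
  | none => 0
  | some j => 1 / D.α j

/-- Coefficient of the height. -/
noncomputable def vB : Option (Fin (m + 1)) → ℝ
  | none => 1 / D.T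
  | some j => D.τ j / D.α j

/-- The linear forms whose maximum is the gauge of `fibPoly`. -/
noncomputable def vl (i : Option (Fin (m + 1))) (s g : ℝ) : ℝ := D.vA i * g + D.vB i * s

theorem vl_some (j : Fin (m + 1)) (s g : ℝ) : D.vl (some j) s g = (g + D.τ j * s) / D.α j := by
  simp only [vl, vA, vB]
  have := D.α_pos j
  field_simp

theorem vl_none (s g : ℝ) : D.vl none s g = s / D.T := by
  simp only [vl, vA, vB]
  have := D.T_pos
  field_simp
  ring

theorem vB_pos (i : Option (Fin (m + 1))) : 0 < D.vB i := by
  cases i with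
  | none => exact div_pos one_pos D.T_pos
  | some j => exact div_pos (D.τ_pos j) (D.α_pos j)

theorem coeff_ne {i i' : Option (Fin (m + 1))} (h : i ≠ i') :
    D.vA i - D.vA i' ≠ 0 ∨ D.vB i - D.vB i' ≠ 0 := by
  by_contra hcon
  push Not at hcon
  obtain ⟨h1, h2⟩ := hcon
  have h1' : D.vA i = D.vA i' := by linarith
  have h2' : D.vB i = D.vB i' := by linarith
  apply h
  cases i with
  | none =>
    cases i' with
    | none => rfl
    | some j =>
      simp only [vA] at h1'
      have := (div_pos one_pos (D.α_pos j)).ne'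
      exact absurd h1'.symm this
  | some j =>
    cases i' with
    | none =>
      simp only [vA] at h1'
      have := (div_pos one_pos (D.α_pos j)).ne'
      exact absurd h1' this
    | some l =>
      simp only [vA, vB] at h1' h2'
      have hj := D.α_pos j
      have hl := D.α_pos l
      have e1 : D.α j = D.α l := by
        field_simp at h1'
        linarith
      rw [e1] at h2'
      have e2 : D.τ j = D.τ l := by
        field_simp at h2'
        linarith
      rw [D.τ_mono.injective e2]

/-- The two lines `j`, `l` meet at the knot between adjacent edges. -/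
theorem adj {l j : Fin (m + 1)} (h : l.succ = j.castSucc) :
    D.α l - D.τ l * D.tk l.succ = D.α j - D.τ j * D.tk l.succ := by
  have hl : D.tk l.succ ∈ Icc (D.tk l.castSucc) (D.tk l.succ) :=
    ⟨D.tk_mono.monotone (Fin.castSucc_lt_succ).le, le_rfl⟩
  have hj : D.tk l.succ ∈ Icc (D.tk j.castSucc) (D.tk j.succ) := by
    rw [h]
    exact ⟨le_rfl, D.tk_mono.monotone (Fin.castSucc_lt_succ).le⟩
  exact le_antisymm (D.env l j _ hl) (D.env j l _ hj)

theorem tkc_nonneg (i : Fin (m + 2)) : 0 ≤ D.tk i := by
  have := D.tk_mono.monotone (Fin.zero_le i)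
  rwa [D.tk_zero] at this

theorem tkc_le_T (i : Fin (m + 2)) : D.tk i ≤ D.T :=
  D.tk_mono.monotone (Fin.le_last i)

/-- Between the knots, the line `j` is the strict maximum. -/
theorem vl_lt_of_between {j : Fin (m + 1)} {s g : ℝ} (hq : 0 < g + D.τ j * s)
    (h1 : D.tk j.castSucc * (g + D.τ j * s) < D.α j * s)
    (h2 : D.α j * s < D.tk j.succ * (g + D.τ j * s)) {i' : Option (Fin (m + 1))}
    (hi : i' ≠ some j) : D.vl i' s g < D.vl (some j) s g := by
  have hαj := D.α_pos j
  rw [vl_some]
  cases i' with
  | none =>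
    rw [vl_none, div_lt_div_iff₀ D.T_pos hαj]
    have : D.tk j.succ * (g + D.τ j * s) ≤ D.T * (g + D.τ j * s) :=
      mul_le_mul_of_nonneg_right (D.tkc_le_T _) hq.le
    nlinarith
  | some l =>
    have hlj : l ≠ j := fun h => hi (by rw [h])
    have hαl := D.α_pos l
    rw [vl_some, div_lt_div_iff₀ hαl hαj]
    have htk1 : D.tk j.castSucc ∈ Icc (D.tk j.castSucc) (D.tk j.succ) :=
      ⟨le_rfl, D.tk_mono.monotone (Fin.castSucc_lt_succ).le⟩
    have htk2 : D.tk j.succ ∈ Icc (D.tk j.castSucc) (D.tk j.succ) :=
      ⟨D.tk_mono.monotone (Fin.castSucc_lt_succ).le, le_rfl⟩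
    have e1 := D.env j l _ htk1
    have e2 := D.env j l _ htk2
    rcases lt_or_gt_of_ne hlj with hl | hl
    · -- `τ l < τ j`
      have hτ : D.τ l < D.τ j := D.τ_mono hl
      have h3 : (D.τ j - D.τ l) * (D.tk j.castSucc * (g + D.τ j * s)) <
          (D.τ j - D.τ l) * (D.α j * s) := mul_lt_mul_of_pos_left h1 (by linarith)
      have h4 := mul_le_mul_of_nonneg_right e1 hq.le
      nlinarith
    · have hτ : D.τ j < D.τ l := D.τ_mono hl
      have h3 : (D.τ l - D.τ j) * (D.α j * s) <
          (D.τ l - D.τ j) * (D.tk j.succ * (g + D.τ j * s)) := mul_lt_mul_of_pos_left h2 (by linarith)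
      have h4 := mul_le_mul_of_nonneg_right e2 hq.le
      nlinarith

/-- Conversely, the strict maximum at `j` gives the position between the knots. -/
theorem between_of_vl_lt {j : Fin (m + 1)} {s g : ℝ} (hq : 0 < g + D.τ j * s) (hs : 0 < s)
    (hmax : ∀ i' : Option (Fin (m + 1)), i' ≠ some j → D.vl i' s g < D.vl (some j) s g) :
    D.tk j.castSucc * (g + D.τ j * s) < D.α j * s ∧ D.α j * s < D.tk j.succ * (g + D.τ j * s) := by
  have hαj := D.α_pos j
  constructor
  · by_cases hj : j = 0
    · subst hj
      have : D.tk (Fin.castSucc (0 : Fin (m + 1))) = 0 := by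
        rw [← D.tk_zero]
        rfl
      rw [this, zero_mul]
      exact mul_pos hαj hs
    · -- the previous line
      obtain ⟨l, hl⟩ : ∃ l : Fin (m + 1), l.succ = j.castSucc := by
        have hj' : j.val ≠ 0 := fun h => hj (Fin.ext h)
        refine ⟨⟨j.val - 1, by omega⟩, Fin.ext ?_⟩
        simp only [Fin.val_succ, Fin.val_castSucc]
        omega
      have hlj : l < j := by
        have := congrArg Fin.val hl
        simp only [Fin.val_succ, Fin.val_castSucc] at this
        exact Fin.lt_def.2 (by omega)
      have hτ := D.τ_mono hlj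
      have h1 := hmax (some l) (fun h => by
        have : l = j := Option.some.inj h
        exact hlj.ne this)
      rw [vl_some, vl_some, div_lt_div_iff₀ (D.α_pos l) hαj] at h1
      have h2 := D.adj hl
      rw [hl] at h2
      have h3 : (D.τ j - D.τ l) * (D.tk j.castSucc * (g + D.τ j * s)) <
          (D.τ j - D.τ l) * (D.α j * s) := by nlinarith
      exact lt_of_mul_lt_mul_left h3 (by linarith)
  · by_cases hj : j = Fin.last m
    · subst hj
      have h1 := hmax none (by simp)
      rw [vl_none, vl_some, div_lt_div_iff₀ D.T_pos hαj] at h1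
      have : D.tk (Fin.last m).succ = D.T := rfl
      rw [this]
      nlinarith
    · obtain ⟨l, hl⟩ : ∃ l : Fin (m + 1), j.succ = l.castSucc := by
        have hj' : j.val ≠ m := fun h => hj (Fin.ext h)
        refine ⟨⟨j.val + 1, by omega⟩, Fin.ext ?_⟩
        simp only [Fin.val_succ, Fin.val_castSucc]
      have hjl : j < l := by
        have := congrArg Fin.val hl
        simp only [Fin.val_succ, Fin.val_castSucc] at this
        exact Fin.lt_def.2 (by omega)
      have hτ := D.τ_mono hjl
      have h1 := hmax (some l) (fun h => by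
        have : l = j := Option.some.inj h
        exact hjl.ne' this)
      rw [vl_some, vl_some, div_lt_div_iff₀ (D.α_pos l) hαj] at h1
      have h2 := D.adj hl
      have h3 : (D.τ l - D.τ j) * (D.α j * s) <
          (D.τ l - D.τ j) * (D.tk j.succ * (g + D.τ j * s)) := by nlinarith
      exact lt_of_mul_lt_mul_left h3 (by linarith)

end Poly

end Vale.Agent.Lib.P227Z
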