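import Vale.Agent.Lib.P227H.ConeB

/-! # Cone formula, part C: the pieces of `fibPoly`, their gauge and their integrals -/

open MeasureTheory Set Filter Topology Matrix
open scoped Pointwise ENNReal Nat

namespace Vale.Agent.Lib.P227Z

variable {a m : ℕ} {K₀ : Set (V a)}

private lemma abs_of_sign {ε x : ℝ} (hε : ε = 1 ∨ ε = -1) (h : 0 < ε * x) : |x| = ε * x := by
  rcases hε with rfl | rfl
  · rw [one_mul] at h ⊢
    exact abs_of_pos h
  · rw [neg_one_mul] at h ⊢
    exact abs_of_neg (by linarith)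

namespace Poly

variable (D : Poly m)

theorem vl_le_gauge (hK₀ : Body K₀) (z : V (a + 1)) (i : Option (Fin (m + 1))) :
    D.vl i |z 0| (gauge K₀ (tl z)) ≤ gauge (fibPoly K₀ D) z := by
  rw [gauge_fibPoly hK₀ D z]
  cases i with
  | none =>
    rw [vl_none]
    exact le_max_left _ _
  | some j =>
    rw [vl_some]
    exact le_max_of_le_right (Finset.le_sup'
      (fun j => (gauge K₀ (tl z) + D.τ j * |z 0|) / D.α j) (Finset.mem_univ j))

theorem exists_gauge_eq (hK₀ : Body K₀) (z : V (a + 1)) :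
    ∃ i, gauge (fibPoly K₀ D) z = D.vl i |z 0| (gauge K₀ (tl z)) := by
  rw [gauge_fibPoly hK₀ D z]
  rcases le_total (|z 0| / D.T) (Finset.univ.sup' Finset.univ_nonempty
    fun j => (gauge K₀ (tl z) + D.τ j * |z 0|) / D.α j) with h | h
  · rw [max_eq_right h]
    obtain ⟨j, _, hj⟩ := Finset.exists_mem_eq_sup' Finset.univ_nonempty
      (fun j => (gauge K₀ (tl z) + D.τ j * |z 0|) / D.α j)
    exact ⟨some j, by rw [hj, vl_some]⟩
  · rw [max_eq_left h]
    exact ⟨none, by rw [vl_none]⟩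

theorem gauge_eq_of_max (hK₀ : Body K₀) {ε : ℝ} (hε : ε = 1 ∨ ε = -1) {z : V (a + 1)}
    {i : Option (Fin (m + 1))} (h0 : 0 < ε * z 0)
    (hmax : ∀ i', i' ≠ i → D.vl i' (ε * z 0) (gauge K₀ (tl z)) < D.vl i (ε * z 0) (gauge K₀ (tl z))) :
    gauge (fibPoly K₀ D) z = D.vl i (ε * z 0) (gauge K₀ (tl z)) := by
  have habs := abs_of_sign hε h0
  obtain ⟨i', hi'⟩ := D.exists_gauge_eq hK₀ z
  have hle := D.vl_le_gauge hK₀ z i
  rw [habs] at hi' hle
  by_cases h : i' = i
  · rw [hi', h]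
  · have := hmax i' h
    linarith

theorem continuous_vl (hK₀ : Body K₀) (ε : ℝ) (i : Option (Fin (m + 1))) :
    Continuous fun z : V (a + 1) => D.vl i (ε * z 0) (gauge K₀ (tl z)) := by
  have hgc : Continuous (gauge K₀) := continuous_gauge hK₀.convex hK₀.nhds
  have hg : Continuous fun z : V (a + 1) => gauge K₀ (tl z) := hgc.comp continuous_tl
  have hz0 : Continuous fun z : V (a + 1) => ε * z 0 := continuous_const.mul (continuous_apply 0)
  exact (continuous_const.mul hg).add (continuous_const.mul hz0)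

/-- The gradient of the gauge of `fibPoly`, off the ties. -/
theorem gaugeGrad_of_max (hK₀ : Body K₀) {ε : ℝ} (hε : ε = 1 ∨ ε = -1) {z : V (a + 1)}
    {i : Option (Fin (m + 1))} (h0 : 0 < ε * z 0)
    (hmax : ∀ i', i' ≠ i → D.vl i' (ε * z 0) (gauge K₀ (tl z)) < D.vl i (ε * z 0) (gauge K₀ (tl z)))
    (hd : DifferentiableAt ℝ (gauge K₀) (tl z)) :
    gaugeGrad (fibPoly K₀ D) z = Fin.cons (ε * D.vB i) (D.vA i • gaugeGrad K₀ (tl z)) := by
  have hz0 : Continuous fun z : V (a + 1) => ε * z 0 := continuous_const.mul (continuous_apply 0)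
  have hev : ∀ᶠ w in 𝓝 z, gauge (fibPoly K₀ D) w = D.vl i (ε * w 0) (gauge K₀ (tl w)) := by
    have h1 : ∀ᶠ w in 𝓝 z, 0 < ε * w 0 :=
      (isOpen_lt continuous_const hz0).mem_nhds h0
    have h2 : ∀ᶠ w in 𝓝 z, ∀ i', i' ≠ i →
        D.vl i' (ε * w 0) (gauge K₀ (tl w)) < D.vl i (ε * w 0) (gauge K₀ (tl w)) := by
      rw [eventually_all]
      intro i'
      by_cases hi : i' = i
      · exact Eventually.of_forall fun w h => absurd hi h
      · have := (isOpen_lt (D.continuous_vl hK₀ ε i') (D.continuous_vl hK₀ ε i)).mem_nhds (hmax i' hi)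
        filter_upwards [this] with w hw _
        exact hw
    filter_upwards [h1, h2] with w hw1 hw2
    exact D.gauge_eq_of_max hK₀ hε hw1 hw2
  let tlL : V (a + 1) →L[ℝ] V a := ContinuousLinearMap.pi fun k => ContinuousLinearMap.proj k.succ
  let P0 : V (a + 1) →L[ℝ] ℝ := ContinuousLinearMap.proj 0
  have h_tl : HasFDerivAt (tl : V (a + 1) → V a) tlL z := tlL.hasFDerivAt
  have h1 : HasFDerivAt (fun w : V (a + 1) => gauge K₀ (tl w))
      ((fderiv ℝ (gauge K₀) (tl z)).comp tlL) z := hd.hasFDerivAt.comp z h_tl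
  have h2 : HasFDerivAt (fun w : V (a + 1) => D.vl i (ε * w 0) (gauge K₀ (tl w)))
      (D.vA i • ((fderiv ℝ (gauge K₀) (tl z)).comp tlL) + (D.vB i * ε) • P0) z := by
    have h3 : HasFDerivAt (fun w : V (a + 1) => (D.vB i * ε) * w 0) ((D.vB i * ε) • P0) z :=
      P0.hasFDerivAt.const_mul _
    have h4 := (h1.const_mul (D.vA i)).add h3
    refine h4.congr_of_eventuallyEq (Eventually.of_forall fun w => ?_)
    simp only [vl, Pi.add_apply]
    ring
  have h3 := (h2.congr_of_eventuallyEq hev).fderiv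
  funext k
  refine Fin.cases ?_ (fun k => ?_) k
  · simp only [gaugeGrad, h3, Fin.cons_zero]
    have e : tlL (Pi.single 0 1) = 0 := by
      funext k
      simp [tlL, Pi.single_apply, Fin.succ_ne_zero]
    simp [e, P0]
    ring
  · simp only [gaugeGrad, h3, Fin.cons_succ]
    have e : tlL (Pi.single k.succ 1) = Pi.single k 1 := by
      funext l
      simp [tlL, Pi.single_apply]
    simp [e, P0, Fin.succ_ne_zero]
    exact Or.inl rfl

end Poly

/-- The piece of `fibPoly` where the linear form `i` is the strict maximum. -/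
def Pc (D : Poly m) (K₀ : Set (V a)) (ε : ℝ) (i : Option (Fin (m + 1))) : Set (V (a + 1)) :=
  {z | 0 < ε * z 0 ∧
    (∀ i', i' ≠ i → D.vl i' (ε * z 0) (gauge K₀ (tl z)) < D.vl i (ε * z 0) (gauge K₀ (tl z))) ∧
    D.vl i (ε * z 0) (gauge K₀ (tl z)) ≤ 1}

theorem measurableSet_Pc (hK₀ : Body K₀) (D : Poly m) (ε : ℝ) (i : Option (Fin (m + 1))) :
    MeasurableSet (Pc D K₀ ε i) := by
  have hz0 : Continuous fun z : V (a + 1) => ε * z 0 := continuous_const.mul (continuous_apply 0)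
  have h1 : MeasurableSet {z : V (a + 1) | 0 < ε * z 0} :=
    measurableSet_lt measurable_const hz0.measurable
  have h3 : MeasurableSet {z : V (a + 1) | D.vl i (ε * z 0) (gauge K₀ (tl z)) ≤ 1} :=
    measurableSet_le (D.continuous_vl hK₀ ε i).measurable measurable_const
  have h2 : MeasurableSet {z : V (a + 1) | ∀ i', i' ≠ i →
      D.vl i' (ε * z 0) (gauge K₀ (tl z)) < D.vl i (ε * z 0) (gauge K₀ (tl z))} := by
    have : {z : V (a + 1) | ∀ i', i' ≠ i →
        D.vl i' (ε * z 0) (gauge K₀ (tl z)) < D.vl i (ε * z 0) (gauge K₀ (tl z))} =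
        ⋂ i', {z : V (a + 1) | i' ≠ i →
          D.vl i' (ε * z 0) (gauge K₀ (tl z)) < D.vl i (ε * z 0) (gauge K₀ (tl z))} := by
      ext z
      simp
    rw [this]
    refine MeasurableSet.iInter fun i' => ?_
    by_cases hi : i' = i
    · simp [hi]
    · simp only [ne_eq, hi, not_false_eq_true, forall_const]
      exact measurableSet_lt (D.continuous_vl hK₀ ε i').measurable (D.continuous_vl hK₀ ε i).measurable
  exact h1.inter (h2.inter h3)

theorem Pc_subset (D : Poly m) (K₀ : Set (V a)) {ε : ℝ} (hε : ε = 1 ∨ ε = -1)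
    (i : Option (Fin (m + 1))) : Pc D K₀ ε i ⊆ fibPoly K₀ D := by
  rintro z ⟨h0, hmax, h1⟩
  have habs := abs_of_sign hε h0
  have hle : ∀ i', D.vl i' (ε * z 0) (gauge K₀ (tl z)) ≤ 1 := by
    intro i'
    by_cases hi : i' = i
    · rw [hi]
      exact h1
    · exact (hmax i' hi).le.trans h1
  constructor
  · have := hle none
    rw [D.vl_none, div_le_one D.T_pos] at this
    rw [habs]
    exact this
  · intro j
    have := hle (some j)
    rw [D.vl_some, div_le_one (D.α_pos j)] at this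
    rw [habs]
    exact this

/-- The integral over a piece `j`. -/
theorem integral_Pc_some (hK₀ : Body K₀) (ha : 1 ≤ a) (D : Poly m) {Ψ : V a → ℝ} (hm : Measurable Ψ)
    {M : ℝ} (hbd : ∀ y, |Ψ y| ≤ M) (hom : ∀ c : ℝ, 0 < c → ∀ y, Ψ (c • y) = Ψ y) {ε : ℝ}
    (hε : ε = 1 ∨ ε = -1) (j : Fin (m + 1)) :
    ∫ z in Pc D K₀ ε (some j), Ψ (tl z) = D.w a j * ∫ y in K₀, Ψ y := by
  set t := D.tk j.castSucc with ht
  set t' := D.tk j.succ with ht'
  have hαj := D.α_pos j
  have hτj := D.τ_pos j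
  have htt' : t ≤ t' := D.tk_mono.monotone (Fin.castSucc_lt_succ).le
  have ht0 : 0 ≤ t := D.tkc_nonneg _
  have hpos' : 0 < D.α j - D.τ j * t' := D.line_pos j (D.tkc_le_T _)
  have hpos : 0 < D.α j - D.τ j * t := D.line_pos j (D.tkc_le_T _)
  obtain ⟨hIA, hA⟩ := integral_Tr hK₀ ha hm hbd hom hε ht0 hτj hpos
  obtain ⟨hIB, hB⟩ := integral_Tr hK₀ ha hm hbd hom hε (ht0.trans htt') hτj hpos'
  have hsub : Tr K₀ ε (D.α j) (D.τ j) t ⊆ Tr K₀ ε (D.α j) (D.τ j) t' := by
    rintro z ⟨h1, h2, h3⟩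
    refine ⟨h1, ?_, h3⟩
    have hg : 0 ≤ gauge K₀ (tl z) := gauge_nonneg _
    have hq : 0 < gauge K₀ (tl z) + D.τ j * (ε * z 0) := by positivity
    exact h2.trans_le (mul_le_mul_of_nonneg_right htt' hq.le)
  have hae : Pc D K₀ ε (some j) =ᵐ[volume]
      (Tr K₀ ε (D.α j) (D.τ j) t' \ Tr K₀ ε (D.α j) (D.τ j) t : Set (V (a + 1))) := by
    refine Filter.eventuallyEq_set.2 ?_
    have htie := ae_tie hK₀ ha (A := t) (B := (D.α j - D.τ j * t) * ε) (Or.inr (mul_ne_zero hpos.ne' (by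
      rcases hε with rfl | rfl <;> norm_num)))
    filter_upwards [htie] with z hz
    have hg : 0 ≤ gauge K₀ (tl z) := gauge_nonneg _
    constructor
    · rintro ⟨h0, hmax, h1⟩
      have hq : 0 < gauge K₀ (tl z) + D.τ j * (ε * z 0) := by positivity
      obtain ⟨h2, h3⟩ := D.between_of_vl_lt hq h0 hmax
      rw [D.vl_some, div_le_one hαj] at h1
      refine ⟨⟨h0, h3, h1⟩, ?_⟩
      rintro ⟨_, h4, _⟩
      exact absurd h4 (not_lt.2 h2.le)
    · rintro ⟨⟨h0, h2, h3⟩, h4⟩
      have hq : 0 < gauge K₀ (tl z) + D.τ j * (ε * z 0) := by positivity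
      have h5 : t * (gauge K₀ (tl z) + D.τ j * (ε * z 0)) < D.α j * (ε * z 0) := by
        have h6 : ¬ (D.α j * (ε * z 0) < t * (gauge K₀ (tl z) + D.τ j * (ε * z 0))) :=
          fun h => h4 ⟨h0, h, h3⟩
        refine lt_of_le_of_ne (not_lt.1 h6) fun h7 => hz ?_
        linarith
      refine ⟨h0, fun i' hi' => D.vl_lt_of_between hq h5 h2 hi', ?_⟩
      rw [D.vl_some, div_le_one hαj]
      exact h3
  rw [setIntegral_congr_set hae, setIntegral_diff (measurableSet_Tr hK₀ _ _ _ _) hIB hsub, hA, hB]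
  have hint : (∫ s in (0 : ℝ)..t', (D.α j - D.τ j * s) ^ (a - 1)) -
      ∫ s in (0 : ℝ)..t, (D.α j - D.τ j * s) ^ (a - 1) =
      ∫ s in t..t', (D.α j - D.τ j * s) ^ (a - 1) :=
    intervalIntegral.integral_interval_sub_left (by apply Continuous.intervalIntegrable; fun_prop)
      (by apply Continuous.intervalIntegrable; fun_prop)
  have hw : D.w a j = D.α j * ((a : ℝ) * ∫ s in t..t', (D.α j - D.τ j * s) ^ (a - 1)) / ((a : ℝ) + 1) :=
    rfl
  rw [hw, ← hint]
  ring

/-- The integral over the cap. -/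
theorem integral_Pc_none (hK₀ : Body K₀) (ha : 1 ≤ a) (D : Poly m) {Ψ : V a → ℝ} (hm : Measurable Ψ)
    {M : ℝ} (hbd : ∀ y, |Ψ y| ≤ M) (hom : ∀ c : ℝ, 0 < c → ∀ y, Ψ (c • y) = Ψ y) {ε : ℝ}
    (hε : ε = 1 ∨ ε = -1) :
    ∫ z in Pc D K₀ ε none, Ψ (tl z) = D.wc a * ∫ y in K₀, Ψ y := by
  have hT := D.T_pos
  have hρ := D.ρT_pos
  have hu : Continuous fun _ : ℝ => (0 : ℝ) := continuous_const
  have hv : Continuous fun s : ℝ => D.ρT / D.T * s := by fun_prop
  obtain ⟨-, hval⟩ := integral_region hK₀ ha hm hbd hom hε hu hv hT.le (fun _ _ => le_rfl)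
    (fun s hs => mul_nonneg (div_pos hρ hT).le hs.1.le)
  have hae : Pc D K₀ ε none =ᵐ[volume] regionE K₀ ε (fun _ => 0) (fun s => D.ρT / D.T * s) D.T := by
    refine Filter.eventuallyEq_set.2 ?_
    have htie := ae_tie hK₀ ha (A := D.T) (B := D.ρT * ε) (Or.inl hT.ne')
    have htie0 := ae_tie hK₀ ha (A := 1) (B := 0) (Or.inl one_ne_zero)
    filter_upwards [htie, htie0] with z hz hz0
    have hg : 0 ≤ gauge K₀ (tl z) := gauge_nonneg _
    have hg0 : gauge K₀ (tl z) ≠ 0 := by simpa using hz0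
    constructor
    · rintro ⟨h0, hmax, h1⟩
      rw [D.vl_none, div_le_one hT] at h1
      refine ⟨⟨h0, h1⟩, lt_of_le_of_ne hg hg0.symm, ?_⟩
      have h2 := hmax (some (Fin.last m)) (by simp)
      rw [D.vl_some, D.vl_none, div_lt_div_iff₀ (D.α_pos _) hT] at h2
      have e : D.ρT = D.α (Fin.last m) - D.τ (Fin.last m) * D.T := rfl
      show gauge K₀ (tl z) ≤ D.ρT / D.T * (ε * z 0)
      rw [div_mul_eq_mul_div, le_div_iff₀ hT, e]
      nlinarith
    · rintro ⟨⟨h0, h1⟩, h2, h3⟩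
      replace h3 : gauge K₀ (tl z) ≤ D.ρT / D.T * (ε * z 0) := h3
      refine ⟨h0, ?_, ?_⟩
      · intro i' hi'
        cases i' with
        | none => exact absurd rfl hi'
        | some l =>
          rw [D.vl_some, D.vl_none, div_lt_div_iff₀ (D.α_pos _) hT]
          rw [div_mul_eq_mul_div, le_div_iff₀ hT] at h3
          have hne : gauge K₀ (tl z) * D.T ≠ D.ρT * (ε * z 0) := by
            intro h
            apply hz
            linarith
          have h4 : gauge K₀ (tl z) * D.T < D.ρT * (ε * z 0) := lt_of_le_of_ne h3 hne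
          have hTm : D.T ∈ Icc (D.tk (Fin.last m).castSucc) (D.tk (Fin.last m).succ) :=
            ⟨D.tkc_le_T _, le_rfl⟩
          have h5 := D.env (Fin.last m) l _ hTm
          have e : D.ρT = D.α (Fin.last m) - D.τ (Fin.last m) * D.T := rfl
          rw [← e] at h5
          have h6 := mul_le_mul_of_nonneg_right h5 h0.le
          nlinarith
      · rw [D.vl_none, div_le_one hT]
        exact h1
  rw [setIntegral_congr_set hae, hval]
  congr 1
  have h0a : (0 : ℝ) ^ a = 0 := zero_pow (by omega)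
  simp only [h0a, sub_zero, mul_pow]
  rw [intervalIntegral.integral_const_mul, integral_pow, div_pow]
  have hw : D.wc a = D.T * D.ρT ^ a / ((a : ℝ) + 1) := rfl
  rw [hw, zero_pow (by omega)]
  have hTa : D.T ≠ 0 := hT.ne'
  field_simp
  ring

end Vale.Agent.Lib.P227Z
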