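import Vale.Agent.Lib.P227H.Defs

/-! # JOB S2: radial integration for `0`-homogeneous integrands

`∫_{r K} ψ = r^n ∫_K ψ` for `ψ (c y) = ψ y`, `c > 0`. Then layer cake: `(1 - g)^a = ∫_g^1 a (1-t)^(a-1) dt`, `g^b = ∫_0^g b t^(b-1) dt`, Fubini.
`∫_0^1 a (1-t)^(a-1) t^n dt = a! n! / (a+n)!`. `∫_K g^b ψ = ∫_0^1 b t^(b-1) (∫_{K \ tK} ψ) dt = ∫_0^1 b t^(b-1) (1 - t^n) dt ∫_K ψ = (n/(n+b)) ∫_K ψ`.
-/

open MeasureTheory Set Filter Topology Matrix
open scoped Pointwise ENNReal Nat

namespace Vale.Agent.Lib.P227Z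

variable {n : ℕ} {K : Set (V n)}

/-- The constant `a! b! / (a+b)!`. -/
noncomputable def cab (a b : ℕ) : ℝ := ((a ! : ℝ) * (b ! : ℝ)) / ((a + b)! : ℝ)

theorem cab_pos (a b : ℕ) : 0 < cab a b := by
  unfold cab
  positivity

/-- `gaugeGrad` is `0`-homogeneous. -/
theorem gaugeGrad_smul (K : Set (V n)) {c : ℝ} (hc : 0 < c) (y : V n) :
    gaugeGrad K (c • y) = gaugeGrad K y := by
  funext i
  unfold gaugeGrad
  have h1 : (fun z => gauge K (c • z)) = c • gauge K := by
    funext z
    simp [gauge_smul_of_nonneg hc.le]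
  have h2 := fderiv_comp_smul (𝕜 := ℝ) (f := gauge K) (x := y) c
  change fderiv ℝ (fun z => gauge K (c • z)) y = _ at h2
  rw [h1, fderiv_const_smul_field] at h2
  have h3 := smul_right_injective _ hc.ne' h2
  rw [← h3]

/-- `gaugeGrad` of a symmetric set is odd. -/
theorem gaugeGrad_neg (hK : Body K) (y : V n) : gaugeGrad K (-y) = - gaugeGrad K y := by
  funext i
  unfold gaugeGrad
  have h1 : (fun z => gauge K ((-1 : ℝ) • z)) = gauge K := by
    funext z
    rw [neg_one_smul]
    exact gauge_neg hK.symm z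
  have h2 := fderiv_comp_smul (𝕜 := ℝ) (f := gauge K) (x := y) (-1 : ℝ)
  change fderiv ℝ (fun z => gauge K ((-1 : ℝ) • z)) y = _ at h2
  rw [h1, neg_one_smul, neg_one_smul] at h2
  rw [h2]
  simp

theorem setIntegral_dilate (hK : Body K) {ψ : V n → ℝ} (hψ : ∀ c : ℝ, 0 < c → ∀ y, ψ (c • y) = ψ y)
    {r : ℝ} (hr : 0 < r) : ∫ y in r • K, ψ y = r ^ n * ∫ y in K, ψ y := by
  have h := Measure.setIntegral_comp_smul_of_pos (volume : Measure (V n)) ψ K hr
  simp only [hψ r hr, Module.finrank_fintype_fun_eq_card, Fintype.card_fin, smul_eq_mul] at h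
  rw [h]
  have : r ^ n ≠ 0 := (pow_pos hr n).ne'
  field_simp

/-- The level sets of the gauge. -/
private theorem gauge_le_iff (hK : Body K) {t : ℝ} (ht : 0 < t) (y : V n) :
    gauge K y ≤ t ↔ y ∈ t • K := by
  rw [mem_smul_set_iff_inv_smul_mem₀ ht.ne']
  have h1 := gauge_le_one_iff_mem_closure (x := t⁻¹ • y) hK.convex hK.nhds
  rw [hK.compact.isClosed.closure_eq] at h1
  rw [← h1, gauge_smul_of_nonneg (inv_pos.2 ht).le, smul_eq_mul, inv_mul_le_iff₀ ht, mul_one]

private theorem gauge_le_one (hK : Body K) {y : V n} (hy : y ∈ K) : gauge K y ≤ 1 := by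
  have h1 := gauge_le_one_iff_mem_closure (x := y) hK.convex hK.nhds
  rw [hK.compact.isClosed.closure_eq] at h1
  exact h1.2 hy

private theorem radial_general (hK : Body K) {ψ : V n → ℝ}
    (hψ : ∀ c : ℝ, 0 < c → ∀ y, ψ (c • y) = ψ y) (hψi : IntegrableOn ψ K)
    (h h' : ℝ → ℝ) (hd : ∀ t, HasDerivAt h (h' t) t) (hc : Continuous h') :
    ∫ y in K, h (gauge K y) * ψ y =
      (h 1 - ∫ t in (0 : ℝ)..1, h' t * t ^ n) * ∫ y in K, ψ y := by
  have hgc : Continuous (gauge K) := continuous_gauge hK.convex hK.nhds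
  have hKm : MeasurableSet K := hK.compact.isClosed.measurableSet
  have hhc : Continuous h := continuous_iff_continuousAt.2 fun t => (hd t).continuousAt
  set μ : Measure (V n) := volume.restrict K with hμ
  set ν : Measure ℝ := volume.restrict (Ioc 0 1) with hν
  have : IsFiniteMeasure ν := ⟨by simp [hν]⟩
  have : IsFiniteMeasure μ := ⟨by
    rw [hμ]
    simpa using hK.compact.measure_lt_top⟩
  have hνi : Integrable h' ν := by
    have := (hc.continuousOn (s := Icc 0 1)).integrableOn_compact (μ := volume) isCompact_Icc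
    exact this.mono_set Ioc_subset_Icc_self
  have hS : MeasurableSet {p : V n × ℝ | gauge K p.1 ≤ p.2} :=
    measurableSet_le (hgc.measurable.comp measurable_fst) measurable_snd
  have hF : Integrable (Function.uncurry fun (y : V n) (t : ℝ) =>
      ({p : V n × ℝ | gauge K p.1 ≤ p.2}).indicator (fun p => ψ p.1 * h' p.2) (y, t)) (μ.prod ν) := by
    exact (Integrable.mul_prod (μ := μ) (ν := ν) hψi hνi).indicator hS
  have hswap := integral_integral_swap (μ := μ) (ν := ν) hF
  have hleft : ∫ y, ∫ t, ({p : V n × ℝ | gauge K p.1 ≤ p.2}).indicator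
      (fun p => ψ p.1 * h' p.2) (y, t) ∂ν ∂μ = ∫ y, ψ y * (h 1 - h (gauge K y)) ∂μ := by
    refine setIntegral_congr_fun hKm ?_
    intro y hy
    have hg0 : 0 ≤ gauge K y := gauge_nonneg y
    have hg1 : gauge K y ≤ 1 := gauge_le_one hK hy
    have hind : (fun t => ({p : V n × ℝ | gauge K p.1 ≤ p.2}).indicator
        (fun p => ψ p.1 * h' p.2) (y, t)) = (Ici (gauge K y)).indicator (fun t => ψ y * h' t) := by
      funext t
      simp [indicator]
    simp only [hind]
    rw [hν, integral_indicator measurableSet_Ici, Measure.restrict_restrict measurableSet_Ici,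
      integral_const_mul]
    congr 1
    have hae : (Ici (gauge K y) ∩ Ioc 0 1 : Set ℝ) =ᵐ[volume] Ioc (gauge K y) 1 := by
      have h3 : (volume : Measure ℝ) {gauge K y} = 0 := by simp
      have h4 : ∀ᵐ t ∂(volume : Measure ℝ), t ∉ ({gauge K y} : Set ℝ) :=
        measure_eq_zero_iff_ae_notMem.1 h3
      refine Filter.eventuallyEq_set.2 ?_
      filter_upwards [h4] with t ht
      constructor
      · rintro ⟨ht1, _, ht2⟩
        exact ⟨lt_of_le_of_ne ht1 (fun e => ht e.symm), ht2⟩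
      · rintro ⟨ht1, ht2⟩
        exact ⟨ht1.le, lt_of_le_of_lt hg0 ht1, ht2⟩
    rw [setIntegral_congr_set hae, ← intervalIntegral.integral_of_le hg1]
    exact intervalIntegral.integral_eq_sub_of_hasDerivAt (fun t _ => hd t)
      (hc.intervalIntegrable _ _)
  have hright : ∫ t, ∫ y, ({p : V n × ℝ | gauge K p.1 ≤ p.2}).indicator
      (fun p => ψ p.1 * h' p.2) (y, t) ∂μ ∂ν = ∫ t, h' t * t ^ n * (∫ y in K, ψ y) ∂ν := by
    refine setIntegral_congr_fun measurableSet_Ioc ?_
    intro t ht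
    have hind : (fun y => ({p : V n × ℝ | gauge K p.1 ≤ p.2}).indicator
        (fun p => ψ p.1 * h' p.2) (y, t)) = (t • K).indicator (fun y => ψ y * h' t) := by
      funext y
      have := gauge_le_iff hK ht.1 y
      by_cases hy : y ∈ t • K
      · have hy' := this.2 hy
        simp [indicator, hy, hy']
      · have hy' : ¬ gauge K y ≤ t := fun e => hy (this.1 e)
        simp [indicator, hy, hy']
    simp only [hind]
    have hmeas : MeasurableSet (t • K) :=
      ((hK.compact.smul t).isClosed).measurableSet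
    rw [hμ, integral_indicator hmeas, Measure.restrict_restrict hmeas]
    have hsub : t • K ∩ K = t • K := by
      refine inter_eq_left.2 ?_
      intro y hy
      have h1 := (gauge_le_iff hK ht.1 y).2 hy
      have h2 := gauge_le_one_iff_mem_closure (x := y) hK.convex hK.nhds
      rw [hK.compact.isClosed.closure_eq] at h2
      exact h2.1 (h1.trans ht.2)
    rw [hsub, integral_mul_const, setIntegral_dilate hK hψ ht.1]
    ring
  have hint1 : IntegrableOn (fun y => h (gauge K y) * ψ y) K :=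
    IntegrableOn.continuousOn_mul (hhc.comp hgc).continuousOn hψi hK.compact
  have hmain : ∫ y, ψ y * (h 1 - h (gauge K y)) ∂μ =
      h 1 * (∫ y in K, ψ y) - ∫ y in K, h (gauge K y) * ψ y := by
    have e : (fun y => ψ y * (h 1 - h (gauge K y))) =
        fun y => h 1 * ψ y - h (gauge K y) * ψ y := by
      funext y
      ring
    simp only [e]
    rw [hμ, integral_sub (hψi.const_mul _) hint1, integral_const_mul]
  have hright2 : ∫ t, h' t * t ^ n * (∫ y in K, ψ y) ∂ν =
      (∫ t in (0 : ℝ)..1, h' t * t ^ n) * ∫ y in K, ψ y := by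
    rw [integral_mul_const, intervalIntegral.integral_of_le zero_le_one]
  rw [hleft, hright, hmain, hright2] at hswap
  linarith


private theorem beta_aux (a : ℕ) : ∀ n : ℕ,
    ∫ t in (0 : ℝ)..1, (1 - t) ^ a * t ^ n = ((a ! : ℝ) * (n ! : ℝ)) / ((a + n + 1)! : ℝ) := by
  induction a with
  | zero =>
    intro n
    have h1 : ((0 + n + 1)! : ℝ) = ((n : ℝ) + 1) * (n ! : ℝ) := by
      rw [zero_add, Nat.factorial_succ]
      push_cast
      ring
    have h2 : (n ! : ℝ) ≠ 0 := by positivity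
    have h3 : (n : ℝ) + 1 ≠ 0 := by positivity
    simp only [pow_zero, one_mul, integral_pow, Nat.factorial_zero, Nat.cast_one]
    rw [h1]
    simp
    field_simp
  | succ a ih =>
    intro n
    have hd : ∀ t ∈ uIcc (0 : ℝ) 1, HasDerivAt (fun t : ℝ => (1 - t) ^ (a + 1) * t ^ (n + 1))
        (((n : ℝ) + 1) * ((1 - t) ^ (a + 1) * t ^ n) - ((a : ℝ) + 1) * ((1 - t) ^ a * t ^ (n + 1))) t := by
      intro t _
      have h1 : HasDerivAt (fun t : ℝ => (1 - t) ^ (a + 1)) (((a + 1 : ℕ) : ℝ) * (1 - t) ^ a * (-1)) t := by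
        have := ((hasDerivAt_id' t).const_sub 1).fun_pow (a + 1)
        simpa using this
      have h2 : HasDerivAt (fun t : ℝ => t ^ (n + 1)) (((n + 1 : ℕ) : ℝ) * t ^ n) t := by
        simpa using (hasDerivAt_id' t).fun_pow (n + 1)
      refine (h1.fun_mul h2).congr_deriv ?_
      push_cast
      ring
    have hint1 : IntervalIntegrable (fun t : ℝ => ((n : ℝ) + 1) * ((1 - t) ^ (a + 1) * t ^ n)) volume 0 1 :=
      Continuous.intervalIntegrable (by fun_prop) _ _
    have hint2 : IntervalIntegrable (fun t : ℝ => ((a : ℝ) + 1) * ((1 - t) ^ a * t ^ (n + 1))) volume 0 1 :=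
      Continuous.intervalIntegrable (by fun_prop) _ _
    have hftc := intervalIntegral.integral_eq_sub_of_hasDerivAt hd (hint1.sub hint2)
    rw [intervalIntegral.integral_sub hint1 hint2, intervalIntegral.integral_const_mul,
      intervalIntegral.integral_const_mul, ih (n + 1)] at hftc
    simp only [sub_self, ne_eq, Nat.add_eq_zero_iff, one_ne_zero, and_false, not_false_eq_true,
      zero_pow, sub_zero, one_pow, mul_one, mul_zero] at hftc
    have e1 : a + (n + 1) + 1 = a + 1 + n + 1 := by ring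
    rw [e1] at hftc
    have h3 : (n : ℝ) + 1 ≠ 0 := by positivity
    have h4 : ((n + 1)! : ℝ) = ((n : ℝ) + 1) * (n ! : ℝ) := by
      rw [Nat.factorial_succ]; push_cast; ring
    have h5 : ((a + 1)! : ℝ) = ((a : ℝ) + 1) * (a ! : ℝ) := by
      rw [Nat.factorial_succ]; push_cast; ring
    have h6 : ((a + 1 + n + 1)! : ℝ) ≠ 0 := by positivity
    rw [h4] at hftc
    rw [h5]
    apply mul_left_cancel₀ h3
    rw [eq_comm, ← sub_eq_zero]
    rw [eq_comm] at hftc
    rw [← sub_eq_zero] at hftc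
    have : ((n : ℝ) + 1) * (((a : ℝ) + 1) * (a ! : ℝ) * (n ! : ℝ) / ((a + 1 + n + 1)! : ℝ)) =
      ((a : ℝ) + 1) * ((a ! : ℝ) * (((n : ℝ) + 1) * (n ! : ℝ)) / ((a + 1 + n + 1)! : ℝ)) := by ring
    rw [this]
    linarith

theorem radial_one_sub (hn : 1 ≤ n) (hK : Body K) (a : ℕ) {ψ : V n → ℝ}
    (hψ : ∀ c : ℝ, 0 < c → ∀ y, ψ (c • y) = ψ y) (hψi : IntegrableOn ψ K) :
    ∫ y in K, (1 - gauge K y) ^ a * ψ y = cab a n * ∫ y in K, ψ y := by
  cases a with
  | zero =>
    have : cab 0 n = 1 := by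
      unfold cab
      have : ((n)! : ℝ) ≠ 0 := by positivity
      simp [this]
    rw [this]
    simp
  | succ a =>
    have hd : ∀ t : ℝ, HasDerivAt (fun t : ℝ => (1 - t) ^ (a + 1))
        (-(((a : ℝ) + 1) * (1 - t) ^ a)) t := by
      intro t
      have := ((hasDerivAt_id' t).const_sub 1).fun_pow (a + 1)
      refine this.congr_deriv ?_
      push_cast
      ring
    have hc : Continuous (fun t : ℝ => -(((a : ℝ) + 1) * (1 - t) ^ a)) := by fun_prop
    have h := radial_general hK hψ hψi _ _ hd hc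
    rw [h]
    congr 1
    have h1 : ∫ t in (0 : ℝ)..1, -(((a : ℝ) + 1) * (1 - t) ^ a) * t ^ n =
        -(((a : ℝ) + 1) * ∫ t in (0 : ℝ)..1, (1 - t) ^ a * t ^ n) := by
      rw [← intervalIntegral.integral_const_mul, ← intervalIntegral.integral_neg]
      refine intervalIntegral.integral_congr (fun t _ => ?_)
      ring
    rw [h1, beta_aux]
    unfold cab
    have e1 : a + n + 1 = a + 1 + n := by ring
    rw [e1]
    have h5 : ((a + 1)! : ℝ) = ((a : ℝ) + 1) * (a ! : ℝ) := by
      rw [Nat.factorial_succ]; push_cast; ring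
    rw [h5]
    ring

theorem radial_pow (hn : 1 ≤ n) (hK : Body K) (b : ℕ) {ψ : V n → ℝ}
    (hψ : ∀ c : ℝ, 0 < c → ∀ y, ψ (c • y) = ψ y) (hψi : IntegrableOn ψ K) :
    ∫ y in K, gauge K y ^ b * ψ y = ((n : ℝ) / ((n : ℝ) + (b : ℝ))) * ∫ y in K, ψ y := by
  have hn' : (n : ℝ) ≠ 0 := by
    have : (1 : ℝ) ≤ n := by exact_mod_cast hn
    linarith
  cases b with
  | zero =>
    simp [hn']
  | succ b =>
    have hd : ∀ t : ℝ, HasDerivAt (fun t : ℝ => t ^ (b + 1)) (((b : ℝ) + 1) * t ^ b) t := by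
      intro t
      simpa using (hasDerivAt_id' t).fun_pow (b + 1)
    have hc : Continuous (fun t : ℝ => ((b : ℝ) + 1) * t ^ b) := by fun_prop
    have h := radial_general hK hψ hψi _ _ hd hc
    rw [h]
    congr 1
    have h1 : ∫ t in (0 : ℝ)..1, ((b : ℝ) + 1) * t ^ b * t ^ n =
        ((b : ℝ) + 1) * ∫ t in (0 : ℝ)..1, t ^ (b + n) := by
      rw [← intervalIntegral.integral_const_mul]
      refine intervalIntegral.integral_congr (fun t _ => ?_)
      simp only [pow_add]
      ring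
    rw [h1, integral_pow]
    have h2 : (n : ℝ) + ((b + 1 : ℕ) : ℝ) ≠ 0 := by positivity
    have h3 : (((b + n : ℕ) : ℝ) + 1) ≠ 0 := by positivity
    push_cast at h2 h3 ⊢
    field_simp
    ring

end Vale.Agent.Lib.P227Z
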