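import Vale.Agent.Lib.P227H.Append
import Vale.Agent.Lib.P227H.Radial

/-! # JOB S5: the free sum: body, gauge, volume, cone formula

`gauge (freeSum K₁ K₂) z = g₁ (pa z) + g₂ (pb z)`, so at a.e. `z`, `gaugeGrad (freeSum K₁ K₂) z = ap (p₁ (pa z)) (p₂ (pb z))`.
Fubini: for fixed `y ∈ K₂`, the `x`-section is `(1 - g₂ y) • K₁`, and `∫_{(1-g₂ y) K₁} φ(p₁ x) dx = (1 - g₂ y)^a ∫_{K₁} φ(p₁)` (`setIntegral_dilate`, `gaugeGrad_smul`);
then `radial_one_sub` on `K₂` with `ψ y = ∫_{K₁} f(ap (p₁ x) (p₂ y)) dx`, which is `0`-homogeneous in `y`. Note `cab a b = ` the constant from `radial_one_sub`.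
-/

open MeasureTheory Set Filter Topology Matrix
open scoped Pointwise ENNReal Nat

namespace Vale.Agent.Lib.P227Z

variable {a b : ℕ} {K₁ : Set (V a)} {K₂ : Set (V b)}

/-! ### linearity of the coordinate maps -/

lemma fc_pa_add (z w : V (a + b)) : pa (z + w) = pa z + pa w := rfl
lemma fc_pb_add (z w : V (a + b)) : pb (z + w) = pb z + pb w := rfl
lemma fc_pa_smul (c : ℝ) (z : V (a + b)) : pa (c • z) = c • pa z := rfl
lemma fc_pb_smul (c : ℝ) (z : V (a + b)) : pb (c • z) = c • pb z := rfl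
lemma fc_pa_neg (z : V (a + b)) : pa (-z) = - pa z := rfl
lemma fc_pb_neg (z : V (a + b)) : pb (-z) = - pb z := rfl
lemma fc_pa_zero : pa (0 : V (a + b)) = 0 := rfl
lemma fc_pb_zero : pb (0 : V (a + b)) = 0 := rfl

lemma fc_gauge_cont (h : Body K₁) : Continuous (gauge K₁) :=
  continuous_gauge h.convex h.nhds

theorem body_freeSum (h₁ : Body K₁) (h₂ : Body K₂) : Body (freeSum K₁ K₂) := by
  have hc₁ := fc_gauge_cont h₁
  have hc₂ := fc_gauge_cont h₂
  have hf : Continuous fun z : V (a + b) => gauge K₁ (pa z) + gauge K₂ (pb z) :=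
    (hc₁.comp continuous_pa).add (hc₂.comp continuous_pb)
  have habs₁ : Absorbent ℝ K₁ := absorbent_nhds_zero h₁.nhds
  have habs₂ : Absorbent ℝ K₂ := absorbent_nhds_zero h₂.nhds
  refine ⟨?_, ?_, ?_, ?_⟩
  · have hcl : IsClosed (freeSum K₁ K₂) := isClosed_le hf continuous_const
    have hK : IsCompact ((fun q : V a × V b => ap q.1 q.2) '' (K₁ ×ˢ K₂)) :=
      (h₁.compact.prod h₂.compact).image continuous_ap
    refine hK.of_isClosed_subset hcl ?_
    intro z hz
    have hz' : gauge K₁ (pa z) + gauge K₂ (pb z) ≤ 1 := hz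
    have h1 : 0 ≤ gauge K₁ (pa z) := gauge_nonneg _
    have h2 : 0 ≤ gauge K₂ (pb z) := gauge_nonneg _
    refine ⟨(pa z, pb z), ⟨h₁.mem_iff.2 (by linarith), h₂.mem_iff.2 (by linarith)⟩, ap_pa_pb z⟩
  · intro z hz w hw s t hs ht hst
    have hz' : gauge K₁ (pa z) + gauge K₂ (pb z) ≤ 1 := hz
    have hw' : gauge K₁ (pa w) + gauge K₂ (pb w) ≤ 1 := hw
    show gauge K₁ (pa (s • z + t • w)) + gauge K₂ (pb (s • z + t • w)) ≤ 1
    rw [fc_pa_add, fc_pb_add, fc_pa_smul, fc_pa_smul, fc_pb_smul, fc_pb_smul]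
    have e1 := gauge_add_le h₁.convex habs₁ (s • pa z) (t • pa w)
    have e2 := gauge_add_le h₂.convex habs₂ (s • pb z) (t • pb w)
    rw [gauge_smul_of_nonneg hs, gauge_smul_of_nonneg ht] at e1 e2
    simp only [smul_eq_mul] at e1 e2
    nlinarith
  · intro z hz
    have hz' : gauge K₁ (pa z) + gauge K₂ (pb z) ≤ 1 := hz
    show gauge K₁ (pa (-z)) + gauge K₂ (pb (-z)) ≤ 1
    rw [fc_pa_neg, fc_pb_neg, gauge_neg h₁.symm, gauge_neg h₂.symm]
    exact hz'
  · have hop : IsOpen {z : V (a + b) | gauge K₁ (pa z) + gauge K₂ (pb z) < 1} :=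
      isOpen_lt hf continuous_const
    have hmem : (0 : V (a + b)) ∈ {z : V (a + b) | gauge K₁ (pa z) + gauge K₂ (pb z) < 1} := by
      show gauge K₁ (pa 0) + gauge K₂ (pb 0) < 1
      rw [fc_pa_zero, fc_pb_zero, gauge_zero, gauge_zero]
      norm_num
    refine Filter.mem_of_superset (hop.mem_nhds hmem) ?_
    intro z hz
    have hz' : gauge K₁ (pa z) + gauge K₂ (pb z) < 1 := hz
    exact hz'.le

theorem gauge_freeSum (h₁ : Body K₁) (h₂ : Body K₂) (z : V (a + b)) :
    gauge (freeSum K₁ K₂) z = gauge K₁ (pa z) + gauge K₂ (pb z) := by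
  have hB := body_freeSum h₁ h₂
  have habs : Absorbent ℝ (freeSum K₁ K₂) := absorbent_nhds_zero hB.nhds
  have hnn : 0 ≤ gauge K₁ (pa z) + gauge K₂ (pb z) := add_nonneg (gauge_nonneg _) (gauge_nonneg _)
  apply le_antisymm
  · apply le_of_forall_pos_le_add
    intro ε hε
    have hr : 0 < gauge K₁ (pa z) + gauge K₂ (pb z) + ε := by linarith
    set r := gauge K₁ (pa z) + gauge K₂ (pb z) + ε with hrdef
    apply gauge_le_of_mem hr.le
    rw [mem_smul_set]
    refine ⟨r⁻¹ • z, ?_, by rw [smul_smul, mul_inv_cancel₀ hr.ne', one_smul]⟩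
    show gauge K₁ (pa (r⁻¹ • z)) + gauge K₂ (pb (r⁻¹ • z)) ≤ 1
    rw [fc_pa_smul, fc_pb_smul, gauge_smul_of_nonneg (inv_nonneg.2 hr.le),
      gauge_smul_of_nonneg (inv_nonneg.2 hr.le)]
    simp only [smul_eq_mul]
    rw [← mul_add, inv_mul_le_iff₀ hr]
    linarith
  · apply le_of_forall_gt_imp_ge_of_dense
    intro r hr
    obtain ⟨c, hc0, hcr, hz⟩ := exists_lt_of_gauge_lt habs hr
    rw [mem_smul_set] at hz
    obtain ⟨w, hw, rfl⟩ := hz
    have hw' : gauge K₁ (pa w) + gauge K₂ (pb w) ≤ 1 := hw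
    rw [fc_pa_smul, fc_pb_smul, gauge_smul_of_nonneg hc0.le, gauge_smul_of_nonneg hc0.le]
    simp only [smul_eq_mul]
    nlinarith


/-! ### The coordinates as a measurable equivalence -/

/-- `ap` as a measurable equivalence -/
noncomputable def fcE : V a × V b ≃ᵐ V (a + b) where
  toFun q := ap q.1 q.2
  invFun z := (pa z, pb z)
  left_inv q := by simp
  right_inv z := by simp
  measurable_toFun := continuous_ap.measurable
  measurable_invFun := (continuous_pa.prodMk continuous_pb).measurable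

lemma fc_mp : MeasurePreserving (fcE : V a × V b ≃ᵐ V (a + b)) (volume.prod volume) volume :=
  measurePreserving_ap

lemma fc_mp_symm : MeasurePreserving (fcE : V a × V b ≃ᵐ V (a + b)).symm volume (volume.prod volume) :=
  MeasurePreserving.symm _ fc_mp

/-- A statement valid for almost all pairs holds for almost all `z`. -/
lemma fc_ae_of_prod {P : V a × V b → Prop} (h : ∀ᵐ q ∂((volume : Measure (V a)).prod (volume : Measure (V b))), P q) :
    ∀ᵐ z ∂(volume : Measure (V (a + b))), P (pa z, pb z) :=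
  fc_mp_symm.quasiMeasurePreserving.ae h

lemma fc_section (h₁ : Body K₁) {r : ℝ} (hr : 0 < r) (c : ℝ) (hc : r = 1 - c) :
    {x : V a | gauge K₁ x + c ≤ 1} = r • K₁ := by
  ext x
  rw [mem_smul_set_iff_inv_smul_mem₀ hr.ne', h₁.mem_iff, gauge_smul_of_nonneg (inv_nonneg.2 hr.le),
    smul_eq_mul, inv_mul_le_iff₀ hr, mul_one, mem_ofPred_eq]
  constructor <;> intro h <;> linarith

/-- The Fubini computation. -/
theorem fc_integral (ha : 1 ≤ a) (hb : 1 ≤ b) (h₁ : Body K₁) (h₂ : Body K₂) (H : V a → V b → ℝ)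
    (hx : ∀ y, ∀ c : ℝ, 0 < c → ∀ x, H (c • x) y = H x y)
    (hy : ∀ x, ∀ c : ℝ, 0 < c → ∀ y, H x (c • y) = H x y)
    (hm : Measurable fun q : V a × V b => H q.1 q.2)
    {C : ℝ} (hC : ∀ᵐ q ∂((volume : Measure (V a)).prod (volume : Measure (V b))), ‖H q.1 q.2‖ ≤ C) :
    ∫ z in freeSum K₁ K₂, H (pa z) (pb z) = cab a b * ∫ y in K₂, ∫ x in K₁, H x y := by
  have hB := body_freeSum h₁ h₂
  have hSm : MeasurableSet (freeSum K₁ K₂) := hB.compact.isClosed.measurableSet
  have hc₁ := fc_gauge_cont h₁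
  have hc₂ := fc_gauge_cont h₂
  set H' : V a × V b → ℝ := fun q => H q.1 q.2 with hH'
  set Sh : Set (V a × V b) := {q | gauge K₁ q.1 + gauge K₂ q.2 ≤ 1} with hSh
  have hShm : MeasurableSet Sh :=
    (isClosed_le ((hc₁.comp continuous_fst).add (hc₂.comp continuous_snd)) continuous_const).measurableSet
  have hShsub : Sh ⊆ K₁ ×ˢ K₂ := by
    intro q hq
    have hq' : gauge K₁ q.1 + gauge K₂ q.2 ≤ 1 := hq
    have h1 : 0 ≤ gauge K₁ q.1 := gauge_nonneg _
    have h2 : 0 ≤ gauge K₂ q.2 := gauge_nonneg _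
    exact ⟨h₁.mem_iff.2 (by linarith), h₂.mem_iff.2 (by linarith)⟩
  -- integrability on the product of the bodies
  have hprodfin : ((volume : Measure (V a)).prod (volume : Measure (V b))) (K₁ ×ˢ K₂) ≠ ∞ := by
    rw [Measure.prod_prod]
    exact ENNReal.mul_ne_top h₁.compact.measure_lt_top.ne h₂.compact.measure_lt_top.ne
  have hIP : IntegrableOn H' (K₁ ×ˢ K₂) ((volume : Measure (V a)).prod (volume : Measure (V b))) :=
    Measure.integrableOn_of_bounded hprodfin hm.aestronglyMeasurable (ae_restrict_of_ae hC)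
  have hIS : Integrable (Sh.indicator H') ((volume : Measure (V a)).prod (volume : Measure (V b))) :=
    (integrable_indicator_iff hShm).2 (hIP.mono_set hShsub)
  -- step 1: change of variables
  have step1 : ∫ z in freeSum K₁ K₂, H (pa z) (pb z) =
      ∫ q, Sh.indicator H' q ∂((volume : Measure (V a)).prod (volume : Measure (V b))) := by
    rw [← integral_indicator hSm]
    rw [← (fc_mp (a := a) (b := b)).integral_comp fcE.measurableEmbedding]
    apply integral_congr_ae
    filter_upwards with q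
    by_cases hq : q ∈ Sh
    · have hq' : (fcE q : V (a + b)) ∈ freeSum K₁ K₂ := by
        show gauge K₁ (pa (ap q.1 q.2)) + gauge K₂ (pb (ap q.1 q.2)) ≤ 1
        rw [pa_ap, pb_ap]
        exact hq
      rw [indicator_of_mem hq, indicator_of_mem hq']
      show H (pa (ap q.1 q.2)) (pb (ap q.1 q.2)) = H q.1 q.2
      rw [pa_ap, pb_ap]
    · have hq' : (fcE q : V (a + b)) ∉ freeSum K₁ K₂ := by
        intro hh
        apply hq
        have hh' : gauge K₁ (pa (ap q.1 q.2)) + gauge K₂ (pb (ap q.1 q.2)) ≤ 1 := hh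
        rw [pa_ap, pb_ap] at hh'
        exact hh'
      rw [indicator_of_notMem hq, indicator_of_notMem hq']
  -- step 2: Fubini
  rw [step1, integral_prod_symm _ hIS]
  -- step 3: the inner integrals
  set ψ : V b → ℝ := fun y => ∫ x in K₁, H x y with hψ
  have hinner : ∀ y, ∫ x, Sh.indicator H' (x, y) =
      K₂.indicator (fun y => (1 - gauge K₂ y) ^ a * ψ y) y := by
    intro y
    have hsec : MeasurableSet {x : V a | gauge K₁ x + gauge K₂ y ≤ 1} :=
      (isClosed_le (hc₁.add continuous_const) continuous_const).measurableSet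
    have e0 : (fun x => Sh.indicator H' (x, y)) =
        {x : V a | gauge K₁ x + gauge K₂ y ≤ 1}.indicator (fun x => H x y) := by
      funext x
      by_cases hq : gauge K₁ x + gauge K₂ y ≤ 1
      · rw [indicator_of_mem (show (x, y) ∈ Sh from hq), indicator_of_mem (show x ∈ _ from hq)]
      · rw [indicator_of_notMem (show (x, y) ∉ Sh from hq), indicator_of_notMem (show x ∉ _ from hq)]
    rw [e0, integral_indicator hsec]
    rcases lt_trichotomy (gauge K₂ y) 1 with hlt | heq | hgt
    · have hr : 0 < 1 - gauge K₂ y := by linarith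
      rw [fc_section h₁ hr _ rfl, setIntegral_dilate h₁ (fun c hc x => hx y c hc x) hr,
        indicator_of_mem (h₂.mem_iff.2 hlt.le)]
    · have hnull : {x : V a | gauge K₁ x + gauge K₂ y ≤ 1} ⊆ {0} := by
        intro x hx'
        have hx'' : gauge K₁ x + gauge K₂ y ≤ 1 := hx'
        by_contra hne
        have := h₁.gauge_pos (x := x) hne
        linarith
      have : Nonempty (Fin a) := ⟨⟨0, ha⟩⟩
      have hn0 : volume {x : V a | gauge K₁ x + gauge K₂ y ≤ 1} = 0 :=
        measure_mono_null hnull (measure_singleton _)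
      rw [setIntegral_measure_zero _ hn0, indicator_of_mem (h₂.mem_iff.2 heq.le), heq, sub_self,
        zero_pow (by omega), zero_mul]
    · have hemp : {x : V a | gauge K₁ x + gauge K₂ y ≤ 1} = ∅ := by
        ext x
        simp only [mem_ofPred_eq, mem_empty_iff_false, iff_false, not_le]
        have : 0 ≤ gauge K₁ x := gauge_nonneg _
        linarith
      rw [hemp, Measure.restrict_empty, integral_zero_measure,
        indicator_of_notMem (fun hh => absurd (h₂.mem_iff.1 hh) (not_le.2 hgt))]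
  simp_rw [hinner]
  rw [integral_indicator h₂.compact.isClosed.measurableSet]
  -- step 4: radial integration
  have hψh : ∀ c : ℝ, 0 < c → ∀ y, ψ (c • y) = ψ y := by
    intro c hc y
    simp only [hψ]
    simp_rw [hy _ c hc y]
  have hψi : IntegrableOn ψ K₂ := by
    have h0 : Integrable H' (((volume : Measure (V a)).restrict K₁).prod ((volume : Measure (V b)).restrict K₂)) := by
      rw [Measure.prod_restrict]
      exact hIP
    exact h0.integral_prod_right
  exact radial_one_sub hb h₂ a hψh hψi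

theorem volume_freeSum (ha : 1 ≤ a) (hb : 1 ≤ b) (h₁ : Body K₁) (h₂ : Body K₂) :
    (volume (freeSum K₁ K₂)).toReal = cab a b * (volume K₁).toReal * (volume K₂).toReal := by
  have := fc_integral ha hb h₁ h₂ (fun _ _ => (1 : ℝ)) (fun _ _ _ _ => rfl) (fun _ _ _ _ => rfl)
    measurable_const (C := 1) (by simp)
  simp only [integral_const, smul_eq_mul, mul_one, MeasurableSet.univ, measureReal_restrict_apply,
    univ_inter] at this
  rw [Measure.real, Measure.real, Measure.real] at this
  rw [this]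
  ring

/-- `pa` as a continuous linear map -/
noncomputable def fcPa : V (a + b) →L[ℝ] V a :=
  ContinuousLinearMap.pi fun i => (ContinuousLinearMap.proj (Fin.castAdd b i) : V (a + b) →L[ℝ] ℝ)

/-- `pb` as a continuous linear map -/
noncomputable def fcPb : V (a + b) →L[ℝ] V b :=
  ContinuousLinearMap.pi fun i => (ContinuousLinearMap.proj (Fin.natAdd a i) : V (a + b) →L[ℝ] ℝ)

lemma fc_hasFDeriv_pa (z : V (a + b)) : HasFDerivAt (pa : V (a + b) → V a) fcPa z :=
  fcPa.hasFDerivAt

lemma fc_hasFDeriv_pb (z : V (a + b)) : HasFDerivAt (pb : V (a + b) → V b) fcPb z :=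
  fcPb.hasFDerivAt

lemma fc_grad (h₁ : Body K₁) (h₂ : Body K₂) {z : V (a + b)}
    (hd₁ : DifferentiableAt ℝ (gauge K₁) (pa z)) (hd₂ : DifferentiableAt ℝ (gauge K₂) (pb z)) :
    DifferentiableAt ℝ (gauge (freeSum K₁ K₂)) z ∧
      gaugeGrad (freeSum K₁ K₂) z = ap (gaugeGrad K₁ (pa z)) (gaugeGrad K₂ (pb z)) := by
  have hfun : gauge (freeSum K₁ K₂) = fun z => gauge K₁ (pa z) + gauge K₂ (pb z) :=
    funext (gauge_freeSum h₁ h₂)
  have hD := (hd₁.hasFDerivAt.comp z (fc_hasFDeriv_pa z)).add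
    (hd₂.hasFDerivAt.comp z (fc_hasFDeriv_pb z))
  have hD' : HasFDerivAt (gauge (freeSum K₁ K₂))
      ((fderiv ℝ (gauge K₁) (pa z)).comp fcPa + (fderiv ℝ (gauge K₂) (pb z)).comp fcPb) z := by
    rw [hfun]
    exact hD
  refine ⟨hD'.differentiableAt, ?_⟩
  funext i
  show fderiv ℝ (gauge (freeSum K₁ K₂)) z (Pi.single i 1) = _
  rw [hD'.fderiv]
  simp only [_root_.add_apply, ContinuousLinearMap.comp_apply]
  refine Fin.addCases (fun j => ?_) (fun j => ?_) i
  · have e1 : (fcPa : V (a + b) →L[ℝ] V a) (Pi.single (Fin.castAdd b j) 1) = Pi.single j 1 := by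
      funext k
      simp [fcPa, Pi.single_apply, Fin.castAdd_inj]
    have e2 : (fcPb : V (a + b) →L[ℝ] V b) (Pi.single (Fin.castAdd b j) 1) = 0 := by
      funext k
      have hne : ¬ Fin.natAdd a k = Fin.castAdd b j := by
        intro h
        have h' := congrArg Fin.val h
        simp only [Fin.val_natAdd, Fin.val_castAdd] at h'
        have := j.2
        omega
      simp [fcPb, Pi.single_apply, hne]
    rw [e1, e2, map_zero, add_zero]
    simp [ap, gaugeGrad]
  · have e1 : (fcPa : V (a + b) →L[ℝ] V a) (Pi.single (Fin.natAdd a j) 1) = 0 := by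
      funext k
      have hne : ¬ Fin.castAdd b k = Fin.natAdd a j := by
        intro h
        have h' := congrArg Fin.val h
        simp only [Fin.val_natAdd, Fin.val_castAdd] at h'
        have := k.2
        omega
      simp [fcPa, Pi.single_apply, hne]
    have e2 : (fcPb : V (a + b) →L[ℝ] V b) (Pi.single (Fin.natAdd a j) 1) = Pi.single j 1 := by
      funext k
      simp [fcPb, Pi.single_apply]
    rw [e1, e2, map_zero, zero_add]
    simp [ap, gaugeGrad]

theorem cone_freeSum (ha : 1 ≤ a) (hb : 1 ≤ b) (h₁ : Body K₁) (h₂ : Body K₂) {L : Set (V (a + b))}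
    (hL : SymB L) :
    ∫ z in freeSum K₁ K₂, Real.log (supp L (gaugeGrad (freeSum K₁ K₂) z)) =
      cab a b * ∫ y in K₂, ∫ x in K₁, Real.log (supp L (ap (gaugeGrad K₁ x) (gaugeGrad K₂ y))) := by
  have hB := body_freeSum h₁ h₂
  have : Nonempty (Fin a) := ⟨⟨0, ha⟩⟩
  have hprod : ∀ᵐ q ∂((volume : Measure (V a)).prod (volume : Measure (V b))),
      DifferentiableAt ℝ (gauge K₁) q.1 ∧ DifferentiableAt ℝ (gauge K₂) q.2 ∧ q.1 ≠ 0 := by
    have e1 := (Measure.quasiMeasurePreserving_fst
      (μ := (volume : Measure (V a))) (ν := (volume : Measure (V b)))).ae h₁.ae_diff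
    have e2 := (Measure.quasiMeasurePreserving_snd
      (μ := (volume : Measure (V a))) (ν := (volume : Measure (V b)))).ae h₂.ae_diff
    have e3 : ∀ᵐ x ∂(volume : Measure (V a)), x ≠ 0 := by
      filter_upwards [compl_mem_ae_iff.2 (measure_singleton (0 : V a))] with x hx
      simpa using hx
    have e4 := (Measure.quasiMeasurePreserving_fst
      (μ := (volume : Measure (V a))) (ν := (volume : Measure (V b)))).ae e3
    filter_upwards [e1, e2, e4] with q a1 a2 a3
    exact ⟨a1, a2, a3⟩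
  have hae : ∀ᵐ z ∂(volume : Measure (V (a + b))), gaugeGrad (freeSum K₁ K₂) z =
      ap (gaugeGrad K₁ (pa z)) (gaugeGrad K₂ (pb z)) := by
    filter_upwards [fc_ae_of_prod hprod] with z hz
    exact (fc_grad h₁ h₂ hz.1 hz.2.1).2
  obtain ⟨α, β, hα, hβ, hcmp⟩ := supp_comparable hB hL
  have hbd : ∀ᵐ q ∂((volume : Measure (V a)).prod (volume : Measure (V b))),
      ‖Real.log (supp L (ap (gaugeGrad K₁ q.1) (gaugeGrad K₂ q.2)))‖ ≤
        max |Real.log α| |Real.log β| := by
    filter_upwards [hprod] with q hq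
    have hz : pa (ap q.1 q.2) = q.1 := pa_ap _ _
    have hz' : pb (ap q.1 q.2) = q.2 := pb_ap _ _
    have hd : DifferentiableAt ℝ (gauge K₁) (pa (ap q.1 q.2)) := by rw [hz]; exact hq.1
    have hd' : DifferentiableAt ℝ (gauge K₂) (pb (ap q.1 q.2)) := by rw [hz']; exact hq.2.1
    have hg := fc_grad h₁ h₂ hd hd'
    rw [hz, hz'] at hg
    have hne : ap q.1 q.2 ≠ 0 := by
      intro h0
      apply hq.2.2
      rw [← hz, h0]
      rfl
    have hone := hB.supp_grad hg.1 hne
    rw [hg.2] at hone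
    have hcc := hcmp (ap (gaugeGrad K₁ q.1) (gaugeGrad K₂ q.2))
    rw [hone, mul_one, mul_one] at hcc
    rw [Real.norm_eq_abs, abs_le]
    have hlog1 : Real.log α ≤ Real.log (supp L (ap (gaugeGrad K₁ q.1) (gaugeGrad K₂ q.2))) :=
      Real.log_le_log hα hcc.1
    have hlog2 : Real.log (supp L (ap (gaugeGrad K₁ q.1) (gaugeGrad K₂ q.2))) ≤ Real.log β :=
      Real.log_le_log (hα.trans_le hcc.1) hcc.2
    constructor
    · have h1 : -|Real.log α| ≤ Real.log α := neg_abs_le _
      have h2 : |Real.log α| ≤ max |Real.log α| |Real.log β| := le_max_left _ _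
      linarith
    · have h1 : Real.log β ≤ |Real.log β| := le_abs_self _
      have h2 : |Real.log β| ≤ max |Real.log α| |Real.log β| := le_max_right _ _
      linarith
  have hm : Measurable fun q : V a × V b =>
      Real.log (supp L (ap (gaugeGrad K₁ q.1) (gaugeGrad K₂ q.2))) := by
    apply Real.measurable_log.comp
    apply (supp_continuous' hL.1).measurable.comp
    have hpp : Measurable fun q : V a × V b => (gaugeGrad K₁ q.1, gaugeGrad K₂ q.2) :=
      ((measurable_gaugeGrad K₁).comp measurable_fst).prodMk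
        ((measurable_gaugeGrad K₂).comp measurable_snd)
    exact continuous_ap.measurable.comp hpp
  have key := fc_integral ha hb h₁ h₂
    (fun x y => Real.log (supp L (ap (gaugeGrad K₁ x) (gaugeGrad K₂ y))))
    (fun y c hc x => by rw [gaugeGrad_smul K₁ hc])
    (fun x c hc y => by rw [gaugeGrad_smul K₂ hc])
    hm hbd
  rw [← key]
  apply integral_congr_ae
  apply ae_restrict_of_ae
  filter_upwards [hae] with z hz
  rw [hz]

end Vale.Agent.Lib.P227Z
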