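import Vale.Agent.Lib.P227H.Defs

/-! # JOB S3: `LogMinkAt` is invariant under invertible linear maps

`K' = T '' K`. `gauge K' z = gauge K (T⁻¹ z)`, so `gaugeGrad K' z = T⁻ᵀ (gaugeGrad K (T⁻¹ z))` at points of differentiability (a.e.), and
`supp L' (T⁻ᵀ u) = supp L u` for `L' = T '' L`. Volumes scale by `|det T|`. Given `L`, apply `LogMinkAt K` to `T⁻¹ '' L`; change of variables
`z = T x` (`MeasureTheory.Measure.addHaar_image_continuousLinearEquiv` or similar and `integral` version).
-/

open MeasureTheory Set Filter Topology Matrix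
open scoped Pointwise ENNReal Nat

namespace Vale.Agent.Lib.P227Z

private theorem lin_gauge_image {n : ℕ} (K : Set (V n)) (T : V n ≃L[ℝ] V n) (z : V n) :
    gauge (T '' K) z = gauge K (T.symm z) := by
  unfold gauge
  congr 1
  ext r
  constructor
  · rintro ⟨hr, hz⟩
    refine ⟨hr, ?_⟩
    obtain ⟨y, ⟨x, hx, rfl⟩, rfl⟩ := Set.mem_smul_set.mp hz
    refine Set.mem_smul_set.mpr ⟨x, hx, ?_⟩
    simp
  · rintro ⟨hr, hz⟩
    refine ⟨hr, ?_⟩
    obtain ⟨x, hx, hxe⟩ := Set.mem_smul_set.mp hz
    refine Set.mem_smul_set.mpr ⟨T x, ⟨x, hx, rfl⟩, ?_⟩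
    rw [← map_smul, hxe]
    simp

private theorem lin_gauge_fun {n : ℕ} (K : Set (V n)) (T : V n ≃L[ℝ] V n) :
    gauge (T '' K) = fun z => gauge K (T.symm z) := by
  funext z
  exact lin_gauge_image K T z

private theorem lin_dot {n : ℕ} {K : Set (V n)} (T : V n ≃L[ℝ] V n) {x : V n}
    (hd : DifferentiableAt ℝ (gauge K) x) (y : V n) :
    y ⬝ᵥ gaugeGrad (T '' K) (T x) = T.symm y ⬝ᵥ gaugeGrad K x := by
  have h1 : HasFDerivAt (gauge K) (fderiv ℝ (gauge K) x) (T.symm (T x)) := by
    simpa using hd.hasFDerivAt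
  have h2 : HasFDerivAt (fun z => gauge K (T.symm z))
      ((fderiv ℝ (gauge K) x).comp (T.symm : V n →L[ℝ] V n)) (T x) :=
    h1.comp (T x) (T.symm : V n →L[ℝ] V n).hasFDerivAt
  rw [← lin_gauge_fun K T] at h2
  rw [← fderiv_gauge_apply h2.differentiableAt y, h2.fderiv, ← fderiv_gauge_apply hd]
  rfl

private theorem lin_supp {n : ℕ} {K : Set (V n)} (T : V n ≃L[ℝ] V n) {x : V n}
    (hd : DifferentiableAt ℝ (gauge K) x) (L : Set (V n)) :
    supp L (gaugeGrad (T '' K) (T x)) = supp (T.symm '' L) (gaugeGrad K x) := by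
  unfold supp
  rw [Set.image_image]
  congr 1
  apply Set.image_congr
  intro y _
  exact lin_dot T hd y

private theorem lin_body {n : ℕ} {K : Set (V n)} (hK : Body K) (T : V n ≃L[ℝ] V n) :
    Body (T '' K) where
  compact := hK.compact.image T.continuous
  convex := by
    have := hK.convex.linear_image (T : V n →ₗ[ℝ] V n)
    simpa using this
  symm := by
    rintro _ ⟨x, hx, rfl⟩
    exact ⟨-x, hK.symm x hx, by simp⟩
  nhds := by
    have h := T.toHomeomorph.isOpenMap.image_mem_nhds hK.nhds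
    simpa using h

theorem LogMinkAt.linear {n : ℕ} {K : Set (V n)} (hK : LogMinkAt K) (T : V n ≃L[ℝ] V n) :
    LogMinkAt (T '' K) := by
  obtain ⟨hB, hK'⟩ := hK
  refine ⟨lin_body hB T, fun L hL => ?_⟩
  set δ : ℝ := |LinearMap.det (T : V n →ₗ[ℝ] V n)| with hδ
  have hδpos : 0 < δ := abs_pos.mpr (LinearEquiv.isUnit_det' T.toLinearEquiv).ne_zero
  have hvol : ∀ X : Set (V n), volume (T '' X) = ENNReal.ofReal δ * volume X := fun X =>
    Measure.addHaar_image_continuousLinearEquiv volume T X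
  set L₀ : Set (V n) := T.symm '' L with hL₀
  have hTL : T '' L₀ = L := by
    rw [hL₀, Set.image_image]
    simp
  have hvL : volume L = ENNReal.ofReal δ * volume L₀ := by
    rw [← hvol, hTL]
  have hSym : SymB L₀ := by
    refine ⟨hL.1.image T.symm.continuous, ?_, ?_⟩
    · rintro _ ⟨x, hx, rfl⟩
      exact ⟨-x, hL.2.1 x hx, by simp⟩
    · have h := hL.2.2
      rw [hvL] at h
      exact pos_iff_ne_zero.mpr (fun h0 => by simp [h0] at h)
  have hmain := hK' L₀ hSym
  -- real volumes
  have hvK : (volume (T '' K)).toReal = δ * (volume K).toReal := by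
    rw [hvol, ENNReal.toReal_mul, ENNReal.toReal_ofReal hδpos.le]
  have hvL' : (volume L).toReal = δ * (volume L₀).toReal := by
    rw [hvL, ENNReal.toReal_mul, ENNReal.toReal_ofReal hδpos.le]
  -- the integral
  have hint : ∫ z in T '' K, Real.log (supp L (gaugeGrad (T '' K) z)) =
      δ * ∫ x in K, Real.log (supp L₀ (gaugeGrad K x)) := by
    have hderiv : ∀ x ∈ K, HasFDerivWithinAt T (T : V n →L[ℝ] V n) K x := fun x _ =>
      (T : V n →L[ℝ] V n).hasFDerivAt.hasFDerivWithinAt
    have h1 := integral_image_eq_integral_abs_det_fderiv_smul volume hB.compact.measurableSet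
      hderiv T.injective.injOn (fun z => Real.log (supp L (gaugeGrad (T '' K) z)))
    rw [h1]
    have h2 : |ContinuousLinearMap.det (T : V n →L[ℝ] V n)| = δ := rfl
    simp only [h2, smul_eq_mul]
    rw [integral_const_mul]
    congr 1
    refine integral_congr_ae ?_
    refine ae_restrict_of_ae ?_
    filter_upwards [hB.ae_diff] with x hd
    rw [lin_supp T hd]
  rw [hint, hvK, hvL', mul_div_mul_left _ _ hδpos.ne']
  have h3 := mul_le_mul_of_nonneg_left hmain hδpos.le
  calc δ * (volume K).toReal / (n : ℝ) * Real.log ((volume L₀).toReal / (volume K).toReal)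
      = δ * ((volume K).toReal / (n : ℝ) * Real.log ((volume L₀).toReal / (volume K).toReal)) := by
        ring
    _ ≤ _ := h3

end Vale.Agent.Lib.P227Z
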