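import Vale.Agent.Lib.P227H.Lq
import Vale.Agent.Lib.P227H.Append
import Vale.Agent.Lib.P227H.Linear
import Vale.Agent.Lib.P227H.FreeCone

/-! # JOB S6: `K₁ ⊕ B₁^b` lies in the class

Induction on `b`. `b = 0`: `freeSum K₁ (lpBall 1 0) = K₁` up to `a + 0 = a`. Step: `a + (b + 1)` is definitionally `(a + b) + 1`; let `Φ` be the coordinate permutation with
`Φ (ap x (cons s z)) = cons s (ap x z)`. With `gauge (lpBall 1 b) z = ∑ |z i|` (`gauge_lpBall`), `Φ '' freeSum K₁ (lpBall 1 (b+1)) = fib (freeSum K₁ (lpBall 1 b)) (fun s => 1 - |s|) 1`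
(`gauge_freeSum` gives the gauge of the fibre; its proof does not depend on this job). `IsProfile (1 - |s|) 1` is easy. Use `logMinkAt_fib` and `LogMinkAt.linear` with `Φ⁻¹`.
-/

open MeasureTheory Set Filter Topology Matrix
open scoped Pointwise ENNReal Nat

namespace Vale.Agent.Lib.P227Z

variable {a : ℕ} {K₁ : Set (V a)}

private lemma ap_add' {a b : ℕ} (x x' : V a) (y y' : V b) :
    ap (x + x') (y + y') = ap x y + ap x' y' := by
  funext i
  refine Fin.addCases (fun j => ?_) (fun j => ?_) i <;> simp [ap]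

private lemma ap_smul' {a b : ℕ} (c : ℝ) (x : V a) (y : V b) :
    ap (c • x) (c • y) = c • ap x y := by
  funext i
  refine Fin.addCases (fun j => ?_) (fun j => ?_) i <;> simp [ap]

private lemma pa_add' {a b : ℕ} (z z' : V (a + b)) : pa (z + z') = pa z + pa z' := rfl
private lemma pb_add' {a b : ℕ} (z z' : V (a + b)) : pb (z + z') = pb z + pb z' := rfl
private lemma pa_smul' {a b : ℕ} (c : ℝ) (z : V (a + b)) : pa (c • z) = c • pa z := rfl
private lemma pb_smul' {a b : ℕ} (c : ℝ) (z : V (a + b)) : pb (c • z) = c • pb z := rfl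
private lemma tl_add' {d : ℕ} (z z' : V (d + 1)) : tl (z + z') = tl z + tl z' := rfl
private lemma tl_smul' {d : ℕ} (c : ℝ) (z : V (d + 1)) : tl (c • z) = c • tl z := rfl

private lemma cons_add' {d : ℕ} (s s' : ℝ) (y y' : V d) :
    (Fin.cons (s + s') (y + y') : V (d + 1)) = Fin.cons s y + Fin.cons s' y' := by
  funext i
  refine Fin.cases ?_ (fun j => ?_) i <;> simp

private lemma cons_smul' {d : ℕ} (c s : ℝ) (y : V d) :
    (Fin.cons (c * s) (c • y) : V (d + 1)) = c • Fin.cons s y := by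
  funext i
  refine Fin.cases ?_ (fun j => ?_) i <;> simp

/-- The coordinate permutation `(s, (x, z)) ↦ (x, (s, z))`. -/
private noncomputable def swapL (a b : ℕ) : V (a + b + 1) ≃ₗ[ℝ] V (a + (b + 1)) where
  toFun w := ap (pa (tl w)) (Fin.cons (w 0) (pb (tl w)) : V (b + 1))
  invFun z := (Fin.cons (pb z 0) (ap (pa z) (tl (pb z))) : V (a + b + 1))
  map_add' w w' := by
    rw [tl_add', pa_add', pb_add', Pi.add_apply, cons_add', ap_add']
  map_smul' c w := by
    rw [tl_smul', pa_smul', pb_smul', Pi.smul_apply, smul_eq_mul, cons_smul', ap_smul']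
    rfl
  left_inv w := by
    simp only [pa_ap, pb_ap, Fin.cons_zero, tl_cons, ap_pa_pb, cons_tl]
  right_inv z := by
    simp only [tl_cons, pa_ap, pb_ap, Fin.cons_zero, cons_tl, ap_pa_pb]

private noncomputable def swapC (a b : ℕ) : V (a + b + 1) ≃L[ℝ] V (a + (b + 1)) :=
  (swapL a b).toContinuousLinearEquiv

private lemma swapC_apply (a b : ℕ) (w : V (a + b + 1)) :
    swapC a b w = ap (pa (tl w)) (Fin.cons (w 0) (pb (tl w)) : V (b + 1)) := rfl

private lemma isProfile_tent : IsProfile (fun s : ℝ => 1 - |s|) 1 := by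
  refine ⟨one_pos, fun s => by simp [abs_neg], ?_, ?_, ?_, ?_⟩
  · refine ⟨convex_Icc _ _, ?_⟩
    intro s _ t _ x y hx hy hxy
    simp only [smul_eq_mul]
    have h : |x * s + y * t| ≤ x * |s| + y * |t| := by
      calc |x * s + y * t| ≤ |x * s| + |y * t| := abs_add_le _ _
        _ = x * |s| + y * |t| := by rw [abs_mul, abs_mul, abs_of_nonneg hx, abs_of_nonneg hy]
    have e : x * (1 - |s|) + y * (1 - |t|) = (x + y) - (x * |s| + y * |t|) := by ring
    rw [e, hxy]
    linarith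
  · exact (continuous_const.sub continuous_abs).continuousOn
  · intro s hs
    have : |s| ≤ 1 := abs_le.2 hs
    linarith
  · simp

private lemma gauge_lpBall_one_eq {b : ℕ} (z : V b) :
    gauge (lpBall 1 b) z = ∑ i, |z i| := by
  rw [gauge_lpBall le_rfl]
  simp

private lemma gauge_lpBall_one_succ {b : ℕ} (z : V (b + 1)) :
    gauge (lpBall 1 (b + 1)) z = |z 0| + gauge (lpBall 1 b) (tl z) := by
  rw [gauge_lpBall_one_eq, gauge_lpBall_one_eq, Fin.sum_univ_succ]
  rfl

private lemma freeSum_zero (h₁ : Body K₁) : (freeSum K₁ (lpBall 1 0) : Set (V (a + 0))) = K₁ := by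
  ext z
  change gauge K₁ (pa z) + gauge (lpBall 1 0) (pb z) ≤ 1 ↔ z ∈ K₁
  have h0 : gauge (lpBall 1 0) (pb z) = 0 := by
    rw [gauge_lpBall_one_eq]
    simp
  have hz : (pa z : V a) = z := rfl
  rw [h0, add_zero, hz, h₁.mem_iff]

private lemma image_fib_eq (h₁ : Body K₁) (b : ℕ) :
    swapC a b '' fib (freeSum K₁ (lpBall 1 b)) (fun s : ℝ => 1 - |s|) 1 =
      freeSum K₁ (lpBall 1 (b + 1)) := by
  have hb := body_lpBall (le_refl (1 : ℝ)) b
  have hb' := body_lpBall (le_refl (1 : ℝ)) (b + 1)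
  ext z
  constructor
  · rintro ⟨w, ⟨hw1, hw2⟩, rfl⟩
    change gauge K₁ (pa (swapC a b w)) + gauge (lpBall 1 (b + 1)) (pb (swapC a b w)) ≤ 1
    rw [swapC_apply, pa_ap, pb_ap, gauge_lpBall_one_succ, Fin.cons_zero, tl_cons]
    rw [gauge_freeSum h₁ hb] at hw2
    change _ ≤ 1 - |w 0| at hw2
    linarith
  · intro hz
    change gauge K₁ (pa z) + gauge (lpBall 1 (b + 1)) (pb z) ≤ 1 at hz
    rw [gauge_lpBall_one_succ] at hz
    have hg1 : 0 ≤ gauge K₁ (pa z) := gauge_nonneg _
    have hg2 : 0 ≤ gauge (lpBall 1 b) (tl (pb z)) := gauge_nonneg _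
    refine ⟨(swapL a b).symm z, ⟨?_, ?_⟩, (swapL a b).apply_symm_apply z⟩
    · change |pb z 0| ≤ 1
      linarith
    · change gauge (freeSum K₁ (lpBall 1 b)) (ap (pa z) (tl (pb z))) ≤ 1 - |pb z 0|
      rw [gauge_freeSum h₁ hb, pa_ap, pb_ap]
      linarith

theorem logMinkAt_cross (ha : 1 ≤ a) (h₁ : LogMinkAt K₁) (b : ℕ) :
    LogMinkAt (freeSum K₁ (lpBall 1 b)) := by
  induction b with
  | zero =>
    rw [freeSum_zero h₁.1]
    exact h₁
  | succ b ih =>
    have h := logMinkAt_fib (a := a + b) (by omega) ih isProfile_tent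
    have h2 := LogMinkAt.linear h (swapC a b)
    rwa [image_fib_eq h₁.1] at h2

end Vale.Agent.Lib.P227Z
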