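import Vale.Agent.Lib.P227H.Lq

/-! # JOB S9: the explicit inequality at the cross-polytope

`K = lpBall 1 (n+1)`, `gauge K z = ∑ |z i|` (`gauge_lpBall`), so at a.e. `z` (all coordinates nonzero) `gaugeGrad K z` is the vector of signs of `z`.
`∫_K f (sign z) dz = |K| 2^(-(n+1)) ∑_ξ f ξ` (reflections of coordinates preserve `K` and volume; orthants have disjoint interiors, the coordinate hyperplanes are null).
`|K| = 2^(n+1) / (n+1)!` (`MeasureTheory.volume_sum_rpow_le` with `p = 1`, or induction).
Then `LogMinkAt K` (`logMinkAt_lpBall`) gives the inequality, for every compact symmetric `L` of positive volume.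
-/

open MeasureTheory Set Filter Topology Matrix
open scoped Pointwise ENNReal Nat

namespace Vale.Agent.Lib.P227Z

private lemma cross_set (n : ℕ) :
    lpBall 1 n = {x : V n | (∑ i, |x i| ^ (1 : ℝ)) ^ (1 / (1 : ℝ)) ≤ 1} := by
  ext x
  simp only [lpBall, div_one, Real.rpow_one, mem_ofPred_eq]

theorem volume_cross (n : ℕ) :
    (volume (lpBall 1 (n + 1))).toReal = 2 ^ (n + 1) / ((n + 1)! : ℝ) := by
  rw [cross_set]
  have h := MeasureTheory.volume_sum_rpow_le (ι := Fin (n + 1)) (p := 1) (le_refl 1) 1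
  rw [h]
  have e1 : Real.Gamma (1 / 1 + 1) = 1 := by
    have : (1 : ℝ) / 1 + 1 = 2 := by norm_num
    rw [this, Real.Gamma_two]
  have e2 : Real.Gamma ((Fintype.card (Fin (n + 1)) : ℝ) / 1 + 1) = ((n + 1)! : ℝ) := by
    rw [Fintype.card_fin, div_one]
    exact Real.Gamma_nat_eq_factorial (n + 1)
  rw [e1, e2, Fintype.card_fin]
  simp only [ENNReal.ofReal_one, one_pow, one_mul, mul_one]
  rw [ENNReal.toReal_ofReal (by positivity)]

/-- The vector with entries `±1`. -/
private def sg {n : ℕ} (ξ : Fin n → Bool) : V n := fun i => if ξ i then 1 else -1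

/-- The sign pattern of a vector. -/
private noncomputable def tau {n : ℕ} (x : V n) : Fin n → Bool := fun i => decide (0 < x i)

private lemma measurable_tau {n : ℕ} : Measurable (tau : V n → Fin n → Bool) := by
  refine measurable_pi_iff.2 fun i => measurable_to_bool ?_
  have : (fun x : V n => tau x i) ⁻¹' {true} = {x | 0 < x i} := by
    ext x
    simp [tau]
  rw [this]
  exact measurableSet_lt measurable_const (measurable_pi_apply i)

/-- The partial derivatives of the `ℓ¹` norm. -/
private lemma gaugeGrad_cross {n : ℕ} {x : V n} (hx : ∀ i, x i ≠ 0) :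
    gaugeGrad (lpBall 1 n) x = sg (tau x) := by
  have hg : gauge (lpBall 1 n) = fun y : V n => ∑ i, |y i| := by
    funext y
    rw [gauge_lpBall (le_refl 1)]
    simp only [div_one, Real.rpow_one]
  have hd : HasFDerivAt (fun y : V n => ∑ i, |y i|)
      (∑ i, ((SignType.sign (x i) : ℝ)) • (ContinuousLinearMap.proj i : V n →L[ℝ] ℝ)) x := by
    have h1 : ∀ i ∈ (Finset.univ : Finset (Fin n)), HasFDerivAt (fun y : V n => |y i|)
        (((SignType.sign (x i) : ℝ)) • (ContinuousLinearMap.proj i : V n →L[ℝ] ℝ)) x := by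
      intro i _
      exact HasFDerivAt.abs (f := fun y : V n => y i)
        (hasFDerivAt_apply (𝕜 := ℝ) i x) (hx i)
    exact HasFDerivAt.fun_sum h1
  funext i
  unfold gaugeGrad
  rw [hg, hd.fderiv]
  simp only [_root_.sum_apply, _root_.smul_apply,
    ContinuousLinearMap.proj_apply, smul_eq_mul]
  rw [Finset.sum_eq_single i]
  · simp only [Pi.single_eq_same, mul_one, sg, tau, decide_eq_true_eq]
    rcases lt_or_gt_of_ne (hx i) with h | h
    · simp [h.not_gt, sign_neg h]
    · simp [h, sign_pos h]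
  · intro j _ hj
    simp [Pi.single_eq_of_ne hj]
  · intro h
    exact absurd (Finset.mem_univ i) h

/-- Reflection of coordinates. -/
private def refl {n : ℕ} (σ : Fin n → Bool) (x : V n) : V n := fun i => sg σ i * x i

private lemma sg_sq {n : ℕ} (σ : Fin n → Bool) (i : Fin n) : sg σ i * sg σ i = 1 := by
  unfold sg
  split_ifs <;> norm_num

private lemma refl_refl {n : ℕ} (σ : Fin n → Bool) (x : V n) : refl σ (refl σ x) = x := by
  funext i
  show sg σ i * (sg σ i * x i) = x i
  rw [← mul_assoc, sg_sq, one_mul]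

private lemma abs_sg {n : ℕ} (σ : Fin n → Bool) (i : Fin n) : |sg σ i| = 1 := by
  unfold sg
  split_ifs <;> norm_num

private lemma measurable_refl {n : ℕ} (σ : Fin n → Bool) : Measurable (refl σ) :=
  measurable_pi_lambda _ fun i => (measurable_pi_apply i).const_mul _

private lemma mp_refl {n : ℕ} (σ : Fin n → Bool) :
    MeasurePreserving (refl σ) (volume : Measure (V n)) volume := by
  refine ⟨measurable_refl σ, ?_⟩
  have hf : ∀ i : Fin n, Measurable (fun t : ℝ => sg σ i * t) := fun i =>
    measurable_id.const_mul _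
  have h1 : ∀ i : Fin n, (volume : Measure ℝ).map (fun t : ℝ => sg σ i * t) = volume := by
    intro i
    unfold sg
    split_ifs
    · simp
    · have : (fun t : ℝ => (-1 : ℝ) * t) = fun t => -t := by
        funext t; ring
      rw [this]
      exact Measure.map_neg_eq_self _
  have : ∀ i : Fin n, SigmaFinite ((volume : Measure ℝ).map (fun t : ℝ => sg σ i * t)) := fun i => by
    rw [h1 i]
    infer_instance
  have h2 := Measure.pi_map_pi (μ := fun _ : Fin n => (volume : Measure ℝ))
    (f := fun i (t : ℝ) => sg σ i * t) (fun i => (hf i).aemeasurable)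
  simp only [h1] at h2
  exact h2

private lemma refl_mem {n : ℕ} (σ : Fin n → Bool) (x : V n) :
    refl σ x ∈ lpBall 1 n ↔ x ∈ lpBall 1 n := by
  simp only [lpBall, mem_ofPred_eq, Real.rpow_one]
  have : ∀ i, |refl σ x i| = |x i| := by
    intro i
    show |sg σ i * x i| = _
    rw [abs_mul, abs_sg, one_mul]
  simp only [this]

/-- The sign pattern of a reflected vector. -/
private lemma tau_refl {n : ℕ} (σ : Fin n → Bool) {x : V n} (hx : ∀ i, x i ≠ 0) :
    tau (refl σ x) = fun i => (σ i == tau x i) := by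
  funext i
  show decide (0 < sg σ i * x i) = (σ i == decide (0 < x i))
  rw [Bool.eq_iff_iff, decide_eq_true_eq, beq_iff_eq]
  by_cases hσ : σ i = true
  · have hs : sg σ i = 1 := by simp [sg, hσ]
    rw [hs, one_mul, hσ]
    simp
  · have hs : sg σ i = -1 := by simp [sg, hσ]
    have hf : σ i = false := by simpa using hσ
    rw [hs, hf]
    rcases lt_or_gt_of_ne (hx i) with h | h
    · simp [h, h.not_gt]
    · simp [h, h.not_gt]

private lemma ae_coord_ne {n : ℕ} : ∀ᵐ x : V n, ∀ i, x i ≠ 0 := by
  rw [ae_all_iff]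
  intro i
  rw [volume_pi]
  exact Measure.ae_eval_ne _ i 0

private def reflE {n : ℕ} (σ : Fin n → Bool) : V n ≃ᵐ V n where
  toFun := refl σ
  invFun := refl σ
  left_inv := refl_refl σ
  right_inv := refl_refl σ
  measurable_toFun := measurable_refl σ
  measurable_invFun := measurable_refl σ

private lemma integral_refl {n : ℕ} (σ : Fin n → Bool) (g : V n → ℝ) :
    ∫ x in lpBall 1 n, g (refl σ x) = ∫ x in lpBall 1 n, g x := by
  have h := (mp_refl σ).setIntegral_preimage_emb (reflE σ).measurableEmbedding g (lpBall 1 n)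
  have hp : refl σ ⁻¹' lpBall 1 n = lpBall 1 n := by
    ext x
    exact refl_mem σ x
  rwa [hp] at h

private lemma sum_sign_perm {n : ℕ} (h : (Fin n → Bool) → ℝ) (τ : Fin n → Bool) :
    ∑ σ : Fin n → Bool, h (fun i => (σ i == τ i)) = ∑ ξ : Fin n → Bool, h ξ := by
  have hinv : Function.Involutive (fun σ : Fin n → Bool => fun i => (σ i == τ i)) := by
    intro σ
    funext i
    show ((σ i == τ i) == τ i) = σ i
    cases σ i <;> cases τ i <;> rfl
  exact hinv.bijective.sum_comp h

/-- The key symmetrization. -/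
private lemma integral_cross {n : ℕ} (f : V n → ℝ) :
    (∫ x in lpBall 1 n, f (gaugeGrad (lpBall 1 n) x)) * 2 ^ n =
      (volume (lpBall 1 n)).toReal * ∑ ξ : Fin n → Bool, f (sg ξ) := by
  set K := lpBall 1 n with hK
  set h : (Fin n → Bool) → ℝ := fun ξ => f (sg ξ) with hh
  set C : ℝ := ∑ ξ : Fin n → Bool, h ξ with hC
  have hfin : volume K < ∞ := (body_lpBall (le_refl (1 : ℝ)) n).compact.measure_lt_top
  have : IsFiniteMeasure (volume.restrict K) := ⟨by rw [Measure.restrict_apply_univ]; exact hfin⟩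
  have hg : ∀ σ : Fin n → Bool, Integrable (fun x => h (tau (refl σ x))) (volume.restrict K) := by
    intro σ
    have hm : Measurable (fun x : V n => h (tau (refl σ x))) :=
      (measurable_of_countable h).comp (measurable_tau.comp (measurable_refl σ))
    refine Integrable.of_bound hm.aestronglyMeasurable (∑ ξ, |h ξ|) (ae_of_all _ fun x => ?_)
    rw [Real.norm_eq_abs]
    exact Finset.single_le_sum (f := fun ξ => |h ξ|) (fun ξ _ => abs_nonneg _) (Finset.mem_univ _)
  have h1 : ∫ x in K, f (gaugeGrad K x) = ∫ x in K, h (tau x) := by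
    refine integral_congr_ae (ae_restrict_of_ae ?_)
    filter_upwards [ae_coord_ne (n := n)] with x hx
    rw [hK, gaugeGrad_cross hx]
  have h2 : ∀ σ : Fin n → Bool, ∫ x in K, h (tau (refl σ x)) = ∫ x in K, h (tau x) := fun σ =>
    integral_refl σ (fun x => h (tau x))
  have h3 : ∑ σ : Fin n → Bool, ∫ x in K, h (tau (refl σ x)) = ∫ x in K, ∑ σ : Fin n → Bool, h (tau (refl σ x)) :=
    (integral_finsetSum _ fun σ _ => hg σ).symm
  have h4 : ∫ x in K, ∑ σ : Fin n → Bool, h (tau (refl σ x)) = ∫ _x in K, C := by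
    refine integral_congr_ae (ae_restrict_of_ae ?_)
    filter_upwards [ae_coord_ne (n := n)] with x hx
    have : ∀ σ : Fin n → Bool, h (tau (refl σ x)) = h (fun i => (σ i == tau x i)) := fun σ => by
      rw [tau_refl σ hx]
    simp only [this]
    exact sum_sign_perm h (tau x)
  have h5 : ∑ σ : Fin n → Bool, ∫ x in K, h (tau (refl σ x)) = (∫ x in K, h (tau x)) * 2 ^ n := by
    simp only [h2]
    rw [Finset.sum_const, Finset.card_univ, nsmul_eq_mul, mul_comm]
    congr 1
    simp
  rw [h1, ← h5, h3, h4, setIntegral_const, smul_eq_mul]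
  rfl

theorem cross_explicit (n : ℕ) {L : Set (V (n + 1))} (hL : SymB L) :
    (volume L).toReal ≤ 2 ^ (n + 1) / ((n + 1)! : ℝ) *
      Real.exp (((n : ℝ) + 1) / 2 ^ (n + 1) *
        ∑ ξ : Fin (n + 1) → Bool, Real.log (supp L fun i => if ξ i then 1 else -1)) := by
  have hK := logMinkAt_lpBall (le_refl 1) n
  have h1 := hK.2 L hL
  have hI := integral_cross (n := n + 1) (fun u => Real.log (supp L u))
  have hv := volume_cross n
  have hKfin : volume (lpBall 1 (n + 1)) ≠ ∞ := hK.1.compact.measure_lt_top.ne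
  have hKr : 0 < (volume (lpBall 1 (n + 1))).toReal :=
    ENNReal.toReal_pos hK.1.volume_pos.ne' hKfin
  have hLr : 0 < (volume L).toReal := ENNReal.toReal_pos hL.2.2.ne' hL.1.measure_lt_top.ne
  set A := (volume (lpBall 1 (n + 1))).toReal with hA
  set C := ∑ ξ : Fin (n + 1) → Bool, Real.log (supp L (sg ξ)) with hC
  set I := ∫ x in lpBall 1 (n + 1), Real.log (supp L (gaugeGrad (lpBall 1 (n + 1)) x)) with hId
  have h2 : (0 : ℝ) < 2 ^ (n + 1) := by positivity
  have hN : (0 : ℝ) < ((n + 1 : ℕ) : ℝ) := by positivity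
  have hI' : I = A * C / 2 ^ (n + 1) := by
    rw [eq_div_iff h2.ne']
    exact hI
  have h3 : Real.log ((volume L).toReal / A) ≤ ((n : ℝ) + 1) / 2 ^ (n + 1) * C := by
    rw [hI'] at h1
    have h4 : A / ((n + 1 : ℕ) : ℝ) * Real.log ((volume L).toReal / A) =
        A * (Real.log ((volume L).toReal / A) / ((n + 1 : ℕ) : ℝ)) := by ring
    rw [h4] at h1
    have h5 : A * C / 2 ^ (n + 1) = A * (C / 2 ^ (n + 1)) := by ring
    rw [h5] at h1
    have h6 := le_of_mul_le_mul_left h1 hKr
    rw [div_le_iff₀ hN] at h6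
    push_cast at h6
    calc Real.log ((volume L).toReal / A) ≤ C / 2 ^ (n + 1) * ((n : ℝ) + 1) := h6
      _ = _ := by ring
  rw [Real.log_le_iff_le_exp (div_pos hLr hKr), div_le_iff₀ hKr] at h3
  rw [hv] at h3
  calc (volume L).toReal ≤ Real.exp (((n : ℝ) + 1) / 2 ^ (n + 1) * C) * (2 ^ (n + 1) / ((n + 1)! : ℝ)) := h3
    _ = _ := by rw [mul_comm]; rfl

end Vale.Agent.Lib.P227Z
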