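import Vale.Agent.Lib.P227Y.Main

/-!
# Log-Minkowski at homothetic fibrations: definitions

`LogMinkAt K`: `K` is a body and the logarithmic Minkowski inequality holds at `K` against every
compact symmetric `L` of positive volume.

`Poly m`: a polygonal even concave profile with `m + 1` edges on `[0, T]`, with lines
`t ↦ α j - τ j * t`, slopes `0 < τ 0 < τ 1 < ...`; edge `j` lives on `[tk j, tk (j+1)]`, and the profile is
the lower envelope of the lines, positive at `T`.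

`fibPoly K₀ D = {(s, y) : |s| ≤ T, gauge K₀ y + τ j |s| ≤ α j ∀ j}`.

The one-dimensional functional `Js` is the volume of the body with prescribed surface masses: with
`p = 1/a`, `Js = ∫_0^M F^p`, where `F(m) = c + ½ ∑_l d_l (min(m, μ(X⁺_l)) + min(m, μ(X⁻_l)))`.
-/

open MeasureTheory Set Filter Topology Matrix
open scoped Pointwise ENNReal Nat

namespace Vale.Agent.Lib.P227Z

/-- The logarithmic Minkowski inequality at `K` against all compact symmetric `L` of positive volume. -/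
def LogMinkAt {n : ℕ} (K : Set (V n)) : Prop :=
  Body K ∧ ∀ L : Set (V n), SymB L →
    (volume K).toReal / (n : ℝ) * Real.log ((volume L).toReal / (volume K).toReal) ≤
      ∫ x in K, Real.log (supp L (gaugeGrad K x))

/-- A polygonal profile with `m + 1` edges. -/
structure Poly (m : ℕ) where
  /-- slopes -/
  τ : Fin (m + 1) → ℝ
  /-- intercepts -/
  α : Fin (m + 1) → ℝ
  /-- knots; edge `j` is over `[tk j.castSucc, tk j.succ]` -/
  tk : Fin (m + 2) → ℝ
  τ_pos : ∀ j, 0 < τ j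
  τ_mono : StrictMono τ
  tk_zero : tk 0 = 0
  tk_mono : StrictMono tk
  /-- on its edge, a line is the lower envelope of all lines -/
  env : ∀ j l, ∀ t ∈ Icc (tk j.castSucc) (tk j.succ), α j - τ j * t ≤ α l - τ l * t
  /-- positivity at the top -/
  last_pos : ∀ j, 0 < α j - τ j * tk (Fin.last _)

namespace Poly

variable {m : ℕ} (D : Poly m)

/-- The top height. -/
def T : ℝ := D.tk (Fin.last _)

/-- The `j`-th line. -/
def line (j : Fin (m + 1)) (t : ℝ) : ℝ := D.α j - D.τ j * t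

/-- The half-width at the top, `ρ(T)`. -/
def ρT : ℝ := D.line (Fin.last m) D.T

/-- The surface mass of edge `j`: `a ∫_edge ρ^(a-1)`. -/
noncomputable def s0 (a : ℕ) (j : Fin (m + 1)) : ℝ :=
  (a : ℝ) * ∫ t in D.tk j.castSucc..D.tk j.succ, (D.line j t) ^ (a - 1)

/-- `V = ∫_{-T}^{T} ρ^a = 2 ∑_j ∫_edge ρ^a`. -/
noncomputable def vol2 (a : ℕ) : ℝ :=
  2 * ∑ j, ∫ t in D.tk j.castSucc..D.tk j.succ, (D.line j t) ^ a

/-- The cone mass of edge `j`. -/
noncomputable def w (a : ℕ) (j : Fin (m + 1)) : ℝ := D.α j * D.s0 a j / ((a : ℝ) + 1)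

/-- The cone mass of the cap. -/
noncomputable def wc (a : ℕ) : ℝ := D.T * D.ρT ^ a / ((a : ℝ) + 1)

/-- Gaps of the slopes: `d 0 = τ 0`, `d l = τ l - τ (l - 1)`. -/
def d (l : Fin (m + 1)) : ℝ := if l = 0 then D.τ 0 else D.τ l - D.τ (l - 1)

end Poly

/-- The tail sum `X_l = ∑_{i ≥ l} s i`. -/
def tail {n : ℕ} (s : Fin n → ℝ) (l : Fin n) : ℝ := ∑ i ∈ Finset.Ici l, s i

/-- The half of the total mass. -/
noncomputable def hm {n : ℕ} (s₁ s₂ : Fin n → ℝ) : ℝ := (∑ i, (s₁ i + s₂ i)) / 2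

/-- `μ(X) = min(X, 2 M - X)`. -/
noncomputable def mu (M X : ℝ) : ℝ := min X (2 * M - X)

/-- The function `F` attached to the two families of masses. -/
noncomputable def Fs {n : ℕ} (d s₁ s₂ : Fin n → ℝ) (c m : ℝ) : ℝ :=
  c + (1 / 2) * ∑ l, d l * (min m (mu (hm s₁ s₂) (tail s₁ l)) + min m (mu (hm s₁ s₂) (tail s₂ l)))

/-- The functional `Js = ∫_0^M F^(1/a)`. -/
noncomputable def Js {n : ℕ} (a : ℕ) (d s₁ s₂ : Fin n → ℝ) (c : ℝ) : ℝ :=
  ∫ m in (0 : ℝ)..hm s₁ s₂, (Fs d s₁ s₂ c m) ^ ((1 : ℝ) / (a : ℝ))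

/-- The body over the polygonal profile `D` with fibre `K₀`. Coordinates `z = (z 0, tl z)`. -/
def fibPoly {a m : ℕ} (K₀ : Set (V a)) (D : Poly m) : Set (V (a + 1)) :=
  {z | |z 0| ≤ D.T ∧ ∀ j, gauge K₀ (tl z) + D.τ j * |z 0| ≤ D.α j}

/-- The body `K₀[ρ] = {(s, y) : |s| ≤ T, gauge K₀ y ≤ ρ s}`. -/
def fib {a : ℕ} (K₀ : Set (V a)) (ρ : ℝ → ℝ) (T : ℝ) : Set (V (a + 1)) :=
  {z | |z 0| ≤ T ∧ gauge K₀ (tl z) ≤ ρ (z 0)}

/-- An even concave continuous nonnegative profile on `[-T, T]`, positive at `0`. -/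
structure IsProfile (ρ : ℝ → ℝ) (T : ℝ) : Prop where
  T_pos : 0 < T
  even : ∀ s, ρ (-s) = ρ s
  concave : ConcaveOn ℝ (Icc (-T) T) ρ
  cont : ContinuousOn ρ (Icc (-T) T)
  nonneg : ∀ s ∈ Icc (-T) T, 0 ≤ ρ s
  pos : 0 < ρ 0

/-- The section of `L` at height `s`. -/
def sect {a : ℕ} (L : Set (V (a + 1))) (s : ℝ) : Set (V a) := {y | (Fin.cons s y : V (a + 1)) ∈ L}

end Vale.Agent.Lib.P227Z
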