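import Vale.Agent.Lib.P227H.Defs

/-! # JOB H12: continuous Hölder through Jensen

`μ` finite of total mass `A > 0`. For a.e. `s`: `exp ((a/A) ∫ log W(x,s) dμ) = exp((1/A) ∫ log (W^a / Ψ) dμ + (1/A) ∫ log Ψ dμ)
≤ exp(Ā) (1/A) ∫ W^a / Ψ dμ` (Jensen for `exp`, or by hand from `log u ≤ u - 1`). Integrate in `s` by Tonelli:
`≤ exp(Ā) (1/A) ∫ (∫ W^a dν) / Ψ dμ ≤ exp(Ā)`.
-/

open MeasureTheory Set
open scoped ENNReal

namespace Vale.Agent.Lib.P227Z

private lemma hj_ofReal_integral_le {Ω : Type*} [MeasurableSpace Ω] {μ : Measure Ω} {f : Ω → ℝ}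
    (hf : Integrable f μ) : ENNReal.ofReal (∫ x, f x ∂μ) ≤ ∫⁻ x, ENNReal.ofReal (f x) ∂μ := by
  have h1 := integral_eq_lintegral_pos_part_sub_lintegral_neg_part hf
  have h2 : ∫ x, f x ∂μ ≤ (∫⁻ x, ENNReal.ofReal (f x) ∂μ).toReal := by
    rw [h1]
    have : 0 ≤ (∫⁻ x, ENNReal.ofReal (-f x) ∂μ).toReal := ENNReal.toReal_nonneg
    linarith
  exact ENNReal.ofReal_le_of_le_toReal h2

/-- Jensen for the logarithm, by hand. -/
private lemma hj_jensen {Ω : Type*} [MeasurableSpace Ω] (μ : Measure Ω) [IsFiniteMeasure μ]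
    (hA : 0 < (μ Set.univ).toReal) {u : Ω → ℝ} (hu : ∀ᵐ x ∂μ, 0 < u x)
    (hl : Integrable (fun x => Real.log (u x)) μ) :
    ENNReal.ofReal (Real.exp ((1 / (μ Set.univ).toReal) * ∫ x, Real.log (u x) ∂μ) *
      (μ Set.univ).toReal) ≤ ∫⁻ x, ENNReal.ofReal (u x) ∂μ := by
  set A := (μ Set.univ).toReal with hAd
  set L := (1 / A) * ∫ x, Real.log (u x) ∂μ with hL
  set c := Real.exp L with hc
  have hc0 : 0 < c := Real.exp_pos _
  have hfi : Integrable (fun x => c * (1 + Real.log (u x) - L)) μ :=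
    (((integrable_const 1).add hl).sub (integrable_const L)).const_mul c
  have hint : ∫ x, c * (1 + Real.log (u x) - L) ∂μ = c * A := by
    have h1 : Integrable (fun x => 1 + Real.log (u x)) μ := (integrable_const 1).add hl
    rw [integral_const_mul, integral_sub h1 (integrable_const L), integral_add (integrable_const 1) hl,
      integral_const, integral_const]
    have h3 : ∫ x, Real.log (u x) ∂μ = A * L := by rw [hL]; field_simp
    have h4 : μ.real Set.univ = A := rfl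
    simp only [smul_eq_mul, h3, h4]
    ring
  have hle : ∀ᵐ x ∂μ, c * (1 + Real.log (u x) - L) ≤ u x := by
    filter_upwards [hu] with x hx
    have h1 := Real.log_le_sub_one_of_pos (div_pos hx hc0)
    rw [Real.log_div hx.ne' hc0.ne', hc, Real.log_exp] at h1
    have h2 : c * (u x / c) = u x := by field_simp
    have h3 := mul_le_mul_of_nonneg_left h1 hc0.le
    nlinarith
  calc ENNReal.ofReal (c * A) = ENNReal.ofReal (∫ x, c * (1 + Real.log (u x) - L) ∂μ) := by rw [hint]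
    _ ≤ ∫⁻ x, ENNReal.ofReal (c * (1 + Real.log (u x) - L)) ∂μ := hj_ofReal_integral_le hfi
    _ ≤ ∫⁻ x, ENNReal.ofReal (u x) ∂μ := lintegral_mono_ae (hle.mono fun x hx =>
        ENNReal.ofReal_le_ofReal hx)

theorem holder_jensen {Ω₁ Ω₂ : Type*} [MeasurableSpace Ω₁] [MeasurableSpace Ω₂]
    (μ : Measure Ω₁) [IsFiniteMeasure μ] (ν : Measure Ω₂) [SFinite ν]
    (hA : 0 < (μ Set.univ).toReal) (a : ℕ)
    (W : Ω₁ → Ω₂ → ℝ) (hWm : Measurable (Function.uncurry W)) (hW0 : ∀ x s, 0 ≤ W x s)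
    (Ψ : Ω₁ → ℝ) (hΨm : Measurable Ψ) (hΨ : ∀ x, 0 < Ψ x)
    (hΨi : Integrable (fun x => Real.log (Ψ x)) μ)
    (hWi : ∀ᵐ s ∂ν, Integrable (fun x => Real.log (W x s)) μ ∧ ∀ᵐ x ∂μ, 0 < W x s)
    (hb : ∀ᵐ x ∂μ, ∫⁻ s, ENNReal.ofReal (W x s ^ a) ∂ν ≤ ENNReal.ofReal (Ψ x)) :
    ∫⁻ s, ENNReal.ofReal (Real.exp ((a : ℝ) / (μ Set.univ).toReal * ∫ x, Real.log (W x s) ∂μ)) ∂ν ≤
      ENNReal.ofReal (Real.exp ((1 / (μ Set.univ).toReal) * ∫ x, Real.log (Ψ x) ∂μ)) := by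
  set A := (μ Set.univ).toReal with hAd
  set Abar := (1 / A) * ∫ x, Real.log (Ψ x) ∂μ with hAbar
  have hA' : μ Set.univ = ENNReal.ofReal A := by
    rw [hAd, ENNReal.ofReal_toReal (measure_ne_top _ _)]
  -- the pointwise bound in `s`
  have h1 : ∀ᵐ s ∂ν, ENNReal.ofReal (Real.exp ((a : ℝ) / A * ∫ x, Real.log (W x s) ∂μ)) ≤
      ENNReal.ofReal (Real.exp Abar / A) * ∫⁻ x, ENNReal.ofReal (W x s ^ a / Ψ x) ∂μ := by
    filter_upwards [hWi] with s hs
    obtain ⟨hi, hp⟩ := hs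
    have hu : ∀ᵐ x ∂μ, 0 < W x s ^ a / Ψ x := hp.mono fun x hx => div_pos (pow_pos hx a) (hΨ x)
    have hlog : ∀ᵐ x ∂μ, Real.log (W x s ^ a / Ψ x) = (a : ℝ) * Real.log (W x s) - Real.log (Ψ x) :=
      hp.mono fun x hx => by
        rw [Real.log_div (pow_pos hx a).ne' (hΨ x).ne', Real.log_pow]
    have hli : Integrable (fun x => Real.log (W x s ^ a / Ψ x)) μ :=
      ((hi.const_mul (a : ℝ)).sub hΨi).congr (hlog.mono fun x hx => hx.symm)
    have hJ := hj_jensen μ hA hu hli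
    have hint : ∫ x, Real.log (W x s ^ a / Ψ x) ∂μ =
        (a : ℝ) * (∫ x, Real.log (W x s) ∂μ) - ∫ x, Real.log (Ψ x) ∂μ := by
      rw [integral_congr_ae hlog, integral_sub (hi.const_mul _) hΨi, integral_const_mul]
    rw [← hAd, hint] at hJ
    have hexp : Real.exp ((a : ℝ) / A * ∫ x, Real.log (W x s) ∂μ) =
        Real.exp Abar / A * (Real.exp ((1 / A) * ((a : ℝ) * (∫ x, Real.log (W x s) ∂μ) -
          ∫ x, Real.log (Ψ x) ∂μ)) * A) := by
      have h2 : (a : ℝ) / A * ∫ x, Real.log (W x s) ∂μ =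
          Abar + (1 / A) * ((a : ℝ) * (∫ x, Real.log (W x s) ∂μ) - ∫ x, Real.log (Ψ x) ∂μ) := by
        rw [hAbar]; field_simp; ring
      rw [h2, Real.exp_add]
      field_simp
    rw [hexp, ENNReal.ofReal_mul (div_nonneg (Real.exp_pos _).le hA.le)]
    exact mul_le_mul_right hJ _
  refine (lintegral_mono_ae h1).trans ?_
  have hG : Measurable (fun p : Ω₁ × Ω₂ => ENNReal.ofReal (W p.1 p.2 ^ a / Ψ p.1)) := by
    refine ENNReal.measurable_ofReal.comp ?_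
    exact (hWm.pow_const a).div (hΨm.comp measurable_fst)
  rw [lintegral_const_mul' _ _ ENNReal.ofReal_ne_top]
  have hswap : ∫⁻ s, ∫⁻ x, ENNReal.ofReal (W x s ^ a / Ψ x) ∂μ ∂ν =
      ∫⁻ x, ∫⁻ s, ENNReal.ofReal (W x s ^ a / Ψ x) ∂ν ∂μ :=
    (lintegral_lintegral_swap (f := fun x s => ENNReal.ofReal (W x s ^ a / Ψ x))
      hG.aemeasurable).symm
  rw [hswap]
  have h2 : ∀ᵐ x ∂μ, ∫⁻ s, ENNReal.ofReal (W x s ^ a / Ψ x) ∂ν ≤ 1 := by
    filter_upwards [hb] with x hx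
    have hm : Measurable (fun s => ENNReal.ofReal (W x s ^ a)) := by
      refine ENNReal.measurable_ofReal.comp ?_
      exact (hWm.comp (measurable_const.prodMk measurable_id)).pow_const a
    have h3 : ∀ s, ENNReal.ofReal (W x s ^ a / Ψ x) =
        ENNReal.ofReal (1 / Ψ x) * ENNReal.ofReal (W x s ^ a) := by
      intro s
      rw [← ENNReal.ofReal_mul (by have := hΨ x; positivity)]
      congr 1
      ring
    simp only [h3]
    rw [lintegral_const_mul _ hm]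
    calc ENNReal.ofReal (1 / Ψ x) * ∫⁻ s, ENNReal.ofReal (W x s ^ a) ∂ν
        ≤ ENNReal.ofReal (1 / Ψ x) * ENNReal.ofReal (Ψ x) := mul_le_mul_right hx _
      _ = 1 := by
        rw [← ENNReal.ofReal_mul (by have := hΨ x; positivity)]
        have := (hΨ x).ne'
        rw [one_div, inv_mul_cancel₀ this, ENNReal.ofReal_one]
  have h4 : ∫⁻ x, ∫⁻ s, ENNReal.ofReal (W x s ^ a / Ψ x) ∂ν ∂μ ≤ ENNReal.ofReal A := by
    calc ∫⁻ x, ∫⁻ s, ENNReal.ofReal (W x s ^ a / Ψ x) ∂ν ∂μ ≤ ∫⁻ _x, 1 ∂μ := lintegral_mono_ae h2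
      _ = ENNReal.ofReal A := by simp [hA']
  calc ENNReal.ofReal (Real.exp Abar / A) * ∫⁻ x, ∫⁻ s, ENNReal.ofReal (W x s ^ a / Ψ x) ∂ν ∂μ
      ≤ ENNReal.ofReal (Real.exp Abar / A) * ENNReal.ofReal A := mul_le_mul_right h4 _
    _ = ENNReal.ofReal (Real.exp Abar) := by
      rw [← ENNReal.ofReal_mul (div_nonneg (Real.exp_pos _).le hA.le)]
      congr 1
      field_simp

end Vale.Agent.Lib.P227Z
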