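import Vale.Agent.Lib.P227H.Defs
import Vale.Agent.Lib.P074.Part1

/-! # JOB H11: sections and symmetrization

For compact convex `C ⊂ V a` with positive volume, `C♯ = (1/2) • C + (1/2) • (-C)` is compact, convex, symmetric, `|C| ≤ |C♯|`
by Brunn-Minkowski (`Vale.Agent.Lib.P074.brunn_minkowski`, with `A = C`, `B = -C`, `ε = 1/2`, `|−C| = |C|`), and
`supp C♯ v = (supp C v + supp C (-v)) / 2`. Apply `LogMinkAt K₀` to `C♯`.

Sections of a compact convex symmetric `L` of positive volume, `T' = supp L (cons 1 0)`. Note `0 ∈ interior L`.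
For `s ∈ (-T', T')`, `sect L s` is compact convex with nonempty interior, hence positive volume (there is a point of `L` at height `T' * sign s`, combine
with a ball around `0`). `sect L (-s) = - sect L s`. `r s = supp (sect L s) ν` is concave in `s` on `Ioo (-T') T'`, hence continuous; bounded.
-/

open MeasureTheory Set Filter Topology Matrix
open scoped Pointwise ENNReal Nat

namespace Vale.Agent.Lib.P227Z

variable {a : ℕ}

private lemma cont_dot {n : ℕ} (v : V n) : Continuous fun x : V n => x ⬝ᵥ v := by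
  unfold dotProduct
  fun_prop

private lemma le_supp1 {n : ℕ} {A : Set (V n)} (hA : IsCompact A) {y : V n} (hy : y ∈ A) (v : V n) :
    y ⬝ᵥ v ≤ supp A v :=
  le_csSup (hA.bddAbove_image (cont_dot v).continuousOn) ⟨y, hy, rfl⟩

private lemma supp_le1 {n : ℕ} {A : Set (V n)} (hne : A.Nonempty) {v : V n} {C : ℝ}
    (h : ∀ y ∈ A, y ⬝ᵥ v ≤ C) : supp A v ≤ C := by
  refine csSup_le (hne.image _) ?_
  rintro _ ⟨y, hy, rfl⟩
  exact h y hy

private lemma exists_max {n : ℕ} {A : Set (V n)} (hA : IsCompact A) (hne : A.Nonempty) (v : V n) :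
    ∃ y ∈ A, y ⬝ᵥ v = supp A v := by
  obtain ⟨y, hy, hmax⟩ := hA.exists_isMaxOn hne (cont_dot v).continuousOn
  refine ⟨y, hy, le_antisymm (le_supp1 hA hy v) (supp_le1 hne fun z hz => hmax hz)⟩

private lemma volume_ne_top {n : ℕ} {A : Set (V n)} (hA : IsCompact A) : volume A ≠ ⊤ :=
  hA.measure_lt_top.ne

/-- The symmetrization `(1/2) C + (1/2) (-C)`. -/
private def sharp {n : ℕ} (C : Set (V n)) : Set (V n) :=
  (fun p : V n × V n => (1 / 2 : ℝ) • p.1 - (1 / 2 : ℝ) • p.2) '' (C ×ˢ C)

private lemma sharp_compact {n : ℕ} {C : Set (V n)} (hC : IsCompact C) : IsCompact (sharp C) := by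
  refine (hC.prod hC).image ?_
  fun_prop

private lemma sharp_neg {n : ℕ} {C : Set (V n)} {x : V n} (hx : x ∈ sharp C) : -x ∈ sharp C := by
  obtain ⟨⟨p, q⟩, ⟨hp, hq⟩, rfl⟩ := hx
  exact ⟨(q, p), ⟨hq, hp⟩, by simp⟩

private lemma sharp_mem {n : ℕ} {C : Set (V n)} {p q : V n} (hp : p ∈ C) (hq : q ∈ C) :
    (1 / 2 : ℝ) • p - (1 / 2 : ℝ) • q ∈ sharp C :=
  ⟨(p, q), ⟨hp, hq⟩, rfl⟩

private lemma sharp_volume {n : ℕ} {C : Set (V n)} (hC : IsCompact C) (hv : Convex ℝ C) :
    volume C ≤ volume (sharp C) := by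
  by_cases h0 : volume C = 0
  · simp [h0]
  have hneg : volume (-C) = volume C := Measure.measure_neg volume C
  have hBM := Vale.Agent.Lib.P074.brunn_minkowski n (A := C) (B := -C) (C := sharp C) hv hv.neg
    hC.isBounded hC.neg.isBounded hC.measurableSet hC.neg.measurableSet
    (sharp_compact hC).measurableSet (ε := 1 / 2) (by norm_num) (by norm_num) (by
      intro x hx y hy
      have hy' : -y ∈ C := by simpa using hy
      have := sharp_mem hx hy'
      convert this using 1
      rw [smul_neg, sub_neg_eq_add]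
      norm_num)
  rw [hneg, ← ENNReal.rpow_add _ _ h0 (volume_ne_top hC)] at hBM
  norm_num at hBM
  exact hBM

private lemma sharp_pos {n : ℕ} {C : Set (V n)} (hC : IsCompact C) (hv : Convex ℝ C)
    (hp : 0 < volume C) : SymB (sharp C) :=
  ⟨sharp_compact hC, fun _ hx => sharp_neg hx, hp.trans_le (sharp_volume hC hv)⟩

private lemma sharp_supp {n : ℕ} {C : Set (V n)} (hC : IsCompact C) (hne : C.Nonempty) (v : V n) :
    supp (sharp C) v = (supp C v + supp C (-v)) / 2 := by
  have hdot : ∀ p q : V n, ((1 / 2 : ℝ) • p - (1 / 2 : ℝ) • q) ⬝ᵥ v = (p ⬝ᵥ v + q ⬝ᵥ (-v)) / 2 := by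
    intro p q
    rw [sub_dotProduct, smul_dotProduct, smul_dotProduct, dotProduct_neg, smul_eq_mul, smul_eq_mul]
    ring
  apply le_antisymm
  · refine supp_le1 ?_ ?_
    · obtain ⟨x, hx⟩ := hne
      exact ⟨_, sharp_mem hx hx⟩
    · rintro _ ⟨⟨p, q⟩, ⟨hp, hq⟩, rfl⟩
      have h1 := le_supp1 hC hp v
      have h2 := le_supp1 hC hq (-v)
      show ((1 / 2 : ℝ) • p - (1 / 2 : ℝ) • q) ⬝ᵥ v ≤ _
      rw [hdot]
      linarith
  · obtain ⟨p, hp, hpe⟩ := exists_max hC hne v
    obtain ⟨q, hq, hqe⟩ := exists_max hC hne (-v)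
    have := le_supp1 (sharp_compact hC) (sharp_mem hp hq) v
    rw [hdot, hpe, hqe] at this
    exact this

private lemma nonempty_of_pos {n : ℕ} {C : Set (V n)} (hp : 0 < volume C) : C.Nonempty := by
  by_contra hne
  rw [Set.not_nonempty_iff_eq_empty] at hne
  rw [hne, measure_empty] at hp
  exact lt_irrefl _ hp

/-- Section bound from `LogMinkAt` through symmetrization. -/
theorem section_bound {K₀ : Set (V a)} (ha : 1 ≤ a) (hK₀ : LogMinkAt K₀) {C : Set (V a)}
    (hC : IsCompact C) (hCv : Convex ℝ C) (hCp : 0 < volume C) :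
    IntegrableOn (fun y => Real.log ((supp C (gaugeGrad K₀ y) + supp C (-gaugeGrad K₀ y)) / 2)) K₀ ∧
    (volume C).toReal ≤ (volume K₀).toReal * Real.exp ((a : ℝ) / (volume K₀).toReal *
      ∫ y in K₀, Real.log ((supp C (gaugeGrad K₀ y) + supp C (-gaugeGrad K₀ y)) / 2)) := by
  have hS := sharp_pos hC hCv hCp
  have hne := nonempty_of_pos hCp
  have hfun : (fun y => Real.log ((supp C (gaugeGrad K₀ y) + supp C (-gaugeGrad K₀ y)) / 2)) =
      fun y => Real.log (supp (sharp C) (gaugeGrad K₀ y)) := by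
    funext y
    rw [sharp_supp hC hne]
  rw [hfun]
  refine ⟨hK₀.1.integrableOn_log hS, ?_⟩
  have hmain := hK₀.2 (sharp C) hS
  have hK0 : 0 < (volume K₀).toReal :=
    ENNReal.toReal_pos hK₀.1.volume_pos.ne' (volume_ne_top hK₀.1.compact)
  have hSp : 0 < (volume (sharp C)).toReal :=
    ENNReal.toReal_pos hS.2.2.ne' (volume_ne_top hS.1)
  have ha' : (0 : ℝ) < a := by exact_mod_cast ha
  have hmono : (volume C).toReal ≤ (volume (sharp C)).toReal :=
    ENNReal.toReal_mono (volume_ne_top hS.1) (sharp_volume hC hCv)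
  refine hmono.trans ?_
  have hlog : Real.log ((volume (sharp C)).toReal / (volume K₀).toReal) ≤
      (a : ℝ) / (volume K₀).toReal * ∫ y in K₀, Real.log (supp (sharp C) (gaugeGrad K₀ y)) := by
    have hc : 0 < (a : ℝ) / (volume K₀).toReal := div_pos ha' hK0
    have := mul_le_mul_of_nonneg_left hmain hc.le
    rw [← mul_assoc] at this
    have he : (a : ℝ) / (volume K₀).toReal * ((volume K₀).toReal / (a : ℝ)) = 1 := by
      field_simp
    rwa [he, one_mul] at this
  calc (volume (sharp C)).toReal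
      = (volume K₀).toReal * Real.exp (Real.log ((volume (sharp C)).toReal / (volume K₀).toReal)) := by
        rw [Real.exp_log (div_pos hSp hK0)]
        field_simp
    _ ≤ _ := by
        exact mul_le_mul_of_nonneg_left (Real.exp_le_exp.2 hlog) hK0.le

/-- Compact convex symmetric `L` of positive volume. -/
structure CSB {n : ℕ} (L : Set (V n)) : Prop where
  sym : SymB L
  conv : Convex ℝ L

variable {L : Set (V (a + 1))}

private lemma dot_cons (x : V (a + 1)) (τ : ℝ) (ν : V a) :
    x ⬝ᵥ (Fin.cons τ ν : V (a + 1)) = x 0 * τ + tl x ⬝ᵥ ν := by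
  simp [dotProduct, Fin.sum_univ_succ, tl]

private lemma cons_dot_cons (s τ : ℝ) (y ν : V a) :
    (Fin.cons s y : V (a + 1)) ⬝ᵥ (Fin.cons τ ν : V (a + 1)) = s * τ + y ⬝ᵥ ν := by
  rw [dot_cons]
  simp [tl_cons]

private lemma cons_ne (τ : ℝ) (hτ : τ ≠ 0) (ν : V a) : (Fin.cons τ ν : V (a + 1)) ≠ 0 := by
  intro h
  have := congrFun h 0
  simp at this
  exact hτ this

private lemma cons_comb (u v s t : ℝ) (y w : V a) :
    u • (Fin.cons s y : V (a + 1)) + v • (Fin.cons t w : V (a + 1)) =
      (Fin.cons (u * s + v * t) (u • y + v • w) : V (a + 1)) := by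
  funext i
  refine Fin.cases ?_ (fun j => ?_) i <;> simp

private lemma neg_cons (s : ℝ) (y : V a) :
    -(Fin.cons s y : V (a + 1)) = (Fin.cons (-s) (-y) : V (a + 1)) := by
  funext i
  refine Fin.cases ?_ (fun j => ?_) i <;> simp

theorem T'_pos (hL : CSB L) : 0 < supp L (Fin.cons 1 0) :=
  supp_pos' hL.sym (cons_ne 1 one_ne_zero 0)

theorem sect_compact (hL : CSB L) (s : ℝ) : IsCompact (sect L s) := by
  have he : sect L s = tl '' (L ∩ {z | z 0 = s}) := by
    ext y
    constructor
    · intro hy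
      refine ⟨Fin.cons s y, ⟨hy, by simp⟩, tl_cons s y⟩
    · rintro ⟨z, ⟨hz, hz0⟩, rfl⟩
      show (Fin.cons s (tl z) : V (a + 1)) ∈ L
      have hz0' : z 0 = s := hz0
      rw [← hz0', cons_tl]
      exact hz
  rw [he]
  refine (hL.sym.1.inter_right (isClosed_eq (continuous_apply 0) continuous_const)).image continuous_tl

theorem sect_convex (hL : CSB L) (s : ℝ) : Convex ℝ (sect L s) := by
  intro y hy w hw u v hu hv huv
  have := hL.conv hy hw hu hv huv
  rw [cons_comb] at this
  have hs : u * s + v * s = s := by rw [← add_mul, huv, one_mul]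
  rw [hs] at this
  exact this


private lemma exists_top (hL : CSB L) : ∃ p ∈ L, p 0 = supp L (Fin.cons 1 0) := by
  have hne : L.Nonempty := nonempty_of_pos hL.sym.2.2
  obtain ⟨p, hp, hpe⟩ := exists_max hL.sym.1 hne (Fin.cons 1 0)
  refine ⟨p, hp, ?_⟩
  rw [← hpe, dot_cons]
  simp

private lemma le_T' (hL : CSB L) {z : V (a + 1)} (hz : z ∈ L) : z 0 ≤ supp L (Fin.cons 1 0) := by
  have := le_supp1 hL.sym.1 hz (Fin.cons 1 0)
  rw [dot_cons] at this
  simpa using this

private lemma sect_empty (hL : CSB L) {s : ℝ} (hs : s ∉ Icc (-supp L (Fin.cons 1 0)) (supp L (Fin.cons 1 0))) :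
    sect L s = ∅ := by
  ext y
  simp only [mem_empty_iff_false, iff_false]
  intro hy
  apply hs
  have hy' : (Fin.cons s y : V (a + 1)) ∈ L := hy
  have h1 := le_T' hL hy'
  have h2 := le_T' hL (hL.sym.2.1 _ hy')
  simp only [Fin.cons_zero, Pi.neg_apply] at h1 h2
  exact ⟨by linarith, h1⟩

theorem sect_volume_pos (hL : CSB L) {s : ℝ}
    (hs : s ∈ Ioo (-supp L (Fin.cons 1 0)) (supp L (Fin.cons 1 0))) : 0 < volume (sect L s) := by
  have hT := T'_pos hL
  set T := supp L (Fin.cons 1 0) with hTdef
  have hB : Body L := Body.of_pos hL.sym.1 hL.conv hL.sym.2.1 hL.sym.2.2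
  obtain ⟨r, hr, hball⟩ := Metric.mem_nhds_iff.1 hB.nhds
  obtain ⟨p₀, hp₀, hp₀e'⟩ := exists_top hL
  have hp₀e : p₀ 0 = T := hp₀e'
  -- the point at height `T * sign s`
  obtain ⟨p, hp, hpe⟩ : ∃ p ∈ L, p 0 * (|s| / T) = s := by
    by_cases h0 : 0 ≤ s
    · refine ⟨p₀, hp₀, ?_⟩
      rw [hp₀e, abs_of_nonneg h0]
      field_simp
    · push Not at h0
      refine ⟨-p₀, hL.sym.2.1 _ hp₀, ?_⟩
      rw [Pi.neg_apply, hp₀e, abs_of_neg h0]
      field_simp
  set l := |s| / T with hl
  have hl0 : 0 ≤ l := div_nonneg (abs_nonneg _) hT.le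
  have hl1 : l < 1 := by
    rw [hl, div_lt_one hT, abs_lt]
    exact ⟨by linarith [hs.1], hs.2⟩
  have h1l : 0 < 1 - l := by linarith
  have hsub : Metric.ball (l • tl p) ((1 - l) * r) ⊆ sect L s := by
    intro y hy
    have hy' : ‖y - l • tl p‖ < (1 - l) * r := by
      rw [Metric.mem_ball, dist_eq_norm] at hy
      exact hy
    set u : V a := (1 - l)⁻¹ • (y - l • tl p) with hu
    have hun : ‖u‖ < r := by
      rw [hu, norm_smul, Real.norm_eq_abs, abs_of_pos (inv_pos.2 h1l)]
      rw [inv_mul_lt_iff₀ h1l]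
      exact hy'
    have hcons : (Fin.cons 0 u : V (a + 1)) ∈ L := by
      apply hball
      rw [Metric.mem_ball, dist_zero_right, pi_norm_lt_iff hr]
      intro i
      refine Fin.cases ?_ (fun j => ?_) i
      · simpa using hr
      · simpa using (norm_le_pi_norm u j).trans_lt hun
    have hcomb := hL.conv hp hcons hl0 h1l.le (by ring : l + (1 - l) = 1)
    have hq : l • p + (1 - l) • (Fin.cons 0 u : V (a + 1)) = (Fin.cons s y : V (a + 1)) := by
      funext i
      refine Fin.cases ?_ (fun j => ?_) i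
      · simp only [Pi.add_apply, Pi.smul_apply, smul_eq_mul, Fin.cons_zero]
        rw [mul_zero, add_zero, mul_comm]
        exact hpe
      · simp only [Pi.add_apply, Pi.smul_apply, smul_eq_mul, Fin.cons_succ]
        have h0l : (1 - l) ≠ 0 := h1l.ne'
        have h2 : p j.succ = tl p j := rfl
        have h3 : u j = (1 - l)⁻¹ * (y j - l * tl p j) := by simp [hu]
        rw [h2, h3, mul_inv_cancel_left₀ h0l]
        ring
    rw [hq] at hcomb
    exact hcomb
  exact (Metric.measure_ball_pos volume _ (mul_pos h1l hr)).trans_le (measure_mono hsub)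

private lemma volume_eq_lintegral_all (hL : CSB L) :
    volume L = ∫⁻ s : ℝ, volume (sect L s) := by
  have hS : MeasurableSet L := hL.sym.1.measurableSet
  have hmp := volume_preserving_piFinSuccAbove (fun _ : Fin (a + 1) => ℝ) 0
  have hsymm := hmp.symm
  have h1 := hsymm.measure_preimage hS.nullMeasurableSet
  rw [← h1]
  have hmeas : MeasurableSet
      ((MeasurableEquiv.piFinSuccAbove (fun _ : Fin (a + 1) => ℝ) 0).symm ⁻¹' L) :=
    (MeasurableEquiv.piFinSuccAbove (fun _ : Fin (a + 1) => ℝ) 0).symm.measurable hS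
  rw [Measure.volume_eq_prod, Measure.prod_apply hmeas]
  apply lintegral_congr
  intro s
  congr 1
  ext y
  simp only [mem_preimage, sect, mem_ofPred_eq]
  have e : (MeasurableEquiv.piFinSuccAbove (fun _ : Fin (a + 1) => ℝ) 0).symm (s, y) =
      (Fin.cons s y : V (a + 1)) := by
    apply (MeasurableEquiv.piFinSuccAbove (fun _ : Fin (a + 1) => ℝ) 0).injective
    rw [MeasurableEquiv.apply_symm_apply]
    ext i
    · simp [MeasurableEquiv.piFinSuccAbove]
    · simp [MeasurableEquiv.piFinSuccAbove]
  rw [e]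

/-- Off `(-T', T')` the sections do not contribute. -/
theorem volume_eq_lintegral_sect (hL : CSB L) :
    volume L = ∫⁻ s in Ioo (-supp L (Fin.cons 1 0)) (supp L (Fin.cons 1 0)), volume (sect L s) := by
  rw [volume_eq_lintegral_all hL, Measure.restrict_congr_set Ioo_ae_eq_Icc,
    ← lintegral_indicator measurableSet_Icc]
  apply lintegral_congr
  intro s
  by_cases hs : s ∈ Icc (-supp L (Fin.cons 1 0)) (supp L (Fin.cons 1 0))
  · rw [indicator_of_mem hs]
  · rw [indicator_of_notMem hs, sect_empty hL hs, measure_empty]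

private lemma sect_nonempty (hL : CSB L) {s : ℝ}
    (hs : s ∈ Ioo (-supp L (Fin.cons 1 0)) (supp L (Fin.cons 1 0))) : (sect L s).Nonempty :=
  nonempty_of_pos (sect_volume_pos hL hs)

private lemma r_concave (hL : CSB L) (ν : V a) :
    ConcaveOn ℝ (Ioo (-supp L (Fin.cons 1 0)) (supp L (Fin.cons 1 0)))
      (fun s => supp (sect L s) ν) := by
  refine ⟨convex_Ioo _ _, ?_⟩
  intro s hs t ht u v hu hv huv
  obtain ⟨y, hy, hye⟩ := exists_max (sect_compact hL s) (sect_nonempty hL hs) ν
  obtain ⟨w, hw, hwe⟩ := exists_max (sect_compact hL t) (sect_nonempty hL ht) ν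
  have hmem : u • y + v • w ∈ sect L (u * s + v * t) := by
    have := hL.conv hy hw hu hv huv
    rw [cons_comb] at this
    exact this
  have := le_supp1 (sect_compact hL _) hmem ν
  rw [add_dotProduct, smul_dotProduct, smul_dotProduct, hye, hwe] at this
  simpa [smul_eq_mul] using this

/-- The function `r s = supp (sect L s) ν`. -/
theorem r_continuousOn (hL : CSB L) (ν : V a) :
    ContinuousOn (fun s => supp (sect L s) ν)
      (Ioo (-supp L (Fin.cons 1 0)) (supp L (Fin.cons 1 0))) :=
  (r_concave hL ν).continuousOn isOpen_Ioo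

theorem r_bounded (hL : CSB L) (ν : V a) :
    ∃ C, ∀ s ∈ Ioo (-supp L (Fin.cons 1 0)) (supp L (Fin.cons 1 0)), |supp (sect L s) ν| ≤ C := by
  obtain ⟨C, hC⟩ := hL.sym.1.exists_bound_of_continuousOn
    (f := fun z : V (a + 1) => tl z ⬝ᵥ ν) ((cont_dot ν).comp continuous_tl).continuousOn
  refine ⟨C, fun s hs => ?_⟩
  obtain ⟨y, hy, hye⟩ := exists_max (sect_compact hL s) (sect_nonempty hL hs) ν
  have := hC _ hy
  simp only [tl_cons, Real.norm_eq_abs] at this
  rwa [hye] at this

theorem r_neg (hL : CSB L) (ν : V a) (s : ℝ) : supp (sect L (-s)) ν = supp (sect L s) (-ν) := by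
  unfold supp
  congr 1
  ext x
  constructor
  · rintro ⟨y, hy, rfl⟩
    refine ⟨-y, ?_, by simp⟩
    have := hL.sym.2.1 _ hy
    rw [neg_cons, neg_neg] at this
    exact this
  · rintro ⟨y, hy, rfl⟩
    refine ⟨-y, ?_, by simp⟩
    have := hL.sym.2.1 _ hy
    rw [neg_cons] at this
    exact this

theorem omega_pos (hL : CSB L) {ν : V a} (hν : ν ≠ 0) {s : ℝ}
    (hs : s ∈ Ioo (-supp L (Fin.cons 1 0)) (supp L (Fin.cons 1 0))) :
    0 < (supp (sect L s) ν + supp (sect L (-s)) ν) / 2 := by
  have hS := sharp_pos (sect_compact hL s) (sect_convex hL s) (sect_volume_pos hL hs)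
  have h := supp_pos' hS hν
  rw [sharp_supp (sect_compact hL s) (sect_nonempty hL hs)] at h
  rwa [r_neg hL]

/-- `r s + τ s ≤ h_L (τ, ν)`. -/
theorem r_add_le (hL : CSB L) (ν : V a) (τ : ℝ) {s : ℝ}
    (hs : s ∈ Ioo (-supp L (Fin.cons 1 0)) (supp L (Fin.cons 1 0))) :
    supp (sect L s) ν + τ * s ≤ supp L (Fin.cons τ ν) := by
  obtain ⟨y, hy, hye⟩ := exists_max (sect_compact hL s) (sect_nonempty hL hs) ν
  have := le_supp1 hL.sym.1 hy (Fin.cons τ ν)
  rw [cons_dot_cons, hye] at this
  linarith

private lemma r_measurable_s (hL : CSB L) (ν : V a) :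
    Measurable (fun s => supp (sect L s) ν) := by
  classical
  set T := supp L (Fin.cons 1 0) with hT
  have hc : ContinuousOn (fun s => supp (sect L s) ν) (Ioo (-T) T) := r_continuousOn hL ν
  have hm : Measurable ((Ioo (-T) T).piecewise (fun s => supp (sect L s) ν) (fun _ => 0)) :=
    ContinuousOn.measurable_piecewise hc continuousOn_const measurableSet_Ioo
  have hfin : Measurable (fun s : ℝ => if s = T then supp (sect L T) ν else
      if s = -T then supp (sect L (-T)) ν else
        (Ioo (-T) T).piecewise (fun s => supp (sect L s) ν) (fun _ => 0) s) :=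
    Measurable.ite (measurableSet_eq) measurable_const
      (Measurable.ite (measurableSet_eq) measurable_const hm)
  convert hfin using 2 with s
  by_cases h1 : s = T
  · rw [if_pos h1, h1]
  rw [if_neg h1]
  by_cases h2 : s = -T
  · rw [if_pos h2, h2]
  rw [if_neg h2]
  by_cases h3 : s ∈ Ioo (-T) T
  · rw [piecewise_eq_of_mem _ _ _ h3]
  · rw [piecewise_eq_of_notMem _ _ _ h3]
    have h4 : s ∉ Icc (-T) T := fun h => h3 ⟨lt_of_le_of_ne h.1 (Ne.symm h2), lt_of_le_of_ne h.2 h1⟩
    rw [sect_empty hL h4]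
    simp [supp]

/-- Joint measurability of `(ν, s) ↦ supp (sect L s) ν` (continuous in `ν`, measurable in `s`:
`measurable_uncurry_of_continuous_of_measurable`); measurability in `s` from continuity on the open interval
and triviality off the closed one, or from upper semicontinuity. -/
theorem r_measurable (hL : CSB L) :
    Measurable (fun q : V a × ℝ => supp (sect L q.2) q.1) := by
  have := measurable_uncurry_of_continuous_of_measurable
    (u := fun (ν : V a) (s : ℝ) => supp (sect L s) ν)
    (fun s => supp_continuous' (sect_compact hL s)) (fun ν => r_measurable_s hL ν)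
  exact this

/-- For the `log` integrand in the section bound: the support function of `L` at `(τ, p)` is comparable to a constant along a body's gradient. -/
theorem integrableOn_log_cons {K₀ : Set (V a)} (hK₀ : Body K₀) (hL : SymB L) (τ : ℝ) (hτ : τ ≠ 0) :
    IntegrableOn (fun y => Real.log (supp L (Fin.cons τ (gaugeGrad K₀ y)))) K₀ := by
  obtain ⟨r, hr, hball⟩ := Metric.mem_nhds_iff.1 hK₀.nhds
  -- gradient bound: on the unit level of `supp K₀`
  have hbd : ∀ p : V a, supp K₀ p = 1 → ‖p‖ ≤ 2 / r := by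
    intro p hp
    rw [pi_norm_le_iff_of_nonneg (by positivity)]
    intro i
    rw [Real.norm_eq_abs]
    have hmem : ∀ c : ℝ, |c| = r / 2 → (Pi.single i c : V a) ∈ K₀ := by
      intro c hc
      apply hball
      rw [Metric.mem_ball, dist_zero_right, pi_norm_lt_iff hr]
      intro j
      by_cases hj : j = i
      · subst hj
        simp only [Pi.single_eq_same, Real.norm_eq_abs, hc]
        linarith
      · simp [Pi.single_eq_of_ne hj, hr]
    have h1 : (r / 2) * |p i| ≤ 1 := by
      have hx : ∀ c : ℝ, |c| = r / 2 → c * p i ≤ 1 := by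
        intro c hc
        have := le_supp1 hK₀.compact (hmem c hc) p
        rw [hp] at this
        simpa [single_dotProduct] using this
      rcases abs_cases (p i) with ⟨h, _⟩ | ⟨h, _⟩
      · rw [h]
        exact hx (r / 2) (abs_of_pos (by positivity))
      · rw [h]
        have := hx (-(r / 2)) (by rw [abs_neg]; exact abs_of_pos (by positivity))
        linarith
    rw [le_div_iff₀ hr]
    linarith
  set R : ℝ := max |τ| (2 / r) with hR
  set S : Set (V (a + 1)) := Metric.closedBall 0 R ∩ {v | v 0 = τ} with hS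
  have hSc : IsCompact S :=
    (isCompact_closedBall 0 R).inter_right (isClosed_eq (continuous_apply 0) continuous_const)
  have hcons_mem : ∀ p : V a, ‖p‖ ≤ 2 / r → (Fin.cons τ p : V (a + 1)) ∈ S := by
    intro p hp
    refine ⟨?_, by simp⟩
    rw [mem_closedBall_zero_iff, pi_norm_le_iff_of_nonneg ((abs_nonneg τ).trans (le_max_left _ _))]
    intro i
    refine Fin.cases ?_ (fun j => ?_) i
    · simpa using le_max_left _ _
    · simpa using ((norm_le_pi_norm p j).trans hp).trans (le_max_right _ _)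
  have hSne : S.Nonempty := by
    refine ⟨Fin.cons τ 0, hcons_mem 0 ?_⟩
    rw [norm_zero]
    positivity
  have hcont : ContinuousOn (supp L) S := (supp_continuous' hL.1).continuousOn
  obtain ⟨u, hu, hmin⟩ := hSc.exists_isMinOn hSne hcont
  obtain ⟨w, hw, hmax⟩ := hSc.exists_isMaxOn hSne hcont
  have hS0 : ∀ v ∈ S, v ≠ 0 := by
    intro v hv h0
    have h : v 0 = τ := hv.2
    rw [h0] at h
    exact hτ h.symm
  have hm : 0 < supp L u := supp_pos' hL (hS0 u hu)
  have hmeas : Measurable (fun y => Real.log (supp L (Fin.cons τ (gaugeGrad K₀ y) : V (a + 1)))) := by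
    refine Real.measurable_log.comp ((supp_continuous' hL.1).measurable.comp ?_)
    refine measurable_pi_iff.2 fun i => ?_
    refine Fin.cases ?_ (fun j => ?_) i
    · simpa using measurable_const
    · simpa using (measurable_pi_iff.1 (measurable_gaugeGrad K₀)) j
  refine Measure.integrableOn_of_bounded
    (M := max (max |Real.log (supp L u)| |Real.log (supp L w)|)
      |Real.log (supp L (Fin.cons τ (gaugeGrad K₀ 0)))|)
    hK₀.compact.measure_lt_top.ne hmeas.aestronglyMeasurable ?_
  refine ae_restrict_of_ae ?_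
  filter_upwards [hK₀.ae_diff] with y hy
  rw [Real.norm_eq_abs]
  by_cases hy0 : y = 0
  · subst hy0
    exact le_max_right _ _
  · have h1 := hK₀.supp_grad hy hy0
    have h2 := hcons_mem _ (hbd _ h1)
    have h3 : supp L u ≤ supp L (Fin.cons τ (gaugeGrad K₀ y)) := hmin h2
    have h4 : supp L (Fin.cons τ (gaugeGrad K₀ y)) ≤ supp L w := hmax h2
    refine le_max_of_le_left ?_
    have hs : 0 < supp L (Fin.cons τ (gaugeGrad K₀ y)) := hm.trans_le h3
    have h5 := Real.log_le_log hm h3
    have h6 := Real.log_le_log hs h4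
    rw [abs_le]
    constructor
    · have h7 := neg_abs_le (Real.log (supp L u))
      have h8 : |Real.log (supp L u)| ≤ max |Real.log (supp L u)| |Real.log (supp L w)| :=
        le_max_left _ _
      linarith
    · have h7 := le_abs_self (Real.log (supp L w))
      have h8 : |Real.log (supp L w)| ≤ max |Real.log (supp L u)| |Real.log (supp L w)| :=
        le_max_right _ _
      linarith

/-- Reduction to convex `L`: the hull of a `SymB` set is `CSB`, with the same support function and larger volume. -/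
theorem logMinkAt_of_convex {n : ℕ} {K : Set (V n)} (hK : Body K)
    (h : ∀ L : Set (V n), CSB L →
      (volume K).toReal / (n : ℝ) * Real.log ((volume L).toReal / (volume K).toReal) ≤
        ∫ x in K, Real.log (supp L (gaugeGrad K x))) : LogMinkAt K := by
  refine ⟨hK, fun L hL => ?_⟩
  obtain ⟨hLc, hLs, hLp⟩ := hL
  set L' : Set (V n) := closure (convexHull ℝ L) with hL'
  have hL'c : IsCompact L' :=
    (isBounded_convexHull.2 hLc.isBounded).isCompact_closure
  have hL'v : Convex ℝ L' := (convex_convexHull ℝ L).closure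
  have hsub : L ⊆ L' := (subset_convexHull ℝ L).trans subset_closure
  have hL's : ∀ x ∈ L', -x ∈ L' := by
    have hcn : Continuous (fun x : V n => -x) := continuous_neg
    have h1 : convexHull ℝ L ⊆ Neg.neg ⁻¹' L' := by
      have hc' : Convex ℝ (Neg.neg ⁻¹' L' : Set (V n)) := by
        intro x hx y hy u v hu hv huv
        have := hL'v hx hy hu hv huv
        simpa [smul_neg, mem_preimage, neg_add_rev, add_comm] using this
      refine convexHull_min (fun x hx => hsub (hLs x hx)) hc'
    have hcl : IsClosed (Neg.neg ⁻¹' L' : Set (V n)) := isClosed_closure.preimage continuous_neg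
    intro x hx
    exact closure_minimal h1 hcl hx
  have hL'p : 0 < volume L' := hLp.trans_le (measure_mono hsub)
  have hsupp : ∀ v, supp L' v = supp L v := by
    intro v
    have hne : L.Nonempty := nonempty_of_pos hLp
    apply le_antisymm
    · refine supp_le1 (hne.mono hsub) ?_
      have h1 : convexHull ℝ L ⊆ {y | y ⬝ᵥ v ≤ supp L v} := by
        refine convexHull_min (fun y hy => le_supp1 hLc hy v) ?_
        refine convex_halfSpace_le ?_ _
        exact ⟨fun x y => add_dotProduct _ _ _, fun c x => by simp [smul_dotProduct]⟩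
      have hcl : IsClosed {y : V n | y ⬝ᵥ v ≤ supp L v} := isClosed_le (cont_dot v) continuous_const
      exact fun y hy => closure_minimal h1 hcl hy
    · exact supp_le1 hne fun y hy => le_supp1 hL'c (hsub hy) v
  have hmain := h L' ⟨⟨hL'c, hL's, hL'p⟩, hL'v⟩
  have hfun : (fun x => Real.log (supp L' (gaugeGrad K x))) =
      fun x => Real.log (supp L (gaugeGrad K x)) := by
    funext x
    rw [hsupp]
  rw [hfun] at hmain
  refine le_trans ?_ hmain
  have hK0 : 0 < (volume K).toReal :=
    ENNReal.toReal_pos hK.volume_pos.ne' (volume_ne_top hK.compact)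
  have hLr : 0 < (volume L).toReal := ENNReal.toReal_pos hLp.ne' (volume_ne_top hLc)
  have hmono : (volume L).toReal ≤ (volume L').toReal :=
    ENNReal.toReal_mono (volume_ne_top hL'c) (measure_mono hsub)
  refine mul_le_mul_of_nonneg_left ?_ (by positivity)
  exact Real.log_le_log (div_pos hLr hK0) (div_le_div_of_nonneg_right hmono hK0.le)

end Vale.Agent.Lib.P227Z
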