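import Vale.Agent.Lib.P227H.Claim
import Vale.Agent.Lib.P227H.Cone
import Vale.Agent.Lib.P227H.Section
import Vale.Agent.Lib.P227H.Holder

/-! # JOB H13: log-Minkowski at `fibPoly K₀ D` -/

open MeasureTheory Set Filter Topology Matrix
open scoped Pointwise ENNReal Nat

namespace Vale.Agent.Lib.P227Z

variable {a m : ℕ} {K₀ : Set (V a)}

private lemma continuous_cons (τ : ℝ) : Continuous fun ν : V a => (Fin.cons τ ν : V (a + 1)) := by
  refine continuous_pi fun i => ?_
  refine Fin.cases ?_ (fun j => ?_) i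
  · simpa using continuous_const
  · simpa using continuous_apply j

private lemma measurable_log_cons {L : Set (V (a + 1))} (hL : SymB L) (τ α : ℝ) :
    Measurable fun y : V a =>
      Real.log (supp L (Fin.cons τ (gaugeGrad K₀ y)) / α) := by
  refine Real.measurable_log.comp ?_
  refine Measurable.div_const ?_ α
  exact (supp_continuous' hL.1).measurable.comp
    ((continuous_cons τ).measurable.comp (measurable_gaugeGrad K₀))

private lemma cons_ne_zero {τ : ℝ} (hτ : τ ≠ 0) (ν : V a) : (Fin.cons τ ν : V (a + 1)) ≠ 0 := by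
  intro h
  have := congrFun h 0
  simp at this
  exact hτ this

private lemma integrable_log_cons_div (hK₀ : Body K₀) {L : Set (V (a + 1))} (hL : SymB L)
    {τ α : ℝ} (hτ : τ ≠ 0) (hα : 0 < α) :
    IntegrableOn (fun y => Real.log (supp L (Fin.cons τ (gaugeGrad K₀ y)) / α)) K₀ := by
  have h := (integrableOn_log_cons hK₀ hL τ hτ).sub
    (integrableOn_const (C := Real.log α) hK₀.compact.measure_lt_top.ne)
  refine h.congr (Eventually.of_forall fun y => ?_)
  have hpos := supp_pos' hL (cons_ne_zero hτ (gaugeGrad K₀ y))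
  simp only [Pi.sub_apply]
  rw [Real.log_div hpos.ne' hα.ne']

theorem logMinkAt_fibPoly (ha : 1 ≤ a) (hK₀ : LogMinkAt K₀) (D : Poly m) :
    LogMinkAt (fibPoly K₀ D) := by
  have hB₀ : Body K₀ := hK₀.1
  have hB : Body (fibPoly K₀ D) := body_fibPoly hB₀ D
  refine logMinkAt_of_convex hB fun L hL => ?_
  have hLs : SymB L := hL.sym
  -- notation
  set A : ℝ := (volume K₀).toReal with hA
  have hApos : 0 < A := ENNReal.toReal_pos hB₀.volume_pos.ne' hB₀.compact.measure_lt_top.ne
  set Vv : ℝ := D.vol2 a with hVv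
  have hVpos : 0 < Vv := D.vol2_pos a
  set T' : ℝ := supp L (Fin.cons 1 0) with hT'
  have hT'pos : 0 < T' := T'_pos hL
  set p : V a → V a := gaugeGrad K₀ with hp
  have hvolK : (volume (fibPoly K₀ D)).toReal = A * Vv := volume_fibPoly hB₀ D
  have hKpos : 0 < A * Vv := mul_pos hApos hVpos
  -- the bound `Ψ`
  set E : V a → ℝ := fun y =>
    (∑ j, D.w a j * (Real.log (supp L (Fin.cons (D.τ j) (p y)) / D.α j) +
        Real.log (supp L (Fin.cons (-D.τ j) (p y)) / D.α j))) +
      2 * D.wc a * Real.log (T' / D.T) with hE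
  set Ψ : V a → ℝ := fun y => Vv * Real.exp (((a : ℝ) + 1) / Vv * E y) with hΨ
  have hΨpos : ∀ y, 0 < Ψ y := fun y => mul_pos hVpos (Real.exp_pos _)
  have hlogΨ : ∀ y, Real.log (Ψ y) = Real.log Vv + ((a : ℝ) + 1) / Vv * E y := by
    intro y
    simp only [hΨ]
    rw [Real.log_mul hVpos.ne' (Real.exp_pos _).ne', Real.log_exp]
  have hEm : Measurable E := by
    refine Measurable.add ?_ measurable_const
    refine Finset.measurable_sum _ fun j _ => ?_
    exact ((measurable_log_cons hLs _ _).add (measurable_log_cons hLs _ _)).const_mul _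
  have hterm : ∀ j, IntegrableOn (fun y => Real.log (supp L (Fin.cons (D.τ j) (p y)) / D.α j) +
      Real.log (supp L (Fin.cons (-D.τ j) (p y)) / D.α j)) K₀ := by
    intro j
    exact (integrable_log_cons_div hB₀ hLs (D.τ_pos j).ne' (D.α_pos j)).add
      (integrable_log_cons_div hB₀ hLs (neg_ne_zero.2 (D.τ_pos j).ne') (D.α_pos j))
  have hKfin : volume K₀ ≠ ∞ := hB₀.compact.measure_lt_top.ne
  have hEi : IntegrableOn E K₀ := by
    refine Integrable.add ?_ (integrableOn_const hKfin)
    exact integrable_finset_sum _ fun j _ => (hterm j).const_mul _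
  have hΨm : Measurable Ψ :=
    measurable_const.mul (Real.measurable_exp.comp (hEm.const_mul _))
  have hΨi : IntegrableOn (fun y => Real.log (Ψ y)) K₀ := by
    have : IntegrableOn (fun y => Real.log Vv + ((a : ℝ) + 1) / Vv * E y) K₀ :=
      (integrableOn_const hKfin).add (hEi.const_mul _)
    exact this.congr (Eventually.of_forall fun y => (hlogΨ y).symm)
  -- integral of `log Ψ`
  set I : ℝ := ∫ z in fibPoly K₀ D, Real.log (supp L (gaugeGrad (fibPoly K₀ D) z)) with hI
  have hconeI : I = (∑ j, D.w a j * ∫ y in K₀,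
      (Real.log (supp L (Fin.cons (D.τ j) (p y)) / D.α j) +
        Real.log (supp L (Fin.cons (-D.τ j) (p y)) / D.α j))) +
      2 * D.wc a * A * Real.log (T' / D.T) := cone_formula hB₀ ha D hLs
  have hEint : ∫ y in K₀, E y = I := by
    rw [hconeI]
    simp only [hE]
    rw [integral_add (integrable_finsetSum _ fun j _ => (hterm j).const_mul _)
      (integrableOn_const hKfin)]
    rw [integral_finsetSum _ fun j _ => (hterm j).const_mul _]
    simp only [integral_const_mul, setIntegral_const, smul_eq_mul, Measure.real]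
    ring
  have hΨint : ∫ y in K₀, Real.log (Ψ y) = A * Real.log Vv + ((a : ℝ) + 1) / Vv * I := by
    simp only [hlogΨ]
    have hc : IntegrableOn (fun _ : V a => Real.log Vv) K₀ := integrableOn_const hKfin
    rw [integral_add hc (hEi.const_mul _), integral_const_mul, hEint]
    simp only [setIntegral_const, smul_eq_mul, Measure.real]
    rfl
  -- the a.e. facts on `p`
  have hne : ∀ᵐ y ∂(volume : Measure (V a)), y ≠ 0 := by
    haveI : NeZero a := ⟨by omega⟩
    exact compl_mem_ae_iff.2 (measure_singleton _)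
  have hpne : ∀ᵐ y ∂(volume.restrict K₀), p y ≠ 0 := by
    refine ae_restrict_of_ae ?_
    filter_upwards [hne, hB₀.ae_diff] with y hy hd
    exact hB₀.grad_ne_zero hd hy
  -- the function `W`
  set W : V a → ℝ → ℝ := fun y s => |(supp (sect L s) (p y) + supp (sect L (-s)) (p y)) / 2| with hW
  have hWeq : ∀ s ∈ Ioo (-T') T', ∀ y, p y ≠ 0 →
      W y s = (supp (sect L s) (p y) + supp (sect L (-s)) (p y)) / 2 := fun s hs y hy =>
    abs_of_pos (omega_pos hL hy hs)
  have hWeq' : ∀ s ∈ Ioo (-T') T', ∀ y, p y ≠ 0 →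
      (supp (sect L s) (p y) + supp (sect L s) (-p y)) / 2 = W y s := fun s hs y hy => by
    rw [hWeq s hs y hy, r_neg hL]
  have hWm : Measurable (Function.uncurry W) := by
    have hrm := r_measurable hL
    have h1 : Measurable fun q : V a × ℝ => supp (sect L q.2) (p q.1) :=
      hrm.comp (((measurable_gaugeGrad K₀).comp measurable_fst).prodMk measurable_snd)
    have h2 : Measurable fun q : V a × ℝ => supp (sect L (-q.2)) (p q.1) :=
      hrm.comp (((measurable_gaugeGrad K₀).comp measurable_fst).prodMk measurable_snd.neg)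
    exact ((h1.add h2).div_const 2).abs
  have hsneg : ∀ s ∈ Ioo (-T') T', -s ∈ Ioo (-T') T' := fun s hs =>
    ⟨by linarith [hs.2], by linarith [hs.1]⟩
  -- the section bound
  have hsec : ∀ s ∈ Ioo (-T') T',
      Integrable (fun y => Real.log (W y s)) (volume.restrict K₀) ∧
      (volume (sect L s)).toReal ≤ A * Real.exp ((a : ℝ) / A * ∫ y in K₀, Real.log (W y s)) := by
    intro s hs
    have hb := section_bound ha hK₀ (sect_compact hL s) (sect_convex hL s) (sect_volume_pos hL hs)
    have hae : (fun y => Real.log ((supp (sect L s) (gaugeGrad K₀ y) +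
        supp (sect L s) (-gaugeGrad K₀ y)) / 2)) =ᵐ[volume.restrict K₀]
        fun y => Real.log (W y s) := by
      filter_upwards [hpne] with y hy
      rw [← hWeq' s hs y hy]
    refine ⟨hb.1.congr hae, ?_⟩
    have := hb.2
    rwa [integral_congr_ae hae] at this
  -- the planar claim
  have hclaim : ∀ y, p y ≠ 0 →
      ∫⁻ s in Ioo (-T') T', ENNReal.ofReal (W y s ^ a) ≤ ENNReal.ofReal (Ψ y) := by
    intro y hy
    set r : ℝ → ℝ := fun s => supp (sect L s) (p y) with hr
    have hrc : ContinuousOn r (Ioo (-T') T') := r_continuousOn hL (p y)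
    have hrb := r_bounded hL (p y)
    have hω : ∀ t ∈ Ioo (-T') T', 0 < (r t + r (-t)) / 2 := fun t ht => omega_pos hL hy ht
    have hcl := claim_planar D a ha hT'pos r hrc hrb hω
      (fun j => supp L (Fin.cons (D.τ j) (p y))) (fun j => supp L (Fin.cons (-D.τ j) (p y)))
      (fun j t ht => r_add_le hL (p y) (D.τ j) ht)
      (fun j t ht => by
        have := r_add_le hL (p y) (-D.τ j) ht
        simp only [hr]
        linarith)
    have hcongr : ∫⁻ s in Ioo (-T') T', ENNReal.ofReal (W y s ^ a) =
        ∫⁻ s in Ioo (-T') T', ENNReal.ofReal (((r s + r (-s)) / 2) ^ a) := by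
      refine setLIntegral_congr_fun measurableSet_Ioo fun s hs => ?_
      simp only [hWeq s hs y hy, hr]
    rw [hcongr]
    -- integrability
    have hcf : ContinuousOn (fun s => ((r s + r (-s)) / 2) ^ a) (Ioo (-T') T') := by
      have h1 : ContinuousOn (fun s => r (-s)) (Ioo (-T') T') :=
        hrc.comp continuous_neg.continuousOn hsneg
      exact ((hrc.add h1).div_const 2).pow a
    obtain ⟨C, hC⟩ := hrb
    have hbd : ∀ s ∈ Ioo (-T') T', ‖((r s + r (-s)) / 2) ^ a‖ ≤ C ^ a := by
      intro s hs
      rw [norm_pow, Real.norm_eq_abs]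
      have h1 := hC s hs
      have h2 := hC (-s) (hsneg s hs)
      refine pow_le_pow_left₀ (abs_nonneg _) ?_ a
      rw [abs_le] at h1 h2 ⊢
      constructor <;> linarith [h1.1, h1.2, h2.1, h2.2]
    have hInt : IntegrableOn (fun s => ((r s + r (-s)) / 2) ^ a) (Ioo (-T') T') :=
      Integrable.mono' (integrableOn_const (C := C ^ a) (by simp))
        (hcf.aestronglyMeasurable measurableSet_Ioo)
        ((ae_restrict_iff' measurableSet_Ioo).2 (Eventually.of_forall hbd))
    have hnn : 0 ≤ᵐ[volume.restrict (Ioo (-T') T')] fun s => ((r s + r (-s)) / 2) ^ a :=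
      (ae_restrict_iff' measurableSet_Ioo).2 (Eventually.of_forall fun s hs =>
        pow_nonneg (hω s hs).le a)
    rw [← ofReal_integral_eq_lintegral_ofReal hInt hnn]
    refine ENNReal.ofReal_le_ofReal ?_
    have hle : (-T') ≤ T' := by linarith
    rw [intervalIntegral.integral_of_le hle, integral_Ioc_eq_integral_Ioo] at hcl
    exact hcl
  -- Hölder
  have hfiniteμ : IsFiniteMeasure (volume.restrict K₀) := ⟨by simpa using hB₀.compact.measure_lt_top⟩
  have hμ : ((volume.restrict K₀) Set.univ).toReal = A := by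
    rw [Measure.restrict_apply_univ]
  have hHol := holder_jensen (volume.restrict K₀) (volume.restrict (Ioo (-T') T'))
    (by rw [hμ]; exact hApos) a W hWm (fun _ _ => abs_nonneg _) Ψ hΨm hΨpos hΨi
    ((ae_restrict_iff' measurableSet_Ioo).2 (Eventually.of_forall fun s hs => ⟨(hsec s hs).1, by
      filter_upwards [hpne] with y hy
      rw [hWeq s hs y hy]
      exact omega_pos hL hy hs⟩))
    (by
      filter_upwards [hpne] with y hy
      exact hclaim y hy)
  rw [hμ, hΨint] at hHol
  -- Volume of `L`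
  have hvol : volume L ≤ ENNReal.ofReal A * ENNReal.ofReal
      (Real.exp ((1 / A) * (A * Real.log Vv + ((a : ℝ) + 1) / Vv * I))) := by
    rw [volume_eq_lintegral_sect hL]
    calc ∫⁻ s in Ioo (-T') T', volume (sect L s)
        ≤ ∫⁻ s in Ioo (-T') T', ENNReal.ofReal A * ENNReal.ofReal
            (Real.exp ((a : ℝ) / A * ∫ y in K₀, Real.log (W y s))) := by
          refine setLIntegral_mono' measurableSet_Ioo fun s hs => ?_
          rw [← ENNReal.ofReal_mul hApos.le]
          have hb := (hsec s hs).2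
          have hfin : volume (sect L s) ≠ ∞ := (sect_compact hL s).measure_lt_top.ne
          rw [← ENNReal.ofReal_toReal hfin]
          exact ENNReal.ofReal_le_ofReal hb
      _ = ENNReal.ofReal A * ∫⁻ s in Ioo (-T') T', ENNReal.ofReal
            (Real.exp ((a : ℝ) / A * ∫ y in K₀, Real.log (W y s))) :=
          lintegral_const_mul' _ _ ENNReal.ofReal_ne_top
      _ ≤ _ := by gcongr
  -- Numerics
  have hLpos : 0 < (volume L).toReal :=
    ENNReal.toReal_pos hLs.2.2.ne' hLs.1.measure_lt_top.ne
  have hLle : (volume L).toReal ≤ A * Real.exp ((1 / A) * (A * Real.log Vv + ((a : ℝ) + 1) / Vv * I)) := by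
    rw [← ENNReal.ofReal_mul hApos.le] at hvol
    exact ENNReal.toReal_le_of_le_ofReal (by positivity) hvol
  have hlog : Real.log (volume L).toReal ≤
      Real.log A + ((1 / A) * (A * Real.log Vv + ((a : ℝ) + 1) / Vv * I)) := by
    have := Real.log_le_log hLpos hLle
    rwa [Real.log_mul hApos.ne' (Real.exp_pos _).ne', Real.log_exp] at this
  have hexp : (1 / A) * (A * Real.log Vv + ((a : ℝ) + 1) / Vv * I) =
      Real.log Vv + ((a : ℝ) + 1) / (A * Vv) * I := by
    field_simp
  rw [hexp] at hlog
  have hdiv : Real.log ((volume L).toReal / (A * Vv)) ≤ ((a : ℝ) + 1) / (A * Vv) * I := by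
    rw [Real.log_div hLpos.ne' hKpos.ne', Real.log_mul hApos.ne' hVpos.ne']
    linarith
  rw [hvolK]
  have hn : ((a + 1 : ℕ) : ℝ) = (a : ℝ) + 1 := by push_cast; ring
  rw [hn]
  have hapos : (0 : ℝ) < (a : ℝ) + 1 := by positivity
  calc A * Vv / ((a : ℝ) + 1) * Real.log ((volume L).toReal / (A * Vv))
      ≤ A * Vv / ((a : ℝ) + 1) * (((a : ℝ) + 1) / (A * Vv) * I) := by
        exact mul_le_mul_of_nonneg_left hdiv (by positivity)
    _ = I := by field_simp

end Vale.Agent.Lib.P227Z
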