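import Vale.Agent.Lib.P227H.Lift
import Vale.Agent.Lib.P227H.Holder

/-! # JOB S8: closure under free sums

Let `L` be `CSB` in `V (a + b)`; `G = interior (pa '' L)` (the rest of `pa '' L` is null). For `x ∈ G`, `sectA L x` is compact convex of positive volume.
`section_bound` with `K₂`: `|sectA L x| ≤ |K₂| exp ((b/|K₂|) ∫_{K₂} log W(y, x))`, `W(y, x) = (supp (sectA L x) (p₂ y) + supp (sectA L x) (-p₂ y)) / 2`.
`holder_jensen` with `μ = volume.restrict K₂`, `ν = volume.restrict G`, `Ψ y = cab a b |K₁| exp (((a+b)/|K₁|) ∫_{K₁} ½ (log supp L (ap (p₁ x) (p₂ y)) + log supp L (ap (p₁ x) (-p₂ y))))` (use `lift_bound`).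
So `|L| ≤ |K₂| exp ((1/|K₂|) ∫_{K₂} log Ψ) = cab a b |K₁| |K₂| exp (((a+b)/(|K₁||K₂|)) ∫_{K₂} ∫_{K₁} ½(...))`. The substitution `y ↦ -y` (`gaugeGrad_neg`) shows that both terms in `½(...)` have the same double integral.
Conclude with `cone_freeSum`, `volume_freeSum`. Joint measurability of `(μ, x) ↦ supp (sectA L x) μ` as in `r_measurable`.
-/

open MeasureTheory Set Filter Topology Matrix
open scoped Pointwise ENNReal Nat

namespace Vale.Agent.Lib.P227Z

variable {a b : ℕ} {K₁ : Set (V a)} {K₂ : Set (V b)}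

private lemma fm_cont_dot {n : ℕ} (v : V n) : Continuous fun x : V n => x ⬝ᵥ v := by
  unfold dotProduct
  fun_prop

private lemma fm_le_supp {n : ℕ} {A : Set (V n)} (hA : IsCompact A) {y : V n} (hy : y ∈ A)
    (v : V n) : y ⬝ᵥ v ≤ supp A v :=
  le_csSup (hA.bddAbove_image (fm_cont_dot v).continuousOn) ⟨y, hy, rfl⟩

private lemma fm_supp_le {n : ℕ} {A : Set (V n)} (hne : A.Nonempty) {v : V n} {C : ℝ}
    (h : ∀ y ∈ A, y ⬝ᵥ v ≤ C) : supp A v ≤ C := by
  refine csSup_le (hne.image _) ?_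
  rintro _ ⟨y, hy, rfl⟩
  exact h y hy

private lemma fm_exists_max {n : ℕ} {A : Set (V n)} (hA : IsCompact A) (hne : A.Nonempty)
    (v : V n) : ∃ y ∈ A, y ⬝ᵥ v = supp A v := by
  obtain ⟨y, hy, hmax⟩ := hA.exists_isMaxOn hne (fm_cont_dot v).continuousOn
  exact ⟨y, hy, le_antisymm (fm_le_supp hA hy v) (fm_supp_le hne fun z hz => hmax hz)⟩

private lemma fm_ap_comb (u v : ℝ) (x x' : V a) (y y' : V b) :
    u • ap x y + v • ap x' y' = ap (u • x + v • x') (u • y + v • y') := by
  funext i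
  refine Fin.addCases (fun j => ?_) (fun j => ?_) i <;> simp [ap]

section Geo

variable {L : Set (V (a + b))}

private lemma fm_continuous_ap_right (x : V a) : Continuous fun y : V b => ap x y := by
  have h := continuous_ap (a := a) (b := b)
  exact h.comp (Continuous.prodMk_right x)

private lemma fm_sectA_compact (hL : CSB L) (x : V a) : IsCompact (sectA L x) := by
  have hK : IsCompact (L ∩ pa ⁻¹' {x}) :=
    hL.sym.1.inter_right (isClosed_singleton.preimage continuous_pa)
  have himg : sectA L x = pb '' (L ∩ pa ⁻¹' {x}) := by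
    ext y
    constructor
    · intro hy
      exact ⟨ap x y, ⟨hy, by simp⟩, by simp⟩
    · rintro ⟨z, ⟨hz, hzx⟩, rfl⟩
      have hzx' : pa z = x := hzx
      change ap x (pb z) ∈ L
      rw [← hzx', ap_pa_pb]
      exact hz
  rw [himg]
  exact hK.image continuous_pb

private lemma fm_sectA_convex (hL : CSB L) (x : V a) : Convex ℝ (sectA L x) := by
  intro y hy y' hy' u v hu hv huv
  have h := hL.conv hy hy' hu hv huv
  rw [fm_ap_comb] at h
  have hx : u • x + v • x = x := by rw [← add_smul, huv, one_smul]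
  rw [hx] at h
  exact h

private lemma fm_image_compact (hL : CSB L) : IsCompact (pa '' L) :=
  hL.sym.1.image continuous_pa

private lemma fm_image_convex (hL : CSB L) : Convex ℝ (pa '' L) := by
  rintro _ ⟨z, hz, rfl⟩ _ ⟨z', hz', rfl⟩ u v hu hv huv
  exact ⟨u • z + v • z', hL.conv hz hz' hu hv huv, rfl⟩

private lemma fm_sectA_empty {x : V a} (hx : x ∉ pa '' L) : sectA L x = ∅ := by
  ext y
  simp only [mem_empty_iff_false, iff_false]
  intro hy
  exact hx ⟨ap x y, hy, by simp⟩

private lemma fm_norm_ap_zero (w : V b) : ‖(ap (0 : V a) w : V (a + b))‖ ≤ ‖w‖ := by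
  rw [pi_norm_le_iff_of_nonneg (norm_nonneg _)]
  intro i
  refine Fin.addCases (fun j => ?_) (fun j => ?_) i
  · simp [ap]
  · simp only [ap, Fin.append_right]
    exact norm_le_pi_norm w j

private lemma fm_comb_aux (z : V (a + b)) (w : V b) {u v : ℝ} :
    u • z + v • (ap (0 : V a) w) = ap (u • pa z + v • (0 : V a)) (u • pb z + v • w) := by
  conv_lhs => rw [← ap_pa_pb z]
  rw [fm_ap_comb]

private lemma fm_sectA_volume_pos (hL : CSB L) {x : V a} (hx : x ∈ interior (pa '' L)) :
    0 < volume (sectA L x) := by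
  have hB : Body L := Body.of_pos hL.sym.1 hL.conv hL.sym.2.1 hL.sym.2.2
  obtain ⟨r, hr, hball⟩ := Metric.mem_nhds_iff.1 hB.nhds
  -- a point beyond `x`
  have hT : Tendsto (fun t : ℝ => t • x) (𝓝[>] 1) (𝓝 x) := by
    have : Tendsto (fun t : ℝ => t • x) (𝓝 1) (𝓝 ((1 : ℝ) • x)) :=
      (continuous_id.smul continuous_const).tendsto 1
    rw [one_smul] at this
    exact this.mono_left nhdsWithin_le_nhds
  have hev : ∀ᶠ t in 𝓝[>] (1 : ℝ), t • x ∈ interior (pa '' L) :=
    hT.eventually (isOpen_interior.mem_nhds hx)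
  obtain ⟨t, ht, ht1⟩ := (hev.and self_mem_nhdsWithin).exists
  have ht1' : (1 : ℝ) < t := ht1
  have hpos : (0 : ℝ) < t := by linarith
  obtain ⟨z, hz, hzt⟩ := interior_subset (show t • x ∈ interior (pa '' L) from ht)
  set τ : ℝ := 1 / t with hτ
  have hτ0 : 0 < τ := by positivity
  have hτ1 : τ < 1 := by
    rw [hτ, div_lt_one hpos]
    exact ht1'
  have hτt : τ * t = 1 := by rw [hτ]; field_simp
  have hsub : Metric.ball (τ • pb z) ((1 - τ) * r) ⊆ sectA L x := by
    intro u hu
    have h1τ : 0 < 1 - τ := by linarith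
    set w : V b := (1 - τ)⁻¹ • (u - τ • pb z) with hw
    have hwn : ‖w‖ < r := by
      rw [hw, norm_smul, Real.norm_eq_abs, abs_of_pos (inv_pos.2 h1τ), inv_mul_lt_iff₀ h1τ]
      rw [mem_ball_iff_norm] at hu
      exact hu
    have hmem0 : ap (0 : V a) w ∈ L := by
      refine hball ?_
      rw [mem_ball_iff_norm, sub_zero]
      exact (fm_norm_ap_zero w).trans_lt hwn
    have hcomb := hL.conv hz hmem0 hτ0.le h1τ.le (by ring)
    rw [fm_comb_aux z w] at hcomb
    have e1 : τ • pa z + (1 - τ) • (0 : V a) = x := by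
      rw [hzt, smul_zero, add_zero, smul_smul, hτt, one_smul]
    have e2 : τ • pb z + (1 - τ) • w = u := by
      rw [hw, smul_smul, mul_inv_cancel₀ h1τ.ne', one_smul]
      abel
    rw [e1, e2] at hcomb
    exact hcomb
  refine lt_of_lt_of_le ?_ (measure_mono hsub)
  exact Metric.measure_ball_pos _ _ (mul_pos (by linarith) hr)

private lemma fm_width_pos {C : Set (V b)} (hC : IsCompact C) (hp : 0 < volume C) {ν : V b}
    (hν : ν ≠ 0) : 0 < (supp C ν + supp C (-ν)) / 2 := by
  have hne : C.Nonempty := by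
    by_contra hne
    rw [Set.not_nonempty_iff_eq_empty] at hne
    rw [hne, measure_empty] at hp
    exact lt_irrefl _ hp
  by_contra hle
  push Not at hle
  obtain ⟨z₀, hz₀, hz₀e⟩ := fm_exists_max hC hne ν
  have hall : ∀ z ∈ C, (z - z₀) ⬝ᵥ ν = 0 := by
    intro z hz
    have h1 := fm_le_supp hC hz ν
    have h2 := fm_le_supp hC hz (-ν)
    rw [dotProduct_neg] at h2
    rw [sub_dotProduct, hz₀e]
    linarith
  let lf : V b →ₗ[ℝ] ℝ :=
    { toFun := fun x => x ⬝ᵥ ν
      map_add' := fun x y => add_dotProduct _ _ _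
      map_smul' := fun c x => by simp [smul_dotProduct] }
  have hker : LinearMap.ker lf ≠ ⊤ := by
    intro htop
    have h1 : ν ∈ LinearMap.ker lf := by rw [htop]; trivial
    exact hν (dotProduct_self_eq_zero.1 h1)
  have h0 : volume ((LinearMap.ker lf : Submodule ℝ (V b)) : Set (V b)) = 0 :=
    Measure.addHaar_submodule volume _ hker
  have hsub : (fun h => z₀ + h) ⁻¹' C ⊆ (LinearMap.ker lf : Submodule ℝ (V b)) := by
    intro h hh
    have := hall _ hh
    rw [add_sub_cancel_left] at this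
    exact this
  have h3 : volume ((fun h => z₀ + h) ⁻¹' C) = 0 := measure_mono_null hsub h0
  rw [measure_preimage_add] at h3
  exact hp.ne' h3

private lemma fm_concave (hL : CSB L) (ν : V b) :
    ConcaveOn ℝ (interior (pa '' L)) (fun x => supp (sectA L x) ν) := by
  refine ⟨(fm_image_convex hL).interior, ?_⟩
  intro x hx x' hx' u v hu hv huv
  have hne : ∀ {t : V a}, t ∈ interior (pa '' L) → (sectA L t).Nonempty := by
    intro t ht
    by_contra hne
    rw [Set.not_nonempty_iff_eq_empty] at hne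
    have := fm_sectA_volume_pos hL ht
    rw [hne, measure_empty] at this
    exact lt_irrefl _ this
  obtain ⟨y, hy, hye⟩ := fm_exists_max (fm_sectA_compact hL x) (hne hx) ν
  obtain ⟨y', hy', hye'⟩ := fm_exists_max (fm_sectA_compact hL x') (hne hx') ν
  have hmem : u • y + v • y' ∈ sectA L (u • x + v • x') := by
    have := hL.conv hy hy' hu hv huv
    rw [fm_ap_comb] at this
    exact this
  have := fm_le_supp (fm_sectA_compact hL _) hmem ν
  rw [add_dotProduct, smul_dotProduct, smul_dotProduct, hye, hye'] at this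
  simpa [smul_eq_mul] using this

open Classical in
/-- The support function of the section, cut off outside the interior of the shadow. -/
private noncomputable def fmR (L : Set (V (a + b))) (ν : V b) (x : V a) : ℝ :=
  (interior (pa '' L)).piecewise (fun x => supp (sectA L x) ν) (fun _ => 0) x

private lemma fmR_measurable (hL : CSB L) :
    Measurable (fun q : V b × V a => fmR L q.1 q.2) := by
  classical
  refine measurable_uncurry_of_continuous_of_measurable
    (u := fun (ν : V b) (x : V a) => fmR L ν x) ?_ ?_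
  · intro x
    by_cases hx : x ∈ interior (pa '' L)
    · have : (fun ν : V b => fmR L ν x) = fun ν => supp (sectA L x) ν := by
        funext ν
        simp [fmR, hx]
      rw [this]
      exact supp_continuous' (fm_sectA_compact hL x)
    · have : (fun ν : V b => fmR L ν x) = fun _ => 0 := by
        funext ν
        simp [fmR, hx]
      rw [this]
      exact continuous_const
  · intro ν
    unfold fmR
    refine ContinuousOn.measurable_piecewise ?_ continuousOn_const isOpen_interior.measurableSet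
    exact (fm_concave hL ν).continuousOn isOpen_interior

private lemma fmR_of_mem {ν : V b} {x : V a} (hx : x ∈ interior (pa '' L)) :
    fmR L ν x = supp (sectA L x) ν := by
  classical
  simp [fmR, hx]

end Geo

section Bounds

variable {L : Set (V (a + b))}

private lemma fm_supp_free (h₁ : Body K₁) (h₂ : Body K₂) {x : V a} {y : V b}
    (hx : DifferentiableAt ℝ (gauge K₁) x) (hx0 : x ≠ 0)
    (hy : DifferentiableAt ℝ (gauge K₂) y) {v : V b}
    (hv : v = gaugeGrad K₂ y ∨ v = -gaugeGrad K₂ y) :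
    supp (freeSum K₁ K₂) (ap (gaugeGrad K₁ x) v) = 1 := by
  have hB := body_freeSum h₁ h₂
  have hmem : ∀ w : V a, w ∈ K₁ → (ap w (0 : V b) : V (a + b)) ∈ freeSum K₁ K₂ := by
    intro w hw
    change gauge K₁ (pa (ap w (0 : V b))) + gauge K₂ (pb (ap w (0 : V b))) ≤ 1
    rw [pa_ap, pb_ap, gauge_zero, add_zero]
    exact h₁.mem_iff.1 hw
  apply le_antisymm
  · refine fm_supp_le ⟨0, mem_of_mem_nhds hB.nhds⟩ fun z hz => ?_
    have hz' : gauge K₁ (pa z) + gauge K₂ (pb z) ≤ 1 := hz
    conv_lhs => rw [← ap_pa_pb z]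
    rw [dot_ap]
    have h1 := h₁.dot_grad_le hx (pa z)
    have h2 : pb z ⬝ᵥ v ≤ gauge K₂ (pb z) := by
      rcases hv with rfl | rfl
      · exact h₂.dot_grad_le hy (pb z)
      · have := h₂.dot_grad_le hy (-pb z)
        rw [gauge_neg h₂.symm, neg_dotProduct] at this
        rwa [dotProduct_neg]
    linarith
  · have hg := h₁.gauge_pos hx0
    have hw : (gauge K₁ x)⁻¹ • x ∈ K₁ := by
      rw [h₁.mem_iff, gauge_smul_of_nonneg (inv_nonneg.2 hg.le), smul_eq_mul,
        inv_mul_cancel₀ hg.ne']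
    have h1 := fm_le_supp hB.compact (hmem _ hw) (ap (gaugeGrad K₁ x) v)
    rw [dot_ap, zero_dotProduct, add_zero, smul_dotProduct, h₁.dot_grad_self hx, smul_eq_mul,
      inv_mul_cancel₀ hg.ne'] at h1
    exact h1

private lemma fm_log_bound (h₁ : Body K₁) (h₂ : Body K₂) (hL : SymB L) :
    ∃ C : ℝ, ∀ (x : V a) (y : V b), DifferentiableAt ℝ (gauge K₁) x → x ≠ 0 →
      DifferentiableAt ℝ (gauge K₂) y → ∀ v : V b, (v = gaugeGrad K₂ y ∨ v = -gaugeGrad K₂ y) →
      |Real.log (supp L (ap (gaugeGrad K₁ x) v))| ≤ C := by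
  obtain ⟨m, M, hm, hM, hc⟩ := supp_comparable (body_freeSum h₁ h₂) hL
  refine ⟨max |Real.log m| |Real.log M|, fun x y hx hx0 hy v hv => ?_⟩
  have h1 := hc (ap (gaugeGrad K₁ x) v)
  rw [fm_supp_free h₁ h₂ hx hx0 hy hv, mul_one, mul_one] at h1
  have hlo : Real.log m ≤ Real.log (supp L (ap (gaugeGrad K₁ x) v)) :=
    Real.log_le_log hm h1.1
  have hhi : Real.log (supp L (ap (gaugeGrad K₁ x) v)) ≤ Real.log M :=
    Real.log_le_log (lt_of_lt_of_le hm h1.1) h1.2
  rw [abs_le]
  constructor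
  · have h2 := neg_abs_le (Real.log m)
    have h3 : |Real.log m| ≤ max |Real.log m| |Real.log M| := le_max_left _ _
    linarith
  · have h2 := le_abs_self (Real.log M)
    have h3 : |Real.log M| ≤ max |Real.log m| |Real.log M| := le_max_right _ _
    linarith

/-- The integrand. -/
private noncomputable def fmLg (L : Set (V (a + b))) (K₁ : Set (V a)) (v : V b) (x : V a) : ℝ :=
  Real.log (supp L (ap (gaugeGrad K₁ x) v))

private lemma fmLg_measurable (hL : SymB L) :
    Measurable (fun q : V a × V b => fmLg L K₁ q.2 q.1) := by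
  refine Real.measurable_log.comp ((supp_continuous' hL.1).measurable.comp ?_)
  have h : Measurable (fun q : V a × V b => (gaugeGrad K₁ q.1, q.2)) :=
    ((measurable_gaugeGrad K₁).comp measurable_fst).prodMk measurable_snd
  exact (continuous_ap (a := a) (b := b)).measurable.comp h

private lemma fmLg_measurable_x (hL : SymB L) (v : V b) : Measurable (fmLg L K₁ v) := by
  have h : Measurable (fun x : V a => (x, v)) := measurable_id.prodMk measurable_const
  have h2 := (fmLg_measurable (K₁ := K₁) hL).comp h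
  exact h2

/-- `v ↦ ∫_{K₁} log h_L (p₁ x, v)`. -/
private noncomputable def fmG (L : Set (V (a + b))) (K₁ : Set (V a)) (v : V b) : ℝ :=
  ∫ x in K₁, fmLg L K₁ v x

private lemma fmG_measurable (hL : SymB L) : Measurable (fmG L K₁) :=
  (StronglyMeasurable.integral_prod_left'
    (μ := volume.restrict K₁) (fmLg_measurable hL).stronglyMeasurable).measurable

/-- `v ↦ ∫_{K₁} ½ (log h_L (p₁ x, v) + log h_L (p₁ x, -v))`. -/
private noncomputable def fmF (L : Set (V (a + b))) (K₁ : Set (V a)) (v : V b) : ℝ :=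
  ∫ x in K₁, (1 / 2) * (Real.log (supp L (ap (gaugeGrad K₁ x) v)) +
    Real.log (supp L (ap (gaugeGrad K₁ x) (-v))))

private lemma fmF_measurable (hL : SymB L) : Measurable (fmF L K₁) := by
  have h : Measurable (fun q : V a × V b => (1 / 2 : ℝ) * (fmLg L K₁ q.2 q.1 + fmLg L K₁ (-q.2) q.1)) := by
    refine Measurable.const_mul ?_ _
    refine (fmLg_measurable hL).add ?_
    have h1 : Measurable (fun q : V a × V b => (q.1, -q.2)) :=
      measurable_fst.prodMk measurable_snd.neg
    have h2 := (fmLg_measurable (K₁ := K₁) hL).comp h1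
    exact h2
  exact (StronglyMeasurable.integral_prod_left' (μ := volume.restrict K₁) h.stronglyMeasurable).measurable

private lemma fm_ne_ae (ha : 1 ≤ a) : ∀ᵐ x : V a, x ≠ 0 := by
  have : NeZero a := ⟨by omega⟩
  exact compl_mem_ae_iff.2 (measure_singleton _)

private lemma fm_integrable_Lg (ha : 1 ≤ a) (h₁ : Body K₁) (h₂ : Body K₂) (hL : SymB L)
    {y : V b} (hy : DifferentiableAt ℝ (gauge K₂) y) {v : V b}
    (hv : v = gaugeGrad K₂ y ∨ v = -gaugeGrad K₂ y) :
    IntegrableOn (fmLg L K₁ v) K₁ := by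
  obtain ⟨C, hC⟩ := fm_log_bound h₁ h₂ hL
  refine Measure.integrableOn_of_bounded (M := C) h₁.compact.measure_lt_top.ne
    (fmLg_measurable_x hL v).aestronglyMeasurable ?_
  refine ae_restrict_of_ae ?_
  filter_upwards [fm_ne_ae ha, h₁.ae_diff] with x hx0 hx
  rw [Real.norm_eq_abs]
  exact hC x y hx hx0 hy v hv

private lemma fmG_abs_le (ha : 1 ≤ a) (h₁ : Body K₁) (h₂ : Body K₂) (hL : SymB L) :
    ∃ C : ℝ, ∀ (y : V b), DifferentiableAt ℝ (gauge K₂) y → |fmG L K₁ (gaugeGrad K₂ y)| ≤ C := by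
  obtain ⟨C, hC⟩ := fm_log_bound h₁ h₂ hL
  refine ⟨C * (volume.restrict K₁ Set.univ).toReal, fun y hy => ?_⟩
  have hfin : IsFiniteMeasure (volume.restrict K₁) := ⟨by simpa using h₁.compact.measure_lt_top⟩
  have h := norm_integral_le_of_norm_le_const (μ := volume.restrict K₁)
    (f := fmLg L K₁ (gaugeGrad K₂ y)) (C := C) ?_
  · rw [Real.norm_eq_abs] at h
    exact h
  · refine ae_restrict_of_ae ?_
    filter_upwards [fm_ne_ae ha, h₁.ae_diff] with x hx0 hx
    rw [Real.norm_eq_abs]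
    exact hC x y hx hx0 hy _ (Or.inl rfl)

end Bounds

section Integrals

variable {L : Set (V (a + b))}

private lemma fm_neg_preimage (h₂ : Body K₂) : (Neg.neg ⁻¹' K₂ : Set (V b)) = K₂ := by
  ext y
  constructor
  · intro h
    have := h₂.symm _ h
    simpa using this
  · intro h
    exact h₂.symm _ h

private lemma fm_integral_neg (h₂ : Body K₂) (g : V b → ℝ) :
    ∫ y in K₂, g (-y) = ∫ y in K₂, g y := by
  have h := (Measure.measurePreserving_neg (volume : Measure (V b))).setIntegral_preimage_emb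
    (Homeomorph.neg (V b)).measurableEmbedding g K₂
  rw [fm_neg_preimage h₂] at h
  exact h

private lemma fm_integrable_neg (h₂ : Body K₂) {g : V b → ℝ} (hg : IntegrableOn g K₂) :
    IntegrableOn (fun y => g (-y)) K₂ := by
  have h := (Measure.measurePreserving_neg (volume : Measure (V b))).integrableOn_comp_preimage
    (Homeomorph.neg (V b)).measurableEmbedding (f := g) (s := K₂)
  rw [fm_neg_preimage h₂] at h
  exact h.2 hg

private lemma fm_integrable_G (ha : 1 ≤ a) (h₁ : Body K₁) (h₂ : Body K₂) (hL : SymB L) :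
    IntegrableOn (fun y => fmG L K₁ (gaugeGrad K₂ y)) K₂ := by
  obtain ⟨C, hC⟩ := fmG_abs_le ha h₁ h₂ hL
  refine Measure.integrableOn_of_bounded (M := C) h₂.compact.measure_lt_top.ne
    ((fmG_measurable hL).comp (measurable_gaugeGrad K₂)).aestronglyMeasurable ?_
  refine ae_restrict_of_ae ?_
  filter_upwards [h₂.ae_diff] with y hy
  rw [Real.norm_eq_abs]
  exact hC y hy

private lemma fmF_eq (ha : 1 ≤ a) (h₁ : Body K₁) (h₂ : Body K₂) (hL : SymB L) {y : V b}
    (hy : DifferentiableAt ℝ (gauge K₂) y) :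
    fmF L K₁ (gaugeGrad K₂ y) =
      (1 / 2) * (fmG L K₁ (gaugeGrad K₂ y) + fmG L K₁ (gaugeGrad K₂ (-y))) := by
  have i1 := fm_integrable_Lg (K₁ := K₁) ha h₁ h₂ hL hy (v := gaugeGrad K₂ y) (Or.inl rfl)
  have i2 := fm_integrable_Lg (K₁ := K₁) ha h₁ h₂ hL hy (v := -gaugeGrad K₂ y) (Or.inr rfl)
  unfold fmF fmG
  rw [gaugeGrad_neg h₂, integral_const_mul, ← integral_add i1 i2]
  rfl

private lemma fmF_integrable (ha : 1 ≤ a) (h₁ : Body K₁) (h₂ : Body K₂) (hL : SymB L) :
    IntegrableOn (fun y => fmF L K₁ (gaugeGrad K₂ y)) K₂ := by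
  have i1 := fm_integrable_G (K₁ := K₁) ha h₁ h₂ hL
  have i2 := fm_integrable_neg h₂ i1
  have h3 := (i1.add i2).const_mul (1 / 2 : ℝ)
  refine h3.congr ?_
  refine ae_restrict_of_ae ?_
  filter_upwards [h₂.ae_diff] with y hy
  exact (fmF_eq ha h₁ h₂ hL hy).symm

private lemma fmF_integral (ha : 1 ≤ a) (h₁ : Body K₁) (h₂ : Body K₂) (hL : SymB L) :
    ∫ y in K₂, fmF L K₁ (gaugeGrad K₂ y) = ∫ y in K₂, fmG L K₁ (gaugeGrad K₂ y) := by
  have i1 := fm_integrable_G (K₁ := K₁) ha h₁ h₂ hL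
  have i2 := fm_integrable_neg h₂ i1
  have h1 : ∫ y in K₂, fmF L K₁ (gaugeGrad K₂ y) = ∫ y in K₂, (1 / 2) *
      (fmG L K₁ (gaugeGrad K₂ y) + fmG L K₁ (gaugeGrad K₂ (-y))) := by
    refine integral_congr_ae ?_
    refine ae_restrict_of_ae ?_
    filter_upwards [h₂.ae_diff] with y hy
    exact fmF_eq ha h₁ h₂ hL hy
  rw [h1, integral_const_mul, integral_add i1 i2,
    fm_integral_neg h₂ (fun y => fmG L K₁ (gaugeGrad K₂ y))]
  ring

/-- The function `W`. -/
private noncomputable def fmW (L : Set (V (a + b))) (K₂ : Set (V b)) (y : V b) (x : V a) : ℝ :=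
  |(fmR L (gaugeGrad K₂ y) x + fmR L (-gaugeGrad K₂ y) x) / 2|

private lemma fmW_measurable (hL : CSB L) : Measurable (Function.uncurry (fmW L K₂)) := by
  have hr := fmR_measurable hL
  have h1 : Measurable fun q : V b × V a => fmR L (gaugeGrad K₂ q.1) q.2 := by
    have h : Measurable fun q : V b × V a => (gaugeGrad K₂ q.1, q.2) :=
      ((measurable_gaugeGrad K₂).comp measurable_fst).prodMk measurable_snd
    have h3 := hr.comp h
    exact h3
  have h2 : Measurable fun q : V b × V a => fmR L (-gaugeGrad K₂ q.1) q.2 := by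
    have h : Measurable fun q : V b × V a => (-gaugeGrad K₂ q.1, q.2) :=
      ((measurable_gaugeGrad K₂).comp measurable_fst).neg.prodMk measurable_snd
    have h3 := hr.comp h
    exact h3
  exact ((h1.add h2).div_const 2).abs

private lemma fmW_eq (hL : CSB L) {x : V a} (hx : x ∈ interior (pa '' L)) {y : V b}
    (hp : gaugeGrad K₂ y ≠ 0) :
    fmW L K₂ y x = (supp (sectA L x) (gaugeGrad K₂ y) + supp (sectA L x) (-gaugeGrad K₂ y)) / 2 := by
  unfold fmW
  rw [fmR_of_mem hx, fmR_of_mem hx]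
  exact abs_of_pos (fm_width_pos (fm_sectA_compact hL x) (fm_sectA_volume_pos hL hx) hp)

private lemma fmW_pos (hL : CSB L) {x : V a} (hx : x ∈ interior (pa '' L)) {y : V b}
    (hp : gaugeGrad K₂ y ≠ 0) : 0 < fmW L K₂ y x := by
  rw [fmW_eq hL hx hp]
  exact fm_width_pos (fm_sectA_compact hL x) (fm_sectA_volume_pos hL hx) hp

private lemma fm_grad_ne_ae (hb : 1 ≤ b) (h₂ : Body K₂) :
    ∀ᵐ y ∂(volume.restrict K₂), gaugeGrad K₂ y ≠ 0 := by
  refine ae_restrict_of_ae ?_
  filter_upwards [fm_ne_ae hb, h₂.ae_diff] with y hy hd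
  exact h₂.grad_ne_zero hd hy

private lemma fm_hsec (hb : 1 ≤ b) (h₂ : LogMinkAt K₂) (hL : CSB L) {x : V a}
    (hx : x ∈ interior (pa '' L)) :
    Integrable (fun y => Real.log (fmW L K₂ y x)) (volume.restrict K₂) ∧
      (volume (sectA L x)).toReal ≤ (volume K₂).toReal * Real.exp ((b : ℝ) / (volume K₂).toReal *
        ∫ y in K₂, Real.log (fmW L K₂ y x)) := by
  have hS := section_bound hb h₂ (fm_sectA_compact hL x) (fm_sectA_convex hL x)
    (fm_sectA_volume_pos hL hx)
  have hae : (fun y => Real.log ((supp (sectA L x) (gaugeGrad K₂ y) +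
      supp (sectA L x) (-gaugeGrad K₂ y)) / 2)) =ᵐ[volume.restrict K₂]
      fun y => Real.log (fmW L K₂ y x) := by
    filter_upwards [fm_grad_ne_ae hb h₂.1] with y hy
    rw [fmW_eq hL hx hy]
  refine ⟨hS.1.congr hae, ?_⟩
  have h2 := hS.2
  rwa [integral_congr_ae hae] at h2

/-- The bound from `lift_bound` along the gradient of `K₂`. -/
private lemma fm_hlift (ha : 1 ≤ a) (hb : 1 ≤ b) (h₁ : LogMinkAt K₁) (hL : CSB L) {y : V b}
    (hy : gaugeGrad K₂ y ≠ 0) :
    ∫⁻ x in interior (pa '' L), ENNReal.ofReal (fmW L K₂ y x ^ b) ≤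
      ENNReal.ofReal (cab a b * (volume K₁).toReal * Real.exp (((a : ℝ) + (b : ℝ)) / (volume K₁).toReal *
        fmF L K₁ (gaugeGrad K₂ y))) := by
  have h := lift_bound ha hb h₁ hL hy
  refine le_trans ?_ h
  have hcongr : ∫⁻ x in interior (pa '' L), ENNReal.ofReal (fmW L K₂ y x ^ b) =
      ∫⁻ x in interior (pa '' L), ENNReal.ofReal
        (((supp (sectA L x) (gaugeGrad K₂ y) + supp (sectA L x) (-gaugeGrad K₂ y)) / 2) ^ b) := by
    refine setLIntegral_congr_fun isOpen_interior.measurableSet fun x hx => ?_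
    simp only [fmW_eq hL hx hy]
  rw [hcongr]
  exact lintegral_mono_set interior_subset

/-- The volume of `L` is carried by the interior of its shadow. -/
private lemma fm_volume_le (hL : CSB L) :
    volume L ≤ ∫⁻ x in interior (pa '' L), volume (sectA L x) := by
  rw [volume_eq_lintegral_sectA hL.sym.1.measurableSet,
    ← lintegral_indicator isOpen_interior.measurableSet]
  refine le_of_eq (lintegral_congr_ae ?_)
  have hfr : volume (frontier (pa '' L)) = 0 := (fm_image_convex hL).addHaar_frontier volume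
  filter_upwards [compl_mem_ae_iff.2 hfr] with x hx
  by_cases hxG : x ∈ interior (pa '' L)
  · rw [indicator_of_mem hxG]
  · rw [indicator_of_notMem hxG]
    have hnot : x ∉ pa '' L := by
      intro hmem
      apply hx
      refine ⟨subset_closure hmem, hxG⟩
    rw [fm_sectA_empty hnot, measure_empty]

end Integrals

section Main

variable {L : Set (V (a + b))}

/-- The bound `Ψ`. -/
private noncomputable def fmPsi (L : Set (V (a + b))) (K₁ : Set (V a)) (K₂ : Set (V b)) (y : V b) : ℝ :=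
  cab a b * (volume K₁).toReal * Real.exp (((a : ℝ) + (b : ℝ)) / (volume K₁).toReal *
    fmF L K₁ (gaugeGrad K₂ y))

private lemma fm_vol_pos {n : ℕ} {K : Set (V n)} (h : Body K) : 0 < (volume K).toReal :=
  ENNReal.toReal_pos h.volume_pos.ne' h.compact.measure_lt_top.ne

private lemma fmPsi_pos (h₁ : Body K₁) (y : V b) : 0 < fmPsi L K₁ K₂ y :=
  mul_pos (mul_pos (cab_pos a b) (fm_vol_pos h₁)) (Real.exp_pos _)

private lemma fmPsi_log (h₁ : Body K₁) (y : V b) :
    Real.log (fmPsi L K₁ K₂ y) = Real.log (cab a b * (volume K₁).toReal) +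
      ((a : ℝ) + (b : ℝ)) / (volume K₁).toReal * fmF L K₁ (gaugeGrad K₂ y) := by
  unfold fmPsi
  rw [Real.log_mul (mul_pos (cab_pos a b) (fm_vol_pos h₁)).ne' (Real.exp_pos _).ne', Real.log_exp]

private lemma fmPsi_measurable (hL : SymB L) : Measurable (fmPsi L K₁ K₂) := by
  unfold fmPsi
  refine measurable_const.mul (Real.measurable_exp.comp (Measurable.const_mul ?_ _))
  exact (fmF_measurable hL).comp (measurable_gaugeGrad K₂)

private lemma fmPsi_log_integrable (ha : 1 ≤ a) (h₁ : Body K₁) (h₂ : Body K₂) (hL : SymB L) :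
    IntegrableOn (fun y => Real.log (fmPsi L K₁ K₂ y)) K₂ := by
  have h1 : IntegrableOn (fun y => Real.log (cab a b * (volume K₁).toReal) +
      ((a : ℝ) + (b : ℝ)) / (volume K₁).toReal * fmF L K₁ (gaugeGrad K₂ y)) K₂ :=
    (integrableOn_const h₂.compact.measure_lt_top.ne).add
      ((fmF_integrable ha h₁ h₂ hL).const_mul _)
  exact h1.congr (Eventually.of_forall fun y => (fmPsi_log h₁ y).symm)

private lemma fmPsi_log_integral (ha : 1 ≤ a) (h₁ : Body K₁) (h₂ : Body K₂) (hL : SymB L) :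
    ∫ y in K₂, Real.log (fmPsi L K₁ K₂ y) =
      (volume K₂).toReal * Real.log (cab a b * (volume K₁).toReal) +
      ((a : ℝ) + (b : ℝ)) / (volume K₁).toReal * ∫ y in K₂, fmG L K₁ (gaugeGrad K₂ y) := by
  simp only [fmPsi_log h₁]
  have hc : IntegrableOn (fun _ : V b => Real.log (cab a b * (volume K₁).toReal)) K₂ :=
    integrableOn_const h₂.compact.measure_lt_top.ne
  rw [integral_add hc ((fmF_integrable ha h₁ h₂ hL).const_mul _), integral_const_mul,
    fmF_integral ha h₁ h₂ hL, setIntegral_const, smul_eq_mul]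
  rfl

private lemma fm_main (ha : 1 ≤ a) (hb : 1 ≤ b) (h₁ : LogMinkAt K₁) (h₂ : LogMinkAt K₂)
    (hL : CSB L) :
    (volume L).toReal ≤ (volume K₂).toReal * Real.exp ((1 / (volume K₂).toReal) *
      ∫ y in K₂, Real.log (fmPsi L K₁ K₂ y)) := by
  have hB₂ := h₂.1
  have hA₂ := fm_vol_pos hB₂
  have hfin : IsFiniteMeasure (volume.restrict K₂) := ⟨by simpa using hB₂.compact.measure_lt_top⟩
  have hA : 0 < ((volume.restrict K₂) Set.univ).toReal := by
    rw [Measure.restrict_apply_univ]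
    exact hA₂
  have hG : MeasurableSet (interior (pa '' L)) := isOpen_interior.measurableSet
  have hWi : ∀ᵐ x ∂(volume.restrict (interior (pa '' L))),
      Integrable (fun y => Real.log (fmW L K₂ y x)) (volume.restrict K₂) ∧
        ∀ᵐ y ∂(volume.restrict K₂), 0 < fmW L K₂ y x :=
    (ae_restrict_iff' hG).2 (Eventually.of_forall fun x hx =>
      ⟨(fm_hsec hb h₂ hL hx).1, (fm_grad_ne_ae hb hB₂).mono fun y hy => fmW_pos hL hx hy⟩)
  have hbnd : ∀ᵐ y ∂(volume.restrict K₂),
      ∫⁻ x, ENNReal.ofReal (fmW L K₂ y x ^ b) ∂(volume.restrict (interior (pa '' L))) ≤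
        ENNReal.ofReal (fmPsi L K₁ K₂ y) :=
    (fm_grad_ne_ae hb hB₂).mono fun y hy => fm_hlift ha hb h₁ hL hy
  have hHol := holder_jensen (volume.restrict K₂) (volume.restrict (interior (pa '' L))) hA b
    (fmW L K₂) (fmW_measurable hL) (fun _ _ => abs_nonneg _) (fmPsi L K₁ K₂)
    (fmPsi_measurable hL.sym) (fmPsi_pos h₁.1) (fmPsi_log_integrable ha h₁.1 hB₂ hL.sym) hWi hbnd
  rw [Measure.restrict_apply_univ] at hHol
  set A₂ := (volume K₂).toReal with hA₂def
  have hle : volume L ≤ ENNReal.ofReal A₂ * ENNReal.ofReal (Real.exp ((1 / A₂) *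
      ∫ y in K₂, Real.log (fmPsi L K₁ K₂ y))) := by
    calc volume L ≤ ∫⁻ x in interior (pa '' L), volume (sectA L x) := fm_volume_le hL
      _ ≤ ∫⁻ x in interior (pa '' L), ENNReal.ofReal A₂ * ENNReal.ofReal (Real.exp
          ((b : ℝ) / A₂ * ∫ y in K₂, Real.log (fmW L K₂ y x))) := by
          refine setLIntegral_mono' hG fun x hx => ?_
          rw [← ENNReal.ofReal_mul hA₂.le]
          refine ENNReal.le_ofReal_iff_toReal_le ((fm_sectA_compact hL x).measure_lt_top.ne) ?_ |>.2
            (fm_hsec hb h₂ hL hx).2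
          positivity
      _ = ENNReal.ofReal A₂ * ∫⁻ x in interior (pa '' L), ENNReal.ofReal (Real.exp
          ((b : ℝ) / A₂ * ∫ y in K₂, Real.log (fmW L K₂ y x))) :=
          lintegral_const_mul' _ _ ENNReal.ofReal_ne_top
      _ ≤ _ := by gcongr
  rw [← ENNReal.ofReal_mul hA₂.le] at hle
  exact ENNReal.toReal_le_of_le_ofReal (by positivity) hle

theorem logMinkAt_freeSum (ha : 1 ≤ a) (hb : 1 ≤ b) (h₁ : LogMinkAt K₁) (h₂ : LogMinkAt K₂) :
    LogMinkAt (freeSum K₁ K₂) := by
  have hB₁ := h₁.1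
  have hB₂ := h₂.1
  refine logMinkAt_of_convex (body_freeSum hB₁ hB₂) fun L hL => ?_
  have hm := fm_main ha hb h₁ h₂ hL
  rw [fmPsi_log_integral ha hB₁ hB₂ hL.sym] at hm
  rw [volume_freeSum ha hb hB₁ hB₂, cone_freeSum ha hb hB₁ hB₂ hL.sym]
  set A₁ := (volume K₁).toReal with hA₁def
  set A₂ := (volume K₂).toReal with hA₂def
  set c := cab a b with hcdef
  set I := ∫ y in K₂, fmG L K₁ (gaugeGrad K₂ y) with hI
  have hIeq : ∫ y in K₂, ∫ x in K₁, Real.log (supp L (ap (gaugeGrad K₁ x) (gaugeGrad K₂ y))) = I := rfl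
  rw [hIeq]
  have hA₁ : 0 < A₁ := fm_vol_pos hB₁
  have hA₂ : 0 < A₂ := fm_vol_pos hB₂
  have hc : 0 < c := cab_pos a b
  have hn : (0 : ℝ) < (a : ℝ) + (b : ℝ) := by
    have : (1 : ℝ) ≤ a := by exact_mod_cast ha
    have : (0 : ℝ) ≤ b := Nat.cast_nonneg b
    linarith
  have hLp : 0 < (volume L).toReal :=
    ENNReal.toReal_pos hL.sym.2.2.ne' hL.sym.1.measure_lt_top.ne
  have he : (1 / A₂) * (A₂ * Real.log (c * A₁) + ((a : ℝ) + (b : ℝ)) / A₁ * I) =
      Real.log (c * A₁) + ((a : ℝ) + (b : ℝ)) / (A₁ * A₂) * I := by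
    field_simp
  rw [he, Real.exp_add, Real.exp_log (mul_pos hc hA₁)] at hm
  have hKp : 0 < c * A₁ * A₂ := by positivity
  have hlog : Real.log ((volume L).toReal / (c * A₁ * A₂)) ≤ ((a : ℝ) + (b : ℝ)) / (A₁ * A₂) * I := by
    rw [Real.log_le_iff_le_exp (div_pos hLp hKp), div_le_iff₀ hKp]
    calc (volume L).toReal ≤ A₂ * (c * A₁ * Real.exp (((a : ℝ) + (b : ℝ)) / (A₁ * A₂) * I)) := hm
      _ = _ := by ring
  have hcast : ((a + b : ℕ) : ℝ) = (a : ℝ) + (b : ℝ) := by push_cast; ring
  rw [hcast]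
  have hpos : 0 < c * A₁ * A₂ / ((a : ℝ) + (b : ℝ)) := by positivity
  calc c * A₁ * A₂ / ((a : ℝ) + (b : ℝ)) * Real.log ((volume L).toReal / (c * A₁ * A₂))
      ≤ c * A₁ * A₂ / ((a : ℝ) + (b : ℝ)) * (((a : ℝ) + (b : ℝ)) / (A₁ * A₂) * I) :=
        mul_le_mul_of_nonneg_left hlog hpos.le
    _ = c * I := by field_simp

end Main

end Vale.Agent.Lib.P227Z
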