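import Vale.Agent.Lib.P227H.PairTerm

/-! # JOB H2: `Js` decreases under the mirror geometric mean

`s̄ i = √(s₁ i s₂ i)`. Then `M̄ = hm s̄ s̄ = ∑ s̄ i`, `tail s̄ l ≤ √(tail s₁ l * tail s₂ l)`
(Cauchy-Schwarz), `(√(tail s₁ l) - √(tail s₂ l))² ≤ ∑_i (√s₁ i - √s₂ i)² = 2 (M - M̄)` (triangle inequality
in ℓ²), `tail s₁ l + tail s₂ l ≤ 2 M`, `tail s̄ l ≤ M̄`, and `Fs d s̄ s̄ c m = c + ∑ l, d l * min m (tail s̄ l)`.

Truncation: for every `v`, `∫_0^M̄ min(F̄, v) ≤ ∫_0^M min(F, v)`. Indeed `F` is nondecreasing and continuous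
on `[0, M]`. If `v ≤ c` both sides are `v M̄ ≤ v M`. Otherwise choose `m₁ ∈ [0, M]` with `F m₁ = v`, or `m₁ = M`
if `F M < v`; `∫_0^M min(F, v) = ∫_0^{m₁} F + v' (M - m₁)`, with `v' = F m₁`.
With `mb = min m₁ M̄`: `∫_0^M̄ min(F̄, v) ≤ ∫_0^{mb} F̄ + v' (M̄ - mb)` when `v = v'`, and `≤ ∫_0^M̄ F̄` in the other case.
Using `∫_0^{m₁} min(m, μ) dm = m₁ x - x²/2`, `x = min m₁ μ`, the difference of the two bounds is
`c (M - M̄) + ¼ ∑_l d l * (pair term l)`, where the pair term is the expression of `pair_term`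
with `X = tail s₁ l`, `Y = tail s₂ l`, `z₀ = tail s̄ l`, `m = m₁`, `Mb = M̄`.

Mixture: for `0 < p < 1`, `x ^ p = ∫_0^∞ p (1-p) v^(p-2) min(x, v) dv` for `x ≥ 0`, and Tonelli. For `p = 1`
(`a = 1`) use the truncation at large `v`.
-/

open MeasureTheory Set
namespace Vale.Agent.Lib.P227Z

private lemma jI_integral_min {y μ : ℝ} (hy : 0 ≤ y) (hμ : 0 ≤ μ) :
    ∫ x in (0 : ℝ)..y, min x μ = y * min y μ - (min y μ) ^ 2 / 2 := by
  rcases le_total y μ with h | h
  · have h1 : ∀ x ∈ Set.uIcc (0 : ℝ) y, min x μ = x := by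
      intro x hx
      rw [Set.uIcc_of_le hy] at hx
      exact min_eq_left (hx.2.trans h)
    rw [intervalIntegral.integral_congr h1, integral_id, min_eq_left h]
    ring
  · have hc : Continuous fun x : ℝ => min x μ := by fun_prop
    rw [← intervalIntegral.integral_add_adjacent_intervals (hc.intervalIntegrable 0 μ)
      (hc.intervalIntegrable μ y)]
    have h1 : ∀ x ∈ Set.uIcc (0 : ℝ) μ, min x μ = x := by
      intro x hx
      rw [Set.uIcc_of_le hμ] at hx
      exact min_eq_left hx.2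
    have h2 : ∀ x ∈ Set.uIcc μ y, min x μ = μ := by
      intro x hx
      rw [Set.uIcc_of_le h] at hx
      exact min_eq_right hx.1
    rw [intervalIntegral.integral_congr h1, intervalIntegral.integral_congr h2, integral_id,
      intervalIntegral.integral_const, min_eq_right h, smul_eq_mul]
    ring

private lemma jI_cont {n : ℕ} (d μ₁ μ₂ : Fin n → ℝ) (c : ℝ) :
    Continuous fun x : ℝ => c + (1 / 2) * ∑ l, d l * (min x (μ₁ l) + min x (μ₂ l)) := by
  fun_prop

private lemma jI_integral_F {n : ℕ} (d μ₁ μ₂ : Fin n → ℝ) (c : ℝ) {y : ℝ} (hy : 0 ≤ y)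
    (h₁ : ∀ l, 0 ≤ μ₁ l) (h₂ : ∀ l, 0 ≤ μ₂ l) :
    ∫ x in (0 : ℝ)..y, (c + (1 / 2) * ∑ l, d l * (min x (μ₁ l) + min x (μ₂ l))) =
      c * y + (1 / 2) * ∑ l, d l * ((y * min y (μ₁ l) - (min y (μ₁ l)) ^ 2 / 2) +
        (y * min y (μ₂ l) - (min y (μ₂ l)) ^ 2 / 2)) := by
  have hc : ∀ μ : ℝ, Continuous fun x : ℝ => min x μ := fun μ => by fun_prop
  have hS : Continuous fun x : ℝ => (1 / 2 : ℝ) * ∑ l, d l * (min x (μ₁ l) + min x (μ₂ l)) := by
    fun_prop
  rw [intervalIntegral.integral_add (continuous_const.intervalIntegrable _ _)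
    (hS.intervalIntegrable _ _), intervalIntegral.integral_const,
    intervalIntegral.integral_const_mul, intervalIntegral.integral_finsetSum]
  · congr 1
    · simp [mul_comm]
    · congr 1
      apply Finset.sum_congr rfl
      intro l _
      rw [intervalIntegral.integral_const_mul, intervalIntegral.integral_add
        ((hc _).intervalIntegrable _ _) ((hc _).intervalIntegrable _ _),
        jI_integral_min hy (h₁ l), jI_integral_min hy (h₂ l)]
  · intro l _
    exact (by fun_prop : Continuous fun x : ℝ =>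
      d l * (min x (μ₁ l) + min x (μ₂ l))).intervalIntegrable _ _

private lemma jI_mono {n : ℕ} (d μ₁ μ₂ : Fin n → ℝ) (c : ℝ) (hd : ∀ l, 0 ≤ d l) :
    Monotone fun x : ℝ => c + (1 / 2) * ∑ l, d l * (min x (μ₁ l) + min x (μ₂ l)) := by
  intro x y hxy
  dsimp only
  have : ∑ l, d l * (min x (μ₁ l) + min x (μ₂ l)) ≤ ∑ l, d l * (min y (μ₁ l) + min y (μ₂ l)) := by
    apply Finset.sum_le_sum
    intro l _
    exact mul_le_mul_of_nonneg_left
      (add_le_add (min_le_min_right _ hxy) (min_le_min_right _ hxy)) (hd l)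
  linarith

private lemma jI_ge_c {n : ℕ} (d μ₁ μ₂ : Fin n → ℝ) (c : ℝ) (hd : ∀ l, 0 ≤ d l)
    (h₁ : ∀ l, 0 ≤ μ₁ l) (h₂ : ∀ l, 0 ≤ μ₂ l) {x : ℝ} (hx : 0 ≤ x) :
    c ≤ c + (1 / 2) * ∑ l, d l * (min x (μ₁ l) + min x (μ₂ l)) := by
  have : 0 ≤ ∑ l, d l * (min x (μ₁ l) + min x (μ₂ l)) := by
    apply Finset.sum_nonneg
    intro l _
    exact mul_nonneg (hd l) (add_nonneg (le_min hx (h₁ l)) (le_min hx (h₂ l)))
  linarith

/-- The abstract truncation inequality. -/
private lemma jI_trunc_abs {n : ℕ} (d X Y z : Fin n → ℝ) {M Mb c v : ℝ} (hd : ∀ l, 0 ≤ d l)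
    (hc : 0 < c) (hv : 0 ≤ v)
    (hX : ∀ l, 0 ≤ X l) (hY : ∀ l, 0 ≤ Y l) (hXY : ∀ l, X l + Y l ≤ 2 * M)
    (hz0 : ∀ l, 0 ≤ z l) (hzX : ∀ l, z l ≤ Real.sqrt (X l * Y l))
    (hD : ∀ l, (Real.sqrt (X l) - Real.sqrt (Y l)) ^ 2 ≤ 2 * (M - Mb))
    (hzM : ∀ l, z l ≤ Mb) (hMb : 0 ≤ Mb) (hMbM : Mb ≤ M) :
    ∫ x in (0 : ℝ)..Mb, min (c + (1 / 2) * ∑ l, d l * (min x (z l) + min x (z l))) v ≤
      ∫ x in (0 : ℝ)..M, min (c + (1 / 2) * ∑ l, d l * (min x (mu M (X l)) + min x (mu M (Y l)))) v := by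
  have hM : 0 ≤ M := hMb.trans hMbM
  have hμ₁ : ∀ l, 0 ≤ mu M (X l) := fun l =>
    le_min (hX l) (by linarith [hXY l, hY l])
  have hμ₂ : ∀ l, 0 ≤ mu M (Y l) := fun l =>
    le_min (hY l) (by linarith [hXY l, hX l])
  set F : ℝ → ℝ := fun x => c + (1 / 2) * ∑ l, d l * (min x (mu M (X l)) + min x (mu M (Y l)))
    with hF
  set Fb : ℝ → ℝ := fun x => c + (1 / 2) * ∑ l, d l * (min x (z l) + min x (z l)) with hFb
  have hFc : Continuous F := jI_cont _ _ _ _
  have hFbc : Continuous Fb := jI_cont _ _ _ _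
  have hFm : Monotone F := jI_mono _ _ _ _ hd
  have hminF : Continuous fun x => min (F x) v := hFc.min continuous_const
  have hminFb : Continuous fun x => min (Fb x) v := hFbc.min continuous_const
  -- the key computation
  have key : ∀ m₁ : ℝ, 0 ≤ m₁ → m₁ ≤ M → (∀ x ∈ Icc 0 m₁, min (F x) v = F x) →
      (∀ x ∈ Icc m₁ M, min (F x) v = F m₁) → (min m₁ Mb = Mb ∨ v ≤ F m₁) →
      ∫ x in (0 : ℝ)..Mb, min (Fb x) v ≤ ∫ x in (0 : ℝ)..M, min (F x) v := by
    intro m₁ h0 h1 hleft hright hcase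
    set mb := min m₁ Mb with hmb
    have hmb0 : 0 ≤ mb := le_min h0 hMb
    have hmbMb : mb ≤ Mb := min_le_right _ _
    have hR : ∫ x in (0 : ℝ)..M, min (F x) v = (∫ x in (0 : ℝ)..m₁, F x) + F m₁ * (M - m₁) := by
      rw [← intervalIntegral.integral_add_adjacent_intervals (hminF.intervalIntegrable 0 m₁)
        (hminF.intervalIntegrable m₁ M)]
      congr 1
      · apply intervalIntegral.integral_congr
        intro x hx
        rw [Set.uIcc_of_le h0] at hx
        exact hleft x hx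
      · rw [intervalIntegral.integral_congr (g := fun _ => F m₁), intervalIntegral.integral_const,
          smul_eq_mul, mul_comm]
        intro x hx
        rw [Set.uIcc_of_le h1] at hx
        exact hright x hx
    have hL : ∫ x in (0 : ℝ)..Mb, min (Fb x) v ≤ (∫ x in (0 : ℝ)..mb, Fb x) + F m₁ * (Mb - mb) := by
      rw [← intervalIntegral.integral_add_adjacent_intervals (hminFb.intervalIntegrable 0 mb)
        (hminFb.intervalIntegrable mb Mb)]
      apply add_le_add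
      · exact intervalIntegral.integral_mono_on hmb0 (hminFb.intervalIntegrable _ _)
          (hFbc.intervalIntegrable _ _) (fun x _ => min_le_left _ _)
      · rcases hcase with h | h
        · rw [h]
          simp
        · have : ∫ x in mb..Mb, min (Fb x) v ≤ ∫ _ in mb..Mb, F m₁ :=
            intervalIntegral.integral_mono_on hmbMb
              (hminFb.intervalIntegrable _ _) intervalIntegrable_const
              (fun x _ => (min_le_right _ _).trans h)
          rw [intervalIntegral.integral_const, smul_eq_mul, mul_comm] at this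
          exact this
    rw [hR]
    refine hL.trans ?_
    have hI1 : ∫ x in (0 : ℝ)..m₁, F x = _ := jI_integral_F d _ _ c h0 hμ₁ hμ₂
    have hI2 : ∫ x in (0 : ℝ)..mb, Fb x = _ := jI_integral_F d z z c hmb0 hz0 hz0
    rw [hI1, hI2]
    have hFm₁ : F m₁ = c + (1 / 2) * ∑ l, d l * (min m₁ (mu M (X l)) + min m₁ (mu M (Y l))) := rfl
    rw [hFm₁]
    -- the pair terms
    have hP : ∀ l, 0 ≤ min m₁ (mu M (X l)) * (2 * M - min m₁ (mu M (X l))) -
        2 * min m₁ (mu M (X l)) * (Mb - min m₁ Mb) +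
        min m₁ (mu M (Y l)) * (2 * M - min m₁ (mu M (Y l))) -
        2 * min m₁ (mu M (Y l)) * (Mb - min m₁ Mb) -
        2 * min (min m₁ Mb) (z l) * (2 * min m₁ Mb - min (min m₁ Mb) (z l)) := fun l =>
      pair_term (hX l) (hY l) (hXY l) (hz0 l) (hzX l) (hD l) (hzM l) h0 h1
    have hS : 0 ≤ ∑ l, d l * (min m₁ (mu M (X l)) * (2 * M - min m₁ (mu M (X l))) -
        2 * min m₁ (mu M (X l)) * (Mb - min m₁ Mb) +
        min m₁ (mu M (Y l)) * (2 * M - min m₁ (mu M (Y l))) -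
        2 * min m₁ (mu M (Y l)) * (Mb - min m₁ Mb) -
        2 * min (min m₁ Mb) (z l) * (2 * min m₁ Mb - min (min m₁ Mb) (z l))) :=
      Finset.sum_nonneg fun l _ => mul_nonneg (hd l) (hP l)
    have hE : ∑ l, d l * (min m₁ (mu M (X l)) * (2 * M - min m₁ (mu M (X l))) -
        2 * min m₁ (mu M (X l)) * (Mb - min m₁ Mb) +
        min m₁ (mu M (Y l)) * (2 * M - min m₁ (mu M (Y l))) -
        2 * min m₁ (mu M (Y l)) * (Mb - min m₁ Mb) -
        2 * min (min m₁ Mb) (z l) * (2 * min m₁ Mb - min (min m₁ Mb) (z l))) =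
        2 * (∑ l, d l * ((m₁ * min m₁ (mu M (X l)) - (min m₁ (mu M (X l))) ^ 2 / 2) +
          (m₁ * min m₁ (mu M (Y l)) - (min m₁ (mu M (Y l))) ^ 2 / 2))) +
        2 * (∑ l, d l * (min m₁ (mu M (X l)) + min m₁ (mu M (Y l)))) * ((M - m₁) - (Mb - mb)) -
        2 * (∑ l, d l * ((mb * min mb (z l) - (min mb (z l)) ^ 2 / 2) +
          (mb * min mb (z l) - (min mb (z l)) ^ 2 / 2))) := by
      rw [Finset.mul_sum, Finset.mul_sum, Finset.mul_sum, Finset.sum_mul, ← Finset.sum_add_distrib,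
        ← Finset.sum_sub_distrib]
      apply Finset.sum_congr rfl
      intro l _
      simp only [← hmb]
      ring
    have hcc : 0 ≤ c * (M - Mb) := mul_nonneg hc.le (by linarith)
    nlinarith [hS, hE, hcc]
  by_cases hvc : v ≤ c
  · -- trivial case
    have h1 : ∀ x ∈ Set.uIcc (0 : ℝ) M, min (F x) v = v := by
      intro x hx
      rw [Set.uIcc_of_le hM] at hx
      exact min_eq_right (hvc.trans (jI_ge_c d _ _ c hd hμ₁ hμ₂ hx.1))
    rw [intervalIntegral.integral_congr h1, intervalIntegral.integral_const, smul_eq_mul]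
    have h2 : ∫ x in (0 : ℝ)..Mb, min (Fb x) v ≤ ∫ _ in (0 : ℝ)..Mb, v :=
      intervalIntegral.integral_mono_on hMb
        (hminFb.intervalIntegrable _ _) intervalIntegrable_const (fun x _ => min_le_right _ _)
    rw [intervalIntegral.integral_const, smul_eq_mul] at h2
    refine h2.trans ?_
    have : (Mb - 0) ≤ M - 0 := by linarith
    exact mul_le_mul_of_nonneg_right this hv
  · rw [not_le] at hvc
    by_cases hFM : F M < v
    · -- `m₁ = M`
      refine key M hM le_rfl ?_ ?_ ?_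
      · intro x hx
        exact min_eq_left ((hFm hx.2).trans hFM.le)
      · intro x hx
        have : x = M := le_antisymm hx.2 hx.1
        rw [this]
        exact min_eq_left hFM.le
      · left
        exact min_eq_right hMbM
    · rw [not_lt] at hFM
      have hF0 : F 0 ≤ v := by
        have : F 0 = c := by
          simp only [hF]
          have : ∀ l, d l * (min (0 : ℝ) (mu M (X l)) + min (0 : ℝ) (mu M (Y l))) = 0 := by
            intro l
            rw [min_eq_left (hμ₁ l), min_eq_left (hμ₂ l)]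
            ring
          simp [this]
        linarith
      obtain ⟨m₁, hm₁, hm₁v⟩ := intermediate_value_Icc hM hFc.continuousOn ⟨hF0, hFM⟩
      refine key m₁ hm₁.1 hm₁.2 ?_ ?_ ?_
      · intro x hx
        exact min_eq_left ((hFm hx.2).trans hm₁v.le)
      · intro x hx
        rw [hm₁v]
        exact min_eq_right (hm₁v ▸ hFm hx.1)
      · right
        exact hm₁v.ge


private lemma jI_sb_le {x y : ℝ} (hx : 0 < x) (hy : 0 < y) : Real.sqrt (x * y) ≤ (x + y) / 2 :=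
  Real.sqrt_le_iff.mpr ⟨by positivity, by nlinarith [sq_nonneg (x - y)]⟩

/-- Truncation inequality. -/
theorem trunc_le {m : ℕ} (d s₁ s₂ : Fin (m + 1) → ℝ) (hd : ∀ l, 0 ≤ d l)
    (h₁ : ∀ i, 0 < s₁ i) (h₂ : ∀ i, 0 < s₂ i) {c : ℝ} (hc : 0 < c) (v : ℝ) (hv : 0 ≤ v) :
    (∫ x in (0 : ℝ)..hm (fun i => Real.sqrt (s₁ i * s₂ i)) (fun i => Real.sqrt (s₁ i * s₂ i)),
        min (Fs d (fun i => Real.sqrt (s₁ i * s₂ i)) (fun i => Real.sqrt (s₁ i * s₂ i)) c x) v) ≤
      ∫ x in (0 : ℝ)..hm s₁ s₂, min (Fs d s₁ s₂ c x) v := by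
  set sb : Fin (m + 1) → ℝ := fun i => Real.sqrt (s₁ i * s₂ i) with hsb
  have hsb0 : ∀ i, 0 ≤ sb i := fun i => Real.sqrt_nonneg _
  have hMbE : hm sb sb = ∑ i, sb i := by
    unfold hm
    rw [Finset.sum_add_distrib]
    ring
  have hME : 2 * hm s₁ s₂ = ∑ i, (s₁ i + s₂ i) := by
    unfold hm
    ring
  have htail : ∀ (s : Fin (m + 1) → ℝ) (l), tail s l = ∑ i ∈ Finset.Ici l, s i := fun _ _ => rfl
  have hX0 : ∀ l, 0 ≤ tail s₁ l := fun l => Finset.sum_nonneg fun i _ => (h₁ i).le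
  have hY0 : ∀ l, 0 ≤ tail s₂ l := fun l => Finset.sum_nonneg fun i _ => (h₂ i).le
  have hz0 : ∀ l, 0 ≤ tail sb l := fun l => Finset.sum_nonneg fun i _ => hsb0 i
  have hXY : ∀ l, tail s₁ l + tail s₂ l ≤ 2 * hm s₁ s₂ := by
    intro l
    rw [hME, htail, htail, ← Finset.sum_add_distrib]
    exact Finset.sum_le_univ_sum_of_nonneg fun i => add_nonneg (h₁ i).le (h₂ i).le
  have hzM : ∀ l, tail sb l ≤ hm sb sb := by
    intro l
    rw [hMbE]
    exact Finset.sum_le_univ_sum_of_nonneg hsb0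
  have hMb0 : 0 ≤ hm sb sb := by
    rw [hMbE]
    exact Finset.sum_nonneg fun i _ => hsb0 i
  have hMbM : hm sb sb ≤ hm s₁ s₂ := by
    have : ∑ i, sb i ≤ ∑ i, (s₁ i + s₂ i) / 2 :=
      Finset.sum_le_sum fun i _ => jI_sb_le (h₁ i) (h₂ i)
    rw [← Finset.sum_div, ← hME] at this
    rw [hMbE]
    linarith
  have hzX : ∀ l, tail sb l ≤ Real.sqrt (tail s₁ l * tail s₂ l) := by
    intro l
    rw [Real.sqrt_mul (hX0 l)]
    have := Real.sum_sqrt_mul_sqrt_le (Finset.Ici l) (fun i => (h₁ i).le) (fun i => (h₂ i).le)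
    refine le_trans (le_of_eq ?_) this
    apply Finset.sum_congr rfl
    intro i _
    exact Real.sqrt_mul (h₁ i).le _
  have hD : ∀ l, (Real.sqrt (tail s₁ l) - Real.sqrt (tail s₂ l)) ^ 2 ≤
      2 * (hm s₁ s₂ - hm sb sb) := by
    intro l
    have e1 : (Real.sqrt (tail s₁ l) - Real.sqrt (tail s₂ l)) ^ 2 =
        tail s₁ l + tail s₂ l - 2 * Real.sqrt (tail s₁ l * tail s₂ l) := by
      rw [Real.sqrt_mul (hX0 l)]
      nlinarith [Real.sq_sqrt (hX0 l), Real.sq_sqrt (hY0 l)]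
    rw [e1]
    have e2 : tail s₁ l + tail s₂ l - 2 * tail sb l =
        ∑ i ∈ Finset.Ici l, (s₁ i + s₂ i - 2 * sb i) := by
      rw [htail, htail, htail, Finset.mul_sum, ← Finset.sum_add_distrib, ← Finset.sum_sub_distrib]
    have e3 : ∑ i ∈ Finset.Ici l, (s₁ i + s₂ i - 2 * sb i) ≤ ∑ i, (s₁ i + s₂ i - 2 * sb i) :=
      Finset.sum_le_univ_sum_of_nonneg fun i => by
        linarith [jI_sb_le (h₁ i) (h₂ i), (show sb i = Real.sqrt (s₁ i * s₂ i) from rfl)]
    have e4 : ∑ i, (s₁ i + s₂ i - 2 * sb i) = 2 * (hm s₁ s₂ - hm sb sb) := by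
      rw [Finset.sum_sub_distrib, ← hME, ← Finset.mul_sum, ← hMbE]
      ring
    linarith [hzX l]
  have hFb : ∀ x, Fs d sb sb c x = c + (1 / 2) * ∑ l, d l * (min x (tail sb l) + min x (tail sb l)) := by
    intro x
    unfold Fs
    congr 2
    apply Finset.sum_congr rfl
    intro l _
    have : mu (hm sb sb) (tail sb l) = tail sb l := by
      unfold mu
      exact min_eq_left (by linarith [hzM l])
    rw [this]
  simp only [hFb]
  exact jI_trunc_abs d (tail s₁) (tail s₂) (tail sb) hd hc hv hX0 hY0 hXY hz0 hzX hD hzM hMb0 hMbM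

/-- The mixture kernel. -/
private noncomputable def jI_kk (p v : ℝ) : ℝ := p * (1 - p) * v ^ (p - 2)

private lemma jI_kk_nonneg {p v : ℝ} (hp0 : 0 < p) (hp1 : p < 1) (hv : 0 < v) : 0 ≤ jI_kk p v := by
  unfold jI_kk
  have : 0 < 1 - p := by linarith
  positivity

private lemma jI_rep {p x : ℝ} (hp0 : 0 < p) (hp1 : p < 1) (hx : 0 < x) :
    IntegrableOn (fun v => jI_kk p v * min x v) (Ioi 0) ∧
      ∫ v in Ioi (0 : ℝ), jI_kk p v * min x v = x ^ p := by
  have h1p : 0 < 1 - p := by linarith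
  have hU : Ioi (0 : ℝ) = Ioc 0 x ∪ Ioi x := (Ioc_union_Ioi_eq_Ioi hx.le).symm
  have hdisj : Disjoint (Ioc (0 : ℝ) x) (Ioi x) := Ioc_disjoint_Ioi le_rfl
  have hA : IntegrableOn (fun v : ℝ => p * (1 - p) * v ^ (p - 1)) (Ioc 0 x) := by
    have := (intervalIntegral.intervalIntegrable_rpow' (a := 0) (b := x)
      (r := p - 1) (by linarith))
    rw [intervalIntegrable_iff_integrableOn_Ioc_of_le hx.le] at this
    exact this.const_mul _
  have hB : IntegrableOn (fun v : ℝ => p * (1 - p) * x * v ^ (p - 2)) (Ioi x) :=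
    (integrableOn_Ioi_rpow_of_lt (a := p - 2) (by linarith) hx).const_mul _
  have eA : Set.EqOn (fun v : ℝ => jI_kk p v * min x v)
      (fun v : ℝ => p * (1 - p) * v ^ (p - 1)) (Ioc 0 x) := by
    intro v hv
    have hv0 : 0 < v := hv.1
    simp only [jI_kk]
    rw [min_eq_right hv.2]
    have : v ^ (p - 1) = v ^ (p - 2) * v := by
      rw [show p - 1 = (p - 2) + 1 by ring, Real.rpow_add_one hv0.ne']
    rw [this]
    ring
  have eB : Set.EqOn (fun v : ℝ => jI_kk p v * min x v)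
      (fun v : ℝ => p * (1 - p) * x * v ^ (p - 2)) (Ioi x) := by
    intro v hv
    simp only [jI_kk]
    rw [min_eq_left (le_of_lt hv)]
    ring
  constructor
  · rw [hU]
    exact IntegrableOn.union (hA.congr_fun eA.symm measurableSet_Ioc)
      (hB.congr_fun eB.symm measurableSet_Ioi)
  · rw [hU, setIntegral_union hdisj measurableSet_Ioi
      (hA.congr_fun eA.symm measurableSet_Ioc) (hB.congr_fun eB.symm measurableSet_Ioi),
      setIntegral_congr_fun measurableSet_Ioc eA, setIntegral_congr_fun measurableSet_Ioi eB,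
      integral_const_mul, integral_const_mul, integral_Ioi_rpow_of_lt (by linarith) hx,
      ← intervalIntegral.integral_of_le hx.le, integral_rpow (Or.inl (by linarith))]
    have e0 : (0 : ℝ) ^ (p - 1 + 1) = 0 := by
      rw [Real.zero_rpow]
      intro h
      have : p = 0 := by linarith
      exact hp0.ne' this
    have e1 : x ^ (p - 1 + 1) = x ^ p := by congr 1; ring
    have e2 : x ^ (p - 2 + 1) = x ^ p / x := by
      rw [show p - 2 + 1 = p - 1 by ring, Real.rpow_sub_one hx.ne']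
    rw [e0, e1, e2, show p - 1 + 1 = p by ring, show p - 2 + 1 = p - 1 by ring]
    have hx' := hx.ne'
    have hp' := hp0.ne'
    have h1' : p - 1 ≠ 0 := by linarith
    field_simp
    ring

private lemma jI_fub {p : ℝ} (hp0 : 0 < p) (hp1 : p < 1) (F : ℝ → ℝ) (hFc : Continuous F)
    {M c V : ℝ} (hc : 0 < c) (hV : 0 < V) (hM : 0 ≤ M) (hlo : ∀ m ∈ Ioc 0 M, c ≤ F m)
    (hhi : ∀ m ∈ Ioc 0 M, F m ≤ V) :
    IntegrableOn (fun v => ∫ m in Ioc 0 M, jI_kk p v * min (F m) v) (Ioi 0) ∧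
      ∫ m in (0 : ℝ)..M, F m ^ p = ∫ v in Ioi (0 : ℝ), ∫ m in Ioc 0 M, jI_kk p v * min (F m) v := by
  have hint : Integrable (Function.uncurry fun m v => jI_kk p v * min (F m) v)
      ((volume.restrict (Ioc 0 M)).prod (volume.restrict (Ioi (0 : ℝ)))) := by
    have hg : Integrable (fun z : ℝ × ℝ => (1 : ℝ) * (jI_kk p z.2 * min V z.2))
        ((volume.restrict (Ioc 0 M)).prod (volume.restrict (Ioi (0 : ℝ)))) :=
      Integrable.mul_prod (integrable_const _) (jI_rep hp0 hp1 hV).1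
    refine Integrable.mono' hg ?_ ?_
    · apply Measurable.aestronglyMeasurable
      have hm : Measurable fun z : ℝ × ℝ => jI_kk p z.2 * min (F z.1) z.2 := by
        unfold jI_kk
        exact ((measurable_const.mul (measurable_snd.pow_const _))).mul
          ((hFc.measurable.comp measurable_fst).min measurable_snd)
      exact hm
    · rw [Measure.prod_restrict]
      filter_upwards [ae_restrict_mem (measurableSet_Ioc.prod measurableSet_Ioi)] with z hz
      have h1 := hz.1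
      have h2 : 0 < z.2 := hz.2
      have h3 := hlo z.1 h1
      have h4 := hhi z.1 h1
      have hk := jI_kk_nonneg hp0 hp1 h2
      simp only [Function.uncurry, one_mul]
      rw [Real.norm_eq_abs, abs_of_nonneg (mul_nonneg hk (le_min (by linarith) h2.le))]
      exact mul_le_mul_of_nonneg_left (min_le_min_right _ h4) hk
  refine ⟨hint.integral_prod_right, ?_⟩
  rw [intervalIntegral.integral_of_le hM]
  rw [← integral_integral_swap hint]
  apply setIntegral_congr_fun measurableSet_Ioc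
  intro m hm
  exact (jI_rep hp0 hp1 (by linarith [hlo m hm])).2.symm

private lemma jI_Fs_facts {n : ℕ} (d s₁ s₂ : Fin n → ℝ) (hd : ∀ l, 0 ≤ d l)
    (h₁ : ∀ i, 0 < s₁ i) (h₂ : ∀ i, 0 < s₂ i) (c : ℝ) :
    Continuous (Fs d s₁ s₂ c) ∧ Monotone (Fs d s₁ s₂ c) ∧ (∀ x, 0 ≤ x → c ≤ Fs d s₁ s₂ c x) ∧
      0 ≤ hm s₁ s₂ := by
  have hME : 2 * hm s₁ s₂ = ∑ i, (s₁ i + s₂ i) := by
    unfold hm
    ring
  have hX0 : ∀ l, 0 ≤ tail s₁ l := fun l => Finset.sum_nonneg fun i _ => (h₁ i).le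
  have hY0 : ∀ l, 0 ≤ tail s₂ l := fun l => Finset.sum_nonneg fun i _ => (h₂ i).le
  have hX1 : ∀ l, tail s₁ l ≤ 2 * hm s₁ s₂ := by
    intro l
    rw [hME]
    exact (Finset.sum_le_sum fun i _ => by linarith [h₂ i]).trans
      (Finset.sum_le_univ_sum_of_nonneg (s := Finset.Ici l)
        (f := fun i => s₁ i + s₂ i) fun i => add_nonneg (h₁ i).le (h₂ i).le)
  have hY1 : ∀ l, tail s₂ l ≤ 2 * hm s₁ s₂ := by
    intro l
    rw [hME]
    exact (Finset.sum_le_sum fun i _ => by linarith [h₁ i]).trans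
      (Finset.sum_le_univ_sum_of_nonneg (s := Finset.Ici l)
        (f := fun i => s₁ i + s₂ i) fun i => add_nonneg (h₁ i).le (h₂ i).le)
  have hμ₁ : ∀ l, 0 ≤ mu (hm s₁ s₂) (tail s₁ l) := fun l =>
    le_min (hX0 l) (by linarith [hX1 l])
  have hμ₂ : ∀ l, 0 ≤ mu (hm s₁ s₂) (tail s₂ l) := fun l =>
    le_min (hY0 l) (by linarith [hY1 l])
  refine ⟨jI_cont _ _ _ _, jI_mono _ _ _ _ hd, fun x hx => jI_ge_c d _ _ c hd hμ₁ hμ₂ hx, ?_⟩
  have : 0 ≤ ∑ i, (s₁ i + s₂ i) :=
    Finset.sum_nonneg fun i _ => add_nonneg (h₁ i).le (h₂ i).le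
  linarith

/-- The functional decreases. -/
theorem Js_sym_le {m : ℕ} (a : ℕ) (ha : 1 ≤ a) (d s₁ s₂ : Fin (m + 1) → ℝ) (hd : ∀ l, 0 ≤ d l)
    (h₁ : ∀ i, 0 < s₁ i) (h₂ : ∀ i, 0 < s₂ i) {c : ℝ} (hc : 0 < c) :
    Js a d (fun i => Real.sqrt (s₁ i * s₂ i)) (fun i => Real.sqrt (s₁ i * s₂ i)) c ≤
      Js a d s₁ s₂ c := by
  have hsb : ∀ i, 0 < Real.sqrt (s₁ i * s₂ i) := fun i => Real.sqrt_pos.mpr (mul_pos (h₁ i) (h₂ i))
  obtain ⟨hFc, hFm, hFl, hM⟩ := jI_Fs_facts d s₁ s₂ hd h₁ h₂ c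
  obtain ⟨hGc, hGm, hGl, hMb⟩ := jI_Fs_facts d (fun i => Real.sqrt (s₁ i * s₂ i))
    (fun i => Real.sqrt (s₁ i * s₂ i)) hd hsb hsb c
  unfold Js
  set M := hm s₁ s₂ with hMdef
  set Mb := hm (fun i => Real.sqrt (s₁ i * s₂ i)) (fun i => Real.sqrt (s₁ i * s₂ i)) with hMbdef
  set F := Fs d s₁ s₂ c with hF
  set G := Fs d (fun i => Real.sqrt (s₁ i * s₂ i)) (fun i => Real.sqrt (s₁ i * s₂ i)) c with hG
  have hV1 : 0 < max (F M) 1 := lt_of_lt_of_le one_pos (le_max_right _ _)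
  have hV2 : 0 < max (G Mb) 1 := lt_of_lt_of_le one_pos (le_max_right _ _)
  have hlo1 : ∀ x ∈ Ioc 0 M, c ≤ F x := fun x hx => hFl x hx.1.le
  have hlo2 : ∀ x ∈ Ioc 0 Mb, c ≤ G x := fun x hx => hGl x hx.1.le
  have hhi1 : ∀ x ∈ Ioc 0 M, F x ≤ max (F M) 1 := fun x hx => (hFm hx.2).trans (le_max_left _ _)
  have hhi2 : ∀ x ∈ Ioc 0 Mb, G x ≤ max (G Mb) 1 := fun x hx => (hGm hx.2).trans (le_max_left _ _)
  have htr : ∀ v : ℝ, 0 ≤ v → ∫ x in (0 : ℝ)..Mb, min (G x) v ≤ ∫ x in (0 : ℝ)..M, min (F x) v :=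
    fun v hv => trunc_le d s₁ s₂ hd h₁ h₂ hc v hv
  rcases Nat.lt_or_ge 1 a with ha2 | ha1
  · -- `0 < p < 1`
    have hacast : (1 : ℝ) < a := by exact_mod_cast ha2
    have hp0 : 0 < (1 : ℝ) / a := by positivity
    have hp1 : (1 : ℝ) / a < 1 := by
      rw [div_lt_one (by linarith)]
      exact hacast
    obtain ⟨i1, e1⟩ := jI_fub hp0 hp1 F hFc hc hV1 hM hlo1 hhi1
    obtain ⟨i2, e2⟩ := jI_fub hp0 hp1 G hGc hc hV2 hMb hlo2 hhi2
    rw [e1, e2]
    apply setIntegral_mono_on i2 i1 measurableSet_Ioi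
    intro v hv
    have hk := jI_kk_nonneg hp0 hp1 hv
    rw [integral_const_mul, integral_const_mul, ← intervalIntegral.integral_of_le hM,
      ← intervalIntegral.integral_of_le hMb]
    exact mul_le_mul_of_nonneg_left (htr v (le_of_lt hv)) hk
  · -- `p = 1`
    have ha' : a = 1 := le_antisymm ha1 ha
    subst ha'
    simp only [Nat.cast_one, div_one, Real.rpow_one]
    set V := max (max (F M) (G Mb)) 0 with hVdef
    have hV0 : 0 ≤ V := le_max_right _ _
    have h3 := htr V hV0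
    have h4 : ∫ x in (0 : ℝ)..M, min (F x) V = ∫ x in (0 : ℝ)..M, F x := by
      apply intervalIntegral.integral_congr
      intro x hx
      rw [Set.uIcc_of_le hM] at hx
      exact min_eq_left ((hFm hx.2).trans ((le_max_left _ _).trans (le_max_left _ _)))
    have h5 : ∫ x in (0 : ℝ)..Mb, min (G x) V = ∫ x in (0 : ℝ)..Mb, G x := by
      apply intervalIntegral.integral_congr
      intro x hx
      rw [Set.uIcc_of_le hMb] at hx
      exact min_eq_left ((hGm hx.2).trans ((le_max_right _ _).trans (le_max_left _ _)))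
    rw [h4, h5] at h3
    exact h3

end Vale.Agent.Lib.P227Z
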