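import Vale.Agent.Lib.P227H.Cross
import Vale.Agent.Lib.P227H.Section

/-! # JOB S7: the lifted body bound

Let `L` be `CSB` in `V (a + b)`, `b ≥ 1`, write `b = b' + 1`, `μ ≠ 0`. For `z : V b` let `Z z = ∑_{i ≥ 1} |z i|`.
`L̃ = {ap x z | ∃ y₁ y₂, ap x y₁ ∈ L ∧ ap x y₂ ∈ L ∧ z 0 + Z z ≤ y₁ ⬝ᵥ μ ∧ - z 0 + Z z ≤ - (y₂ ⬝ᵥ μ)}`.
It is compact (projection of a compact set; `2 Z ≤ (y₁ - y₂) ⬝ᵥ μ` bounds `Z`, `z 0 ≤ y₁ ⬝ᵥ μ`, `z 0 ≥ y₂ ⬝ᵥ μ`), convex, symmetric (`y₁' = -y₂`, `y₂' = -y₁`).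
Its section over `x` (`x ∈ pa '' L`) is, with `u = supp (sectA L x) μ`, `w = supp (sectA L x) (-μ)`: `{z | z 0 + Z z ≤ u, -z 0 + Z z ≤ w}`, the translate by `((u - w) / 2) e₀` of `((u + w)/2) • lpBall 1 b`,
of volume `((u + w)/2)^b |lpBall 1 b|`.
So `|L̃| = |lpBall 1 b| ∫_{pa '' L} W^b`, `W = (u + w)/2`.
Support: for `ξ` with all `|ξ i| = 1`: `(x, z) ⬝ (ν, ξ) ≤ x ⬝ ν + ξ 0 z 0 + Z z ≤ supp L (ap ν (ξ 0 • μ))`, (by the two inequalities, for `ξ 0 = 1` use `y₁`, for `ξ 0 = -1` use `y₂`). Here `x ⬝ ν + y₁ ⬝ μ ≤ supp L (ap ν μ)`.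
At a.e. `z`, `gaugeGrad (lpBall 1 b) z` is the vector of signs of `z`. Apply `logMinkAt_cross` to `L̃` with `cone_freeSum`, `volume_freeSum` for `K₂ = lpBall 1 b`:
`(|K|/(a+b)) log (|L̃|/|K|) ≤ cab a b ∫_{B₁^b} ∫_{K₁} log supp L̃ (ap (p₁ x) (sign z)) ≤ cab a b ∫_{B₁^b} ∫_{K₁} log supp L (ap (p₁ x) (sign (z 0) • μ))`, and the reflection `z 0 ↦ -z 0` of `B₁^b` gives `cab a b |B₁^b| ∫_{K₁} ½ (log supp L (ap (p₁ x) μ) + log supp L (ap (p₁ x) (-μ)))`.
Since `|K| = cab a b |K₁| |B₁^b|`: `∫ W^b = |L̃| / |B₁^b| ≤ cab a b |K₁| exp (((a+b)/|K₁|) ∫_{K₁} ½ (...))`.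
-/

open MeasureTheory Set Filter Topology Matrix
open scoped Pointwise ENNReal Nat

namespace Vale.Agent.Lib.P227Z

variable {a b : ℕ} {K₁ : Set (V a)}

private lemma cont_dot2 {n : ℕ} (v : V n) : Continuous fun x : V n => x ⬝ᵥ v := by
  unfold dotProduct
  fun_prop

private lemma le_supp2 {n : ℕ} {A : Set (V n)} (hA : IsCompact A) {y : V n} (hy : y ∈ A) (v : V n) :
    y ⬝ᵥ v ≤ supp A v :=
  le_csSup (hA.bddAbove_image (cont_dot2 v).continuousOn) ⟨y, hy, rfl⟩

private lemma supp_le2 {n : ℕ} {A : Set (V n)} (hne : A.Nonempty) {v : V n} {C : ℝ}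
    (h : ∀ y ∈ A, y ⬝ᵥ v ≤ C) : supp A v ≤ C := by
  refine csSup_le (hne.image _) ?_
  rintro _ ⟨y, hy, rfl⟩
  exact h y hy

private lemma exists_max2 {n : ℕ} {A : Set (V n)} (hA : IsCompact A) (hne : A.Nonempty) (v : V n) :
    ∃ y ∈ A, y ⬝ᵥ v = supp A v := by
  obtain ⟨y, hy, hmax⟩ := hA.exists_isMaxOn hne (cont_dot2 v).continuousOn
  exact ⟨y, hy, le_antisymm (le_supp2 hA hy v) (supp_le2 hne fun z hz => hmax hz)⟩

/-- The tail `ℓ₁` norm. -/
private def Zs {b : ℕ} (z : V (b + 1)) : ℝ := ∑ j : Fin b, |z j.succ|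

private lemma Zs_nonneg (z : V (b + 1)) : 0 ≤ Zs z := Finset.sum_nonneg fun _ _ => abs_nonneg _

private lemma abs_succ_le_Zs (z : V (b + 1)) (j : Fin b) : |z j.succ| ≤ Zs z :=
  Finset.single_le_sum (f := fun j : Fin b => |z j.succ|) (fun _ _ => abs_nonneg _)
    (Finset.mem_univ j)

private lemma continuous_Zs : Continuous (Zs : V (b + 1) → ℝ) := by
  unfold Zs
  fun_prop

private lemma Zs_comb {u v : ℝ} (hu : 0 ≤ u) (hv : 0 ≤ v) (z w : V (b + 1)) :
    Zs (u • z + v • w) ≤ u * Zs z + v * Zs w := by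
  unfold Zs
  rw [Finset.mul_sum, Finset.mul_sum, ← Finset.sum_add_distrib]
  refine Finset.sum_le_sum fun j _ => ?_
  simp only [Pi.add_apply, Pi.smul_apply, smul_eq_mul]
  calc |u * z j.succ + v * w j.succ| ≤ |u * z j.succ| + |v * w j.succ| := abs_add_le _ _
    _ = u * |z j.succ| + v * |w j.succ| := by
      rw [abs_mul, abs_mul, abs_of_nonneg hu, abs_of_nonneg hv]

private lemma Zs_neg (z : V (b + 1)) : Zs (-z) = Zs z := by
  simp [Zs]

private lemma sum_abs_eq (z : V (b + 1)) : ∑ i, |z i| = |z 0| + Zs z :=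
  Fin.sum_univ_succ _

private lemma mem_l1 {n : ℕ} {t : V n} : t ∈ lpBall 1 n ↔ ∑ i, |t i| ≤ 1 := by
  simp [lpBall]

private lemma ap_neg (x : V a) (y : V b) : ap (-x) (-y) = -ap x y := by
  funext i
  refine Fin.addCases (fun j => ?_) (fun j => ?_) i <;> simp [ap]

private lemma ap_comb (u v : ℝ) (x x' : V a) (y y' : V b) :
    ap (u • x + v • x') (u • y + v • y') = u • ap x y + v • ap x' y' := by
  funext i
  refine Fin.addCases (fun j => ?_) (fun j => ?_) i <;> simp [ap]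

private lemma pa_neg (v : V (a + b)) : pa (-v) = -pa v := rfl
private lemma pb_neg (v : V (a + b)) : pb (-v) = -pb v := rfl

private lemma pa_comb (u w : ℝ) (v t : V (a + b)) : pa (u • v + w • t) = u • pa v + w • pa t := rfl
private lemma pb_comb (u w : ℝ) (v t : V (a + b)) : pb (u • v + w • t) = u • pb v + w • pb t := rfl

/-- The lifted body. -/
private def liftL (L : Set (V (a + (b + 1)))) (μ : V (b + 1)) : Set (V (a + (b + 1))) :=
  {v | ∃ y₁ y₂ : V (b + 1), ap (pa v) y₁ ∈ L ∧ ap (pa v) y₂ ∈ L ∧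
    pb v 0 + Zs (pb v) ≤ y₁ ⬝ᵥ μ ∧ -pb v 0 + Zs (pb v) ≤ -(y₂ ⬝ᵥ μ)}

variable {L : Set (V (a + (b + 1)))} {μ : V (b + 1)}

private lemma mem_liftL_ap {x : V a} {z : V (b + 1)} :
    ap x z ∈ liftL L μ ↔ ∃ y₁ y₂ : V (b + 1), ap x y₁ ∈ L ∧ ap x y₂ ∈ L ∧
      z 0 + Zs z ≤ y₁ ⬝ᵥ μ ∧ -z 0 + Zs z ≤ -(y₂ ⬝ᵥ μ) := by
  simp [liftL]

private lemma liftL_compact (hL : IsCompact L) (μ : V (b + 1)) : IsCompact (liftL L μ) := by
  have hA : IsCompact (pa '' L) := hL.image continuous_pa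
  have hB : IsCompact (pb '' L) := hL.image continuous_pb
  obtain ⟨M, hM⟩ := hB.exists_bound_of_continuousOn (cont_dot2 μ).continuousOn
  set T : Set (V a × V (b + 1) × V (b + 1) × V (b + 1)) :=
    {q | ap q.1 q.2.2.1 ∈ L ∧ ap q.1 q.2.2.2 ∈ L ∧
      q.2.1 0 + Zs q.2.1 ≤ q.2.2.1 ⬝ᵥ μ ∧ -q.2.1 0 + Zs q.2.1 ≤ -(q.2.2.2 ⬝ᵥ μ)} with hT
  have hTc : IsClosed T := by
    have hd1 : Continuous fun q : V a × V (b + 1) × V (b + 1) × V (b + 1) => q.2.2.1 ⬝ᵥ μ :=
      (cont_dot2 μ).comp (by fun_prop)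
    have hd2 : Continuous fun q : V a × V (b + 1) × V (b + 1) × V (b + 1) => q.2.2.2 ⬝ᵥ μ :=
      (cont_dot2 μ).comp (by fun_prop)
    have hz : Continuous fun q : V a × V (b + 1) × V (b + 1) × V (b + 1) => Zs q.2.1 :=
      continuous_Zs.comp (by fun_prop)
    have h0 : Continuous fun q : V a × V (b + 1) × V (b + 1) × V (b + 1) => q.2.1 0 := by fun_prop
    refine (hL.isClosed.preimage (continuous_ap.comp (f := fun q :
      V a × V (b + 1) × V (b + 1) × V (b + 1) => (q.1, q.2.2.1)) (by fun_prop))).inter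
      ((hL.isClosed.preimage (continuous_ap.comp (f := fun q :
      V a × V (b + 1) × V (b + 1) × V (b + 1) => (q.1, q.2.2.2)) (by fun_prop))).inter
      ((isClosed_le (h0.add hz) hd1).inter (isClosed_le ((h0.neg).add hz) hd2.neg)))
  have hTsub : T ⊆ (pa '' L) ×ˢ (Metric.closedBall (0 : V (b + 1)) M) ×ˢ (pb '' L) ×ˢ (pb '' L) := by
    rintro ⟨x, z, y₁, y₂⟩ ⟨h1, h2, h3, h4⟩
    simp only at h1 h2 h3 h4
    have hy1 := hM y₁ ⟨_, h1, pb_ap x y₁⟩
    have hy2 := hM y₂ ⟨_, h2, pb_ap x y₂⟩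
    rw [Real.norm_eq_abs, abs_le] at hy1 hy2
    have hZ := Zs_nonneg z
    have hM0 : 0 ≤ M := by linarith [hy1.1, hy1.2]
    refine ⟨⟨_, h1, pa_ap x y₁⟩, ?_, ⟨_, h1, pb_ap x y₁⟩, ⟨_, h2, pb_ap x y₂⟩⟩
    rw [mem_closedBall_zero_iff, pi_norm_le_iff_of_nonneg hM0]
    intro i
    rw [Real.norm_eq_abs]
    refine Fin.cases ?_ (fun j => ?_) i
    · rw [abs_le]
      constructor <;> linarith [hy1.1, hy1.2, hy2.1, hy2.2]
    · have := abs_succ_le_Zs z j
      linarith [hy1.1, hy1.2, hy2.1, hy2.2]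
  have hTcomp : IsCompact T :=
    (hA.prod ((isCompact_closedBall _ _).prod (hB.prod hB))).of_isClosed_subset hTc hTsub
  have hImg : liftL L μ = (fun q : V a × V (b + 1) × V (b + 1) × V (b + 1) => ap q.1 q.2.1) '' T := by
    ext v
    constructor
    · rintro ⟨y₁, y₂, h1, h2, h3, h4⟩
      exact ⟨(pa v, pb v, y₁, y₂), ⟨h1, h2, h3, h4⟩, ap_pa_pb v⟩
    · rintro ⟨⟨x, z, y₁, y₂⟩, ⟨h1, h2, h3, h4⟩, rfl⟩
      exact mem_liftL_ap.2 ⟨y₁, y₂, h1, h2, h3, h4⟩
  rw [hImg]
  exact hTcomp.image (continuous_ap.comp (f := fun q :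
      V a × V (b + 1) × V (b + 1) × V (b + 1) => (q.1, q.2.1)) (by fun_prop))

private lemma liftL_convex (hL : Convex ℝ L) (μ : V (b + 1)) : Convex ℝ (liftL L μ) := by
  rintro v ⟨y₁, y₂, h1, h2, h3, h4⟩ v' ⟨y₁', y₂', h1', h2', h3', h4'⟩ u w hu hw huw
  refine ⟨u • y₁ + w • y₁', u • y₂ + w • y₂', ?_, ?_, ?_, ?_⟩
  · rw [pa_comb, ap_comb]
    exact hL h1 h1' hu hw huw
  · rw [pa_comb, ap_comb]
    exact hL h2 h2' hu hw huw
  · rw [pb_comb, add_dotProduct, smul_dotProduct, smul_dotProduct]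
    have hZ := Zs_comb hu hw (pb v) (pb v')
    simp only [Pi.add_apply, Pi.smul_apply, smul_eq_mul]
    have h5 := mul_le_mul_of_nonneg_left h3 hu
    have h6 := mul_le_mul_of_nonneg_left h3' hw
    linarith
  · rw [pb_comb, add_dotProduct, smul_dotProduct, smul_dotProduct]
    have hZ := Zs_comb hu hw (pb v) (pb v')
    simp only [Pi.add_apply, Pi.smul_apply, smul_eq_mul]
    have h5 := mul_le_mul_of_nonneg_left h4 hu
    have h6 := mul_le_mul_of_nonneg_left h4' hw
    linarith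

private lemma liftL_symm (hL : ∀ x ∈ L, -x ∈ L) (μ : V (b + 1)) :
    ∀ v ∈ liftL L μ, -v ∈ liftL L μ := by
  rintro v ⟨y₁, y₂, h1, h2, h3, h4⟩
  refine ⟨-y₂, -y₁, ?_, ?_, ?_, ?_⟩
  · rw [pa_neg, ap_neg]
    exact hL _ h2
  · rw [pa_neg, ap_neg]
    exact hL _ h1
  · rw [pb_neg, Zs_neg, neg_dotProduct]
    simpa using h4
  · rw [pb_neg, Zs_neg, neg_dotProduct]
    simpa using h3

/-- The support bound of the lifted body. -/
private lemma liftL_dot_le (hL : IsCompact L) {v : V (a + (b + 1))} (hv : v ∈ liftL L μ) (ν : V a)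
    (ξ : V (b + 1)) (h0 : ξ 0 = 1 ∨ ξ 0 = -1) (hs : ∀ j : Fin b, |ξ j.succ| ≤ 1) :
    v ⬝ᵥ ap ν ξ ≤ supp L (ap ν (ξ 0 • μ)) := by
  obtain ⟨y₁, y₂, h1, h2, h3, h4⟩ := hv
  have hvv : v ⬝ᵥ ap ν ξ = pa v ⬝ᵥ ν + pb v ⬝ᵥ ξ := by
    conv_lhs => rw [← ap_pa_pb v]
    exact dot_ap _ _ _ _
  have hdot : pb v ⬝ᵥ ξ ≤ pb v 0 * ξ 0 + Zs (pb v) := by
    unfold dotProduct
    rw [Fin.sum_univ_succ]
    refine add_le_add_right ?_ _
    unfold Zs
    refine Finset.sum_le_sum fun j _ => ?_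
    calc pb v j.succ * ξ j.succ ≤ |pb v j.succ * ξ j.succ| := le_abs_self _
      _ = |pb v j.succ| * |ξ j.succ| := abs_mul _ _
      _ ≤ |pb v j.succ| * 1 := mul_le_mul_of_nonneg_left (hs j) (abs_nonneg _)
      _ = |pb v j.succ| := mul_one _
  rw [hvv]
  rcases h0 with h0 | h0
  · rw [h0, one_smul]
    have := le_supp2 hL h1 (ap ν μ)
    rw [dot_ap] at this
    rw [h0] at hdot
    linarith
  · rw [h0, neg_one_smul]
    have := le_supp2 hL h2 (ap ν (-μ))
    rw [dot_ap, dotProduct_neg] at this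
    rw [h0] at hdot
    linarith

private lemma sectA_compact (hL : IsCompact L) (x : V a) : IsCompact (sectA L x) := by
  have he : sectA L x = pb '' (L ∩ pa ⁻¹' {x}) := by
    ext y
    constructor
    · intro hy
      exact ⟨ap x y, ⟨hy, pa_ap x y⟩, pb_ap x y⟩
    · rintro ⟨v, ⟨hv, hvx⟩, rfl⟩
      have hvx' : pa v = x := hvx
      show ap x (pb v) ∈ L
      rw [← hvx', ap_pa_pb]
      exact hv
  rw [he]
  exact (hL.inter_right (isClosed_singleton.preimage continuous_pa)).image continuous_pb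

private lemma sectA_nonempty {x : V a} (hx : x ∈ pa '' L) : (sectA L x).Nonempty := by
  obtain ⟨v, hv, rfl⟩ := hx
  refine ⟨pb v, ?_⟩
  show ap (pa v) (pb v) ∈ L
  rw [ap_pa_pb]
  exact hv

/-- Volume of a lifted section. -/
private lemma volume_sect_ge (hL : IsCompact L) {x : V a} (hx : x ∈ pa '' L) (μ : V (b + 1)) :
    ENNReal.ofReal (((supp (sectA L x) μ + supp (sectA L x) (-μ)) / 2) ^ (b + 1)) *
      volume (lpBall 1 (b + 1)) ≤ volume (sectA (liftL L μ) x) := by
  have hc := sectA_compact hL x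
  have hne := sectA_nonempty hx
  obtain ⟨y₁, hy₁, he₁⟩ := exists_max2 hc hne μ
  obtain ⟨y₂, hy₂, he₂⟩ := exists_max2 hc hne (-μ)
  set u := supp (sectA L x) μ with hu
  set w := supp (sectA L x) (-μ) with hw
  have hW : 0 ≤ (u + w) / 2 := by
    have h1 := le_supp2 hc hy₁ μ
    have h2 := le_supp2 hc hy₁ (-μ)
    rw [dotProduct_neg] at h2
    rw [← hu] at h1
    rw [← hw] at h2
    linarith
  set W := (u + w) / 2 with hWdef
  set c₀ : V (b + 1) := Pi.single 0 ((u - w) / 2) with hc₀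
  have hsub : c₀ +ᵥ (W • lpBall 1 (b + 1)) ⊆ sectA (liftL L μ) x := by
    rintro _ ⟨_, ⟨t, ht, rfl⟩, rfl⟩
    show ap x (c₀ +ᵥ W • t) ∈ liftL L μ
    rw [mem_liftL_ap]
    refine ⟨y₁, y₂, hy₁, hy₂, ?_, ?_⟩
    all_goals
      have ht' := mem_l1.1 ht
      rw [sum_abs_eq] at ht'
      have h0 : (c₀ +ᵥ W • t) 0 = (u - w) / 2 + W * t 0 := by
        simp [hc₀]
      have hZ : Zs (c₀ +ᵥ W • t) = W * Zs t := by
        unfold Zs
        rw [Finset.mul_sum]
        refine Finset.sum_congr rfl fun j _ => ?_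
        have : (c₀ +ᵥ W • t) j.succ = W * t j.succ := by
          simp [hc₀, Fin.succ_ne_zero]
        rw [this, abs_mul, abs_of_nonneg hW]
      rw [h0, hZ]
    · rw [he₁]
      have h1 : t 0 ≤ |t 0| := le_abs_self _
      have h2 : W * (t 0 + Zs t) ≤ W * 1 := mul_le_mul_of_nonneg_left (by linarith) hW
      have : u = (u - w) / 2 + W := by rw [hWdef]; ring
      linarith
    · have he₂' : y₂ ⬝ᵥ μ = -w := by
        rw [dotProduct_neg] at he₂
        linarith
      rw [he₂']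
      have h1 : -t 0 ≤ |t 0| := neg_le_abs _
      have h2 : W * (-t 0 + Zs t) ≤ W * 1 := mul_le_mul_of_nonneg_left (by linarith) hW
      have : w = -((u - w) / 2) + W := by rw [hWdef]; ring
      linarith
  refine le_trans (le_of_eq ?_) (measure_mono hsub)
  rw [measure_vadd, Measure.addHaar_smul, Module.finrank_fin_fun, abs_of_nonneg (pow_nonneg hW _)]

private lemma volume_lift_ge (hL : IsCompact L) (μ : V (b + 1)) :
    ∫⁻ x in pa '' L, ENNReal.ofReal (((supp (sectA L x) μ + supp (sectA L x) (-μ)) / 2) ^ (b + 1)) *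
      volume (lpBall 1 (b + 1)) ≤ volume (liftL L μ) := by
  rw [volume_eq_lintegral_sectA (liftL_compact hL μ).measurableSet]
  refine le_trans (setLIntegral_mono' (hL.image continuous_pa).measurableSet ?_)
    (setLIntegral_le_lintegral _ _)
  intro x hx
  exact volume_sect_ge hL hx μ


private lemma ap_ne_zero {n m : ℕ} (p : V n) {ξ : V m} (hξ : ξ ≠ 0) : ap p ξ ≠ 0 := by
  intro h
  apply hξ
  have := pb_ap p ξ
  rw [h] at this
  rw [← this]
  rfl

/-- Integrability along the gradient of a body. -/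
private lemma integrableOn_log_ap {n m : ℕ} {K : Set (V n)} (hK : Body K) {L : Set (V (n + m))}
    (hL : SymB L) (ξ : V m) (hξ : ξ ≠ 0) :
    IntegrableOn (fun x => Real.log (supp L (ap (gaugeGrad K x) ξ))) K := by
  obtain ⟨r, hr, hball⟩ := Metric.mem_nhds_iff.1 hK.nhds
  have hbd : ∀ p : V n, supp K p = 1 → ‖p‖ ≤ 2 / r := by
    intro p hp
    rw [pi_norm_le_iff_of_nonneg (by positivity)]
    intro i
    rw [Real.norm_eq_abs]
    have hmem : ∀ c : ℝ, |c| = r / 2 → (Pi.single i c : V n) ∈ K := by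
      intro c hc
      apply hball
      rw [Metric.mem_ball, dist_zero_right, pi_norm_lt_iff hr]
      intro j
      by_cases hj : j = i
      · subst hj
        simp only [Pi.single_eq_same, Real.norm_eq_abs, hc]
        linarith
      · simp [Pi.single_eq_of_ne hj, hr]
    have h1 : (r / 2) * |p i| ≤ 1 := by
      have hx : ∀ c : ℝ, |c| = r / 2 → c * p i ≤ 1 := by
        intro c hc
        have := le_supp2 hK.compact (hmem c hc) p
        rw [hp] at this
        simpa [single_dotProduct] using this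
      rcases abs_cases (p i) with ⟨h, _⟩ | ⟨h, _⟩
      · rw [h]
        exact hx (r / 2) (abs_of_pos (by positivity))
      · rw [h]
        have := hx (-(r / 2)) (by rw [abs_neg]; exact abs_of_pos (by positivity))
        linarith
    rw [le_div_iff₀ hr]
    linarith
  set R : ℝ := max ‖ξ‖ (2 / r) with hR
  have hR0 : 0 ≤ R := (norm_nonneg ξ).trans (le_max_left _ _)
  set S : Set (V (n + m)) := Metric.closedBall 0 R ∩ pb ⁻¹' {ξ} with hS
  have hSc : IsCompact S :=
    (isCompact_closedBall 0 R).inter_right (isClosed_singleton.preimage continuous_pb)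
  have hap_mem : ∀ p : V n, ‖p‖ ≤ 2 / r → ap p ξ ∈ S := by
    intro p hp
    refine ⟨?_, pb_ap p ξ⟩
    rw [mem_closedBall_zero_iff, pi_norm_le_iff_of_nonneg hR0]
    intro i
    refine Fin.addCases (fun j => ?_) (fun j => ?_) i
    · have h1 : ap p ξ (Fin.castAdd m j) = p j := by simp [ap]
      rw [h1]
      exact ((norm_le_pi_norm p j).trans hp).trans (le_max_right _ _)
    · have h1 : ap p ξ (Fin.natAdd n j) = ξ j := by simp [ap]
      rw [h1]
      exact (norm_le_pi_norm ξ j).trans (le_max_left _ _)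
  have hSne : S.Nonempty := ⟨_, hap_mem 0 (by rw [norm_zero]; positivity)⟩
  have hcont : ContinuousOn (supp L) S := (supp_continuous' hL.1).continuousOn
  obtain ⟨u, hu, hmin⟩ := hSc.exists_isMinOn hSne hcont
  obtain ⟨w, hw, hmax⟩ := hSc.exists_isMaxOn hSne hcont
  have hS0 : ∀ v ∈ S, v ≠ 0 := by
    intro v hv h0
    have h : pb v = ξ := hv.2
    rw [h0] at h
    exact hξ h.symm
  have hm : 0 < supp L u := supp_pos' hL (hS0 u hu)
  have hmeas : Measurable (fun x => Real.log (supp L (ap (gaugeGrad K x) ξ))) := by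
    refine Real.measurable_log.comp ((supp_continuous' hL.1).measurable.comp ?_)
    exact continuous_ap.measurable.comp ((measurable_gaugeGrad K).prodMk measurable_const)
  refine Measure.integrableOn_of_bounded
    (M := max (max |Real.log (supp L u)| |Real.log (supp L w)|)
      |Real.log (supp L (ap (gaugeGrad K 0) ξ))|)
    hK.compact.measure_lt_top.ne hmeas.aestronglyMeasurable ?_
  refine ae_restrict_of_ae ?_
  filter_upwards [hK.ae_diff] with y hy
  rw [Real.norm_eq_abs]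
  by_cases hy0 : y = 0
  · subst hy0
    exact le_max_right _ _
  · have h1 := hK.supp_grad hy hy0
    have h2 := hap_mem _ (hbd _ h1)
    have h3 : supp L u ≤ supp L (ap (gaugeGrad K y) ξ) := hmin h2
    have h4 : supp L (ap (gaugeGrad K y) ξ) ≤ supp L w := hmax h2
    refine le_max_of_le_left ?_
    have hs : 0 < supp L (ap (gaugeGrad K y) ξ) := hm.trans_le h3
    have h5 := Real.log_le_log hm h3
    have h6 := Real.log_le_log hs h4
    rw [abs_le]
    constructor
    · have h7 := neg_abs_le (Real.log (supp L u))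
      have h8 : |Real.log (supp L u)| ≤ max |Real.log (supp L u)| |Real.log (supp L w)| :=
        le_max_left _ _
      linarith
    · have h7 := le_abs_self (Real.log (supp L w))
      have h8 : |Real.log (supp L w)| ≤ max |Real.log (supp L u)| |Real.log (supp L w)| :=
        le_max_right _ _
      linarith

/-- The gradient of the `ℓ₁` gauge at a generic point. -/
private lemma gaugeGrad_l1 {n : ℕ} {y : V n} (hy : ∀ i, y i ≠ 0) :
    gaugeGrad (lpBall 1 n) y = fun i => ((SignType.sign (y i) : SignType) : ℝ) := by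
  have hg : gauge (lpBall 1 n) = fun x : V n => ∑ i, |x i| := by
    funext x
    rw [gauge_lpBall le_rfl]
    simp
  have hd : HasFDerivAt (fun x : V n => ∑ i, |x i|)
      (∑ i, ((SignType.sign (y i) : SignType) : ℝ) • (ContinuousLinearMap.proj i : V n →L[ℝ] ℝ)) y := by
    refine HasFDerivAt.fun_sum fun i _ => ?_
    exact (hasDerivAt_abs (hy i)).comp_hasFDerivAt y (ContinuousLinearMap.proj i : V n →L[ℝ] ℝ).hasFDerivAt
  funext i
  show fderiv ℝ (gauge (lpBall 1 n)) y (Pi.single i 1) = _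
  rw [hg, hd.fderiv]
  simp [Pi.single_apply]

private lemma sign_cases {t : ℝ} (ht : t ≠ 0) :
    ((SignType.sign t : SignType) : ℝ) = 1 ∨ ((SignType.sign t : SignType) : ℝ) = -1 := by
  rcases lt_or_gt_of_ne ht with h | h
  · right
    simp [sign_neg h]
  · left
    simp [sign_pos h]

/-- The reflection of the first coordinate. -/
private def refl0 {b : ℕ} (y : V (b + 1)) : V (b + 1) := Fin.cons (-y 0) (tl y)

private lemma refl0_zero (y : V (b + 1)) : refl0 y 0 = -y 0 := rfl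

private lemma refl0_succ (y : V (b + 1)) (j : Fin b) : refl0 y j.succ = y j.succ := rfl

private lemma refl0_refl0 (y : V (b + 1)) : refl0 (refl0 y) = y := by
  funext i
  refine Fin.cases ?_ (fun j => ?_) i
  · simp [refl0_zero]
  · simp [refl0_succ]

private lemma measurePreserving_refl0 : MeasurePreserving (refl0 : V (b + 1) → V (b + 1)) := by
  have h := volume_preserving_pi (ι := Fin (b + 1)) (α' := fun _ => ℝ) (β' := fun _ => ℝ)
    (f := fun i => if i = 0 then Neg.neg else id) (fun i => by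
      by_cases hi : i = 0
      · simp only [hi, if_true]
        exact Measure.measurePreserving_neg volume
      · simp only [hi, if_false]
        exact MeasurePreserving.id _)
  convert h using 1
  funext y i
  refine Fin.cases ?_ (fun j => ?_) i
  · simp [refl0_zero]
  · simp [refl0_succ, Fin.succ_ne_zero]

private lemma measurableEmbedding_refl0 : MeasurableEmbedding (refl0 : V (b + 1) → V (b + 1)) :=
  measurePreserving_refl0.measurable.measurableEmbedding
    (Function.LeftInverse.injective refl0_refl0)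

private lemma refl0_preimage : refl0 ⁻¹' (lpBall 1 (b + 1)) = lpBall 1 (b + 1) := by
  ext y
  rw [mem_preimage, mem_l1, mem_l1, sum_abs_eq, sum_abs_eq, refl0_zero, abs_neg]
  have : Zs (refl0 y) = Zs y := by
    unfold Zs
    exact Finset.sum_congr rfl fun j _ => by rw [refl0_succ]
  rw [this]

/-- Averaging over the reflection. -/
private lemma integral_le_average {J : V (b + 1) → ℝ} (hJ : IntegrableOn J (lpBall 1 (b + 1)))
    {G₁ G₂ : ℝ} (h : ∀ᵐ y, y ∈ lpBall 1 (b + 1) → (0 < y 0 → J y ≤ G₁) ∧ (y 0 < 0 → J y ≤ G₂))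
    (hvol : volume (lpBall 1 (b + 1)) ≠ ⊤) :
    ∫ y in lpBall 1 (b + 1), J y ≤ (volume (lpBall 1 (b + 1))).toReal * ((G₁ + G₂) / 2) := by
  set B := lpBall 1 (b + 1) with hB
  have hrefl : ∫ y in B, J (refl0 y) = ∫ y in B, J y := by
    have := measurePreserving_refl0.setIntegral_preimage_emb (measurableEmbedding_refl0) J B
    rwa [hB, refl0_preimage] at this
  have hJr : IntegrableOn (fun y => J (refl0 y)) B := by
    have := (measurePreserving_refl0.integrableOn_comp_preimage (measurableEmbedding_refl0)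
      (f := J) (s := B)).2 hJ
    rwa [hB, refl0_preimage] at this
  have h0 : ∀ᵐ y : V (b + 1), y 0 ≠ 0 := by
    have : volume {y : V (b + 1) | y 0 = 0} = 0 := by
      rw [volume_pi]
      exact Measure.pi_hyperplane _ 0 0
    filter_upwards [compl_mem_ae_iff.2 this] with y hy
    exact hy
  have hrefl_ae : ∀ᵐ y, refl0 y ∈ B →
      (0 < refl0 y 0 → J (refl0 y) ≤ G₁) ∧ (refl0 y 0 < 0 → J (refl0 y) ≤ G₂) :=
    measurePreserving_refl0.quasiMeasurePreserving.ae h
  have hle : ∫ y in B, (J y + J (refl0 y)) ≤ ∫ y in B, (G₁ + G₂) := by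
    refine integral_mono_ae (hJ.add hJr) (integrableOn_const hvol) ?_
    have hBm : MeasurableSet B := (body_lpBall le_rfl (b + 1)).compact.measurableSet
    refine (ae_restrict_iff' hBm).2 ?_
    filter_upwards [h, hrefl_ae, h0] with y h1 h2 h3 hyB
    have hyB' : refl0 y ∈ B := by
      have : y ∈ refl0 ⁻¹' (lpBall 1 (b + 1)) := by rw [refl0_preimage]; exact hyB
      exact this
    obtain ⟨h4, h5⟩ := h1 hyB
    obtain ⟨h6, h7⟩ := h2 hyB'
    rw [refl0_zero] at h6 h7
    rcases lt_or_gt_of_ne h3 with hlt | hgt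
    · have h8 := h5 hlt
      have h9 := h6 (by linarith)
      show J y + J (refl0 y) ≤ G₁ + G₂
      linarith
    · have h8 := h4 hgt
      have h9 := h7 (by linarith)
      show J y + J (refl0 y) ≤ G₁ + G₂
      linarith
  rw [integral_add hJ hJr, hrefl, setIntegral_const, smul_eq_mul] at hle
  have e : volume.real B = (volume B).toReal := rfl
  rw [e] at hle
  linarith


private lemma lift_bound_succ (ha : 1 ≤ a) (h₁ : LogMinkAt K₁) {L : Set (V (a + (b + 1)))}
    (hL : CSB L) {μ : V (b + 1)} (hμ : μ ≠ 0) :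
    ∫⁻ x in pa '' L, ENNReal.ofReal (((supp (sectA L x) μ + supp (sectA L x) (-μ)) / 2) ^ (b + 1)) ≤
      ENNReal.ofReal (cab a (b + 1) * (volume K₁).toReal *
        Real.exp (((a : ℝ) + ((b + 1 : ℕ) : ℝ)) / (volume K₁).toReal *
        ∫ x in K₁, (1 / 2) * (Real.log (supp L (ap (gaugeGrad K₁ x) μ)) +
          Real.log (supp L (ap (gaugeGrad K₁ x) (-μ)))))) := by
  have hBb : Body (lpBall 1 (b + 1)) := body_lpBall le_rfl (b + 1)
  have hβ' : volume (lpBall 1 (b + 1)) ≠ 0 := hBb.volume_pos.ne'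
  have hβt : volume (lpBall 1 (b + 1)) ≠ ⊤ := hBb.compact.measure_lt_top.ne
  have hvol := volume_lift_ge hL.sym.1 μ
  rw [lintegral_mul_const' _ _ hβt] at hvol
  set I := ∫⁻ x in pa '' L,
    ENNReal.ofReal (((supp (sectA L x) μ + supp (sectA L x) (-μ)) / 2) ^ (b + 1)) with hI
  by_cases h0 : volume (liftL L μ) = 0
  · rw [h0] at hvol
    have hI0 : I = 0 := by
      have := le_antisymm hvol zero_le
      rcases mul_eq_zero.1 this with h | h
      · exact h
      · exact absurd h hβ'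
    rw [hI0]
    exact zero_le
  have hL' : SymB (liftL L μ) :=
    ⟨liftL_compact hL.sym.1 μ, liftL_symm hL.sym.2.1 μ, pos_iff_ne_zero.2 h0⟩
  have hK := logMinkAt_cross ha h₁ (b + 1)
  have hmain := hK.2 (liftL L μ) hL'
  rw [cone_freeSum ha (Nat.succ_le_succ (Nat.zero_le b)) h₁.1 hBb hL',
    volume_freeSum ha (Nat.succ_le_succ (Nat.zero_le b)) h₁.1 hBb] at hmain
  -- the inner integrals
  set Y : V (b + 1) → ℝ := fun ξ => ∫ x in K₁, Real.log (supp (liftL L μ) (ap (gaugeGrad K₁ x) ξ)) with hY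
  set G : ℝ → ℝ := fun c => ∫ x in K₁, Real.log (supp L (ap (gaugeGrad K₁ x) (c • μ))) with hG
  have hYle : ∀ ξ : V (b + 1), (ξ 0 = 1 ∨ ξ 0 = -1) → (∀ j : Fin b, |ξ j.succ| ≤ 1) →
      Y ξ ≤ G (ξ 0) := by
    intro ξ h0' hs
    have hξ : ξ ≠ 0 := by
      intro h
      rw [h] at h0'
      norm_num at h0'
    have hc0 : ξ 0 ≠ 0 := by
      rcases h0' with h | h <;> rw [h] <;> norm_num
    have hcμ : ξ 0 • μ ≠ 0 := smul_ne_zero hc0 hμ
    refine setIntegral_mono (integrableOn_log_ap h₁.1 hL' ξ hξ)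
      (integrableOn_log_ap h₁.1 hL.sym (ξ 0 • μ) hcμ) ?_
    intro x
    refine Real.log_le_log (supp_pos' hL' (ap_ne_zero _ hξ)) ?_
    have hne : (liftL L μ).Nonempty := by
      by_contra hne
      rw [Set.not_nonempty_iff_eq_empty] at hne
      rw [hne, measure_empty] at h0
      exact h0 rfl
    exact supp_le2 hne fun v hv => liftL_dot_le hL.sym.1 hv _ ξ h0' hs
  -- generic points
  have hgen : ∀ᵐ y : V (b + 1), ∀ i, y i ≠ 0 := by
    rw [ae_all_iff]
    intro i
    have : volume {y : V (b + 1) | y i = 0} = 0 := by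
      rw [volume_pi]
      exact Measure.pi_hyperplane _ i 0
    filter_upwards [compl_mem_ae_iff.2 this] with y hy
    exact hy
  -- integrability of the outer function
  set J : V (b + 1) → ℝ := fun y => Y (gaugeGrad (lpBall 1 (b + 1)) y) with hJ
  have hJm : StronglyMeasurable J := by
    have hjoint : Measurable (fun q : V (b + 1) × V a =>
        Real.log (supp (liftL L μ) (ap (gaugeGrad K₁ q.2) (gaugeGrad (lpBall 1 (b + 1)) q.1)))) :=
      Real.measurable_log.comp ((supp_continuous' hL'.1).measurable.comp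
        (continuous_ap.measurable.comp (((measurable_gaugeGrad K₁).comp measurable_snd).prodMk
          ((measurable_gaugeGrad _).comp measurable_fst))))
    exact hjoint.stronglyMeasurable.integral_prod_right'
  have hE : {ξ : V (b + 1) | ∀ i, ξ i = 1 ∨ ξ i = -1}.Finite := by
    have hf : (Set.pi univ fun _ : Fin (b + 1) => ({1, -1} : Set ℝ)).Finite :=
      Set.Finite.pi fun _ => by simp
    refine hf.subset ?_
    intro ξ hξ i _
    rcases hξ i with h | h <;> simp [h]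
  obtain ⟨C, hC⟩ : ∃ C, ∀ ξ : V (b + 1), (∀ i, ξ i = 1 ∨ ξ i = -1) → |Y ξ| ≤ C := by
    obtain ⟨C, hC⟩ := (hE.image fun ξ => |Y ξ|).bddAbove
    exact ⟨C, fun ξ hξ => hC ⟨ξ, hξ, rfl⟩⟩
  have hJi : IntegrableOn J (lpBall 1 (b + 1)) := by
    refine Measure.integrableOn_of_bounded (M := C) hβt hJm.aestronglyMeasurable ?_
    refine ae_restrict_of_ae ?_
    filter_upwards [hgen] with y hy
    rw [Real.norm_eq_abs]
    show |Y (gaugeGrad (lpBall 1 (b + 1)) y)| ≤ C
    rw [gaugeGrad_l1 hy]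
    exact hC _ fun i => sign_cases (hy i)
  have hJae : ∀ᵐ y, y ∈ lpBall 1 (b + 1) → (0 < y 0 → J y ≤ G 1) ∧ (y 0 < 0 → J y ≤ G (-1)) := by
    filter_upwards [hgen] with y hy _
    have hs : ∀ j : Fin b, |((SignType.sign (y j.succ) : SignType) : ℝ)| ≤ 1 := by
      intro j
      rcases sign_cases (hy j.succ) with h | h <;> rw [h] <;> norm_num
    have hJy := hYle (fun i => ((SignType.sign (y i) : SignType) : ℝ)) (sign_cases (hy 0)) hs
    have hJeq : J y = Y (fun i => ((SignType.sign (y i) : SignType) : ℝ)) := by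
      show Y (gaugeGrad (lpBall 1 (b + 1)) y) = _
      rw [gaugeGrad_l1 hy]
    rw [← hJeq] at hJy
    constructor
    · intro hpos
      simpa [sign_pos hpos] using hJy
    · intro hneg
      simpa [sign_neg hneg] using hJy
  have hav := integral_le_average hJi hJae hβt
  -- integrability of the two terms
  have hG1i : IntegrableOn (fun x => Real.log (supp L (ap (gaugeGrad K₁ x) μ))) K₁ :=
    integrableOn_log_ap h₁.1 hL.sym μ hμ
  have hG2i : IntegrableOn (fun x => Real.log (supp L (ap (gaugeGrad K₁ x) (-μ)))) K₁ :=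
    integrableOn_log_ap h₁.1 hL.sym (-μ) (neg_ne_zero.2 hμ)
  have hG1 : G 1 = ∫ x in K₁, Real.log (supp L (ap (gaugeGrad K₁ x) μ)) := by
    simp [hG]
  have hG2 : G (-1) = ∫ x in K₁, Real.log (supp L (ap (gaugeGrad K₁ x) (-μ))) := by
    simp [hG]
  have hint : ∫ x in K₁, (1 / 2) * (Real.log (supp L (ap (gaugeGrad K₁ x) μ)) +
      Real.log (supp L (ap (gaugeGrad K₁ x) (-μ)))) = (G 1 + G (-1)) / 2 := by
    rw [integral_const_mul, integral_add hG1i hG2i, hG1, hG2]
    ring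
  rw [hint]
  -- the arithmetic
  have hA : 0 < (volume K₁).toReal :=
    ENNReal.toReal_pos h₁.1.volume_pos.ne' h₁.1.compact.measure_lt_top.ne
  have hβ : 0 < (volume (lpBall 1 (b + 1))).toReal := ENNReal.toReal_pos hβ' hβt
  have hc : 0 < cab a (b + 1) := cab_pos a (b + 1)
  have hΛ : 0 < (volume (liftL L μ)).toReal :=
    ENNReal.toReal_pos h0 hL'.1.measure_lt_top.ne
  set A := (volume K₁).toReal with hAdef
  set β := (volume (lpBall 1 (b + 1))).toReal with hβdef
  set c := cab a (b + 1) with hcdef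
  set Λ := (volume (liftL L μ)).toReal with hΛdef
  set E := (G 1 + G (-1)) / 2 with hEdef
  have hn : (0 : ℝ) < ((a + (b + 1) : ℕ) : ℝ) := by
    exact_mod_cast Nat.add_pos_right a (Nat.succ_pos b)
  set n : ℝ := ((a + (b + 1) : ℕ) : ℝ) with hndef
  have hnn : (a : ℝ) + ((b + 1 : ℕ) : ℝ) = n := by
    rw [hndef]
    push_cast
    ring
  rw [hnn]
  have hlog : Real.log (Λ / (c * A * β)) ≤ n / A * E := by
    have h1 : (c * A * β) / n * Real.log (Λ / (c * A * β)) ≤ c * (β * E) :=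
      hmain.trans (mul_le_mul_of_nonneg_left hav hc.le)
    have hpos : 0 < (c * A * β) / n := by positivity
    have h2 : Real.log (Λ / (c * A * β)) ≤ (c * (β * E)) / ((c * A * β) / n) := by
      rw [le_div_iff₀ hpos]
      linarith
    have h3 : (c * (β * E)) / ((c * A * β) / n) = n / A * E := by
      field_simp
    rwa [h3] at h2
  have hΛle : Λ ≤ c * A * β * Real.exp (n / A * E) := by
    have hpos : 0 < c * A * β := by positivity
    calc Λ = c * A * β * Real.exp (Real.log (Λ / (c * A * β))) := by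
          rw [Real.exp_log (div_pos hΛ hpos)]
          field_simp
      _ ≤ _ := mul_le_mul_of_nonneg_left (Real.exp_le_exp.2 hlog) hpos.le
  have hvol2 : I * volume (lpBall 1 (b + 1)) ≤
      ENNReal.ofReal (c * A * Real.exp (n / A * E)) * volume (lpBall 1 (b + 1)) := by
    refine hvol.trans ?_
    have e1 : volume (liftL L μ) = ENNReal.ofReal Λ :=
      (ENNReal.ofReal_toReal hL'.1.measure_lt_top.ne).symm
    have e2 : volume (lpBall 1 (b + 1)) = ENNReal.ofReal β := (ENNReal.ofReal_toReal hβt).symm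
    rw [e1, e2, ← ENNReal.ofReal_mul (by positivity)]
    refine ENNReal.ofReal_le_ofReal ?_
    calc Λ ≤ c * A * β * Real.exp (n / A * E) := hΛle
      _ = _ := by ring
  exact (ENNReal.mul_le_mul_iff_left hβ' hβt).1 hvol2

theorem lift_bound (ha : 1 ≤ a) (hb : 1 ≤ b) (h₁ : LogMinkAt K₁) {L : Set (V (a + b))} (hL : CSB L)
    {μ : V b} (hμ : μ ≠ 0) :
    ∫⁻ x in pa '' L, ENNReal.ofReal (((supp (sectA L x) μ + supp (sectA L x) (-μ)) / 2) ^ b) ≤
      ENNReal.ofReal (cab a b * (volume K₁).toReal * Real.exp (((a : ℝ) + (b : ℝ)) / (volume K₁).toReal *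
        ∫ x in K₁, (1 / 2) * (Real.log (supp L (ap (gaugeGrad K₁ x) μ)) +
          Real.log (supp L (ap (gaugeGrad K₁ x) (-μ)))))) := by
  obtain ⟨b', rfl⟩ : ∃ b', b = b' + 1 := ⟨b - 1, by omega⟩
  exact lift_bound_succ ha h₁ hL hμ

end Vale.Agent.Lib.P227Z
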