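import Vale.Agent.Lib.P227H.ApproxFib
import Vale.Agent.Lib.P227H.Base

/-! # JOB H15: `ℓ_q` balls and bodies of revolution

`lpBall q (n+1)`: induction on `n`. Base `n = 0`: `lpBall q 1 = {x | |x 0| ≤ 1}` is the zonotope of the single generator `e₀` (`logMinkAt_of_zonoid`).
Step: `gauge (lpBall q (n+1)) y = (∑ |y i|^q)^(1/q)` (homogeneous), and
`lpBall q (n+2) = fib (lpBall q (n+1)) ρ 1` with `ρ s = (1 - |s|^q)^(1/q)` (`Fin.sum_univ_succ`; `tl`). `IsProfile ρ 1`: concavity of `ρ` comes from convexity of `t ↦ t^q`.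
`revBody`: the Euclidean ball is `lpBall 2`; its gauge is the square root of the sum of squares.
-/

open MeasureTheory Set Filter Topology Matrix
open scoped Pointwise ENNReal Nat

namespace Vale.Agent.Lib.P227Z

/-- The `ℓ_q^n` unit ball. -/
def lpBall (q : ℝ) (n : ℕ) : Set (V n) := {x | ∑ i, |x i| ^ q ≤ 1}

/-- The origin-symmetric body of revolution `{(s, y) : |s| ≤ T, |y|₂ ≤ ρ s}` in `ℝ^(n+1)`. -/
def revBody (n : ℕ) (ρ : ℝ → ℝ) (T : ℝ) : Set (V (n + 1)) :=
  {z | |z 0| ≤ T ∧ Real.sqrt (∑ i, (tl z i) ^ 2) ≤ ρ (z 0)}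

private lemma sum_rpow_nonneg {q : ℝ} {n : ℕ} (x : V n) : 0 ≤ ∑ i, |x i| ^ q :=
  Finset.sum_nonneg fun i _ => Real.rpow_nonneg (abs_nonneg _) _

private lemma mem_lpBall_iff {q : ℝ} (hq : 1 ≤ q) {n : ℕ} (x : V n) :
    x ∈ lpBall q n ↔ (∑ i, |x i| ^ q) ^ (1 / q) ≤ 1 := by
  have hq0 : 0 < q := by linarith
  have hS := sum_rpow_nonneg (q := q) x
  constructor
  · intro h
    exact Real.rpow_le_one hS h (by positivity)
  · intro h
    by_contra hc
    have hc' : 1 < ∑ i, |x i| ^ q := not_le.1 hc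
    have := Real.one_lt_rpow hc' (show 0 < 1 / q by positivity)
    linarith

private lemma sum_smul {q : ℝ} (hq : 1 ≤ q) {n : ℕ} (x : V n) {c : ℝ} (hc : 0 ≤ c) :
    (∑ i, |(c • x) i| ^ q) ^ (1 / q) = c * (∑ i, |x i| ^ q) ^ (1 / q) := by
  have hq0 : 0 < q := by linarith
  have h1 : ∑ i, |(c • x) i| ^ q = c ^ q * ∑ i, |x i| ^ q := by
    rw [Finset.mul_sum]
    refine Finset.sum_congr rfl fun i _ => ?_
    simp only [Pi.smul_apply, smul_eq_mul, abs_mul, abs_of_nonneg hc]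
    exact Real.mul_rpow hc (abs_nonneg _)
  rw [h1, Real.mul_rpow (Real.rpow_nonneg hc _) (sum_rpow_nonneg x),
    ← Real.rpow_mul hc, mul_one_div_cancel hq0.ne', Real.rpow_one]

theorem gauge_lpBall {q : ℝ} (hq : 1 ≤ q) {n : ℕ} (x : V n) :
    gauge (lpBall q n) x = (∑ i, |x i| ^ q) ^ (1 / q) := by
  set P : ℝ := (∑ i, |x i| ^ q) ^ (1 / q) with hP
  have hP0 : 0 ≤ P := Real.rpow_nonneg (sum_rpow_nonneg x) _
  have hset : {r : ℝ | 0 < r ∧ x ∈ r • lpBall q n} = {r : ℝ | 0 < r ∧ P ≤ r} := by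
    ext r
    simp only [mem_ofPred_eq]
    refine and_congr_right fun hr => ?_
    rw [mem_smul_set_iff_inv_smul_mem₀ hr.ne', mem_lpBall_iff hq, sum_smul hq x (inv_nonneg.2 hr.le),
      ← hP, inv_mul_le_iff₀ hr, mul_one]
  unfold gauge
  rw [hset]
  by_cases h0 : P = 0
  · rw [h0]
    have : {r : ℝ | 0 < r ∧ 0 ≤ r} = Ioi 0 := by
      ext r
      simp only [mem_ofPred_eq, mem_Ioi]
      exact ⟨fun h => h.1, fun h => ⟨h, h.le⟩⟩
    rw [this, csInf_Ioi]
  · have hpos : 0 < P := lt_of_le_of_ne hP0 (Ne.symm h0)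
    have : {r : ℝ | 0 < r ∧ P ≤ r} = Ici P := by
      ext r
      simp only [mem_ofPred_eq, mem_Ici]
      exact ⟨fun h => h.2, fun h => ⟨lt_of_lt_of_le hpos h, h⟩⟩
    rw [this, csInf_Ici]

private lemma continuous_sum_rpow {q : ℝ} (hq : 1 ≤ q) {n : ℕ} :
    Continuous fun x : V n => ∑ i, |x i| ^ q := by
  have hq0 : 0 ≤ q := by linarith
  refine continuous_finsetSum _ fun i _ => ?_
  exact ((continuous_apply i).abs).rpow_const fun _ => Or.inr hq0

private lemma abs_le_one_of_mem {q : ℝ} (hq : 1 ≤ q) {n : ℕ} {x : V n} (hx : x ∈ lpBall q n)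
    (i : Fin n) : |x i| ≤ 1 := by
  have hq0 : 0 < q := by linarith
  have h1 : |x i| ^ q ≤ ∑ j, |x j| ^ q :=
    Finset.single_le_sum (f := fun j => |x j| ^ q)
      (fun j _ => Real.rpow_nonneg (abs_nonneg _) _) (Finset.mem_univ i)
  have h2 : |x i| ^ q ≤ 1 := h1.trans hx
  by_contra hc
  have hc' : 1 < |x i| := not_le.1 hc
  have := Real.one_lt_rpow hc' hq0
  linarith

private lemma abs_add_rpow_le {q : ℝ} (hq : 1 ≤ q) {a b s t : ℝ} (ha : 0 ≤ a) (hb : 0 ≤ b)
    (hab : a + b = 1) : |a * s + b * t| ^ q ≤ a * |s| ^ q + b * |t| ^ q := by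
  have hq0 : 0 ≤ q := by linarith
  have h1 : |a * s + b * t| ≤ a * |s| + b * |t| := by
    calc |a * s + b * t| ≤ |a * s| + |b * t| := abs_add_le _ _
      _ = a * |s| + b * |t| := by rw [abs_mul, abs_mul, abs_of_nonneg ha, abs_of_nonneg hb]
  have h2 := (convexOn_rpow hq).2 (mem_Ici.2 (abs_nonneg s)) (mem_Ici.2 (abs_nonneg t)) ha hb hab
  simp only [smul_eq_mul] at h2
  exact (Real.rpow_le_rpow (abs_nonneg _) h1 hq0).trans h2

theorem body_lpBall {q : ℝ} (hq : 1 ≤ q) (n : ℕ) : Body (lpBall q n) := by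
  have hq0 : 0 < q := by linarith
  have hclosed : IsClosed (lpBall q n) := isClosed_le (continuous_sum_rpow hq) continuous_const
  refine ⟨?_, ?_, ?_, ?_⟩
  · refine IsCompact.of_isClosed_subset (isCompact_closedBall (0 : V n) 1) hclosed fun x hx => ?_
    rw [mem_closedBall_zero_iff, pi_norm_le_iff_of_nonneg zero_le_one]
    intro i
    rw [Real.norm_eq_abs]
    exact abs_le_one_of_mem hq hx i
  · intro x hx y hy a b ha hb hab
    change ∑ i, |(a • x + b • y) i| ^ q ≤ 1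
    calc ∑ i, |(a • x + b • y) i| ^ q
        ≤ ∑ i, (a * |x i| ^ q + b * |y i| ^ q) := by
          refine Finset.sum_le_sum fun i _ => ?_
          simpa using abs_add_rpow_le hq ha hb hab
      _ = a * ∑ i, |x i| ^ q + b * ∑ i, |y i| ^ q := by
          rw [Finset.sum_add_distrib, Finset.mul_sum, Finset.mul_sum]
      _ ≤ a * 1 + b * 1 := by
          have hx' : ∑ i, |x i| ^ q ≤ 1 := hx
          have hy' : ∑ i, |y i| ^ q ≤ 1 := hy
          gcongr
      _ = 1 := by rw [mul_one, mul_one, hab]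
  · intro x hx
    change ∑ i, |(-x) i| ^ q ≤ 1
    have hx' : ∑ i, |x i| ^ q ≤ 1 := hx
    simpa [abs_neg] using hx'
  · have hopen : IsOpen {x : V n | ∑ i, |x i| ^ q < 1} :=
      isOpen_lt (continuous_sum_rpow hq) continuous_const
    have h0 : (0 : V n) ∈ {x : V n | ∑ i, |x i| ^ q < 1} := by
      simp only [mem_ofPred_eq, Pi.zero_apply, abs_zero, Real.zero_rpow hq0.ne']
      simp
    refine Filter.mem_of_superset (hopen.mem_nhds h0) fun x hx => ?_
    have hx' : ∑ i, |x i| ^ q < 1 := hx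
    exact le_of_lt hx'

/-- The profile of the `ℓ_q` ball. -/
private noncomputable def rhoq (q s : ℝ) : ℝ := (1 - |s| ^ q) ^ (1 / q)

private lemma one_sub_nonneg_of_mem {q : ℝ} (hq : 1 ≤ q) {s : ℝ} (hs : s ∈ Icc (-1 : ℝ) 1) :
    0 ≤ 1 - |s| ^ q := by
  have hq0 : 0 ≤ q := by linarith
  have : |s| ≤ 1 := abs_le.2 hs
  have := Real.rpow_le_one (abs_nonneg s) this hq0
  linarith

private lemma rhoq_rpow {q : ℝ} (hq : 1 ≤ q) {s : ℝ} (hs : s ∈ Icc (-1 : ℝ) 1) :
    rhoq q s ^ q = 1 - |s| ^ q := by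
  have hq0 : 0 < q := by linarith
  unfold rhoq
  rw [← Real.rpow_mul (one_sub_nonneg_of_mem hq hs), one_div_mul_cancel hq0.ne', Real.rpow_one]

private lemma isProfile_rhoq {q : ℝ} (hq : 1 ≤ q) : IsProfile (rhoq q) 1 := by
  have hq0 : 0 < q := by linarith
  refine ⟨one_pos, ?_, ⟨convex_Icc _ _, ?_⟩, ?_, ?_, ?_⟩
  · intro s
    simp [rhoq, abs_neg]
  · intro s hs t ht a b ha hb hab
    have hmem : a • s + b • t ∈ Icc (-1 : ℝ) 1 := convex_Icc _ _ hs ht ha hb hab
    have hrs : 0 ≤ rhoq q s := Real.rpow_nonneg (one_sub_nonneg_of_mem hq hs) _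
    have hrt : 0 ≤ rhoq q t := Real.rpow_nonneg (one_sub_nonneg_of_mem hq ht) _
    have hconv := (convexOn_rpow hq).2 (mem_Ici.2 hrs) (mem_Ici.2 hrt) ha hb hab
    simp only [smul_eq_mul] at hconv hmem ⊢
    rw [rhoq_rpow hq hs, rhoq_rpow hq ht] at hconv
    have h3 := abs_add_rpow_le hq (s := s) (t := t) ha hb hab
    have hle : (a * rhoq q s + b * rhoq q t) ^ q ≤ 1 - |a * s + b * t| ^ q := by
      have e : a * (1 - |s| ^ q) + b * (1 - |t| ^ q) = 1 - (a * |s| ^ q + b * |t| ^ q) := by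
        linear_combination hab
      rw [e] at hconv
      linarith
    have hnn : 0 ≤ a * rhoq q s + b * rhoq q t := by positivity
    calc a * rhoq q s + b * rhoq q t
        = ((a * rhoq q s + b * rhoq q t) ^ q) ^ (1 / q) := by
          rw [← Real.rpow_mul hnn, mul_one_div_cancel hq0.ne', Real.rpow_one]
      _ ≤ _ := Real.rpow_le_rpow (Real.rpow_nonneg hnn _) hle (by positivity)
  · refine Continuous.continuousOn ?_
    unfold rhoq
    refine Continuous.rpow_const ?_ fun _ => Or.inr (by positivity)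
    exact continuous_const.sub (continuous_abs.rpow_const fun _ => Or.inr hq0.le)
  · intro s hs
    exact Real.rpow_nonneg (one_sub_nonneg_of_mem hq hs) _
  · simp [rhoq, Real.zero_rpow hq0.ne']

private lemma lpBall_succ_eq_fib {q : ℝ} (hq : 1 ≤ q) (n : ℕ) :
    lpBall q (n + 1) = fib (lpBall q n) (rhoq q) 1 := by
  have hq0 : 0 < q := by linarith
  ext z
  have hsum : ∑ i, |z i| ^ q = |z 0| ^ q + ∑ j, |tl z j| ^ q := by
    rw [Fin.sum_univ_succ]
    rfl
  have hS := sum_rpow_nonneg (q := q) (tl z)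
  change ∑ i, |z i| ^ q ≤ 1 ↔ |z 0| ≤ 1 ∧ gauge (lpBall q n) (tl z) ≤ rhoq q (z 0)
  rw [gauge_lpBall hq, hsum]
  constructor
  · intro h
    have h0 : |z 0| ^ q ≤ 1 := by linarith
    have h1 : |z 0| ≤ 1 := by
      by_contra hc
      have := Real.one_lt_rpow (not_le.1 hc) hq0
      linarith
    refine ⟨h1, ?_⟩
    exact Real.rpow_le_rpow hS (by linarith) (by positivity)
  · rintro ⟨h1, h2⟩
    have hmem : z 0 ∈ Icc (-1 : ℝ) 1 := abs_le.1 h1
    have hT := one_sub_nonneg_of_mem hq hmem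
    have h3 := (Real.rpow_le_rpow_iff hS hT (show 0 < 1 / q by positivity)).1 h2
    linarith

private lemma logMinkAt_lpBall_one {q : ℝ} (hq : 1 ≤ q) : LogMinkAt (lpBall q 1) := by
  have hq0 : 0 < q := by linarith
  have hz : lpBall q 1 = zonotope (fun _ : Fin 1 => (e0 : V 1)) := by
    ext x
    have h0 : ∑ i, |x i| ^ q = |x 0| ^ q := by simp
    change ∑ i, |x i| ^ q ≤ 1 ↔ _
    rw [h0]
    constructor
    · intro h
      refine ⟨fun _ => x 0, fun _ => ?_, ?_⟩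
      · by_contra hc
        have := Real.one_lt_rpow (not_le.1 hc) hq0
        linarith
      · funext i
        have hi : i = 0 := Subsingleton.elim _ _
        subst hi
        simp [e0]
    · rintro ⟨t, ht, rfl⟩
      have h1 : |(∑ i, t i • (e0 : V 1)) 0| ≤ 1 := by
        simpa [e0] using ht 0
      exact Real.rpow_le_one (abs_nonneg _) h1 hq0.le
  have hB := body_lpBall hq 1
  refine logMinkAt_of_zonoid ⟨hB.compact, hB.convex, hB.symm, ?_⟩ hB.volume_pos
  intro ε hε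
  refine ⟨1, fun _ => e0, ?_, ?_⟩
  · rw [← hz]
    exact Metric.self_subset_cthickening _
  · rw [← hz]
    exact Metric.self_subset_cthickening _

theorem logMinkAt_lpBall {q : ℝ} (hq : 1 ≤ q) (n : ℕ) : LogMinkAt (lpBall q (n + 1)) := by
  induction n with
  | zero => exact logMinkAt_lpBall_one hq
  | succ n ih =>
    rw [lpBall_succ_eq_fib hq (n + 1)]
    exact logMinkAt_fib (Nat.succ_pos n) ih (isProfile_rhoq hq)

private lemma revBody_eq_fib (n : ℕ) (ρ : ℝ → ℝ) (T : ℝ) :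
    revBody (n + 1) ρ T = fib (lpBall 2 (n + 1)) ρ T := by
  ext z
  have hq : (1 : ℝ) ≤ 2 := one_le_two
  change (|z 0| ≤ T ∧ Real.sqrt (∑ i, (tl z i) ^ 2) ≤ ρ (z 0)) ↔
    (|z 0| ≤ T ∧ gauge (lpBall 2 (n + 1)) (tl z) ≤ ρ (z 0))
  rw [gauge_lpBall hq, Real.sqrt_eq_rpow]
  have : ∑ i, |tl z i| ^ (2 : ℝ) = ∑ i, (tl z i) ^ 2 := by
    refine Finset.sum_congr rfl fun i _ => ?_
    rw [Real.rpow_two, sq_abs]
  rw [this]

/-- All symmetric bodies of revolution in dimension `≥ 2`. -/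
theorem logMinkAt_revBody (n : ℕ) {ρ : ℝ → ℝ} {T : ℝ} (hρ : IsProfile ρ T) :
    LogMinkAt (revBody (n + 1) ρ T) := by
  rw [revBody_eq_fib]
  exact logMinkAt_fib (Nat.succ_pos n) (logMinkAt_lpBall one_le_two n) hρ

end Vale.Agent.Lib.P227Z
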