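import Vale.Agent.Lib.P227H.Defs

/-! # JOB H1: the pair-term inequality (elementary real algebra; see the comment for the proof). -/

open Set

namespace Vale.Agent.Lib.P227Z

/-- The polynomial heart of the pair-term inequality: `z' = min m (p q)`, `x = min m W`, `y = min m q²`. -/
private theorem pair_core {p q m W : ℝ} (hq : 0 ≤ q) (hpq : q ≤ p) (hm0 : 0 ≤ m) (hW1 : q ^ 2 ≤ W)
    (hW2 : W ≤ p ^ 2) (hm : W < p ^ 2 → 2 * m ≤ W + 2 * (p * q) - q ^ 2) :
    0 ≤ (p - q) ^ 2 * (min m W + min m (q ^ 2)) + min m W * (2 * m - min m W) +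
      min m (q ^ 2) * (2 * m - min m (q ^ 2)) - 2 * (min m (p * q) * (2 * m - min m (p * q))) := by
  have hp : 0 ≤ p := hq.trans hpq
  have hqg : q ^ 2 ≤ p * q := by nlinarith
  have hgp : p * q ≤ p ^ 2 := by nlinarith
  have ht : 0 ≤ p - q := by linarith
  rcases le_total m (q ^ 2) with h1 | h1
  · -- `m ≤ q²`
    have hx : min m W = m := min_eq_left (h1.trans hW1)
    have hy : min m (q ^ 2) = m := min_eq_left h1
    have hz : min m (p * q) = m := min_eq_left (h1.trans hqg)
    rw [hx, hy, hz]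
    nlinarith [mul_nonneg (sq_nonneg (p - q)) hm0]
  · have hy : min m (q ^ 2) = q ^ 2 := min_eq_right h1
    rw [hy]
    rcases le_total m W with h2 | h2
    · -- `q² ≤ m ≤ W`
      have hx : min m W = m := min_eq_left h2
      rw [hx]
      rcases le_total m (p * q) with h3 | h3
      · have hz : min m (p * q) = m := min_eq_left h3
        rw [hz]
        have e : (p - q) ^ 2 * (m + q ^ 2) + m * (2 * m - m) + q ^ 2 * (2 * m - q ^ 2) -
            2 * (m * (2 * m - m)) = (p - q) ^ 2 * (m + q ^ 2) - (m - q ^ 2) ^ 2 := by ring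
        rw [e]
        have h4 : m - q ^ 2 ≤ q * (p - q) := by nlinarith
        have h5 : 0 ≤ m - q ^ 2 := by linarith
        have h6 : (m - q ^ 2) ^ 2 ≤ (q * (p - q)) ^ 2 := pow_le_pow_left₀ h5 h4 2
        have h7 : 0 ≤ (p - q) ^ 2 * m := mul_nonneg (sq_nonneg _) hm0
        nlinarith
      · have hz : min m (p * q) = p * q := min_eq_right h3
        rw [hz]
        have e : (p - q) ^ 2 * (m + q ^ 2) + m * (2 * m - m) + q ^ 2 * (2 * m - q ^ 2) -
            2 * (p * q * (2 * m - p * q)) =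
              ((m - p * q) - q * (p - q)) ^ 2 + q * (p - q) ^ 3 + (m - p * q) * (p - q) ^ 2 := by
          ring
        rw [e]
        have h8 : 0 ≤ m - p * q := by linarith
        positivity
    · -- `W ≤ m`
      have hx : min m W = W := min_eq_right h2
      rw [hx]
      rcases eq_or_lt_of_le hW2 with h3 | h3
      · -- `W = p²`
        subst h3
        have hz : min m (p * q) = p * q := min_eq_right (hgp.trans h2)
        rw [hz]
        have e : (p - q) ^ 2 * (p ^ 2 + q ^ 2) + p ^ 2 * (2 * m - p ^ 2) + q ^ 2 * (2 * m - q ^ 2) -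
            2 * (p * q * (2 * m - p * q)) = (p - q) ^ 2 * (2 * (m - p * q)) := by ring
        rw [e]
        have h8 : 0 ≤ m - p * q := by linarith
        positivity
      · have htop := hm h3
        rcases le_total m (p * q) with h4 | h4
        · have hz : min m (p * q) = m := min_eq_left h4
          rw [hz]
          have e : (p - q) ^ 2 * (W + q ^ 2) + W * (2 * m - W) + q ^ 2 * (2 * m - q ^ 2) -
              2 * (m * (2 * m - m)) =
                (p ^ 2 - W) * (W - q ^ 2) + 2 * ((p * q - m) * (m - W + q * (p - q))) := by ring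
          rw [e]
          have h5 : 0 ≤ p ^ 2 - W := by linarith
          have h6 : 0 ≤ W - q ^ 2 := by linarith
          have h7 : 0 ≤ p * q - m := by linarith
          have h8 : 0 ≤ m - W + q * (p - q) := by
            have : 0 ≤ q * (p - q) := mul_nonneg hq ht
            linarith
          positivity
        · have hz : min m (p * q) = p * q := min_eq_right h4
          rw [hz]
          rcases le_total (2 * (p * q)) (W + q ^ 2) with h5 | h5
          · have e : (p - q) ^ 2 * (W + q ^ 2) + W * (2 * m - W) + q ^ 2 * (2 * m - q ^ 2) -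
                2 * (p * q * (2 * m - p * q)) =
                  ((W - q ^ 2) - 2 * q * (p - q)) ^ 2 + (W - q ^ 2) * (p - q) ^ 2 +
                    2 * ((m - W) * (W + q ^ 2 - 2 * (p * q))) := by ring
            rw [e]
            have h6 : 0 ≤ W - q ^ 2 := by linarith
            have h7 : 0 ≤ m - W := by linarith
            have h8 : 0 ≤ W + q ^ 2 - 2 * (p * q) := by linarith
            positivity
          · have e : (p - q) ^ 2 * (W + q ^ 2) + W * (2 * m - W) + q ^ 2 * (2 * m - q ^ 2) -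
                2 * (p * q * (2 * m - p * q)) =
                  (p - q) ^ 2 * (W - q ^ 2) +
                    (W + 2 * (p * q) - q ^ 2 - 2 * m) * (2 * (p * q) - (W + q ^ 2)) := by ring
            rw [e]
            have h6 : 0 ≤ W - q ^ 2 := by linarith
            have h7 : 0 ≤ W + 2 * (p * q) - q ^ 2 - 2 * m := by linarith
            have h8 : 0 ≤ 2 * (p * q) - (W + q ^ 2) := by linarith
            positivity

/-- `z ↦ z (2m - z)` is monotone below `m`. -/
private theorem psi_mono {z z' m : ℝ} (h : z ≤ z') (h' : z' ≤ m) :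
    z * (2 * m - z) ≤ z' * (2 * m - z') := by
  nlinarith

/-- The case `m ≤ Mb`, with `q ≤ p`. -/
private theorem pair_caseA {p q M Mb m z₀ : ℝ} (hq : 0 ≤ q) (hpq : q ≤ p)
    (hXY : p ^ 2 + q ^ 2 ≤ 2 * M) (hzg : z₀ ≤ p * q)
    (hD : (p - q) ^ 2 ≤ 2 * (M - Mb)) (hm0 : 0 ≤ m) (hmMb : m ≤ Mb) :
    0 ≤ min m (mu M (p ^ 2)) * (2 * M - min m (mu M (p ^ 2))) -
        2 * min m (mu M (p ^ 2)) * (Mb - m) +
      min m (mu M (q ^ 2)) * (2 * M - min m (mu M (q ^ 2))) -
        2 * min m (mu M (q ^ 2)) * (Mb - m) -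
      2 * min m z₀ * (2 * m - min m z₀) := by
  have hp : 0 ≤ p := hq.trans hpq
  have hqp : q ^ 2 ≤ p ^ 2 := pow_le_pow_left₀ hq hpq 2
  have hmuq : mu M (q ^ 2) = q ^ 2 := by
    unfold mu
    exact min_eq_left (by linarith)
  rw [hmuq]
  set W := mu M (p ^ 2) with hWdef
  have hW1 : q ^ 2 ≤ W := by
    rw [hWdef]
    unfold mu
    exact le_min hqp (by linarith)
  have hW2 : W ≤ p ^ 2 := by
    rw [hWdef]
    unfold mu
    exact min_le_left _ _
  have hWtop : W < p ^ 2 → 2 * m ≤ W + 2 * (p * q) - q ^ 2 := by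
    intro h
    have hW3 : W = 2 * M - p ^ 2 := by
      rw [hWdef]
      unfold mu
      rcases min_choice (p ^ 2) (2 * M - p ^ 2) with h' | h'
      · rw [hWdef] at h
        unfold mu at h
        rw [h'] at h
        exact absurd h (lt_irrefl _)
      · exact h'
    nlinarith
  have hcore := pair_core hq hpq hm0 hW1 hW2 hWtop
  have hx0 : 0 ≤ min m W := le_min hm0 ((sq_nonneg q).trans hW1)
  have hy0 : 0 ≤ min m (q ^ 2) := le_min hm0 (sq_nonneg q)
  have hz1 : min m z₀ ≤ min m (p * q) := min_le_min_left _ hzg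
  have hz2 : min m (p * q) ≤ m := min_le_left _ _
  have hpsi := psi_mono hz1 hz2
  have hD' : 0 ≤ (2 * (M - Mb) - (p - q) ^ 2) * (min m W + min m (q ^ 2)) :=
    mul_nonneg (by linarith) (by linarith)
  nlinarith

/-- Paper proof. Put `Δ = M - Mb`, `p = √(max)`, `q = √(min)` and assume `m ≤ Mb` first (if `m > Mb` the
expression is nondecreasing in `x, y`, so it is at least its value at `m = Mb`).
With `mb = m`, and `ψ(x) = x (2m - x) = m² - (m - x)²`, the expression is
`2Δ (x + y) + 2 (m - z)² - (m - x)² - (m - y)²`. Also `m ≤ M - Δ`.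
Write `X ≥ Y` wlog, `p = √X`, `q = √Y`, `2Δ ≥ (p - q)²`, `z₀ ≤ g := p q`.
Case X ≤ M: x₀ = X, y₀ = Y.
 * m ≤ Y: x = y = m; expression ≥ 0 as (m - z)² ≥ 0.
 * Y < m ≤ X: y = Y, x = m. If g ≥ m: need (m - Y)² ≤ 2Δ(m + Y) using 2Δ ≥ (m - Y)²/Y.
   If g < m: polynomial inequality `m² + m (g² - 6 g + 3) + 3 g² - 2 g ≥ 0` (scaled Y = 1) for m ≥ g ≥ 1.
 * X, Y < m: expression ≥ (p - q)² (2m - 2g) ≥ 0.
Case X > M: x₀ = W := 2M - X ≥ Y, and `2m ≤ 2pq - q² + W` from `m ≤ M - Δ`.
 * m ≤ Y or Y < m ≤ W: as above.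
 * m > W, g ≥ m: expression ≥ (p - q)² W - (pq - W)², concave in W, ≥ 0 at W = q², W = pq.
 * m > W, g < m: expression is linear in m; if W + q² ≥ 2pq check at m = W: with A = W - q², B = p - q it is
   (A - 2qB)² + A B²; otherwise check at m = pq + (W - q²)/2: it is (p - q)² (W - q²). -/
theorem pair_term {X Y z₀ M Mb m : ℝ} (hX : 0 ≤ X) (hY : 0 ≤ Y) (hXY : X + Y ≤ 2 * M)
    (hz : 0 ≤ z₀) (hzX : z₀ ≤ Real.sqrt (X * Y))
    (hD : (Real.sqrt X - Real.sqrt Y) ^ 2 ≤ 2 * (M - Mb))
    (hzM : z₀ ≤ Mb) (hm0 : 0 ≤ m) (hmM : m ≤ M) :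
    0 ≤ min m (mu M X) * (2 * M - min m (mu M X)) - 2 * min m (mu M X) * (Mb - min m Mb) +
      min m (mu M Y) * (2 * M - min m (mu M Y)) - 2 * min m (mu M Y) * (Mb - min m Mb) -
      2 * min (min m Mb) z₀ * (2 * min m Mb - min (min m Mb) z₀) := by
  -- reduction to `Y ≤ X`
  wlog hle : Y ≤ X generalizing X Y
  · have h := this hY hX (by linarith) (by rwa [mul_comm]) (by
      have e : (Real.sqrt Y - Real.sqrt X) ^ 2 = (Real.sqrt X - Real.sqrt Y) ^ 2 := by ring
      rwa [e]) (le_of_not_ge hle)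
    linarith
  set p := Real.sqrt X with hp
  set q := Real.sqrt Y with hq
  have hq0 : 0 ≤ q := Real.sqrt_nonneg _
  have hpq : q ≤ p := Real.sqrt_le_sqrt hle
  have hXp : X = p ^ 2 := (Real.sq_sqrt hX).symm
  have hYq : Y = q ^ 2 := (Real.sq_sqrt hY).symm
  have hg : Real.sqrt (X * Y) = p * q := Real.sqrt_mul hX Y
  rw [hg] at hzX
  have hMbM : Mb ≤ M := by nlinarith [sq_nonneg (p - q)]
  have hMb0 : 0 ≤ Mb := hz.trans hzM
  have hXY' : p ^ 2 + q ^ 2 ≤ 2 * M := by
    rw [← hXp, ← hYq]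
    exact hXY
  rw [hXp, hYq]
  rcases le_total m Mb with h1 | h1
  · have hmb : min m Mb = m := min_eq_left h1
    rw [hmb]
    exact pair_caseA hq0 hpq hXY' hzX hD hm0 h1
  · have hmb : min m Mb = Mb := min_eq_right h1
    rw [hmb]
    have hA := pair_caseA (m := Mb) hq0 hpq hXY' hzX hD hMb0 le_rfl
    have hzz : min Mb z₀ = z₀ := min_eq_right hzM
    rw [hzz] at hA ⊢
    -- monotonicity in `m`
    have hmono : ∀ W : ℝ, min Mb W * (2 * M - min Mb W) ≤ min m W * (2 * M - min m W) := by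
      intro W
      have h2 : min Mb W ≤ min m W := min_le_min_right _ h1
      have h3 : min m W ≤ M := (min_le_left _ _).trans hmM
      nlinarith
    have h4 := hmono (mu M (p ^ 2))
    have h5 := hmono (mu M (q ^ 2))
    have e1 : Mb - Mb = 0 := sub_self _
    rw [e1] at hA ⊢
    nlinarith

end Vale.Agent.Lib.P227Z
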