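import Vale.Agent.Lib.P227H.Append
import Vale.Agent.Lib.P227H.Radial
import Vale.Agent.Lib.P227H.Section

/-! # JOB S4: products

`K = prodBody K₁ K₂`, `gauge K z = max (g₁ (pa z)) (g₂ (pb z))`, gradient `ap p₁ 0` where `g₁ > g₂`, `ap 0 p₂` where `g₂ > g₁`; the tie set is null. With `radial_pow`:
`∫_K f (grad) = (a/(a+b)) |K₂| ∫_{K₁} f (ap (p₁ x) 0) + (b/(a+b)) |K₁| ∫_{K₂} f (ap 0 (p₂ y))`; note `f (ap (1/1 • ..))`: the gradient of `max` is exactly the gradient of the active function.
Let `L` be `CSB`. `π L = pa '' L ⊂ V a` is `CSB`, and `supp (π L) ν = supp L (ap ν 0)`. For `x`: sections `C = sectA L x`: `(supp C μ + supp C (-μ)) / 2 ≤ supp L (ap 0 μ)`, because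
`y, y' ∈ C` give `(x, y)`, `-(x, y') ∈ L`. So, by `section_bound` (for `x` with `C` of positive volume), `|C| ≤ |K₂| exp((b/|K₂|) ∫_{K₂} log supp L (ap 0 (p₂ y)))` =: `B`.
`|L| = ∫_{π L} |C| ≤ |π L| B`, and `|π L| ≤ |K₁| exp((a/|K₁|) ∫_{K₁} log supp L (ap (p₁ x) 0))` (`LogMinkAt K₁`).
-/

open MeasureTheory Set Filter Topology Matrix
open scoped Pointwise ENNReal Nat

namespace Vale.Agent.Lib.P227Z

variable {a b : ℕ} {K₁ : Set (V a)} {K₂ : Set (V b)}

/-! ### coordinates -/

private theorem prodB_ap_inj : Function.Injective (fun q : V a × V b => ap q.1 q.2) := by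
  intro q q' h
  have h1 : pa (ap q.1 q.2) = pa (ap q'.1 q'.2) := congrArg pa h
  have h2 : pb (ap q.1 q.2) = pb (ap q'.1 q'.2) := congrArg pb h
  simp only [pa_ap, pb_ap] at h1 h2
  exact Prod.ext h1 h2

private theorem prodB_me : MeasurableEmbedding (fun q : V a × V b => ap q.1 q.2) :=
  continuous_ap.measurableEmbedding prodB_ap_inj

/-- Fubini, `y` first. -/
private theorem prodB_setIntegral_symm {S : Set (V (a + b))} (hS : MeasurableSet S)
    {f : V (a + b) → ℝ} (hf : IntegrableOn f S) :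
    ∫ z in S, f z = ∫ y : V b, ∫ x in {x : V a | ap x y ∈ S}, f (ap x y) := by
  have hmp := measurePreserving_ap (a := a) (b := b)
  have hme := prodB_me (a := a) (b := b)
  have hP : MeasurableSet ((fun q : V a × V b => ap q.1 q.2) ⁻¹' S) := hmp.measurable hS
  rw [← hmp.setIntegral_preimage_emb hme f S, ← integral_indicator hP]
  have hint : Integrable (((fun q : V a × V b => ap q.1 q.2) ⁻¹' S).indicator
      (fun q => f (ap q.1 q.2))) (volume.prod volume) := by
    rw [integrable_indicator_iff hP]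
    exact (hmp.integrableOn_comp_preimage hme).2 hf
  rw [integral_prod_symm _ hint]
  refine integral_congr_ae (ae_of_all _ fun y => ?_)
  have hsec : MeasurableSet {x : V a | ap x y ∈ S} := by
    have : {x : V a | ap x y ∈ S} =
        (fun x => (x, y)) ⁻¹' ((fun q : V a × V b => ap q.1 q.2) ⁻¹' S) := rfl
    rw [this]
    exact measurable_prodMk_right hP
  show ∫ x, ((fun q : V a × V b => ap q.1 q.2) ⁻¹' S).indicator (fun q => f (ap q.1 q.2)) (x, y) =
    ∫ x in {x : V a | ap x y ∈ S}, f (ap x y)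
  rw [← integral_indicator hsec]
  rfl

private theorem prodB_dot_left (z : V (a + b)) (ν : V a) : z ⬝ᵥ ap ν (0 : V b) = pa z ⬝ᵥ ν := by
  have h := dot_ap (pa z) ν (pb z) (0 : V b)
  rw [ap_pa_pb] at h
  simpa using h

private theorem prodB_dot_right (z : V (a + b)) (μ : V b) : z ⬝ᵥ ap (0 : V a) μ = pb z ⬝ᵥ μ := by
  have h := dot_ap (pa z) (0 : V a) (pb z) μ
  rw [ap_pa_pb] at h
  simpa using h

private theorem prodB_ap_add (x x' : V a) (y y' : V b) : ap x y + ap x' y' = ap (x + x') (y + y') := by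
  funext i
  refine Fin.addCases (fun j => ?_) (fun j => ?_) i <;> simp [ap]

private theorem prodB_ap_smul (c : ℝ) (x : V a) (y : V b) : c • ap x y = ap (c • x) (c • y) := by
  funext i
  refine Fin.addCases (fun j => ?_) (fun j => ?_) i <;> simp [ap]

private theorem prodB_ap_neg (x : V a) (y : V b) : - ap x y = ap (-x) (-y) := by
  funext i
  refine Fin.addCases (fun j => ?_) (fun j => ?_) i <;> simp [ap]

/-! ### the body -/

theorem body_prodBody (h₁ : Body K₁) (h₂ : Body K₂) : Body (prodBody K₁ K₂) := by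
  refine ⟨?_, ?_, ?_, ?_⟩
  · have : prodBody K₁ K₂ = (fun q : V a × V b => ap q.1 q.2) '' (K₁ ×ˢ K₂) := by
      ext z
      constructor
      · rintro ⟨h1, h2⟩
        exact ⟨(pa z, pb z), ⟨h1, h2⟩, ap_pa_pb z⟩
      · rintro ⟨q, ⟨h1, h2⟩, rfl⟩
        constructor
        · simpa using h1
        · simpa using h2
    rw [this]
    exact (h₁.compact.prod h₂.compact).image continuous_ap
  · intro z hz z' hz' s t hs ht hst
    exact ⟨h₁.convex hz.1 hz'.1 hs ht hst, h₂.convex hz.2 hz'.2 hs ht hst⟩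
  · intro z hz
    exact ⟨h₁.symm _ hz.1, h₂.symm _ hz.2⟩
  · have h1 : pa ⁻¹' K₁ ∈ 𝓝 (0 : V (a + b)) :=
      continuous_pa.continuousAt.preimage_mem_nhds (by exact h₁.nhds)
    have h2 : pb ⁻¹' K₂ ∈ 𝓝 (0 : V (a + b)) :=
      continuous_pb.continuousAt.preimage_mem_nhds (by exact h₂.nhds)
    exact Filter.inter_mem h1 h2

private theorem prodB_gauge_le {n : ℕ} {K : Set (V n)} (hK : Body K) (z : V n) {c : ℝ} (hc : 0 < c) :
    gauge K z ≤ c ↔ c⁻¹ • z ∈ K := by
  rw [hK.mem_iff, gauge_smul_of_nonneg (inv_nonneg.2 hc.le), smul_eq_mul, inv_mul_le_iff₀ hc, mul_one]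

theorem gauge_prodBody (h₁ : Body K₁) (h₂ : Body K₂) (z : V (a + b)) :
    gauge (prodBody K₁ K₂) z = max (gauge K₁ (pa z)) (gauge K₂ (pb z)) := by
  have hK := body_prodBody h₁ h₂
  have hiff : ∀ c : ℝ, 0 < c →
      (gauge (prodBody K₁ K₂) z ≤ c ↔ max (gauge K₁ (pa z)) (gauge K₂ (pb z)) ≤ c) := by
    intro c hc
    rw [prodB_gauge_le hK z hc, max_le_iff, prodB_gauge_le h₁ _ hc, prodB_gauge_le h₂ _ hc]
    rfl
  have hm : 0 ≤ max (gauge K₁ (pa z)) (gauge K₂ (pb z)) := le_max_of_le_left (gauge_nonneg _)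
  apply le_antisymm
  · apply le_of_forall_pos_le_add
    intro ε hε
    exact (hiff _ (by positivity)).2 (by linarith)
  · apply le_of_forall_pos_le_add
    intro ε hε
    have := gauge_nonneg (s := prodBody K₁ K₂) z
    exact (hiff _ (by positivity)).1 (by linarith)

/-! ### gradients -/

private theorem prodB_diff_left (y : V b) : Differentiable ℝ (fun x : V a => ap x y) := by
  rw [differentiable_pi]
  intro i
  refine Fin.addCases (fun j => ?_) (fun j => ?_) i
  · simp only [ap, Fin.append_left]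
    fun_prop
  · simp only [ap, Fin.append_right]
    fun_prop

private theorem prodB_diff_right (x : V a) : Differentiable ℝ (fun y : V b => ap x y) := by
  rw [differentiable_pi]
  intro i
  refine Fin.addCases (fun j => ?_) (fun j => ?_) i
  · simp only [ap, Fin.append_left]
    fun_prop
  · simp only [ap, Fin.append_right]
    fun_prop

private noncomputable def prodB_paL : V (a + b) →L[ℝ] V a :=
  ContinuousLinearMap.pi fun i => ContinuousLinearMap.proj (Fin.castAdd b i)

private noncomputable def prodB_pbL : V (a + b) →L[ℝ] V b :=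
  ContinuousLinearMap.pi fun i => ContinuousLinearMap.proj (Fin.natAdd a i)

private theorem prodB_paL_apply (z : V (a + b)) : (prodB_paL z : V a) = pa z := rfl

private theorem prodB_pbL_apply (z : V (a + b)) : (prodB_pbL z : V b) = pb z := rfl

/-- The derivative of `g ∘ pa`, differentiable or not. -/
private theorem prodB_fderiv_left (g : V a → ℝ) (z : V (a + b)) (i : Fin (a + b)) :
    fderiv ℝ (fun w : V (a + b) => g (pa w)) z (Pi.single i 1) =
      ap (fun j => fderiv ℝ g (pa z) (Pi.single j 1)) (0 : V b) i := by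
  by_cases hd : DifferentiableAt ℝ g (pa z)
  · have h1 : HasFDerivAt (fun w : V (a + b) => g (pa w))
        ((fderiv ℝ g (pa z)).comp (prodB_paL (a := a) (b := b))) z :=
      hd.hasFDerivAt.comp z (prodB_paL (a := a) (b := b)).hasFDerivAt
    rw [h1.fderiv]
    simp only [ContinuousLinearMap.comp_apply, prodB_paL_apply]
    refine Fin.addCases (fun j => ?_) (fun j => ?_) i
    · have h2 : pa (Pi.single (Fin.castAdd b j) (1 : ℝ) : V (a + b)) = (Pi.single j 1 : V a) := by
        funext k
        simp only [pa, Pi.single_apply, Fin.castAdd_inj]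
      rw [h2]
      simp [ap]
    · have h2 : pa (Pi.single (Fin.natAdd a j) (1 : ℝ) : V (a + b)) = (0 : V a) := by
        funext k
        have : Fin.castAdd b k ≠ Fin.natAdd a j := by
          intro h
          have := congrArg Fin.val h
          simp only [Fin.val_castAdd, Fin.val_natAdd] at this
          omega
        simp [pa, this]
      rw [h2]
      simp [ap]
  · have h1 : ¬ DifferentiableAt ℝ (fun w : V (a + b) => g (pa w)) z := by
      intro h
      apply hd
      have h2 : DifferentiableAt ℝ (fun x : V a => ap x (pb z)) (pa z) := prodB_diff_left _ _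
      have h3 : DifferentiableAt ℝ (fun w : V (a + b) => g (pa w)) (ap (pa z) (pb z)) := by
        rw [ap_pa_pb]
        exact h
      have h4 := h3.comp (pa z) h2
      have h5 : ((fun w : V (a + b) => g (pa w)) ∘ fun x : V a => ap x (pb z)) = g := by
        funext x
        simp
      rwa [h5] at h4
    rw [fderiv_zero_of_not_differentiableAt h1, fderiv_zero_of_not_differentiableAt hd]
    refine Fin.addCases (fun j => ?_) (fun j => ?_) i <;> simp [ap]

private theorem prodB_fderiv_right (g : V b → ℝ) (z : V (a + b)) (i : Fin (a + b)) :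
    fderiv ℝ (fun w : V (a + b) => g (pb w)) z (Pi.single i 1) =
      ap (0 : V a) (fun j => fderiv ℝ g (pb z) (Pi.single j 1)) i := by
  by_cases hd : DifferentiableAt ℝ g (pb z)
  · have h1 : HasFDerivAt (fun w : V (a + b) => g (pb w))
        ((fderiv ℝ g (pb z)).comp (prodB_pbL (a := a) (b := b))) z :=
      hd.hasFDerivAt.comp z (prodB_pbL (a := a) (b := b)).hasFDerivAt
    rw [h1.fderiv]
    simp only [ContinuousLinearMap.comp_apply, prodB_pbL_apply]
    refine Fin.addCases (fun j => ?_) (fun j => ?_) i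
    · have h2 : pb (Pi.single (Fin.castAdd b j) (1 : ℝ) : V (a + b)) = (0 : V b) := by
        funext k
        have : Fin.natAdd a k ≠ Fin.castAdd b j := by
          intro h
          have := congrArg Fin.val h
          simp only [Fin.val_castAdd, Fin.val_natAdd] at this
          omega
        simp [pb, this]
      rw [h2]
      simp [ap]
    · have h2 : pb (Pi.single (Fin.natAdd a j) (1 : ℝ) : V (a + b)) = (Pi.single j 1 : V b) := by
        funext k
        simp only [pb, Pi.single_apply, Fin.natAdd_inj]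
      rw [h2]
      simp [ap]
  · have h1 : ¬ DifferentiableAt ℝ (fun w : V (a + b) => g (pb w)) z := by
      intro h
      apply hd
      have h2 : DifferentiableAt ℝ (fun y : V b => ap (pa z) y) (pb z) := prodB_diff_right _ _
      have h3 : DifferentiableAt ℝ (fun w : V (a + b) => g (pb w)) (ap (pa z) (pb z)) := by
        rw [ap_pa_pb]
        exact h
      have h4 := h3.comp (pb z) h2
      have h5 : ((fun w : V (a + b) => g (pb w)) ∘ fun y : V b => ap (pa z) y) = g := by
        funext x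
        simp
      rwa [h5] at h4
    rw [fderiv_zero_of_not_differentiableAt h1, fderiv_zero_of_not_differentiableAt hd]
    refine Fin.addCases (fun j => ?_) (fun j => ?_) i <;> simp [ap]

private theorem prodB_cont₁ (h₁ : Body K₁) : Continuous (fun z : V (a + b) => gauge K₁ (pa z)) :=
  (continuous_gauge h₁.convex h₁.nhds).comp continuous_pa

private theorem prodB_cont₂ (h₂ : Body K₂) : Continuous (fun z : V (a + b) => gauge K₂ (pb z)) :=
  (continuous_gauge h₂.convex h₂.nhds).comp continuous_pb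

private theorem prodB_grad_left (h₁ : Body K₁) (h₂ : Body K₂) {z : V (a + b)}
    (hz : gauge K₂ (pb z) < gauge K₁ (pa z)) :
    gaugeGrad (prodBody K₁ K₂) z = ap (gaugeGrad K₁ (pa z)) (0 : V b) := by
  have hU : {w : V (a + b) | gauge K₂ (pb w) < gauge K₁ (pa w)} ∈ 𝓝 z :=
    (isOpen_lt (prodB_cont₂ h₂) (prodB_cont₁ h₁)).mem_nhds hz
  have heq : gauge (prodBody K₁ K₂) =ᶠ[𝓝 z] fun w : V (a + b) => gauge K₁ (pa w) := by
    filter_upwards [hU] with w hw
    rw [gauge_prodBody h₁ h₂, max_eq_left (le_of_lt hw)]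
  funext i
  simp only [gaugeGrad]
  rw [heq.fderiv_eq, prodB_fderiv_left]
  rfl

private theorem prodB_grad_right (h₁ : Body K₁) (h₂ : Body K₂) {z : V (a + b)}
    (hz : gauge K₁ (pa z) < gauge K₂ (pb z)) :
    gaugeGrad (prodBody K₁ K₂) z = ap (0 : V a) (gaugeGrad K₂ (pb z)) := by
  have hU : {w : V (a + b) | gauge K₁ (pa w) < gauge K₂ (pb w)} ∈ 𝓝 z :=
    (isOpen_lt (prodB_cont₁ h₁) (prodB_cont₂ h₂)).mem_nhds hz
  have heq : gauge (prodBody K₁ K₂) =ᶠ[𝓝 z] fun w : V (a + b) => gauge K₂ (pb w) := by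
    filter_upwards [hU] with w hw
    rw [gauge_prodBody h₁ h₂, max_eq_right (le_of_lt hw)]
  funext i
  simp only [gaugeGrad]
  rw [heq.fderiv_eq, prodB_fderiv_right]
  rfl

/-! ### level sets of a gauge -/

private theorem prodB_vol_smul {n : ℕ} (S : Set (V n)) {t : ℝ} (ht : 0 < t) :
    volume (t • S) = ENNReal.ofReal (t ^ n) * volume S := by
  rw [Measure.addHaar_smul, Module.finrank_fin_fun, abs_of_pos (pow_pos ht n)]

private theorem prodB_le_eq_smul {n : ℕ} {K : Set (V n)} (hK : Body K) {t : ℝ} (ht : 0 < t) :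
    {y | gauge K y ≤ t} = t • K := by
  ext y
  rw [mem_ofPred_eq, prodB_gauge_le hK y ht, mem_smul_set_iff_inv_smul_mem₀ ht.ne']

private theorem prodB_eq_null {n : ℕ} {K : Set (V n)} (hK : Body K) (hn : 1 ≤ n) (t : ℝ) :
    volume {y | gauge K y = t} = 0 := by
  rcases lt_trichotomy t 0 with ht | ht | ht
  · have : {y | gauge K y = t} = ∅ := by
      ext y
      simp only [mem_ofPred_eq, mem_empty_iff_false, iff_false]
      intro h
      have := gauge_nonneg (s := K) y
      linarith
    rw [this, measure_empty]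
  · subst ht
    have : NeZero n := ⟨by omega⟩
    have : {y | gauge K y = 0} ⊆ {(0 : V n)} := by
      intro y hy
      by_contra hne
      exact (hK.gauge_pos hne).ne' hy
    exact measure_mono_null this (measure_singleton _)
  · have hsub : {y | gauge K y = t} ⊆ t • frontier K := by
      intro y hy
      rw [mem_smul_set_iff_inv_smul_mem₀ ht.ne']
      have hg : gauge K (t⁻¹ • y) = 1 := by
        rw [gauge_smul_of_nonneg (inv_nonneg.2 ht.le), smul_eq_mul, hy, inv_mul_cancel₀ ht.ne']
      have h1 : t⁻¹ • y ∈ K := hK.mem_iff.2 hg.le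
      refine ⟨subset_closure h1, fun hint => ?_⟩
      have := interior_subset_gauge_lt_one K hint
      rw [mem_ofPred_eq, hg] at this
      exact lt_irrefl _ this
    refine measure_mono_null hsub ?_
    rw [prodB_vol_smul _ ht, hK.frontier_null, mul_zero]

private theorem prodB_vol_lt {n : ℕ} {K : Set (V n)} (hK : Body K) (hn : 1 ≤ n) {t : ℝ} (ht : 0 ≤ t) :
    (volume {y | gauge K y < t}).toReal = t ^ n * (volume K).toReal := by
  rcases ht.eq_or_lt with rfl | ht
  · have : {y | gauge K y < 0} = ∅ := by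
      ext y
      simp only [mem_ofPred_eq, mem_empty_iff_false, iff_false, not_lt]
      exact gauge_nonneg y
    rw [this, measure_empty, zero_pow (by omega)]
    simp
  · have h1 : {y | gauge K y ≤ t} = {y | gauge K y < t} ∪ {y | gauge K y = t} := by
      ext y
      simp only [mem_ofPred_eq, mem_union]
      exact le_iff_lt_or_eq
    have h2 : volume {y | gauge K y ≤ t} = volume {y | gauge K y < t} := by
      apply le_antisymm
      · rw [h1]
        exact (measure_union_le _ _).trans (by rw [prodB_eq_null hK hn t, add_zero])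
      · exact measure_mono (fun y (hy : gauge K y < t) => (le_of_lt hy : gauge K y ≤ t))
    rw [← h2, prodB_le_eq_smul hK ht, prodB_vol_smul _ ht, ENNReal.toReal_mul,
      ENNReal.toReal_ofReal (by positivity)]

/-! ### volume of the product -/

private theorem prodB_sect_mem (x : V a) : sectA (prodBody K₁ K₂) x = {y | x ∈ K₁ ∧ y ∈ K₂} := by
  ext y
  simp [sectA, prodBody]

theorem volume_prodBody (h₁ : Body K₁) (h₂ : Body K₂) :
    (volume (prodBody K₁ K₂)).toReal = (volume K₁).toReal * (volume K₂).toReal := by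
  have hK := body_prodBody h₁ h₂
  rw [volume_eq_lintegral_sectA hK.compact.measurableSet]
  have h : ∀ x : V a, volume (sectA (prodBody K₁ K₂) x) = K₁.indicator (fun _ => volume K₂) x := by
    intro x
    rw [prodB_sect_mem]
    by_cases hx : x ∈ K₁
    · simp [hx]
    · simp [hx]
  simp_rw [h]
  rw [lintegral_indicator_const h₁.compact.measurableSet, ENNReal.toReal_mul, mul_comm]

/-! ### projections -/

private theorem prodB_supp_pa (L : Set (V (a + b))) (ν : V a) :
    supp (pa '' L) ν = supp L (ap ν (0 : V b)) := by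
  unfold supp
  congr 1
  ext t
  simp only [mem_image, exists_exists_and_eq_and, prodB_dot_left]

private theorem prodB_supp_pb (L : Set (V (a + b))) (μ : V b) :
    supp (pb '' L) μ = supp L (ap (0 : V a) μ) := by
  unfold supp
  congr 1
  ext t
  simp only [mem_image, exists_exists_and_eq_and, prodB_dot_right]

private theorem prodB_sect_empty {L : Set (V (a + b))} {x : V a} (hx : x ∉ pa '' L) :
    sectA L x = ∅ := by
  ext y
  simp only [mem_empty_iff_false, iff_false]
  intro hy
  exact hx ⟨ap x y, hy, pa_ap x y⟩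

private theorem prodB_vol_pa_pos {L : Set (V (a + b))} (hL : SymB L) : 0 < volume (pa '' L) := by
  by_contra h0
  have h0' : volume (pa '' L) = 0 := le_antisymm (not_lt.1 h0) (zero_le)
  have hc : IsCompact (pa '' L) := hL.1.image continuous_pa
  have h1 : volume L = ∫⁻ x : V a, volume (sectA L x) :=
    volume_eq_lintegral_sectA hL.1.measurableSet
  have h2 : ∫⁻ x : V a, volume (sectA L x) = 0 := by
    rw [lintegral_eq_zero_iff' ?_]
    · have : ∀ᵐ x : V a, x ∉ pa '' L := measure_eq_zero_iff_ae_notMem.1 h0'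
      filter_upwards [this] with x hx
      rw [prodB_sect_empty hx, measure_empty]
      rfl
    · exact (measurable_measure_prodMk_left
        (measurePreserving_ap.measurable hL.1.measurableSet)).aemeasurable
  rw [h2] at h1
  exact hL.2.2.ne' h1

private theorem prodB_vol_pb_pos {L : Set (V (a + b))} (hL : SymB L) : 0 < volume (pb '' L) := by
  by_contra h0
  have h0' : volume (pb '' L) = 0 := le_antisymm (not_lt.1 h0) (zero_le)
  have hmp := measurePreserving_ap (a := a) (b := b)
  have hP : MeasurableSet ((fun q : V a × V b => ap q.1 q.2) ⁻¹' L) :=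
    hmp.measurable hL.1.measurableSet
  have h1 := hmp.measure_preimage hL.1.measurableSet.nullMeasurableSet
  have hsub : (fun q : V a × V b => ap q.1 q.2) ⁻¹' L ⊆ Set.univ ×ˢ (pb '' L) := by
    intro q hq
    exact ⟨mem_univ _, ap q.1 q.2, hq, pb_ap _ _⟩
  have h2 : (volume.prod volume) ((fun q : V a × V b => ap q.1 q.2) ⁻¹' L) = 0 := by
    refine measure_mono_null hsub ?_
    rw [Measure.prod_prod, h0', mul_zero]
  rw [h2] at h1
  exact hL.2.2.ne' h1.symm

private theorem prodB_symB_pa {L : Set (V (a + b))} (hL : SymB L) : SymB (pa '' L) := by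
  refine ⟨hL.1.image continuous_pa, ?_, prodB_vol_pa_pos hL⟩
  rintro _ ⟨z, hz, rfl⟩
  exact ⟨-z, hL.2.1 z hz, rfl⟩

private theorem prodB_symB_pb {L : Set (V (a + b))} (hL : SymB L) : SymB (pb '' L) := by
  refine ⟨hL.1.image continuous_pb, ?_, prodB_vol_pb_pos hL⟩
  rintro _ ⟨z, hz, rfl⟩
  exact ⟨-z, hL.2.1 z hz, rfl⟩

/-! ### the cone formula -/

private theorem prodB_int₁ (h₁ : Body K₁) {L : Set (V (a + b))} (hL : SymB L) :
    IntegrableOn (fun x => Real.log (supp L (ap (gaugeGrad K₁ x) (0 : V b)))) K₁ := by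
  have := h₁.integrableOn_log (prodB_symB_pa hL)
  simpa only [prodB_supp_pa] using this

private theorem prodB_int₂ (h₂ : Body K₂) {L : Set (V (a + b))} (hL : SymB L) :
    IntegrableOn (fun y => Real.log (supp L (ap (0 : V a) (gaugeGrad K₂ y)))) K₂ := by
  have := h₂.integrableOn_log (prodB_symB_pb hL)
  simpa only [prodB_supp_pb] using this

theorem cone_prodBody (ha : 1 ≤ a) (hb : 1 ≤ b) (h₁ : Body K₁) (h₂ : Body K₂) {L : Set (V (a + b))}
    (hL : SymB L) :
    ∫ z in prodBody K₁ K₂, Real.log (supp L (gaugeGrad (prodBody K₁ K₂) z)) =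
      (((a : ℝ) / ((a : ℝ) + (b : ℝ))) * (volume K₂).toReal *
          ∫ x in K₁, Real.log (supp L (ap (gaugeGrad K₁ x) (0 : V b)))) +
        (((b : ℝ) / ((a : ℝ) + (b : ℝ))) * (volume K₁).toReal *
          ∫ y in K₂, Real.log (supp L (ap (0 : V a) (gaugeGrad K₂ y)))) := by
  have hK := body_prodBody h₁ h₂
  set K := prodBody K₁ K₂ with hKdef
  set Φ : V (a + b) → ℝ := fun z => Real.log (supp L (gaugeGrad K z)) with hΦ
  have hΦi : IntegrableOn Φ K := hK.integrableOn_log hL
  have hKm : MeasurableSet K := hK.compact.measurableSet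
  set f₁ : V a → ℝ := fun x => Real.log (supp L (ap (gaugeGrad K₁ x) (0 : V b))) with hf₁
  set f₂ : V b → ℝ := fun y => Real.log (supp L (ap (0 : V a) (gaugeGrad K₂ y))) with hf₂
  set R₁ : Set (V (a + b)) := {z | gauge K₂ (pb z) < gauge K₁ (pa z)} with hR₁
  set R₂ : Set (V (a + b)) := {z | gauge K₁ (pa z) < gauge K₂ (pb z)} with hR₂
  have hR₁m : MeasurableSet R₁ := (isOpen_lt (prodB_cont₂ h₂) (prodB_cont₁ h₁)).measurableSet
  have hR₂m : MeasurableSet R₂ := (isOpen_lt (prodB_cont₁ h₁) (prodB_cont₂ h₂)).measurableSet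
  set S₁ := K ∩ R₁ with hS₁
  set S₂ := K ∩ R₂ with hS₂
  have hS₁m : MeasurableSet S₁ := hKm.inter hR₁m
  have hS₂m : MeasurableSet S₂ := hKm.inter hR₂m
  -- the tie set
  have htie : volume {z : V (a + b) | gauge K₁ (pa z) = gauge K₂ (pb z)} = 0 := by
    have hm : MeasurableSet {z : V (a + b) | gauge K₁ (pa z) = gauge K₂ (pb z)} :=
      (isClosed_eq (prodB_cont₁ h₁) (prodB_cont₂ h₂)).measurableSet
    rw [volume_eq_lintegral_sectA hm, lintegral_eq_zero_iff' ?_]
    · refine ae_of_all _ fun x => ?_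
      have : sectA {z : V (a + b) | gauge K₁ (pa z) = gauge K₂ (pb z)} x =
          {y | gauge K₂ y = gauge K₁ x} := by
        ext y
        simp only [sectA, mem_ofPred_eq, pa_ap, pb_ap, eq_comm]
      show volume (sectA {z : V (a + b) | gauge K₁ (pa z) = gauge K₂ (pb z)} x) = 0
      rw [this]
      exact prodB_eq_null h₂ hb _
    · exact (measurable_measure_prodMk_left
        (measurePreserving_ap.measurable hm)).aemeasurable
  have hsub2 : S₁ ∪ S₂ ⊆ K := union_subset inter_subset_left inter_subset_left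
  have hKae : K =ᵐ[volume] (S₁ ∪ S₂ : Set (V (a + b))) := by
    have hsub : K \ (S₁ ∪ S₂) ⊆ {z : V (a + b) | gauge K₁ (pa z) = gauge K₂ (pb z)} := by
      rintro z ⟨hz, hn⟩
      simp only [mem_union, not_or] at hn
      have h1 : ¬ gauge K₂ (pb z) < gauge K₁ (pa z) := fun h => hn.1 ⟨hz, h⟩
      have h2 : ¬ gauge K₁ (pa z) < gauge K₂ (pb z) := fun h => hn.2 ⟨hz, h⟩
      exact le_antisymm (not_lt.1 h1) (not_lt.1 h2)
    rw [ae_eq_set]
    constructor
    · exact measure_mono_null hsub htie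
    · have : (S₁ ∪ S₂) \ K = ∅ := by
        apply Set.eq_empty_of_forall_notMem
        rintro z ⟨hz, hn⟩
        exact hn (hsub2 hz)
      rw [this, measure_empty]
  have hdisj : Disjoint S₁ S₂ := by
    rw [Set.disjoint_left]
    rintro z ⟨_, h1⟩ ⟨_, h2⟩
    have h1' : gauge K₂ (pb z) < gauge K₁ (pa z) := h1
    have h2' : gauge K₁ (pa z) < gauge K₂ (pb z) := h2
    exact lt_asymm h1' h2'
  have hS₁K : S₁ ⊆ K := inter_subset_left
  have hS₂K : S₂ ⊆ K := inter_subset_left
  rw [setIntegral_congr_set hKae,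
    setIntegral_union hdisj hS₂m (hΦi.mono_set hS₁K) (hΦi.mono_set hS₂K)]
  have hhom₁ : ∀ c : ℝ, 0 < c → ∀ x, f₁ (c • x) = f₁ x := by
    intro c hc x
    simp only [hf₁, gaugeGrad_smul K₁ hc]
  have hhom₂ : ∀ c : ℝ, 0 < c → ∀ y, f₂ (c • y) = f₂ y := by
    intro c hc x
    simp only [hf₂, gaugeGrad_smul K₂ hc]
  have hI₁ : ∫ z in S₁, Φ z = ((a : ℝ) / ((a : ℝ) + (b : ℝ))) * (volume K₂).toReal * ∫ x in K₁, f₁ x := by
    have hcongr : ∀ z ∈ S₁, Φ z = f₁ (pa z) := by
      intro z hz
      simp only [hΦ, hf₁]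
      rw [hKdef, prodB_grad_left h₁ h₂ hz.2]
    have hi : IntegrableOn (fun z => f₁ (pa z)) S₁ :=
      (hΦi.mono_set hS₁K).congr_fun hcongr hS₁m
    rw [setIntegral_congr_fun hS₁m hcongr, setIntegral_ap hS₁m hi]
    have hsect : ∀ x, ∫ y in sectA S₁ x, f₁ (pa (ap x y)) =
        K₁.indicator (fun x => (gauge K₁ x) ^ b * (volume K₂).toReal * f₁ x) x := by
      intro x
      simp only [pa_ap]
      rw [setIntegral_const, smul_eq_mul]
      by_cases hx : x ∈ K₁
      · have h3 : sectA S₁ x = {y | gauge K₂ y < gauge K₁ x} := by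
          ext y
          simp only [sectA, hS₁, hR₁, mem_inter_iff, mem_ofPred_eq, pa_ap, pb_ap, hKdef, prodBody]
          constructor
          · rintro ⟨_, h⟩
            exact h
          · intro h
            exact ⟨⟨hx, h₂.mem_iff.2 (h.le.trans (h₁.mem_iff.1 hx))⟩, h⟩
        rw [indicator_of_mem hx, Measure.real, h3, prodB_vol_lt h₂ hb (gauge_nonneg _)]
      · have h3 : sectA S₁ x = ∅ := by
          ext y
          simp only [sectA, hS₁, mem_inter_iff, hKdef, prodBody, mem_ofPred_eq, pa_ap,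
            mem_empty_iff_false, iff_false]
          rintro ⟨⟨h, _⟩, _⟩
          exact hx h
        rw [indicator_of_notMem hx, Measure.real, h3]
        simp
    simp_rw [hsect]
    rw [integral_indicator h₁.compact.measurableSet]
    have hrad := radial_pow ha h₁ b (ψ := f₁) hhom₁ (prodB_int₁ h₁ hL)
    have h4 : (fun x => gauge K₁ x ^ b * (volume K₂).toReal * f₁ x) =
        fun x => (volume K₂).toReal * (gauge K₁ x ^ b * f₁ x) := by
      funext x
      ring
    rw [h4, integral_const_mul, hrad]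
    ring
  have hI₂ : ∫ z in S₂, Φ z = ((b : ℝ) / ((a : ℝ) + (b : ℝ))) * (volume K₁).toReal * ∫ y in K₂, f₂ y := by
    have hcongr : ∀ z ∈ S₂, Φ z = f₂ (pb z) := by
      intro z hz
      simp only [hΦ, hf₂]
      rw [hKdef, prodB_grad_right h₁ h₂ hz.2]
    have hi : IntegrableOn (fun z => f₂ (pb z)) S₂ :=
      (hΦi.mono_set hS₂K).congr_fun hcongr hS₂m
    rw [setIntegral_congr_fun hS₂m hcongr, prodB_setIntegral_symm hS₂m hi]
    have hsect : ∀ y, ∫ x in {x : V a | ap x y ∈ S₂}, f₂ (pb (ap x y)) =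
        K₂.indicator (fun y => (gauge K₂ y) ^ a * (volume K₁).toReal * f₂ y) y := by
      intro y
      simp only [pb_ap]
      rw [setIntegral_const, smul_eq_mul]
      by_cases hy : y ∈ K₂
      · have h3 : {x : V a | ap x y ∈ S₂} = {x | gauge K₁ x < gauge K₂ y} := by
          ext x
          simp only [hS₂, hR₂, mem_inter_iff, mem_ofPred_eq, pa_ap, pb_ap, hKdef, prodBody]
          constructor
          · rintro ⟨_, h⟩
            exact h
          · intro h
            exact ⟨⟨h₁.mem_iff.2 (h.le.trans (h₂.mem_iff.1 hy)), hy⟩, h⟩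
        rw [indicator_of_mem hy, Measure.real, h3, prodB_vol_lt h₁ ha (gauge_nonneg _)]
      · have h3 : {x : V a | ap x y ∈ S₂} = ∅ := by
          ext x
          simp only [hS₂, mem_inter_iff, hKdef, prodBody, mem_ofPred_eq, pb_ap,
            mem_empty_iff_false, iff_false]
          rintro ⟨⟨_, h⟩, _⟩
          exact hy h
        rw [indicator_of_notMem hy, Measure.real, h3]
        simp
    simp_rw [hsect]
    rw [integral_indicator h₂.compact.measurableSet]
    have hrad := radial_pow hb h₂ a (ψ := f₂) hhom₂ (prodB_int₂ h₂ hL)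
    have h4 : (fun y => gauge K₂ y ^ a * (volume K₁).toReal * f₂ y) =
        fun y => (volume K₁).toReal * (gauge K₂ y ^ a * f₂ y) := by
      funext x
      ring
    rw [h4, integral_const_mul, hrad, add_comm (b : ℝ) (a : ℝ)]
    ring
  rw [hI₁, hI₂]

/-! ### sections -/

private theorem prodB_le_supp {n : ℕ} {A : Set (V n)} (hA : IsCompact A) {y : V n} (hy : y ∈ A) (v : V n) :
    y ⬝ᵥ v ≤ supp A v := by
  have hcl : Continuous fun x : V n => x ⬝ᵥ v := by
    unfold dotProduct
    fun_prop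
  exact le_csSup (hA.bddAbove_image hcl.continuousOn) ⟨y, hy, rfl⟩

private theorem prodB_supp_le {n : ℕ} {A : Set (V n)} (hne : A.Nonempty) {v : V n} {c : ℝ}
    (h : ∀ y ∈ A, y ⬝ᵥ v ≤ c) : supp A v ≤ c := by
  refine csSup_le (hne.image _) ?_
  rintro _ ⟨y, hy, rfl⟩
  exact h y hy

private theorem prodB_sect_compact {L : Set (V (a + b))} (hL : IsCompact L) (x : V a) :
    IsCompact (sectA L x) := by
  refine IsCompact.of_isClosed_subset (hL.image continuous_pb) ?_ ?_
  · exact hL.isClosed.preimage (prodB_diff_right x).continuous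
  · intro y hy
    exact ⟨ap x y, hy, pb_ap x y⟩

private theorem prodB_sect_convex {L : Set (V (a + b))} (hL : Convex ℝ L) (x : V a) :
    Convex ℝ (sectA L x) := by
  intro y hy y' hy' s t hs ht hst
  have h := hL hy hy' hs ht hst
  rw [prodB_ap_smul, prodB_ap_smul, prodB_ap_add, ← add_smul, hst, one_smul] at h
  exact h

private theorem prodB_width_le {L : Set (V (a + b))} (hL : CSB L) {x : V a}
    (hne : (sectA L x).Nonempty) (μ : V b) :
    (supp (sectA L x) μ + supp (sectA L x) (-μ)) / 2 ≤ supp L (ap (0 : V a) μ) := by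
  have hkey : ∀ y ∈ sectA L x, ∀ y' ∈ sectA L x,
      y ⬝ᵥ μ + y' ⬝ᵥ (-μ) ≤ 2 * supp L (ap (0 : V a) μ) := by
    intro y hy y' hy'
    have h1 : ap x y ∈ L := hy
    have h2 : - ap x y' ∈ L := hL.sym.2.1 _ hy'
    have h3 := hL.conv h1 h2 (a := 1 / 2) (b := 1 / 2) (by norm_num) (by norm_num) (by norm_num)
    have h4 := prodB_le_supp hL.sym.1 h3 (ap (0 : V a) μ)
    rw [prodB_dot_right] at h4
    have h5 : pb ((1 / 2 : ℝ) • ap x y + (1 / 2 : ℝ) • - ap x y') = (1 / 2 : ℝ) • y + (1 / 2 : ℝ) • - y' := by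
      rw [prodB_ap_neg, prodB_ap_smul, prodB_ap_smul, prodB_ap_add, pb_ap]
    rw [h5] at h4
    have h6 : ((1 / 2 : ℝ) • y + (1 / 2 : ℝ) • - y') ⬝ᵥ μ = (y ⬝ᵥ μ + y' ⬝ᵥ (-μ)) / 2 := by
      simp only [add_dotProduct, smul_dotProduct, neg_dotProduct, dotProduct_neg, smul_eq_mul]
      ring
    rw [h6] at h4
    linarith
  have h1 : ∀ y' ∈ sectA L x, y' ⬝ᵥ (-μ) ≤ 2 * supp L (ap (0 : V a) μ) - supp (sectA L x) μ := by
    intro y' hy'
    have : supp (sectA L x) μ ≤ 2 * supp L (ap (0 : V a) μ) - y' ⬝ᵥ (-μ) :=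
      prodB_supp_le hne fun y hy => by
        have := hkey y hy y' hy'
        linarith
    linarith
  have h2 := prodB_supp_le hne h1
  linarith

private theorem prodB_width_pos {n : ℕ} {C : Set (V n)} (hC : IsCompact C) (hv : Convex ℝ C)
    (hp : 0 < volume C) {μ : V n} (hμ : μ ≠ 0) :
    0 < (supp C μ + supp C (-μ)) / 2 := by
  have hint : (interior C).Nonempty := by
    by_contra hne
    rw [Set.not_nonempty_iff_eq_empty] at hne
    have hfr : volume (frontier C) = 0 := hv.addHaar_frontier volume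
    have hsub : C ⊆ frontier C := by
      intro y hy
      rw [frontier, hne, Set.sdiff_empty]
      exact subset_closure hy
    exact hp.ne' (measure_mono_null hsub hfr)
  obtain ⟨y₀, hy₀⟩ := hint
  have hcont : Continuous fun s : ℝ => y₀ + s • μ := by fun_prop
  have hnh : C ∈ 𝓝 y₀ := mem_interior_iff_mem_nhds.1 hy₀
  have hev : ∀ᶠ s : ℝ in 𝓝 0, y₀ + s • μ ∈ C := by
    have : Filter.Tendsto (fun s : ℝ => y₀ + s • μ) (𝓝 0) (𝓝 y₀) := by
      have := hcont.tendsto 0
      simpa using this
    exact this hnh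
  have hev2 : ∀ᶠ s : ℝ in 𝓝 0, y₀ + s • μ ∈ C ∧ y₀ + (-s) • μ ∈ C := by
    refine hev.and ?_
    have : Filter.Tendsto (fun s : ℝ => -s) (𝓝 0) (𝓝 0) := by
      have := (continuous_neg (G := ℝ)).tendsto 0
      simpa using this
    exact this hev
  obtain ⟨ε, hε, hball⟩ := Metric.eventually_nhds_iff_ball.1 hev2
  have hs : ε / 2 ∈ Metric.ball (0 : ℝ) ε := by
    rw [Metric.mem_ball, Real.dist_eq, sub_zero, abs_of_pos (by positivity)]
    linarith
  obtain ⟨h1, h2⟩ := hball _ hs
  have h3 := prodB_le_supp hC h1 μ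
  have h4 := prodB_le_supp hC h2 (-μ)
  have hmu : 0 < μ ⬝ᵥ μ := by
    have hnn : 0 ≤ μ ⬝ᵥ μ := Finset.sum_nonneg fun i _ => mul_self_nonneg _
    refine lt_of_le_of_ne hnn fun h => hμ ?_
    exact dotProduct_self_eq_zero.1 h.symm
  simp only [add_dotProduct, smul_dotProduct, dotProduct_neg, smul_eq_mul] at h3 h4
  nlinarith

/-! ### the main theorem -/

theorem logMinkAt_prodBody (ha : 1 ≤ a) (hb : 1 ≤ b) (h₁ : LogMinkAt K₁) (h₂ : LogMinkAt K₂) :
    LogMinkAt (prodBody K₁ K₂) := by
  have hB₁ : Body K₁ := h₁.1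
  have hB₂ : Body K₂ := h₂.1
  have hK := body_prodBody hB₁ hB₂
  refine logMinkAt_of_convex hK fun L hL => ?_
  have hLs : SymB L := hL.sym
  have haR : (0 : ℝ) < a := by exact_mod_cast ha
  have hbR : (0 : ℝ) < b := by exact_mod_cast hb
  set A₁ : ℝ := (volume K₁).toReal with hA₁def
  set A₂ : ℝ := (volume K₂).toReal with hA₂def
  have hA₁ : 0 < A₁ := ENNReal.toReal_pos hB₁.volume_pos.ne' hB₁.compact.measure_lt_top.ne
  have hA₂ : 0 < A₂ := ENNReal.toReal_pos hB₂.volume_pos.ne' hB₂.compact.measure_lt_top.ne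
  rw [cone_prodBody ha hb hB₁ hB₂ hLs, volume_prodBody hB₁ hB₂]
  set F₁ : ℝ := ∫ x in K₁, Real.log (supp L (ap (gaugeGrad K₁ x) (0 : V b))) with hF₁
  set F₂ : ℝ := ∫ y in K₂, Real.log (supp L (ap (0 : V a) (gaugeGrad K₂ y))) with hF₂
  -- the projection
  have hπ := prodB_symB_pa hLs
  have hP := h₁.2 (pa '' L) hπ
  simp only [prodB_supp_pa] at hP
  set P : ℝ := (volume (pa '' L)).toReal with hPdef
  have hPpos : 0 < P := ENNReal.toReal_pos hπ.2.2.ne' hπ.1.measure_lt_top.ne
  have hPle : P ≤ A₁ * Real.exp ((a : ℝ) / A₁ * F₁) := by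
    have h1 : Real.log (P / A₁) ≤ (a : ℝ) / A₁ * F₁ := by
      have h2 : (A₁ / (a : ℝ)) * Real.log (P / A₁) ≤ F₁ := hP
      rw [div_mul_eq_mul_div, div_le_iff₀ haR] at h2
      rw [div_mul_eq_mul_div, le_div_iff₀ hA₁]
      linarith
    have h3 : P / A₁ ≤ Real.exp ((a : ℝ) / A₁ * F₁) := (Real.log_le_iff_le_exp (by positivity)).1 h1
    rw [div_le_iff₀ hA₁] at h3
    linarith
  -- the sections
  set B : ℝ := A₂ * Real.exp ((b : ℝ) / A₂ * F₂) with hB
  have hBpos : 0 < B := by positivity
  have hne : ∀ᵐ y ∂(volume : Measure (V b)), y ≠ 0 := by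
    have : NeZero b := ⟨by omega⟩
    exact compl_mem_ae_iff.2 (measure_singleton _)
  have hpne : ∀ᵐ y ∂(volume.restrict K₂), gaugeGrad K₂ y ≠ 0 := by
    refine ae_restrict_of_ae ?_
    filter_upwards [hne, hB₂.ae_diff] with y hy hd
    exact hB₂.grad_ne_zero hd hy
  have hsec : ∀ x, (volume (sectA L x)).toReal ≤ B := by
    intro x
    by_cases hCp : 0 < volume (sectA L x)
    · have hcpt := prodB_sect_compact hLs.1 x
      have hcvx := prodB_sect_convex hL.conv x
      have hb' := section_bound hb h₂ hcpt hcvx hCp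
      have hCne : (sectA L x).Nonempty := nonempty_of_measure_ne_zero hCp.ne'
      have hmono : ∫ y in K₂, Real.log ((supp (sectA L x) (gaugeGrad K₂ y) +
          supp (sectA L x) (-gaugeGrad K₂ y)) / 2) ≤ F₂ := by
        refine integral_mono_ae hb'.1 (prodB_int₂ hB₂ hLs) ?_
        filter_upwards [hpne] with y hy
        exact Real.log_le_log (prodB_width_pos hcpt hcvx hCp hy) (prodB_width_le hL hCne _)
      refine hb'.2.trans ?_
      simp only [hB]
      refine mul_le_mul_of_nonneg_left ?_ hA₂.le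
      refine Real.exp_le_exp.2 ?_
      exact mul_le_mul_of_nonneg_left hmono (by positivity)
    · have h0 : volume (sectA L x) = 0 := le_antisymm (not_lt.1 hCp) (zero_le)
      rw [h0]
      simpa using hBpos.le
  -- volume of `L`
  have hvolL : volume L ≤ ENNReal.ofReal B * volume (pa '' L) := by
    rw [volume_eq_lintegral_sectA hLs.1.measurableSet]
    calc ∫⁻ x, volume (sectA L x)
        ≤ ∫⁻ x, (pa '' L).indicator (fun _ => ENNReal.ofReal B) x := by
          apply lintegral_mono
          intro x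
          by_cases hx : x ∈ pa '' L
          · simp only [indicator_of_mem hx]
            rw [← ENNReal.ofReal_toReal (prodB_sect_compact hLs.1 x).measure_lt_top.ne]
            exact ENNReal.ofReal_le_ofReal (hsec x)
          · show volume (sectA L x) ≤ _
            rw [prodB_sect_empty hx, measure_empty]
            exact zero_le
      _ = ENNReal.ofReal B * volume (pa '' L) :=
          lintegral_indicator_const hπ.1.measurableSet _
  have hLpos : 0 < (volume L).toReal := ENNReal.toReal_pos hLs.2.2.ne' hLs.1.measure_lt_top.ne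
  have hLle : (volume L).toReal ≤ B * P := by
    have h1 : volume L ≤ ENNReal.ofReal (B * P) := by
      rw [ENNReal.ofReal_mul hBpos.le, hPdef, ENNReal.ofReal_toReal hπ.1.measure_lt_top.ne]
      exact hvolL
    exact ENNReal.toReal_le_of_le_ofReal (by positivity) h1
  -- numerics
  set X : ℝ := (a : ℝ) / A₁ * F₁ + (b : ℝ) / A₂ * F₂ with hX
  have hLX : (volume L).toReal ≤ A₁ * A₂ * Real.exp X := by
    have h1 : B * P ≤ B * (A₁ * Real.exp ((a : ℝ) / A₁ * F₁)) :=
      mul_le_mul_of_nonneg_left hPle hBpos.le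
    have h2 : B * (A₁ * Real.exp ((a : ℝ) / A₁ * F₁)) = A₁ * A₂ * Real.exp X := by
      rw [hX, Real.exp_add, hB]
      ring
    linarith
  have hlog : Real.log ((volume L).toReal / (A₁ * A₂)) ≤ X := by
    rw [Real.log_le_iff_le_exp (by positivity), div_le_iff₀ (by positivity)]
    linarith
  have hn : ((a + b : ℕ) : ℝ) = (a : ℝ) + (b : ℝ) := by push_cast; ring
  rw [hn]
  have hab : (0 : ℝ) < (a : ℝ) + (b : ℝ) := by positivity
  calc A₁ * A₂ / ((a : ℝ) + (b : ℝ)) * Real.log ((volume L).toReal / (A₁ * A₂))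
      ≤ A₁ * A₂ / ((a : ℝ) + (b : ℝ)) * X := mul_le_mul_of_nonneg_left hlog (by positivity)
    _ = (a : ℝ) / ((a : ℝ) + (b : ℝ)) * A₂ * F₁ + (b : ℝ) / ((a : ℝ) + (b : ℝ)) * A₁ * F₂ := by
        rw [hX]
        field_simp

end Vale.Agent.Lib.P227Z
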