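import Vale.Agent.Lib.P227H.Defs

/-! # JOB H3: one-dimensional monotone transport

`H z = ∫_0^z g` is a `C¹` increasing bijection of `ℝ` (`H' = g ≥ g₀ > 0`), and `Γ t = ∫_0^t w` is continuous on
`[-T', T']`, odd, strictly increasing, with `Γ' = w` on the open interval. Take `Z = H⁻¹ ∘ ((J / G) • Γ)`, where
`J = H M`, `G = Γ T'`.
-/

open MeasureTheory Set Filter Topology

namespace Vale.Agent.Lib.P227Z

private lemma tr_wint {T' : ℝ} (w : ℝ → ℝ)
    (hw_cont : ContinuousOn w (Ioo (-T') T')) (hw_bd : ∃ C, ∀ t ∈ Ioo (-T') T', |w t| ≤ C)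
    {a b : ℝ} (ha : a ∈ Icc (-T') T') (hb : b ∈ Icc (-T') T') :
    IntervalIntegrable w volume a b := by
  obtain ⟨C, hC⟩ := hw_bd
  have h : IntegrableOn w (Ioo (-T') T') volume := by
    refine Integrable.of_bound (hw_cont.aestronglyMeasurable measurableSet_Ioo) C ?_
    refine (ae_restrict_iff' measurableSet_Ioo).2 (Eventually.of_forall fun t ht => ?_)
    simpa using hC t ht
  have h2 : IntegrableOn w (Ioc (-T') T') volume := by
    rw [integrableOn_Ioc_iff_integrableOn_Ioo]
    exact h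
  rw [intervalIntegrable_iff]
  refine h2.mono_set ?_
  intro x hx
  rw [uIoc, mem_Ioc] at hx
  have h1 : -T' ≤ min a b := le_min ha.1 hb.1
  have h3 : max a b ≤ T' := max_le ha.2 hb.2
  exact ⟨lt_of_le_of_lt h1 hx.1, hx.2.trans h3⟩

theorem exists_transport {T' M : ℝ} (hT' : 0 < T') (hM : 0 < M) (w g : ℝ → ℝ)
    (hw_even : ∀ t, w (-t) = w t)
    (hw_cont : ContinuousOn w (Ioo (-T') T')) (hw_pos : ∀ t ∈ Ioo (-T') T', 0 < w t)
    (hw_bd : ∃ C, ∀ t ∈ Ioo (-T') T', |w t| ≤ C)
    (hg_cont : Continuous g) (hg_even : ∀ z, g (-z) = g z) {g₀ : ℝ} (hg₀ : 0 < g₀)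
    (hg : ∀ z, g₀ ≤ g z) :
    ∃ Z : ℝ → ℝ, ContinuousOn Z (Icc (-T') T') ∧ (∀ t ∈ Icc (-T') T', Z (-t) = - Z t) ∧ Z T' = M ∧
      StrictMonoOn Z (Icc (-T') T') ∧
      ∀ t ∈ Ioo (-T') T', HasDerivAt Z
        (w t * (∫ z in (0 : ℝ)..M, g z) / ((∫ s in (0 : ℝ)..T', w s) * g (Z t))) t := by
  classical
  -- the function `H`
  set H : ℝ → ℝ := fun z => ∫ x in (0 : ℝ)..z, g x with hH
  have hHd : ∀ z, HasDerivAt H (g z) z := fun z => (hg_cont.integral_hasStrictDerivAt 0 z).hasDerivAt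
  have hHc : Continuous H := continuous_iff_continuousAt.2 fun z => (hHd z).continuousAt
  have hg_pos : ∀ z, 0 < g z := fun z => lt_of_lt_of_le hg₀ (hg z)
  have hHm : StrictMono H := strictMono_of_deriv_pos fun z => by
    rw [(hHd z).deriv]; exact hg_pos z
  have hH0 : H 0 = 0 := by simp [hH]
  have hHodd : ∀ z, H (-z) = - H z := by
    intro z
    have h1 : ∫ x in (0 : ℝ)..z, g (-x) = ∫ x in -z..-0, g x := intervalIntegral.integral_comp_neg _
    simp only [hg_even, neg_zero] at h1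
    show (∫ x in (0 : ℝ)..-z, g x) = - ∫ x in (0 : ℝ)..z, g x
    rw [h1, intervalIntegral.integral_symm]
  have hHlow : ∀ z, 0 ≤ z → g₀ * z ≤ H z := by
    intro z hz
    have h1 : ∫ _x in (0 : ℝ)..z, g₀ ≤ ∫ x in (0 : ℝ)..z, g x :=
      intervalIntegral.integral_mono_on hz intervalIntegrable_const
        (hg_cont.intervalIntegrable _ _) fun x _ => hg x
    simp only [intervalIntegral.integral_const, sub_zero, smul_eq_mul] at h1
    linarith
  have hHsurj : Function.Surjective H := by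
    have h_top : Tendsto H atTop atTop := by
      refine tendsto_atTop_mono' _ ?_ (tendsto_id.const_mul_atTop hg₀)
      filter_upwards [eventually_ge_atTop 0] with z hz
      exact hHlow z hz
    have h_bot : Tendsto H atBot atBot := by
      have h1 : Tendsto (fun z : ℝ => -H (-z)) atBot atBot := by
        have h2 : Tendsto (fun z : ℝ => H (-z)) atBot atTop := h_top.comp tendsto_neg_atBot_atTop
        exact tendsto_neg_atTop_atBot.comp h2
      refine h1.congr fun z => ?_
      rw [hHodd, neg_neg]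
    exact hHc.surjective h_top h_bot
  let e : ℝ ≃o ℝ := hHm.orderIsoOfSurjective H hHsurj
  have he : ∀ z, e z = H z := fun _ => rfl
  -- the function `Γ`
  have hmem0 : (0 : ℝ) ∈ Icc (-T') T' := ⟨by linarith, hT'.le⟩
  have hmemT : T' ∈ Icc (-T') T' := ⟨by linarith, le_refl _⟩
  have hmemN : -T' ∈ Icc (-T') T' := ⟨le_refl _, by linarith⟩
  have hwi := fun {a b : ℝ} (ha : a ∈ Icc (-T') T') (hb : b ∈ Icc (-T') T') =>
    tr_wint w hw_cont hw_bd ha hb
  set Γ : ℝ → ℝ := fun t => ∫ s in (0 : ℝ)..t, w s with hΓ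
  have hΓc : ContinuousOn Γ (Icc (-T') T') := by
    have hi : IntegrableOn w (uIcc (-T') T') volume := by
      have := hwi hmemN hmemT
      rw [intervalIntegrable_iff_integrableOn_Icc_of_le (by linarith)] at this
      rwa [uIcc_of_le (by linarith)]
    have h0 := intervalIntegral.continuousOn_primitive_interval (μ := volume) hi
    rw [uIcc_of_le (by linarith)] at h0
    have h2 : ∀ t ∈ Icc (-T') T', Γ t = (∫ s in (-T')..t, w s) - ∫ s in (-T')..(0 : ℝ), w s := by
      intro t ht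
      show (∫ s in (0 : ℝ)..t, w s) = _
      rw [intervalIntegral.integral_interval_sub_left (hwi hmemN ht) (hwi hmemN hmem0)]
    have h3 : ContinuousOn (fun t => (∫ s in (-T')..t, w s) - ∫ s in (-T')..(0 : ℝ), w s)
        (Icc (-T') T') := h0.sub continuousOn_const
    exact h3.congr h2
  have hΓd : ∀ t ∈ Ioo (-T') T', HasDerivAt Γ (w t) t := by
    intro t ht
    refine intervalIntegral.integral_hasDerivAt_right (hwi hmem0 ⟨ht.1.le, ht.2.le⟩) ?_
      (hw_cont.continuousAt (Ioo_mem_nhds ht.1 ht.2))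
    exact hw_cont.stronglyMeasurableAtFilter isOpen_Ioo _ ht
  have hΓodd : ∀ t ∈ Icc (-T') T', Γ (-t) = - Γ t := by
    intro t _
    have h1 : ∫ x in (0 : ℝ)..t, w (-x) = ∫ x in -t..-0, w x := intervalIntegral.integral_comp_neg _
    simp only [hw_even, neg_zero] at h1
    show (∫ x in (0 : ℝ)..-t, w x) = - ∫ x in (0 : ℝ)..t, w x
    rw [h1, intervalIntegral.integral_symm]
  have hΓm : StrictMonoOn Γ (Icc (-T') T') := by
    intro a ha b hb hab
    have h1 := intervalIntegral.intervalIntegral_pos_of_pos_on (hwi ha hb)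
      (fun x hx => hw_pos x ⟨lt_of_le_of_lt ha.1 hx.1, lt_of_lt_of_le hx.2 hb.2⟩) hab
    have h2 : Γ b - Γ a = ∫ s in a..b, w s := intervalIntegral.integral_interval_sub_left
      (hwi hmem0 hb) (hwi hmem0 ha)
    linarith
  have hG : 0 < Γ T' := by
    have := hΓm hmem0 hmemT hT'
    have h0 : Γ 0 = 0 := by simp [hΓ]
    linarith
  have hJ : 0 < H M := by
    have := hHm hM
    linarith
  set κ : ℝ := H M / Γ T' with hκ
  have hκ0 : 0 < κ := div_pos hJ hG
  refine ⟨fun t => e.symm (κ * Γ t), ?_, ?_, ?_, ?_, ?_⟩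
  · exact e.symm.continuous.comp_continuousOn (continuousOn_const.mul hΓc)
  · intro t ht
    show e.symm (κ * Γ (-t)) = - e.symm (κ * Γ t)
    rw [hΓodd t ht, OrderIso.symm_apply_eq, he, hHodd, ← he, OrderIso.apply_symm_apply]
    ring
  · show e.symm (κ * Γ T') = M
    rw [OrderIso.symm_apply_eq, he, hκ]
    field_simp
  · intro a ha b hb hab
    exact e.symm.strictMono (mul_lt_mul_of_pos_left (hΓm ha hb hab) hκ0)
  · intro t ht
    have h1 : HasDerivAt (fun t => κ * Γ t) (κ * w t) t := (hΓd t ht).const_mul κ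
    set y := κ * Γ t with hy
    have h2 : HasDerivAt e.symm (g (e.symm y))⁻¹ y := by
      refine HasDerivAt.of_local_left_inverse (f := H) e.symm.continuous.continuousAt (hHd _)
        (hg_pos _).ne' (Eventually.of_forall fun y => ?_)
      rw [← he, OrderIso.apply_symm_apply]
    have h3 : HasDerivAt (fun t => e.symm (κ * Γ t)) ((g (e.symm y))⁻¹ * (κ * w t)) t := h2.comp t h1
    have hg' := (hg_pos (e.symm y)).ne'
    have hΓ' := hG.ne'
    have h4 : w t * (∫ z in (0 : ℝ)..M, g z) / ((∫ s in (0 : ℝ)..T', w s) * g (e.symm y)) =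
        (g (e.symm y))⁻¹ * (κ * w t) := by
      show w t * H M / (Γ T' * g (e.symm y)) = _
      rw [hκ]
      field_simp
    show HasDerivAt (fun t => e.symm (κ * Γ t))
      (w t * (∫ z in (0 : ℝ)..M, g z) / ((∫ s in (0 : ℝ)..T', w s) * g (e.symm y))) t
    rw [h4]
    exact h3

end Vale.Agent.Lib.P227Z
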