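import Vale.Agent.Lib.P227H.Defs

/-! # JOB H6: the tangent inequality in integral form

Jensen twice. Write `dν = a ρ^a dt / J0`, a probability measure on `[0, T]`. Since `lam R a ρ^(a-1) = (lam R / ρ) a ρ^a`,
`J0 log(J̄ / J0) ≥ ∫ a ρ^a (log lam + log (R / ρ))`. Then
`a log (R / ρ) = log ((lc c0 + ∫_t^T τ lam a ρ^(a-1)) / (c0 + ∫_t^T τ a ρ^(a-1)))`
`≥ (c0 log lc + ∫_t^T log lam(s) τ(s) a ρ(s)^(a-1) ds) / ρ(t)^a` (Jensen for the masses `c0` and `τ a ρ^(a-1) ds`).
So `∫_0^T ρ^a (a log (R/ρ)) dt ≥ T c0 log lc + ∫_0^T s τ(s) log lam(s) a ρ(s)^(a-1) ds` (Fubini on the triangle).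
Adding up gives the claim, as `a ρ^a + s τ a ρ^(a-1) = (ρ + s τ) a ρ^(a-1)`.
Jensen for `log` can be done by hand: if `A = ∫ f dν > 0` then `log f - log A ≤ f / A - 1`.
-/

open MeasureTheory Set

namespace Vale.Agent.Lib.P227Z

private lemma ua_ii {f : ℝ → ℝ} (hf : Measurable f) {C : ℝ} (hC : ∀ t, |f t| ≤ C) (x y : ℝ) :
    IntervalIntegrable f volume x y := by
  rw [intervalIntegrable_iff]
  exact Measure.integrableOn_of_bounded (M := C) (by simp) hf.aestronglyMeasurable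
    (ae_of_all _ (fun t => by simpa using hC t))

private lemma ua_triangle {T : ℝ} (hT : 0 ≤ T) {h : ℝ → ℝ} (hm : Measurable h) {C : ℝ}
    (hC : ∀ t, |h t| ≤ C) :
    ∫ t in (0:ℝ)..T, ∫ s in t..T, h s = ∫ s in (0:ℝ)..T, s * h s := by
  set μ : Measure ℝ := volume.restrict (Ioc 0 T) with hμ
  have : IsFiniteMeasure μ := ⟨by simp [hμ]⟩
  have hint : Integrable h μ := by
    exact Measure.integrableOn_of_bounded (M := C) (by simp) hm.aestronglyMeasurable
      (ae_of_all _ (fun t => by simpa using hC t))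
  have hF : Integrable (Function.uncurry fun t s : ℝ => ({p : ℝ × ℝ | p.1 < p.2}).indicator
      (fun p => h p.2) (t, s)) (μ.prod μ) := by
    have h1 : Integrable (fun p : ℝ × ℝ => h p.2) (μ.prod μ) := hint.comp_snd μ
    have h2 : MeasurableSet {p : ℝ × ℝ | p.1 < p.2} := measurableSet_lt measurable_fst measurable_snd
    exact h1.indicator h2
  have hswap := integral_integral_swap (μ := μ) (ν := μ) hF
  have hL : ∫ t in (0:ℝ)..T, ∫ s in t..T, h s =
      ∫ t, ∫ s, ({p : ℝ × ℝ | p.1 < p.2}).indicator (fun p => h p.2) (t, s) ∂μ ∂μ := by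
    rw [intervalIntegral.integral_of_le hT]
    refine setIntegral_congr_fun measurableSet_Ioc ?_
    intro t ht
    simp only
    rw [intervalIntegral.integral_of_le ht.2]
    have : (fun s => ({p : ℝ × ℝ | p.1 < p.2}).indicator (fun p => h p.2) (t, s)) =
        (Ioi t).indicator h := by
      ext s
      simp [indicator]
    simp only [this]
    rw [hμ, integral_indicator measurableSet_Ioi, Measure.restrict_restrict measurableSet_Ioi]
    congr 2
    ext s
    simp only [mem_inter_iff, mem_Ioi, mem_Ioc]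
    constructor
    · rintro ⟨h1, h2⟩; exact ⟨h1, lt_trans ht.1 h1, h2⟩
    · rintro ⟨h1, _, h2⟩; exact ⟨h1, h2⟩
  have hR : ∫ s in (0:ℝ)..T, s * h s =
      ∫ s, ∫ t, ({p : ℝ × ℝ | p.1 < p.2}).indicator (fun p => h p.2) (t, s) ∂μ ∂μ := by
    rw [intervalIntegral.integral_of_le hT]
    refine setIntegral_congr_fun measurableSet_Ioc ?_
    intro s hs
    simp only
    have : (fun t => ({p : ℝ × ℝ | p.1 < p.2}).indicator (fun p => h p.2) (t, s)) =
        (Iio s).indicator (fun _ => h s) := by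
      ext t
      simp [indicator]
    simp only [this]
    rw [hμ, integral_indicator measurableSet_Iio, Measure.restrict_restrict measurableSet_Iio]
    have : Iio s ∩ Ioc 0 T = Ioo 0 s := by
      ext t
      simp only [mem_inter_iff, mem_Iio, mem_Ioc, mem_Ioo]
      constructor
      · rintro ⟨h1, h2, _⟩; exact ⟨h2, h1⟩
      · rintro ⟨h1, h2⟩; exact ⟨h2, h1, (h2.trans_le hs.2).le⟩
    rw [this]
    simp [hs.1.le]
  rw [hL, hR, hswap]


private lemma ua_jensen {x y : ℝ} (hxy : x ≤ y) {m lam : ℝ → ℝ}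
    (hm : IntervalIntegrable m volume x y)
    (hm0 : ∀ s ∈ Icc x y, 0 ≤ m s)
    (hlam : ∀ s ∈ Icc x y, 0 < lam s)
    (h1 : IntervalIntegrable (fun s => lam s * m s) volume x y)
    (h2 : IntervalIntegrable (fun s => Real.log (lam s) * m s) volume x y)
    {c lc W A : ℝ} (hc : 0 ≤ c) (hlc : 0 < lc)
    (hW : W = c + ∫ s in x..y, m s) (hA : A = lc * c + ∫ s in x..y, lam s * m s)
    (hWpos : 0 < W) (hApos : 0 < A) :
    c * Real.log lc + ∫ s in x..y, Real.log (lam s) * m s ≤ W * Real.log (A / W) := by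
  set B := A / W with hB
  have hBpos : 0 < B := div_pos hApos hWpos
  have key : ∀ z : ℝ, 0 < z → Real.log z ≤ Real.log B - 1 + z / B := by
    intro z hz
    have := Real.log_le_sub_one_of_pos (div_pos hz hBpos)
    rw [Real.log_div hz.ne' hBpos.ne'] at this
    linarith
  have h3 : ∫ s in x..y, Real.log (lam s) * m s ≤
      ∫ s in x..y, ((Real.log B - 1) * m s + (1 / B) * (lam s * m s)) := by
    apply intervalIntegral.integral_mono_on hxy h2 ((hm.const_mul _).add (h1.const_mul _))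
    intro s hs
    have h := key (lam s) (hlam s hs)
    have hms := hm0 s hs
    have h' : Real.log (lam s) * m s ≤ (Real.log B - 1 + lam s / B) * m s :=
      mul_le_mul_of_nonneg_right h hms
    calc _ ≤ _ := h'
      _ = _ := by ring
  have h4 : ∫ s in x..y, ((Real.log B - 1) * m s + (1 / B) * (lam s * m s)) =
      (Real.log B - 1) * (∫ s in x..y, m s) + (1 / B) * ∫ s in x..y, lam s * m s := by
    rw [intervalIntegral.integral_add (hm.const_mul _) (h1.const_mul _),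
      intervalIntegral.integral_const_mul, intervalIntegral.integral_const_mul]
  have h5 : c * Real.log lc ≤ c * (Real.log B - 1 + lc / B) :=
    mul_le_mul_of_nonneg_left (key lc hlc) hc
  have h6 : (1 / B) * A = W := by rw [hB]; field_simp
  have h7 : c * (Real.log B - 1 + lc / B) + ((Real.log B - 1) * (∫ s in x..y, m s) +
      (1 / B) * ∫ s in x..y, lam s * m s) = (Real.log B - 1) * W + (1 / B) * A := by
    rw [hW, hA]; ring
  have h8 : W * Real.log B = (Real.log B - 1) * W + W := by ring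
  rw [h6] at h7
  linarith

/-- Bounded measurable functions. -/
private def UaB (f : ℝ → ℝ) : Prop := Measurable f ∧ ∃ C, ∀ t, |f t| ≤ C

private lemma UaB.ii {f : ℝ → ℝ} (h : UaB f) (x y : ℝ) : IntervalIntegrable f volume x y := by
  obtain ⟨hm, C, hC⟩ := h
  exact ua_ii hm hC x y

private lemma UaB.mul {f g : ℝ → ℝ} (hf : UaB f) (hg : UaB g) : UaB (fun t => f t * g t) := by
  obtain ⟨hm, C, hC⟩ := hf
  obtain ⟨hm', C', hC'⟩ := hg
  refine ⟨hm.mul hm', C * C', fun t => ?_⟩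
  rw [abs_mul]
  exact mul_le_mul (hC t) (hC' t) (abs_nonneg _) ((abs_nonneg _).trans (hC t))

private lemma UaB.cont_primitive {f : ℝ → ℝ} (h : UaB f) (T : ℝ) :
    Continuous (fun t => ∫ s in t..T, f s) := by
  have h1 : Continuous (fun t => ∫ s in T..t, f s) :=
    intervalIntegral.continuous_primitive (fun x y => h.ii x y) T
  have h2 : (fun t => ∫ s in t..T, f s) = fun t => -∫ s in T..t, f s := by
    ext t; rw [intervalIntegral.integral_symm]
  rw [h2]
  exact h1.neg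


private structure UaData (T : ℝ) (a : ℕ) (ρ τ lam G : ℝ → ℝ) (c0 lc : ℝ) : Prop where
  hT : 0 < T
  ha : 1 ≤ a
  ρc : Continuous ρ
  ρpos : ∀ t, 0 < ρ t
  τB : UaB τ
  τ0 : ∀ t, 0 ≤ τ t
  lamB : UaB lam
  lamlog : UaB (fun t => Real.log (lam t))
  lampos : ∀ t, 0 < lam t
  GB : UaB G
  Gc : Continuous G
  G0 : ∀ t, 0 < G t
  ρG : ∀ t, ρ t * G t = (a : ℝ) * ρ t ^ a
  c0pos : 0 < c0
  lcpos : 0 < lc
  hρ : ∀ t ∈ Icc 0 T, ρ t ^ a = c0 + ∫ s in t..T, τ s * G s

/-- The numerator mass. -/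
private noncomputable def uaA (T lc c0 : ℝ) (τ lam G : ℝ → ℝ) (t : ℝ) : ℝ :=
  lc * c0 + ∫ s in t..T, τ s * lam s * G s

/-- The radial function. -/
private noncomputable def uaR (T : ℝ) (a : ℕ) (lc c0 : ℝ) (τ lam G : ℝ → ℝ) (t : ℝ) : ℝ :=
  (uaA T lc c0 τ lam G t) ^ ((1 : ℝ) / (a : ℝ))

section
variable {T : ℝ} {a : ℕ} {ρ τ lam G : ℝ → ℝ} {c0 lc : ℝ}

private lemma UaData.A_cont (D : UaData T a ρ τ lam G c0 lc) :
    Continuous (uaA T lc c0 τ lam G) := by
  have := ((D.τB.mul D.lamB).mul D.GB).cont_primitive T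
  exact continuous_const.add this

private lemma UaData.A_pos (D : UaData T a ρ τ lam G c0 lc) {t : ℝ} (ht : t ∈ Icc 0 T) :
    0 < uaA T lc c0 τ lam G t := by
  have h1 : 0 < lc * c0 := mul_pos D.lcpos D.c0pos
  have h2 : 0 ≤ ∫ s in t..T, τ s * lam s * G s := by
    apply intervalIntegral.integral_nonneg ht.2
    intro s _
    exact mul_nonneg (mul_nonneg (D.τ0 s) (D.lampos s).le) (D.G0 s).le
  unfold uaA
  linarith

private lemma UaData.R_cont (D : UaData T a ρ τ lam G c0 lc) :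
    Continuous (uaR T a lc c0 τ lam G) := by
  unfold uaR
  apply D.A_cont.rpow_const
  intro t
  right
  positivity

private lemma UaData.R_pos (D : UaData T a ρ τ lam G c0 lc) {t : ℝ} (ht : t ∈ Icc 0 T) :
    0 < uaR T a lc c0 τ lam G t :=
  Real.rpow_pos_of_pos (D.A_pos ht) _

private lemma UaData.R_pow (D : UaData T a ρ τ lam G c0 lc) {t : ℝ} (ht : t ∈ Icc 0 T) :
    uaR T a lc c0 τ lam G t ^ a = uaA T lc c0 τ lam G t := by
  unfold uaR
  rw [one_div]
  exact Real.rpow_inv_natCast_pow (D.A_pos ht).le (by have := D.ha; omega)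

private lemma UaData.log_eq (D : UaData T a ρ τ lam G c0 lc) {t : ℝ} (ht : t ∈ Icc 0 T) :
    (a : ℝ) * Real.log (uaR T a lc c0 τ lam G t / ρ t) =
      Real.log (uaA T lc c0 τ lam G t / ρ t ^ a) := by
  rw [← Real.log_pow, div_pow, D.R_pow ht]

private lemma UaData.step2 (D : UaData T a ρ τ lam G c0 lc) {t : ℝ} (ht : t ∈ Icc 0 T) :
    c0 * Real.log lc + ∫ s in t..T, Real.log (lam s) * (τ s * G s) ≤
      ρ t ^ a * ((a : ℝ) * Real.log (uaR T a lc c0 τ lam G t / ρ t)) := by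
  rw [D.log_eq ht]
  have hm : UaB (fun s => τ s * G s) := D.τB.mul D.GB
  refine ua_jensen ht.2 (hm.ii _ _) (fun s _ => mul_nonneg (D.τ0 s) (D.G0 s).le)
    (fun s _ => D.lampos s) (D.lamB.mul hm |>.ii _ _) (D.lamlog.mul hm |>.ii _ _) D.c0pos.le D.lcpos
    (D.hρ t ht) ?_ (pow_pos (D.ρpos t) a) (D.A_pos ht)
  unfold uaA
  congr 1
  refine intervalIntegral.integral_congr (fun s _ => ?_)
  ring

private lemma UaData.contOn_main (D : UaData T a ρ τ lam G c0 lc) :
    ContinuousOn (fun t => ρ t ^ a * ((a : ℝ) * Real.log (uaR T a lc c0 τ lam G t / ρ t)))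
      (Icc 0 T) := by
  apply ContinuousOn.mul (D.ρc.pow a).continuousOn
  apply ContinuousOn.mul continuousOn_const
  apply ContinuousOn.log (D.R_cont.div D.ρc (fun t => (D.ρpos t).ne')).continuousOn
  intro t ht
  exact (div_pos (D.R_pos ht) (D.ρpos t)).ne'

private lemma UaData.step3 (D : UaData T a ρ τ lam G c0 lc) :
    T * c0 * Real.log lc + (∫ s in (0 : ℝ)..T, s * (Real.log (lam s) * (τ s * G s))) ≤
      ∫ t in (0 : ℝ)..T, ρ t ^ a * ((a : ℝ) * Real.log (uaR T a lc c0 τ lam G t / ρ t)) := by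
  have hT := D.hT
  have hh : UaB (fun s => Real.log (lam s) * (τ s * G s)) := D.lamlog.mul (D.τB.mul D.GB)
  obtain ⟨hhm, C, hC⟩ := id hh
  have hΦ := hh.cont_primitive T
  have htri := ua_triangle hT.le hhm hC
  have hmono := intervalIntegral.integral_mono_on (μ := volume) (a := 0) (b := T)
    (f := fun t => c0 * Real.log lc + ∫ s in t..T, Real.log (lam s) * (τ s * G s))
    (g := fun t => ρ t ^ a * ((a : ℝ) * Real.log (uaR T a lc c0 τ lam G t / ρ t))) hT.le
    ((continuous_const.add hΦ).intervalIntegrable _ _)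
    (by
      apply ContinuousOn.intervalIntegrable
      rw [uIcc_of_le hT.le]
      exact D.contOn_main)
    (fun t ht => D.step2 ht)
  have hsplit : ∫ t in (0 : ℝ)..T, (c0 * Real.log lc + ∫ s in t..T, Real.log (lam s) * (τ s * G s)) =
      T * c0 * Real.log lc + ∫ t in (0 : ℝ)..T, ∫ s in t..T, Real.log (lam s) * (τ s * G s) := by
    rw [intervalIntegral.integral_add (intervalIntegrable_const) (hΦ.intervalIntegrable _ _)]
    simp only [intervalIntegral.integral_const, sub_zero, smul_eq_mul]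
    ring
  rw [hsplit, htri] at hmono
  exact hmono


private lemma UaData.a_pos (D : UaData T a ρ τ lam G c0 lc) : (0 : ℝ) < a := by
  have := D.ha
  exact_mod_cast this

private lemma UaData.J0_pos (D : UaData T a ρ τ lam G c0 lc) :
    0 < ∫ t in (0 : ℝ)..T, (a : ℝ) * ρ t ^ a := by
  apply intervalIntegral.intervalIntegral_pos_of_pos
  · exact (continuous_const.mul (D.ρc.pow a)).intervalIntegrable _ _
  · intro t
    exact mul_pos D.a_pos (pow_pos (D.ρpos t) a)
  · exact D.hT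

private lemma UaData.Jb_ii (D : UaData T a ρ τ lam G c0 lc) (x y : ℝ) :
    IntervalIntegrable (fun t => lam t * uaR T a lc c0 τ lam G t * G t) volume x y := by
  have h := (D.lamB.ii x y).mul_continuousOn (D.R_cont.mul D.Gc).continuousOn
  refine h.congr (fun t _ => ?_)
  simp only [Pi.mul_apply, mul_assoc]

private lemma UaData.Jb_pos (D : UaData T a ρ τ lam G c0 lc) :
    0 < ∫ t in (0 : ℝ)..T, lam t * uaR T a lc c0 τ lam G t * G t := by
  apply intervalIntegral.intervalIntegral_pos_of_pos_on (D.Jb_ii _ _)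
  · intro t ht
    exact mul_pos (mul_pos (D.lampos t) (D.R_pos ⟨ht.1.le, ht.2.le⟩)) (D.G0 t)
  · exact D.hT

private lemma UaData.log_split (D : UaData T a ρ τ lam G c0 lc) {t : ℝ} (ht : t ∈ Icc 0 T) :
    Real.log (lam t * uaR T a lc c0 τ lam G t / ρ t) * ((a : ℝ) * ρ t ^ a) =
      Real.log (lam t) * (ρ t * G t) +
        ρ t ^ a * ((a : ℝ) * Real.log (uaR T a lc c0 τ lam G t / ρ t)) := by
  have h1 : lam t * uaR T a lc c0 τ lam G t / ρ t = lam t * (uaR T a lc c0 τ lam G t / ρ t) := by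
    ring
  have h2 : (0 : ℝ) < uaR T a lc c0 τ lam G t / ρ t := div_pos (D.R_pos ht) (D.ρpos t)
  rw [h1, Real.log_mul (D.lampos t).ne' h2.ne', D.ρG]
  ring

private lemma UaData.ii_first (D : UaData T a ρ τ lam G c0 lc) (x y : ℝ) :
    IntervalIntegrable (fun t => Real.log (lam t) * (ρ t * G t)) volume x y :=
  (D.lamlog.ii x y).mul_continuousOn (D.ρc.mul D.Gc).continuousOn

private lemma UaData.ii_second (D : UaData T a ρ τ lam G c0 lc) :
    IntervalIntegrable
      (fun t => ρ t ^ a * ((a : ℝ) * Real.log (uaR T a lc c0 τ lam G t / ρ t))) volume 0 T := by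
  apply ContinuousOn.intervalIntegrable
  rw [uIcc_of_le D.hT.le]
  exact D.contOn_main

private lemma UaData.step1 (D : UaData T a ρ τ lam G c0 lc) :
    (∫ t in (0 : ℝ)..T, Real.log (lam t) * (ρ t * G t)) +
      (∫ t in (0 : ℝ)..T, ρ t ^ a * ((a : ℝ) * Real.log (uaR T a lc c0 τ lam G t / ρ t))) ≤
    (∫ t in (0 : ℝ)..T, (a : ℝ) * ρ t ^ a) *
      Real.log ((∫ t in (0 : ℝ)..T, lam t * uaR T a lc c0 τ lam G t * G t) /
        (∫ t in (0 : ℝ)..T, (a : ℝ) * ρ t ^ a)) := by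
  have hT := D.hT
  have hprod : ∀ t, lam t * uaR T a lc c0 τ lam G t / ρ t * ((a : ℝ) * ρ t ^ a) =
      lam t * uaR T a lc c0 τ lam G t * G t := by
    intro t
    rw [← D.ρG]
    have := (D.ρpos t).ne'
    field_simp
  have hlog : ∀ t ∈ uIoc (0 : ℝ) T,
      Real.log (lam t) * (ρ t * G t) +
        ρ t ^ a * ((a : ℝ) * Real.log (uaR T a lc c0 τ lam G t / ρ t)) =
      Real.log (lam t * uaR T a lc c0 τ lam G t / ρ t) * ((a : ℝ) * ρ t ^ a) := by
    intro t ht
    rw [uIoc_of_le hT.le] at ht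
    exact (D.log_split ⟨ht.1.le, ht.2⟩).symm
  have hsum := (D.ii_first 0 T).add D.ii_second
  have h2 : IntervalIntegrable
      (fun t => Real.log (lam t * uaR T a lc c0 τ lam G t / ρ t) * ((a : ℝ) * ρ t ^ a)) volume 0 T := by
    exact hsum.congr hlog
  have hmain := ua_jensen (x := 0) (y := T) hT.le
    (m := fun t => (a : ℝ) * ρ t ^ a) (lam := fun t => lam t * uaR T a lc c0 τ lam G t / ρ t)
    ((continuous_const.mul (D.ρc.pow a)).intervalIntegrable _ _)
    (fun t _ => (mul_pos D.a_pos (pow_pos (D.ρpos t) a)).le)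
    (fun t ht => div_pos (mul_pos (D.lampos t) (D.R_pos ht)) (D.ρpos t))
    (by simp only [hprod]; exact D.Jb_ii 0 T) h2
    (c := 0) (lc := 1) (W := ∫ t in (0 : ℝ)..T, (a : ℝ) * ρ t ^ a)
    (A := ∫ t in (0 : ℝ)..T, lam t * uaR T a lc c0 τ lam G t * G t)
    le_rfl one_pos (by ring) (by simp only [hprod]; ring) D.J0_pos D.Jb_pos
  have hint : ∫ t in (0 : ℝ)..T, Real.log (lam t * uaR T a lc c0 τ lam G t / ρ t) * ((a : ℝ) * ρ t ^ a) =
      (∫ t in (0 : ℝ)..T, Real.log (lam t) * (ρ t * G t)) +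
      (∫ t in (0 : ℝ)..T, ρ t ^ a * ((a : ℝ) * Real.log (uaR T a lc c0 τ lam G t / ρ t))) := by
    rw [← intervalIntegral.integral_add (D.ii_first 0 T) D.ii_second]
    refine intervalIntegral.integral_congr_ae ?_
    refine ae_of_all _ (fun t ht => (hlog t ht).symm)
  rw [hint] at hmain
  simpa using hmain

private lemma UaData.core (D : UaData T a ρ τ lam G c0 lc) :
    (∫ t in (0 : ℝ)..T, Real.log (lam t) * (ρ t + t * τ t) * G t) + T * c0 * Real.log lc ≤
    (∫ t in (0 : ℝ)..T, (a : ℝ) * ρ t ^ a) *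
      Real.log ((∫ t in (0 : ℝ)..T, lam t * uaR T a lc c0 τ lam G t * G t) /
        (∫ t in (0 : ℝ)..T, (a : ℝ) * ρ t ^ a)) := by
  have h1 := D.step1
  have h3 := D.step3
  have hB : UaB (fun s => Real.log (lam s) * (τ s * G s)) := D.lamlog.mul (D.τB.mul D.GB)
  have hii : IntervalIntegrable (fun t => t * (Real.log (lam t) * (τ t * G t))) volume 0 T := by
    have := (hB.ii 0 T).mul_continuousOn (continuous_id.continuousOn (s := uIcc 0 T))
    refine this.congr (fun t _ => ?_)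
    simp only [id]
    ring
  have hsplit : ∫ t in (0 : ℝ)..T, Real.log (lam t) * (ρ t + t * τ t) * G t =
      (∫ t in (0 : ℝ)..T, Real.log (lam t) * (ρ t * G t)) +
      (∫ t in (0 : ℝ)..T, t * (Real.log (lam t) * (τ t * G t))) := by
    rw [← intervalIntegral.integral_add (D.ii_first 0 T) hii]
    refine intervalIntegral.integral_congr (fun t _ => ?_)
    ring
  rw [hsplit]
  linarith

end

theorem U_abs {T : ℝ} (hT : 0 < T) (a : ℕ) (ha : 1 ≤ a) (ρ τ lam : ℝ → ℝ)
    (hρc : ContinuousOn ρ (Icc 0 T)) (hρpos : ∀ t ∈ Icc 0 T, 0 < ρ t)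
    (hτm : Measurable τ) (hτ0 : ∀ t, 0 ≤ τ t) {Cτ : ℝ} (hτb : ∀ t, τ t ≤ Cτ)
    (hlm : Measurable lam) {l₀ l₁ : ℝ} (hl₀ : 0 < l₀) (hl : ∀ t, lam t ∈ Icc l₀ l₁)
    {c0 lc : ℝ} (hc0 : 0 < c0) (hlc : 0 < lc)
    (hρ : ∀ t ∈ Icc 0 T, ρ t ^ a = c0 + ∫ s in t..T, τ s * ((a : ℝ) * ρ s ^ (a - 1))) :
    (∫ t in (0 : ℝ)..T, Real.log (lam t) * (ρ t + t * τ t) * ((a : ℝ) * ρ t ^ (a - 1))) +
        T * c0 * Real.log lc ≤
      (∫ t in (0 : ℝ)..T, (a : ℝ) * ρ t ^ a) *
        Real.log ((∫ t in (0 : ℝ)..T, lam t *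
            (lc * c0 + ∫ s in t..T, τ s * lam s * ((a : ℝ) * ρ s ^ (a - 1))) ^ ((1 : ℝ) / (a : ℝ)) *
              ((a : ℝ) * ρ t ^ (a - 1))) /
          (∫ t in (0 : ℝ)..T, (a : ℝ) * ρ t ^ a)) := by
  set P : ℝ → ℝ := fun t => max 0 (min T t) with hP
  have hPc : Continuous P := by rw [hP]; fun_prop
  have hPm : ∀ t, P t ∈ Icc 0 T := fun t =>
    ⟨le_max_left _ _, max_le hT.le (min_le_left _ _)⟩
  have hPeq : ∀ t ∈ Icc 0 T, P t = t := by
    intro t ht
    simp only [hP]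
    rw [min_eq_right ht.2, max_eq_right ht.1]
  set ρ' : ℝ → ℝ := fun t => ρ (P t) with hρ'
  have hρ'eq : ∀ t ∈ Icc 0 T, ρ' t = ρ t := fun t ht => by simp only [hρ']; rw [hPeq t ht]
  have hρ'c : Continuous ρ' := hρc.comp_continuous hPc hPm
  obtain ⟨Cρ, hCρ⟩ := isCompact_Icc.exists_bound_of_continuousOn hρc
  have hρ'pos : ∀ t, 0 < ρ' t := fun t => hρpos _ (hPm t)
  have hρ'b : ∀ t, ρ' t ≤ Cρ := fun t => by
    have := hCρ _ (hPm t)
    rw [Real.norm_eq_abs] at this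
    exact (le_abs_self _).trans this
  have hG : ∀ s ∈ Icc 0 T, ((a : ℝ) * ρ' s ^ (a - 1)) = ((a : ℝ) * ρ s ^ (a - 1)) := fun s hs => by
    rw [hρ'eq s hs]
  have hsub : ∀ t ∈ Icc 0 T, ∀ s ∈ uIcc t T, s ∈ Icc 0 T := by
    intro t ht s hs
    rw [uIcc_of_le ht.2] at hs
    exact ⟨ht.1.trans hs.1, hs.2⟩
  have hsub0 : ∀ s ∈ uIcc 0 T, s ∈ Icc 0 T := by
    intro s hs
    rwa [uIcc_of_le hT.le] at hs
  have hD : UaData T a ρ' τ lam (fun t => (a : ℝ) * ρ' t ^ (a - 1)) c0 lc := by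
    refine ⟨hT, ha, hρ'c, hρ'pos, ⟨hτm, Cτ, fun t => ?_⟩, hτ0, ⟨hlm, l₁, fun t => ?_⟩, ?_, ?_,
      ⟨(continuous_const.mul (hρ'c.pow _)).measurable, (a : ℝ) * Cρ ^ (a - 1), fun t => ?_⟩,
      continuous_const.mul (hρ'c.pow _), ?_, ?_, hc0, hlc, ?_⟩
    · rw [abs_of_nonneg (hτ0 t)]; exact hτb t
    · rw [abs_of_pos (hl₀.trans_le (hl t).1)]; exact (hl t).2
    · refine ⟨Real.measurable_log.comp hlm, max |Real.log l₀| |Real.log l₁|, fun t => ?_⟩
      have h1 := Real.log_le_log hl₀ (hl t).1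
      have h2 := Real.log_le_log (hl₀.trans_le (hl t).1) (hl t).2
      rw [abs_le]
      constructor
      · have := neg_abs_le (Real.log l₀)
        have := le_max_left |Real.log l₀| |Real.log l₁|
        linarith
      · have := le_abs_self (Real.log l₁)
        have := le_max_right |Real.log l₀| |Real.log l₁|
        linarith
    · exact fun t => hl₀.trans_le (hl t).1
    · rw [abs_of_nonneg (mul_nonneg (Nat.cast_nonneg _) (pow_nonneg (hρ'pos t).le _))]
      exact mul_le_mul_of_nonneg_left (pow_le_pow_left₀ (hρ'pos t).le (hρ'b t) _) (Nat.cast_nonneg _)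
    · intro t
      have : (0 : ℝ) < a := by exact_mod_cast ha
      exact mul_pos this (pow_pos (hρ'pos t) _)
    · intro t
      obtain ⟨b, rfl⟩ : ∃ b, a = b + 1 := ⟨a - 1, by omega⟩
      simp only [Nat.add_sub_cancel]
      ring
    · intro t ht
      rw [hρ'eq t ht, hρ t ht]
      congr 1
      refine intervalIntegral.integral_congr (fun s hs => ?_)
      show τ s * ((a : ℝ) * ρ s ^ (a - 1)) = τ s * ((a : ℝ) * ρ' s ^ (a - 1))
      rw [hG s (hsub t ht s hs)]
  have hmain := hD.core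
  have e1 : ∫ t in (0 : ℝ)..T, Real.log (lam t) * (ρ' t + t * τ t) * ((a : ℝ) * ρ' t ^ (a - 1)) =
      ∫ t in (0 : ℝ)..T, Real.log (lam t) * (ρ t + t * τ t) * ((a : ℝ) * ρ t ^ (a - 1)) := by
    refine intervalIntegral.integral_congr (fun t ht => ?_)
    rw [hρ'eq t (hsub0 t ht)]
  have e2 : ∫ t in (0 : ℝ)..T, (a : ℝ) * ρ' t ^ a = ∫ t in (0 : ℝ)..T, (a : ℝ) * ρ t ^ a := by
    refine intervalIntegral.integral_congr (fun t ht => ?_)
    rw [hρ'eq t (hsub0 t ht)]
  have e3 : ∫ t in (0 : ℝ)..T, lam t * uaR T a lc c0 τ lam (fun t => (a : ℝ) * ρ' t ^ (a - 1)) t *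
        ((a : ℝ) * ρ' t ^ (a - 1)) =
      ∫ t in (0 : ℝ)..T, lam t *
            (lc * c0 + ∫ s in t..T, τ s * lam s * ((a : ℝ) * ρ s ^ (a - 1))) ^ ((1 : ℝ) / (a : ℝ)) *
              ((a : ℝ) * ρ t ^ (a - 1)) := by
    refine intervalIntegral.integral_congr (fun t ht => ?_)
    have hin : ∫ s in t..T, τ s * lam s * ((a : ℝ) * ρ' s ^ (a - 1)) =
        ∫ s in t..T, τ s * lam s * ((a : ℝ) * ρ s ^ (a - 1)) := by
      refine intervalIntegral.integral_congr (fun s hs => ?_)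
      show τ s * lam s * ((a : ℝ) * ρ' s ^ (a - 1)) = τ s * lam s * ((a : ℝ) * ρ s ^ (a - 1))
      rw [hG s (hsub t (hsub0 t ht) s hs)]
    show lam t * uaR T a lc c0 τ lam (fun t => (a : ℝ) * ρ' t ^ (a - 1)) t *
        ((a : ℝ) * ρ' t ^ (a - 1)) = lam t *
            (lc * c0 + ∫ s in t..T, τ s * lam s * ((a : ℝ) * ρ s ^ (a - 1))) ^ ((1 : ℝ) / (a : ℝ)) *
              ((a : ℝ) * ρ t ^ (a - 1))
    unfold uaR uaA
    rw [hρ'eq t (hsub0 t ht), hin]
  rw [e1, e2, e3] at hmain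
  exact hmain

end Vale.Agent.Lib.P227Z
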